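import Vale.Agent.P259.Core

/-! P259: identities, inverses and composites of cells of a model, up to homotopy. -/

open CategoryTheory Limits Opposite

noncomputable section

namespace Vale.Agent.P259

variable {C : GlobExt} [Coh C]

omit [Coh C] in
/-- The universal composable pair of cells. -/
theorem alg_univ2' (C : GlobExt) {i j k : ℕ} (hi : j < i) (hk : j < k) :
    ∃ (S : Theta) (a : (ug (rep C S)).cell i) (b : (ug (rep C S)).cell k),
      tgtI hi.le a = srcI hk.le b ∧ ∀ (X : C.Gpd) (x : (ug X).cell i) (y : (ug X).cell k),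
        tgtI hi.le x = srcI hk.le y →
          ∃! φ : rep C S ⟶ X, cm (um φ) a = x ∧ cm (um φ) b = y := by
  refine ⟨Theta.mk ((Tab.base i).snoc j k hi hk),
    (repExt C ((Tab.base i).snoc j k hi hk)).init.last,
    (repExt C ((Tab.base i).snoc j k hi hk)).last, Ext.tgtI_last_init _, fun X x y h => ?_⟩
  obtain ⟨φ, hφ, hu⟩ := rep_univ ((Tab.base i).snoc j k hi hk) X
    (Ext.glue hi hk (Ext.ofCell x) y (by rw [Ext.last_ofCell]; exact h))
  refine ⟨φ, ⟨?_, ?_⟩, fun ψ hψ => hu ψ (Ext.snoc_ext (Ext.base_ext ?_) ?_)⟩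
  · rw [← Ext.last_comp, ← Ext.init_comp, hφ, Ext.init_glue, Ext.last_ofCell]
  · rw [← Ext.last_comp, hφ, Ext.last_glue]
  · rw [Ext.init_comp, Ext.last_comp, hψ.1, Ext.init_glue, Ext.last_ofCell]
  · rw [Ext.last_comp, hψ.2, Ext.last_glue]

theorem alg_tgtI_one {G : GPsh} {n : ℕ} (h : n ≤ n + 1) (x : G.cell (n + 1)) :
    tgtI h x = tgt x := by
  rw [tgtI_succ le_rfl, tgtI_self]

theorem alg_srcI_one {G : GPsh} {n : ℕ} (h : n ≤ n + 1) (x : G.cell (n + 1)) :
    srcI h x = src x := by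
  rw [srcI_succ le_rfl, srcI_self]

/-- The universal pair of composable `(n+1)`-cells. -/
theorem alg_univ2 (C : GlobExt) [Coh C] (n : ℕ) :
    ∃ (R : C.Gpd) (a b : (ug R).cell (n + 1)), Contr (ug R) ∧ tgt a = src b ∧
      ∀ (X : C.Gpd) (x y : (ug X).cell (n + 1)), tgt x = src y →
        ∃! φ : R ⟶ X, cm (um φ) a = x ∧ cm (um φ) b = y := by
  obtain ⟨S, a, b, hab, hu⟩ := alg_univ2' C (Nat.lt_succ_self n) (Nat.lt_succ_self n)
  rw [alg_tgtI_one, alg_srcI_one] at hab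
  exact ⟨rep C S, a, b, contr_rep S, hab, fun X x y h =>
    hu X x y (by rw [alg_tgtI_one, alg_srcI_one]; exact h)⟩

/-- The universal `(n+2)`-cell whiskered by an `(n+1)`-cell. -/
theorem alg_univW (C : GlobExt) [Coh C] (n : ℕ) :
    ∃ (R : C.Gpd) (a : (ug R).cell (n + 2)) (b : (ug R).cell (n + 1)), Contr (ug R) ∧
      tgt (tgt a) = src b ∧
      ∀ (X : C.Gpd) (x : (ug X).cell (n + 2)) (y : (ug X).cell (n + 1)), tgt (tgt x) = src y →
        ∃ φ : R ⟶ X, cm (um φ) a = x ∧ cm (um φ) b = y := by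
  obtain ⟨S, a, b, hab, hu⟩ := alg_univ2' C (i := n + 2) (j := n) (k := n + 1)
    (by omega) (Nat.lt_succ_self n)
  rw [tgtI_succ (Nat.le_succ n), alg_tgtI_one, alg_srcI_one] at hab
  exact ⟨rep C S, a, b, contr_rep S, hab, fun X x y h =>
    (hu X x y (by rw [tgtI_succ (Nat.le_succ n), alg_tgtI_one, alg_srcI_one]; exact h)).exists⟩

/-- The universal triple of composable `(n+1)`-cells. -/
theorem alg_univ3 (C : GlobExt) [Coh C] (n : ℕ) :
    ∃ (R : C.Gpd) (a b c : (ug R).cell (n + 1)), Contr (ug R) ∧ tgt a = src b ∧ tgt b = src c ∧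
      ∀ (X : C.Gpd) (x y z : (ug X).cell (n + 1)), tgt x = src y → tgt y = src z →
        ∃ φ : R ⟶ X, cm (um φ) a = x ∧ cm (um φ) b = y ∧ cm (um φ) c = z := by
  have hn := Nat.lt_succ_self n
  let T : Tab (n + 1) := ((Tab.base (n + 1)).snoc n (n + 1) hn hn).snoc n (n + 1) hn hn
  refine ⟨rep C (Theta.mk T), (repExt C T).init.init.last, (repExt C T).init.last,
    (repExt C T).last, contr_rep _, ?_, ?_, fun X x y z h h' => ?_⟩
  · have := Ext.tgtI_last_init (repExt C T).init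
    rwa [alg_tgtI_one, alg_srcI_one] at this
  · have := Ext.tgtI_last_init (repExt C T)
    rwa [alg_tgtI_one, alg_srcI_one] at this
  · obtain ⟨φ, hφ, -⟩ := rep_univ T X
      (Ext.glue hn hn (Ext.glue hn hn (Ext.ofCell x) y
        (by rw [Ext.last_ofCell, alg_tgtI_one, alg_srcI_one]; exact h)) z
        (by rw [Ext.last_glue, alg_tgtI_one, alg_srcI_one]; exact h'))
    refine ⟨φ, ?_, ?_, ?_⟩
    · rw [← Ext.last_comp, ← Ext.init_comp, ← Ext.init_comp, hφ, Ext.init_glue, Ext.init_glue,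
        Ext.last_ofCell]
    · rw [← Ext.last_comp, ← Ext.init_comp, hφ, Ext.init_glue, Ext.last_glue]
    · rw [← Ext.last_comp, hφ, Ext.last_glue]

/-- The universal `n`-cell. -/
theorem alg_univ1 (C : GlobExt) [Coh C] (n : ℕ) :
    ∃ (R : C.Gpd) (a : (ug R).cell n), Contr (ug R) ∧
      ∀ (X : C.Gpd) (x : (ug X).cell n), ∃! φ : R ⟶ X, cm (um φ) a = x :=
  ⟨rep C (Theta.D n), discCell C n, contr_rep _, disc_univ n⟩

theorem alg_bd_chain {G : GPsh} {n : ℕ} {a b : G.cell (n + 1)} (h : tgt a = src b) :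
    bd (src a) = bd (tgt b) := by
  rw [bd_src, h, bd_src]

theorem alg_bd_eq {G : GPsh} {n : ℕ} {a b : G.cell (n + 1)} (h1 : src a = src b)
    (h2 : tgt a = tgt b) : bd a = bd b := sph_ext h1 h2

/-- A natural choice of identity cells. -/
theorem alg_unit (C : GlobExt) [Coh C] (n : ℕ) :
    ∃ e : ∀ (X : C.Gpd), (ug X).cell n → (ug X).cell (n + 1),
      (∀ X x, src (e X x) = x ∧ tgt (e X x) = x) ∧
      ∀ (X Y : C.Gpd) (φ : X ⟶ Y) x, cm (um φ) (e X x) = e Y (cm (um φ) x) := by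
  obtain ⟨R, a, hR, hu⟩ := alg_univ1 C n
  obtain ⟨ε, hε1, hε2⟩ := (hR (n + 1)).htp (rfl : bd a = bd a)
  choose φ hφ hφu using hu
  refine ⟨fun X x => cm (um (φ X x)) ε, fun X x => ⟨?_, ?_⟩, fun X Y ψ x => ?_⟩
  · rw [src_cm, hε1]; exact hφ X x
  · rw [tgt_cm, hε2]; exact hφ X x
  · have : φ X x ≫ ψ = φ Y (cm (um ψ) x) := hφu Y _ _ (by
      beta_reduce
      rw [cm_um_comp, hφ X x])
    beta_reduce
    rw [← this, cm_um_comp]

/-- Hint: every identity below is obtained in a representable model (`contr_rep`, `Fill.htp`) and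
pushed forward along the map classifying a pasting diagram (`rep_univ`, `disc_univ`, `Ext.glue`).
Symmetry: fill `(tgt, src)` of `discCell`; transitivity: table `(n+1, n, n+1)`. -/
theorem htpEq (X : C.Gpd) : HtpEq (ug X) := by
  refine ⟨fun {n} x => ?_, fun {n} x y h => ?_, fun {n} x y z h h' => ?_⟩
  · obtain ⟨R, a, hR, hu⟩ := alg_univ1 C n
    obtain ⟨φ, rfl, -⟩ := hu X x
    exact ((hR (n + 1)).htp rfl).map (um φ)
  · obtain ⟨c, rfl, rfl⟩ := h
    obtain ⟨R, a, hR, hu⟩ := alg_univ1 C (n + 1)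
    obtain ⟨φ, rfl, -⟩ := hu X c
    rw [src_cm, tgt_cm]
    exact ((hR (n + 1)).htp (bd_src a).symm).map (um φ)
  · obtain ⟨c, rfl, rfl⟩ := h
    obtain ⟨d, hd, rfl⟩ := h'
    obtain ⟨R, a, b, hR, hab, hu⟩ := alg_univ2 C n
    obtain ⟨φ, ⟨rfl, rfl⟩, -⟩ := hu X c d hd.symm
    rw [src_cm, tgt_cm]
    exact ((hR (n + 1)).htp (alg_bd_chain hab)).map (um φ)

theorem jFib_toOne (X : C.Gpd) : JFib 0 (um (toOne X)) := by
  intro m _ e b _
  obtain ⟨c, hc, -⟩ := (htpEq X).refl e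
  exact ⟨c, hc, Subsingleton.elim _ _⟩

/-- A natural composition with left division up to homotopy. Hint: `cmp` is the push-forward of one
chosen filler in the representable on `(n+1, n, n+1)`. For division take `w = cmp (inv k) h`; use
associativity (table with three `(n+1)`-discs), `cmp k (inv k) ~ unit` and `cmp unit h ~ h` (in the
disc), and compatibility of `cmp` with `Htp` in the first variable (table `(n+2, n, n+1)`). -/
theorem exists_cmp (n : ℕ) :
    ∃ cmp : ∀ (X : C.Gpd) (f g : (ug X).cell (n + 1)), tgt f = src g → (ug X).cell (n + 1),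
      (∀ X f g h, src (cmp X f g h) = src f ∧ tgt (cmp X f g h) = tgt g) ∧
      (∀ (X Y : C.Gpd) (φ : X ⟶ Y) f g h h',
        cm (um φ) (cmp X f g h) = cmp Y (cm (um φ) f) (cm (um φ) g) h') ∧
      ∀ (X : C.Gpd) (k h : (ug X).cell (n + 1)), src k = src h →
        ∃ (w : (ug X).cell (n + 1)) (hw : tgt k = src w),
          tgt w = tgt h ∧ Htp (cmp X k w hw) h := by
  obtain ⟨R, a, b, hR, hab, hu⟩ := alg_univ2 C n
  obtain ⟨c, hc1, hc2⟩ := (hR (n + 1)).htp (alg_bd_chain hab)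
  choose φ hφ hφu using hu
  obtain ⟨cmp, hbd, hnat⟩ : ∃ cmp : ∀ (X : C.Gpd) (f g : (ug X).cell (n + 1)), tgt f = src g →
      (ug X).cell (n + 1),
      (∀ X f g h, src (cmp X f g h) = src f ∧ tgt (cmp X f g h) = tgt g) ∧
      (∀ (X Y : C.Gpd) (φ : X ⟶ Y) f g h h',
        cm (um φ) (cmp X f g h) = cmp Y (cm (um φ) f) (cm (um φ) g) h') := by
    refine ⟨fun X f g h => cm (um (φ X f g h)) c, fun X f g h => ⟨?_, ?_⟩,
      fun X Y ψ f g h h' => ?_⟩
    · rw [src_cm, hc1, ← src_cm, (hφ X f g h).1]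
    · rw [tgt_cm, hc2, ← tgt_cm, (hφ X f g h).2]
    · have : φ X f g h ≫ ψ = φ Y _ _ h' := hφu Y _ _ h' _ (by
        beta_reduce
        rw [cm_um_comp, cm_um_comp, (hφ X f g h).1, (hφ X f g h).2]
        exact ⟨rfl, rfl⟩)
      beta_reduce
      rw [← this, cm_um_comp]
  clear hφu hφ φ hc1 hc2 c hab hR a b R
  have hs : ∀ X f g h, src (cmp X f g h) = src f := fun X f g h => (hbd X f g h).1
  have ht : ∀ X f g h, tgt (cmp X f g h) = tgt g := fun X f g h => (hbd X f g h).2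
  have hmap : ∀ {X Y : C.Gpd} (φ : X ⟶ Y) {f g : (ug X).cell (n + 1)}, tgt f = src g →
      tgt (cm (um φ) f) = src (cm (um φ) g) := fun φ f g h => by
    rw [tgt_cm, src_cm, h]
  have hcongr : ∀ (X : C.Gpd) {f f' g g' : (ug X).cell (n + 1)} (_ : f = f') (_ : g = g') h h',
      cmp X f g h = cmp X f' g' h' := by
    rintro X f f' g g' rfl rfl h h'
    rfl
  -- associativity
  have hassoc : ∀ (X : C.Gpd) (x y z : (ug X).cell (n + 1)) h1 h2 h3 h4,
      Htp (cmp X x (cmp X y z h1) h2) (cmp X (cmp X x y h3) z h4) := by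
    intro X x y z h1 h2 h3 h4
    obtain ⟨R, a, b, c, hR, hab, hbc, hu⟩ := alg_univ3 C n
    obtain ⟨φ, rfl, rfl, rfl⟩ := hu X x y z h3 h1
    have k2 : tgt a = src (cmp R b c hbc) := by rw [hs, hab]
    have k4 : tgt (cmp R a b hab) = src c := by rw [ht, hbc]
    have := ((hR (n + 2)).htp (a := cmp R a (cmp R b c hbc) k2)
      (b := cmp R (cmp R a b hab) c k4)
      (alg_bd_eq (by rw [hs, hs, hs]) (by rw [ht, ht, ht]))).map (um φ)
    rw [hnat _ _ _ _ _ _ (hmap φ k2), hnat _ _ _ _ _ _ (hmap φ k4),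
      hcongr X rfl (hnat _ _ φ b c hbc h1) _ h2, hcongr X (hnat _ _ φ a b hab h3) rfl _ h4] at this
    exact this
  -- compatibility with homotopies in the first variable
  have hwhisk : ∀ (X : C.Gpd) (x x' y : (ug X).cell (n + 1)) h1 h2, Htp x x' →
      Htp (cmp X x y h1) (cmp X x' y h2) := by
    rintro X _ _ y h1 h2 ⟨η, rfl, rfl⟩
    obtain ⟨R, a, b, hR, hab, hu⟩ := alg_univW C n
    obtain ⟨φ, rfl, rfl⟩ := hu X η y h2
    have k1 : tgt (src a) = src b := by rw [tgt_src, hab]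
    have := ((hR (n + 2)).htp (a := cmp R (src a) b k1) (b := cmp R (tgt a) b hab)
      (alg_bd_eq (by rw [hs, hs, src_src]) (by rw [ht, ht]))).map (um φ)
    rw [hnat _ _ _ _ _ _ (hmap φ k1), hnat _ _ _ _ _ _ (hmap φ hab),
      hcongr X (src_cm (um φ) a).symm rfl _ h1, hcongr X (tgt_cm (um φ) a).symm rfl _ h2] at this
    exact this
  obtain ⟨e, he, henat⟩ := alg_unit C n
  -- left unit
  have hunit : ∀ (X : C.Gpd) (x : (ug X).cell (n + 1)) h1, Htp (cmp X (e X (src x)) x h1) x := by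
    intro X x h1
    obtain ⟨R, a, hR, hu⟩ := alg_univ1 C (n + 1)
    obtain ⟨φ, rfl, -⟩ := hu X x
    have k1 : tgt (e R (src a)) = src a := (he R _).2
    have := ((hR (n + 2)).htp (a := cmp R (e R (src a)) a k1) (b := a)
      (alg_bd_eq (by rw [hs, (he R _).1]) (by rw [ht]))).map (um φ)
    rw [hnat _ _ _ _ _ _ (hmap φ k1),
      hcongr X ((henat _ _ φ _).trans (by rw [← src_cm])) rfl _ h1] at this
    exact this
  -- right inverse
  have hinv : ∀ (X : C.Gpd) (x : (ug X).cell (n + 1)), ∃ (x' : (ug X).cell (n + 1))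
      (h1 : tgt x = src x'), tgt x' = src x ∧ Htp (cmp X x x' h1) (e X (src x)) := by
    intro X x
    obtain ⟨R, a, hR, hu⟩ := alg_univ1 C (n + 1)
    obtain ⟨φ, rfl, -⟩ := hu X x
    obtain ⟨a', ha1, ha2⟩ := (hR (n + 1)).htp (bd_src a).symm
    refine ⟨cm (um φ) a', hmap φ ha1.symm, by rw [tgt_cm, ha2, src_cm], ?_⟩
    have := ((hR (n + 2)).htp (a := cmp R a a' ha1.symm) (b := e R (src a))
      (alg_bd_eq (by rw [hs, (he R _).1]) (by rw [ht, ha2, (he R _).2]))).map (um φ)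
    rw [hnat _ _ _ _ _ _ (hmap φ ha1.symm), henat, ← src_cm] at this
    exact this
  refine ⟨cmp, hbd, hnat, fun X k h hkh => ?_⟩
  obtain ⟨k', hk1, hk2, hk3⟩ := hinv X k
  have h1 : tgt k' = src h := hk2.trans hkh
  have h2 : tgt k = src (cmp X k' h h1) := by rw [hs, hk1]
  have h4 : tgt (cmp X k k' hk1) = src h := by rw [ht, h1]
  refine ⟨cmp X k' h h1, h2, ht _ _ _ _, ?_⟩
  rw [hkh] at hk3
  exact (htpEq X).trans (hassoc X k k' h h1 h2 hk1 h4)
    ((htpEq X).trans (hwhisk X _ _ h h4 (he X _).2 hk3) (hunit X h _))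

end Vale.Agent.P259
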