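import Vale.Agent.P259.Core

/-! P259: a coherator has the lifting principle. -/

open CategoryTheory Limits Opposite

noncomputable section

namespace Vale.Agent.P259

open GlobExt

namespace Along

variable {A B E K : GlobExt}

theorem comp_assoc (f : Hom A B) (g : Hom B E) (h : Hom E K) :
    (f.comp g).comp h = f.comp (g.comp h) := rfl

theorem push_comp (G : Hom A B) {S T W : Theta} (f : A.F.obj S ⟶ A.F.obj T)
    (g : A.F.obj T ⟶ A.F.obj W) : G.push (f ≫ g) = G.push f ≫ G.push g := by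
  simp [Hom.push]

theorem push_map (G : Hom A B) {S T : Theta} (a : S ⟶ T) : G.push (A.F.map a) = B.F.map a := by
  have := Functor.congr_hom G.w a
  rw [Functor.comp_map] at this
  simp [Hom.push, this]

theorem comp_push (G : Hom A B) (H : Hom B E) {S T : Theta} (f : A.F.obj S ⟶ A.F.obj T) :
    (G.comp H).push f = H.push (G.push f) := by
  simp [Hom.push, Hom.comp, eqToHom_map]

theorem push_par (G : Hom A B) {S : Theta} {n : ℕ} {f g : A.D n ⟶ A.F.obj S}
    (h : Parallel f g) : Parallel (E := B) (G.push f) (G.push g) := by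
  cases n with
  | zero => trivial
  | succ n =>
    obtain ⟨h1, h2⟩ := h
    refine ⟨?_, ?_⟩
    · have := congrArg G.push h1
      rwa [push_comp, push_comp, push_map] at this
    · have := congrArg G.push h2
      rwa [push_comp, push_comp, push_map] at this

theorem push_lift (G : Hom A B) {S : Theta} {n : ℕ} {h : A.D (n + 1) ⟶ A.F.obj S}
    {f g : A.D n ⟶ A.F.obj S} (hl : IsLift h f g) :
    IsLift (E := B) (G.push h) (G.push f) (G.push g) := by
  obtain ⟨rfl, rfl⟩ := hl
  exact ⟨by rw [push_comp, push_map], by rw [push_comp, push_map]⟩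

theorem start {T : GlobExt} (hT : T = theta) (π : Hom E B) (G : Hom T B) :
    ∃ G' : Hom T E, G'.comp π = G := by
  subst hT
  exact ⟨⟨E.F, rfl⟩, Hom.ext (π.w.trans G.w.symm)⟩

theorem succ {T T' : GlobExt} {j : Hom T T'} {P : Set T.Pair} (hj : Adjoins j P) {π : Hom E B}
    (hπ : HasLifts π) (G : Hom T' B) (L : Hom T E) (hL : L.comp π = j.comp G) :
    ∃ L' : Hom T' E, j.comp L' = L ∧ L'.comp π = G := by
  obtain ⟨h, h1, h2⟩ := hj
  have a1 : ∀ p : P, IsLift (E := B) (G.push (h p)) ((j.comp G).push p.1.f)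
      ((j.comp G).push p.1.g) := fun p => by
    rw [comp_push, comp_push]
    exact push_lift G (h1 p)
  have a2 : ∀ p : P, ∃ l : E.D (p.1.n + 1) ⟶ E.F.obj p.1.S,
      IsLift l (L.push p.1.f) (L.push p.1.g) ∧ π.push l = G.push (h p) := fun p =>
    hπ ⟨p.1.n, p.1.S, L.push p.1.f, L.push p.1.g, push_par L p.1.par, p.1.dim_le⟩ _ (by
      have := a1 p
      rwa [← hL, comp_push, comp_push] at this)
  choose l hl hl' using a2
  obtain ⟨L', ⟨b1, b2⟩, -⟩ := h2 E L l hl
  refine ⟨L', b1, (h2 B (j.comp G) (fun p => G.push (h p)) a1).unique ⟨?_, fun p => ?_⟩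
    ⟨rfl, fun _ => rfl⟩⟩
  · rw [← comp_assoc, b1, hL]
  · rw [comp_push, b2, hl']

end Along

open Along in
theorem coh_of_isCoherator {C : GlobExt} (h : C.IsCoherator) : Coh C := by
  obtain ⟨⟨tower, step, ι, h0, h1, h2, h3⟩, h4⟩ := h
  refine ⟨h4, fun E B π G hπ => ?_⟩
  have a : ∀ (k : ℕ) (L : {L : Hom (tower k) E // L.comp π = (ι k).comp G}),
      ∃ L' : {L : Hom (tower (k + 1)) E // L.comp π = (ι (k + 1)).comp G},
        (step k).comp L'.1 = L.1 := fun k L => by
    obtain ⟨P, hP⟩ := h1 k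
    obtain ⟨L', b1, b2⟩ := succ hP hπ ((ι (k + 1)).comp G) L.1 (by rw [← comp_assoc, h2, L.2])
    exact ⟨⟨L', b2⟩, b1⟩
  choose nx hnx using a
  obtain ⟨L₀, hL₀⟩ := start h0 π ((ι 0).comp G)
  let L : ∀ k, {L : Hom (tower k) E // L.comp π = (ι k).comp G} :=
    fun k => Nat.rec ⟨L₀, hL₀⟩ nx k
  obtain ⟨G', hG', -⟩ := h3 E (fun k => (L k).1) fun k => hnx k (L k)
  refine ⟨G', (h3 B (fun k => (ι k).comp G) fun k => by rw [← comp_assoc, h2]).unique
    (fun k => ?_) fun _ => rfl⟩
  rw [← comp_assoc, hG', (L k).2]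

end Vale.Agent.P259
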