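import Vale.Agent.P259.Gam

/-! P259: the carrier lemma and its first consequences. -/

open CategoryTheory Limits Opposite

noncomputable section

namespace Vale.Agent.P259

section Aux

variable {C : GlobExt}

/-- The product of a family of models; its cells are families by definition. -/
def carPi {ι : Type} (X : ι → C.Gpd) : C.Gpd :=
  ⟨{ obj := fun c => ∀ i, (X i).obj.obj c
     map := fun f => TypeCat.ofHom fun x i => (X i).obj.map f (x i) },
    (isModel_iff _).2 fun l T j i hl hi => by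
      refine ⟨fun x y h => funext fun k => ((isModel_iff _).1 (X k).property l T j i hl hi).1 _ _
        ⟨congrFun h.1 k, congrFun h.2 k⟩, fun x y h => ?_⟩
      choose a ha ha' using fun k => ((isModel_iff _).1 (X k).property l T j i hl hi).2 (x k) (y k)
        (congrFun h k)
      exact ⟨a, funext ha, funext ha'⟩⟩

def carProj {ι : Type} (X : ι → C.Gpd) (i : ι) : carPi X ⟶ X i :=
  ObjectProperty.homMk { app := fun _ => TypeCat.ofHom fun x => x i }

def carLift {ι : Type} {X : ι → C.Gpd} {Z : C.Gpd} (f : ∀ i, Z ⟶ X i) : Z ⟶ carPi X :=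
  ObjectProperty.homMk
    { app := fun c => TypeCat.ofHom fun z i => (f i).hom.app c z
      naturality := fun _ _ a => by
        ext z
        exact funext fun i => NatTrans.naturality_apply (f i).hom a z }

theorem carLift_proj {ι : Type} {X : ι → C.Gpd} {Z : C.Gpd} (f : ∀ i, Z ⟶ X i) (i : ι) :
    carLift f ≫ carProj X i = f i := rfl

theorem car_hom_ext {ι : Type} {X : ι → C.Gpd} {Z : C.Gpd} {f g : Z ⟶ carPi X}
    (h : ∀ i, f ≫ carProj X i = g ≫ carProj X i) : f = g :=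
  gpd_hom_ext_el fun _ x => funext fun i => congrArg (fun k => elm k x) (h i)

theorem car_sph_ext {ι : Type} {X : ι → C.Gpd} {n : ℕ} {z w : (ug (carPi X)).Sph n}
    (h : ∀ i, sm (um (carProj X i)) z = sm (um (carProj X i)) w) : z = w := by
  cases n with
  | zero => exact Subsingleton.elim _ _
  | succ n => exact sph_ext (funext fun i => congrArg sfst (h i)) (funext fun i => congrArg ssnd (h i))

theorem tFib_carPi {ι : Type} {E B : ι → C.Gpd} (p : ∀ i, E i ⟶ B i) (hp : ∀ i, TFib (um (p i))) :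
    TFib (um (carLift fun i => carProj E i ≫ p i)) := by
  intro n z b hb
  choose e he he' using fun i => hp i n (sm (um (carProj E i)) z) (cm (um (carProj B i)) b) (by
    rw [bd_cm, hb, ← sm_um_comp, ← sm_um_comp, carLift_proj])
  refine ⟨e, car_sph_ext fun i => ?_, funext he'⟩
  exact (bd_cm (um (carProj E i)) e).symm.trans (he i)

variable {Y : TopCat.{0}} {S : Sv Y}

/-- The members of `S` on a given box. -/
abbrev CarIx (S : Sv Y) (M : Box) : Type := {f : M.sp ⟶ Y // S.mem M f}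

/-- A member of `S` as an element. -/
abbrev CarIx.el {M : Box} (f : CarIx S M) : S.El := ⟨M, f.1, f.2⟩

/-- Restriction of a member of `S`. -/
abbrev CarIx.res {M M' : Box} (g : M.sp ⟶ M'.sp) (f : CarIx S M') : CarIx S M :=
  ⟨g ≫ f.1, S.comp g f.2⟩

/-- The restriction as a morphism of elements. -/
def CarIx.arr {M M' : Box} (g : M.sp ⟶ M'.sp) (f : CarIx S M') : (f.res g).el ⟶ f.el := ⟨g, rfl⟩

/-- The factors of the product. -/
abbrev carFam (H : S.El ⥤ C.Gpd) (M : Box) (f : CarIx S M) : C.Gpd := H.obj f.el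

/-- The right Kan extension along the projection from the category of elements. -/
def carHat (H : S.El ⥤ C.Gpd) : BoxCat ⥤ C.Gpd where
  obj M := carPi (carFam H M)
  map {M M'} g := carLift (X := carFam H M') fun f =>
    carProj (carFam H M) (f.res g.hom) ≫ H.map (f.arr g.hom)
  map_id M := car_hom_ext (X := carFam H M) fun f =>
    congrArg (carProj (carFam H M) f ≫ ·) (H.map_id f.el)
  map_comp {M _ M''} g g' := car_hom_ext (X := carFam H M'') fun f =>
    congrArg (carProj (carFam H M) ((f.res g'.hom).res g.hom) ≫ ·)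
      (H.map_comp ((f.res g'.hom).arr g.hom) (f.arr g'.hom))

def carHatMap {E B : S.El ⥤ C.Gpd} (p : E ⟶ B) : carHat E ⟶ carHat B where
  app M := carLift (X := carFam B M) fun f => carProj (carFam E M) f ≫ p.app f.el
  naturality M M' g := car_hom_ext (X := carFam B M') fun f =>
    congrArg (carProj (carFam E M) (f.res g.hom) ≫ ·) (p.naturality (f.arr g.hom))

/-- Pairs in the pullback which lie on the graph of `w` whenever `P` holds. -/
def carSub {A E D : C.Gpd} (p : E ⟶ D) (a : A ⟶ D) (P : Prop) (w : P → (A ⟶ E)) : C.Gpd :=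
  subM (pbM p a) (fun c x => ∀ h : P, x.1.1 = (w h).hom.app c x.1.2)
    (fun f x hx h => (congrArg (E.obj.map f) (hx h)).trans
      (NatTrans.naturality_apply (w h).hom f x.1.2).symm)
    (fun l T j i hl hi x h1 h2 h => ((isModel_iff _).1 E.property l T j i hl hi).1 _ _
      ⟨(h1 h).trans (NatTrans.naturality_apply (w h).hom _ x.1.2),
        (h2 h).trans (NatTrans.naturality_apply (w h).hom _ x.1.2)⟩)

section Sub

variable {A E D : C.Gpd} (p : E ⟶ D) (a : A ⟶ D) (P : Prop) (w : P → (A ⟶ E))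

def carFst : carSub p a P w ⟶ E := subVal _ _ _ _ ≫ pbFst p a

def carSnd : carSub p a P w ⟶ A := subVal _ _ _ _ ≫ pbSnd p a

theorem car_cond : carFst p a P w ≫ p = carSnd p a P w ≫ a :=
  gpd_hom_ext_el fun _ x => x.1.2

theorem car_cond' (h : P) : carFst p a P w = carSnd p a P w ≫ w h :=
  gpd_hom_ext_el fun _ x => x.2 h

variable {p a P w}

def carSubLift {Z : C.Gpd} (f : Z ⟶ E) (g : Z ⟶ A) (h1 : f ≫ p = g ≫ a)
    (h2 : ∀ h : P, f = g ≫ w h) : Z ⟶ carSub p a P w :=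
  subLift (pbLift f g h1) fun c z h => congrArg (fun k : Z ⟶ E => k.hom.app c z) (h2 h)

theorem carSub_ext {Z : C.Gpd} {f g : Z ⟶ carSub p a P w}
    (h1 : f ≫ carFst p a P w = g ≫ carFst p a P w)
    (h2 : f ≫ carSnd p a P w = g ≫ carSnd p a P w) : f = g :=
  sub_hom_ext (pb_hom_ext h1 h2)

theorem tFib_carSnd (hp : TFib (um p)) (hw : ∀ h, w h ≫ p = a) : TFib (um (carSnd p a P w)) := by
  intro n z b hb
  by_cases h : P
  · let s : A ⟶ carSub p a P w := carSubLift (w h) (𝟙 A)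
      ((hw h).trans (Category.id_comp _).symm) fun _ => (Category.id_comp _).symm
    have e : carSnd p a P w ≫ s = 𝟙 _ := carSub_ext (car_cond' p a P w h).symm rfl
    refine ⟨cm (um s) b, ?_, rfl⟩
    rw [bd_cm, hb, ← sm_um_comp, e, sm_um_id]
  · let s : pbM p a ⟶ carSub p a P w :=
      carSubLift (pbFst p a) (pbSnd p a) (pb_cond p a) fun h' => (h h').elim
    let v : carSub p a P w ⟶ pbM p a := subVal _ _ _ _
    have e : v ≫ s = 𝟙 _ := carSub_ext rfl rfl
    obtain ⟨x, hx, hx'⟩ := tFib_pbSnd hp a n (sm (um v) z) b (by rw [hb, ← sm_um_comp]; rfl)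
    refine ⟨cm (um s) x, ?_, hx'⟩
    rw [bd_cm, hx, ← sm_um_comp, e, sm_um_id]

end Sub

end Aux

namespace GamData

variable {C : GlobExt} (Γ : GamData C) {Y : TopCat.{0}}

/-- Two bases. Hint: the functor `M ↦ prodM (B₀ M) (B₁ M)` and `tFib_prodLift`. -/
theorem lift2 (E B₀ B₁ : BoxCat ⥤ C.Gpd) (p₀ : E ⟶ B₀) (p₁ : E ⟶ B₁)
    (hp : ∀ M, TFib2 (um (p₀.app M)) (um (p₁.app M))) (b₀ : Γ.G ⟶ B₀) (b₁ : Γ.G ⟶ B₁) :
    ∃ l : Γ.G ⟶ E, l ≫ p₀ = b₀ ∧ l ≫ p₁ = b₁ := by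
  let B : BoxCat ⥤ C.Gpd :=
    { obj := fun M => prodM (B₀.obj M) (B₁.obj M)
      map := fun g => prodLift (prodFst _ _ ≫ B₀.map g) (prodSnd _ _ ≫ B₁.map g)
      map_id := fun M => prod_hom_ext (congrArg (prodFst _ _ ≫ ·) (B₀.map_id M))
        (congrArg (prodSnd _ _ ≫ ·) (B₁.map_id M))
      map_comp := fun g g' => prod_hom_ext (congrArg (prodFst _ _ ≫ ·) (B₀.map_comp g g'))
        (congrArg (prodSnd _ _ ≫ ·) (B₁.map_comp g g')) }
  let pr : ∀ {Z : BoxCat ⥤ C.Gpd}, (Z ⟶ B₀) → (Z ⟶ B₁) → (Z ⟶ B) := fun a₀ a₁ =>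
    { app := fun M => prodLift (a₀.app M) (a₁.app M)
      naturality := fun _ _ g => prod_hom_ext (a₀.naturality g) (a₁.naturality g) }
  obtain ⟨l, hl⟩ := Γ.lift E B (pr p₀ p₁) (fun M => tFib_prodLift (hp M)) (pr b₀ b₁)
  exact ⟨l, NatTrans.ext (funext fun M => congrArg (fun k => k.app M ≫ prodFst _ _) hl),
    NatTrans.ext (funext fun M => congrArg (fun k => k.app M ≫ prodSnd _ _) hl)⟩

/-- Carrier lemma. Hint: for `H : S.El ⥤ C.Gpd` let `Ĥ M` be the product over `{f // S.mem M f}`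
of `H ⟨M, f, _⟩` (an explicit objectwise product model via `isModel_iff` is convenient), functorial
in `M`; a product of trivial fibrations is a trivial fibration; apply `Γ.lift` to `Ê ⟶ B̂`. -/
theorem carrier (S : Sv Y) (E B : S.El ⥤ C.Gpd) (p : E ⟶ B) (hp : ∀ e, TFib (um (p.app e)))
    (b : S.proj ⋙ Γ.G ⟶ B) : ∃ l : S.proj ⋙ Γ.G ⟶ E, l ≫ p = b := by
  let b' : Γ.G ⟶ carHat B :=
    { app := fun M => carLift (X := carFam B M) fun f => b.app f.el
      naturality := fun M M' g => car_hom_ext (X := carFam B M') fun f =>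
        b.naturality (f.arr g.hom) }
  obtain ⟨l, hl⟩ := Γ.lift (carHat E) (carHat B) (carHatMap p)
    (fun M => tFib_carPi (E := carFam E M) (B := carFam B M) _ fun f => hp _) b'
  refine ⟨{ app := fun e => l.app e.M ≫ carProj (carFam E e.M) ⟨e.f, e.hf⟩, naturality := ?_ },
    NatTrans.ext (funext fun e =>
      congrArg (fun k => k.app e.M ≫ carProj (carFam B e.M) ⟨e.f, e.hf⟩) hl)⟩
  have key : ∀ (M M' : Box) (g : M.sp ⟶ M'.sp) (f' : CarIx S M') (f : M.sp ⟶ Y) (hf : S.mem M f)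
      (hg : g ≫ f'.1 = f), Γ.G.map (boxHom g) ≫ l.app M' ≫ carProj (carFam E M') f' =
        (l.app M ≫ carProj (carFam E M) ⟨f, hf⟩) ≫
          E.map (show (⟨M, f, hf⟩ : S.El) ⟶ f'.el from ⟨g, hg⟩) := by
    rintro M M' g f' f hf rfl
    exact congrArg (· ≫ carProj (carFam E M') f') (l.naturality (boxHom g))
  exact fun e e' g => key e.M e'.M g.1 ⟨e'.f, e'.hf⟩ e.f e.hf g.2

/-- Hint: `carrier` with constant functors, `desc`. -/
theorem cofibt_gam (S : Sv Y) : Cofibt (Γ.Gam S) := by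
  intro E B p hp b
  obtain ⟨l, hl⟩ := Γ.carrier S ((Functor.const _).obj E) ((Functor.const _).obj B)
    ((Functor.const _).map p) (fun _ => hp)
    ((colimit.cocone (S.proj ⋙ Γ.G)).ι ≫ (Functor.const _).map b)
  refine ⟨colimit.desc _ (Cocone.mk E l), Γ.hom_ext fun M f hf => ?_⟩
  exact ((Category.assoc _ _ _).symm.trans
    (congrArg (· ≫ p) (colimit.ι_desc (Cocone.mk E l) ⟨M, f, hf⟩))).trans
    (congrArg (fun k => k.app ⟨M, f, hf⟩) hl)

theorem car_ι (T : Sv Y) {M M' : Box} (g : M.sp ⟶ M'.sp) {f : M.sp ⟶ Y} {f' : M'.sp ⟶ Y}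
    (e : g ≫ f' = f) (hf : T.mem M f) (hf' : T.mem M' f') {Z : C.Gpd} (v : Γ.Gam T ⟶ Z) :
    Γ.G.map (boxHom g) ≫ Γ.ι T M' f' hf' ≫ v = Γ.ι T M f hf ≫ v := by
  subst e
  rw [← Category.assoc, Γ.ι_comp T g f' hf' hf]

section Incl

variable {S' S : Sv Y} {E D : C.Gpd} (p : E ⟶ D) (u : Γ.Gam S' ⟶ E) (v : Γ.Gam S ⟶ D)

/-- The fibre over an element of the lifting problem. -/
def carObj (e : S.El) : C.Gpd :=
  carSub p (Γ.ι S e.M e.f e.hf ≫ v) _ fun h' : S'.mem e.M e.f => Γ.ι S' e.M e.f h' ≫ u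

def carA (e : S.El) : Γ.carObj p u v e ⟶ E := carFst _ _ _ _

def carB (e : S.El) : Γ.carObj p u v e ⟶ Γ.G.obj e.M := carSnd _ _ _ _

theorem carA_p (e : S.El) :
    Γ.carA p u v e ≫ p = Γ.carB p u v e ≫ Γ.ι S e.M e.f e.hf ≫ v := car_cond _ _ _ _

theorem carA_eq (e : S.El) (h' : S'.mem e.M e.f) :
    Γ.carA p u v e = Γ.carB p u v e ≫ Γ.ι S' e.M e.f h' ≫ u := car_cond' _ _ _ _ h'

theorem carObj_ext {e : S.El} {Z : C.Gpd} {f g : Z ⟶ Γ.carObj p u v e}
    (h1 : f ≫ Γ.carA p u v e = g ≫ Γ.carA p u v e)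
    (h2 : f ≫ Γ.carB p u v e = g ≫ Γ.carB p u v e) : f = g := carSub_ext h1 h2

def carMap {e e' : S.El} (g : e ⟶ e') : Γ.carObj p u v e ⟶ Γ.carObj p u v e' :=
  carSubLift (Γ.carA p u v e) (Γ.carB p u v e ≫ Γ.G.map (boxHom g.1))
    (by rw [carA_p, Category.assoc, Γ.car_ι S g.1 g.2 e.hf])
    (fun h' => by
      have h'' : S'.mem e.M e.f := g.2 ▸ S'.comp g.1 h'
      rw [Γ.carA_eq p u v e h'', Category.assoc, Γ.car_ι S' g.1 g.2 h''])

theorem carMap_A {e e' : S.El} (g : e ⟶ e') :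
    Γ.carMap p u v g ≫ Γ.carA p u v e' = Γ.carA p u v e := rfl

theorem carMap_B {e e' : S.El} (g : e ⟶ e') :
    Γ.carMap p u v g ≫ Γ.carB p u v e' = Γ.carB p u v e ≫ Γ.G.map (boxHom g.1) := rfl

def carFun : S.El ⥤ C.Gpd where
  obj := Γ.carObj p u v
  map := Γ.carMap p u v
  map_id e := Γ.carObj_ext p u v (by rw [carMap_A, Category.id_comp]) (by
    rw [carMap_B, Category.id_comp]
    exact (congrArg (Γ.carB p u v e ≫ ·) (Γ.G.map_id e.M)).trans (Category.comp_id _))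
  map_comp g g' := Γ.carObj_ext p u v (by rw [Category.assoc, carMap_A, carMap_A, carMap_A]) (by
    rw [Category.assoc, carMap_B, carMap_B, ← Category.assoc, carMap_B, Category.assoc,
      ← Γ.G.map_comp]
    rfl)

def carTo : Γ.carFun p u v ⟶ S.proj ⋙ Γ.G where
  app := Γ.carB p u v
  naturality _ _ g := Γ.carMap_B p u v g

end Incl

/-- Hint: `cof_of_lift`; given `p : E ⟶ D`, `u : Gam S' ⟶ E`, `v : Gam S ⟶ D`, apply `carrier` to
`e ↦ subM (pbM (ι e ≫ v) p) (fun c x => ∀ h : S'.mem e.M e.f, x.2 = (ι S' e h ≫ u) x.1)` over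
`G e.M`; it is a trivial fibration by cases on `S'.mem e.M e.f`. -/
theorem cof_incl {S' S : Sv Y} (h : S'.Le S) : Cof (Γ.incl h) := by
  refine cof_of_lift fun E D p hp u v w => ?_
  have hw : ∀ (e : S.El) (h' : S'.mem e.M e.f),
      (Γ.ι S' e.M e.f h' ≫ u) ≫ p = Γ.ι S e.M e.f e.hf ≫ v := fun e h' => by
    rw [Category.assoc, w, ← Category.assoc, ι_incl]
  obtain ⟨l, hl⟩ := Γ.carrier S (Γ.carFun p u v) (S.proj ⋙ Γ.G) (Γ.carTo p u v)
    (fun e => tFib_carSnd hp (hw e)) (𝟙 _)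
  obtain ⟨m, hm, hm'⟩ : ∃ m : ∀ e : S.El, Γ.G.obj e.M ⟶ Γ.carObj p u v e,
      (∀ e, m e ≫ Γ.carB p u v e = 𝟙 _) ∧ ∀ (e e' : S.El) (g : e ⟶ e'),
        Γ.G.map (boxHom g.1) ≫ m e' = m e ≫ Γ.carMap p u v g :=
    ⟨l.app, fun e => congrArg (fun k => k.app e) hl, fun _ _ g => l.naturality g⟩
  refine ⟨Γ.desc (fun M f hf => m ⟨M, f, hf⟩ ≫ Γ.carA p u v ⟨M, f, hf⟩) fun M M' g f hf => ?_,
    Γ.hom_ext fun M f hf => ?_, Γ.hom_ext fun M f hf => ?_⟩
  · have := hm' ⟨M, g ≫ f, S.comp g hf⟩ ⟨M', f, hf⟩ ⟨g, rfl⟩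
    rw [← Category.assoc, this, Category.assoc, carMap_A]
  · rw [← Category.assoc, ι_incl, ι_desc, Γ.carA_eq p u v ⟨M, f, h M f hf⟩ hf, ← Category.assoc,
      hm, Category.id_comp]
  · rw [← Category.assoc, ι_desc, Category.assoc, carA_p, ← Category.assoc, hm, Category.id_comp]

theorem isPushout_sup (S₁ S₂ : Sv Y) :
    IsPushout (Γ.incl (S := S₁.inf S₂) (S' := S₁) fun _ _ h => h.1)
      (Γ.incl (S := S₁.inf S₂) (S' := S₂) fun _ _ h => h.2)
      (Γ.incl (S := S₁) (S' := S₁.sup S₂) fun _ _ h => Or.inl h)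
      (Γ.incl (S := S₂) (S' := S₁.sup S₂) fun _ _ h => Or.inr h) := by
  classical
  have h1 : (S₁.inf S₂).Le S₁ := fun _ _ h => h.1
  have h2 : (S₁.inf S₂).Le S₂ := fun _ _ h => h.2
  have k1 : S₁.Le (S₁.sup S₂) := fun _ _ h => Or.inl h
  have k2 : S₂.Le (S₁.sup S₂) := fun _ _ h => Or.inr h
  change IsPushout (Γ.incl h1) (Γ.incl h2) (Γ.incl k1) (Γ.incl k2)
  have w : Γ.incl h1 ≫ Γ.incl k1 = Γ.incl h2 ≫ Γ.incl k2 := by
    rw [Γ.incl_incl h1 k1 fun M f h => k1 M f (h1 M f h),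
      Γ.incl_incl h2 k2 fun M f h => k1 M f (h1 M f h)]
  have key : ∀ (s : PushoutCocone (Γ.incl h1) (Γ.incl h2)) M f a1 a2,
      Γ.ι S₁ M f a1 ≫ s.inl = Γ.ι S₂ M f a2 ≫ s.inr := fun s M f a1 a2 => by
    have a3 : (S₁.inf S₂).mem M f := ⟨a1, a2⟩
    have := congrArg (Γ.ι (S₁.inf S₂) M f a3 ≫ ·) s.condition
    simpa only [← Category.assoc, ι_incl] using this
  refine ⟨⟨w⟩, ⟨PushoutCocone.IsColimit.mk _ (fun s => Γ.desc (fun M f hf =>
      if h : S₁.mem M f then Γ.ι S₁ M f h ≫ s.inl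
      else Γ.ι S₂ M f (hf.resolve_left h) ≫ s.inr) fun M M' g f hf => ?_)
      (fun s => Γ.hom_ext fun M f hf => ?_) (fun s => Γ.hom_ext fun M f hf => ?_)
      fun s m m1 m2 => Γ.hom_ext fun M f hf => ?_⟩⟩
  · by_cases h : S₁.mem M' f
    · rw [dif_pos h, dif_pos (S₁.comp g h), ← Category.assoc, Γ.ι_comp]
    · rw [dif_neg h, ← Category.assoc, Γ.ι_comp S₂ g f _ (S₂.comp g (hf.resolve_left h))]
      split_ifs with h'
      · exact (key s _ _ _ _).symm
      · rfl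
  · rw [← Category.assoc, ι_incl, ι_desc, dif_pos hf]
  · rw [← Category.assoc, ι_incl, ι_desc]
    split_ifs with h'
    · exact key s _ _ _ _
    · rfl
  · rw [ι_desc]
    split_ifs with h'
    · rw [← m1, ← Category.assoc, ι_incl]
    · rw [← m2, ← Category.assoc, ι_incl]

/-- If all maps in `S` factor naturally through one map `u` in `S` from a box, then `Gam S` is a
retract of `G M`. -/
theorem contr_of_univ (S : Sv Y) (M : Box) (u : M.sp ⟶ Y) (hu : S.mem M u)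
    (k : ∀ (M' : Box) (f : M'.sp ⟶ Y), S.mem M' f → (M'.sp ⟶ M.sp))
    (hk : ∀ M' f hf, k M' f hf ≫ u = f)
    (hk' : ∀ (M' M'' : Box) (g : M'.sp ⟶ M''.sp) (f : M''.sp ⟶ Y) (hf : S.mem M'' f),
      g ≫ k M'' f hf = k M' (g ≫ f) (S.comp g hf)) : Contr (ug (Γ.Gam S)) := by
  let r : Γ.Gam S ⟶ Γ.G.obj M := Γ.desc (fun M' f hf => Γ.G.map (boxHom (k M' f hf)))
    fun M' M'' g f hf => by
      rw [← hk' M' M'' g f hf]
      exact (Γ.G.map_comp _ _).symm
  have e : r ≫ Γ.ι S M u hu = 𝟙 _ := Γ.hom_ext fun M' f hf => by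
    rw [← Category.assoc, ι_desc, Γ.ι_comp S _ u hu (S.comp _ hu), Category.comp_id]
    exact Γ.ι_congr S (hk M' f hf) _ _
  intro n
  exact Fill.of_retract (um r) (um (Γ.ι S M u hu)) (by rw [← um_comp, e, um_id]) (Γ.contr M n)

/-- Retracts of boxes. -/
theorem contr_top_of_retract (M : Box) (s : Y ⟶ M.sp) (r : M.sp ⟶ Y) (h : s ≫ r = 𝟙 Y) :
    Contr (ug (Γ.Top.obj Y)) :=
  Γ.contr_of_univ (Sv.top Y) M r trivial (fun _ f _ => f ≫ s)
    (fun _ f _ => by rw [Category.assoc, h, Category.comp_id])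
    (fun _ _ _ _ _ => (Category.assoc _ _ _).symm)

theorem contr_top_box (M : Box) : Contr (ug (Γ.Top.obj M.sp)) :=
  Γ.contr_top_of_retract M (𝟙 _) (𝟙 _) (Category.id_comp _)

end GamData

end Vale.Agent.P259
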