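import Vale.Agent.P259.Colim

/-! P259: spheres, attaching cells, closure properties of cofibrations. -/

open CategoryTheory Limits Opposite

noncomputable section

namespace Vale.Agent.P259

variable {C : GlobExt}

/-- Hint: induction on `n`; initial object for `n = 0`, pushout of two copies of
`rep C (Theta.D n)` for `n + 1` (`isCardinalPresentable_of_isColimit`). -/
theorem exists_sphObj (C : GlobExt) (n : ℕ) : ∃ (A : C.Gpd) (z : (ug A).Sph n),
    IsFinitelyPresentable.{0} A ∧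
      ∀ (Y : C.Gpd) (w : (ug Y).Sph n), ∃! f : A ⟶ Y, sm (um f) z = w := by
  have := Cardinal.fact_isRegular_aleph0.{0}
  induction n with
  | zero =>
    refine ⟨⊥_ C.Gpd, sph0 _, ?_, fun Y w => ⟨initial.to Y, Subsingleton.elim _ _,
      fun f _ => initial.hom_ext _ _⟩⟩
    have : ∀ k, IsCardinalPresentable ((Functor.empty.{0} C.Gpd).obj k) Cardinal.aleph0.{0} :=
      fun k => k.as.elim
    exact isCardinalPresentable_of_isColimit (asEmptyCocone (⊥_ C.Gpd)) initialIsInitial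
      Cardinal.aleph0.{0} ((hasCardinalLT_aleph0_iff _).2 inferInstance)
  | succ n ih =>
    obtain ⟨A, z, hA, hu⟩ := ih
    obtain ⟨i, hi, -⟩ := hu (rep C (Theta.D n)) (bd (discCell C n))
    have key : ∀ {Y : C.Gpd} (a : rep C (Theta.D n) ⟶ Y),
        sm (um (i ≫ a)) z = bd (cm (um a) (discCell C n)) := fun a => by
      rw [sm_um_comp, hi, bd_cm]
    refine ⟨pushout i i, sph (cm (um (pushout.inl i i)) (discCell C n))
      (cm (um (pushout.inr i i)) (discCell C n)) ?_, ?_, fun Y w => ?_⟩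
    · rw [← key, ← key, pushout.condition]
    · have : ∀ k, IsCardinalPresentable ((span i i).obj k) Cardinal.aleph0.{0} := by
        rintro (_ | _ | _)
        · exact hA
        · exact rep_finPres _
        · exact rep_finPres _
      exact isCardinalPresentable_of_isColimit (colimit.cocone (span i i)) (colimit.isColimit _)
        Cardinal.aleph0.{0} ((hasCardinalLT_aleph0_iff _).2 inferInstance)
    · obtain ⟨a, ha, ha'⟩ := disc_univ n Y (sfst w)
      obtain ⟨b, hb, hb'⟩ := disc_univ n Y (ssnd w)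
      have hab : i ≫ a = i ≫ b :=
        (hu Y (bd (sfst w))).unique (by rw [key, ha]) (by rw [key, hb, bd_sfst])
      refine ⟨pushout.desc a b hab, sph_ext ?_ ?_, fun f hf => pushout.hom_ext ?_ ?_⟩
      · rw [sfst_sm, sfst_sph, ← cm_um_comp, pushout.inl_desc, ha]
      · rw [ssnd_sm, ssnd_sph, ← cm_um_comp, pushout.inr_desc, hb]
      · rw [pushout.inl_desc]
        exact ha' _ (congrArg sfst hf)
      · rw [pushout.inr_desc]
        exact hb' _ (congrArg ssnd hf)

/-- The boundary of the `n`-disc. -/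
def sphObj (C : GlobExt) (n : ℕ) : C.Gpd := (exists_sphObj C n).choose

/-- The universal sphere. -/
def sphEl (C : GlobExt) (n : ℕ) : (ug (sphObj C n)).Sph n := (exists_sphObj C n).choose_spec.choose

theorem sphObj_finPres (n : ℕ) : IsFinitelyPresentable.{0} (sphObj C n) :=
  (exists_sphObj C n).choose_spec.choose_spec.1

theorem sph_univ (n : ℕ) (Y : C.Gpd) (w : (ug Y).Sph n) :
    ∃! f : sphObj C n ⟶ Y, sm (um f) (sphEl C n) = w :=
  (exists_sphObj C n).choose_spec.choose_spec.2 Y w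

/-- The map classifying a sphere. -/
def sphDesc {Y : C.Gpd} {n : ℕ} (w : (ug Y).Sph n) : sphObj C n ⟶ Y := (sph_univ n Y w).choose

theorem sm_sphDesc {Y : C.Gpd} {n : ℕ} (w : (ug Y).Sph n) :
    sm (um (sphDesc w)) (sphEl C n) = w := (sph_univ n Y w).choose_spec.1

theorem sph_hom_ext {Y : C.Gpd} {n : ℕ} {f g : sphObj C n ⟶ Y}
    (h : sm (um f) (sphEl C n) = sm (um g) (sphEl C n)) : f = g :=
  (sph_univ n Y _).unique h rfl

/-- The map classifying a cell. -/
def discDesc {Y : C.Gpd} {n : ℕ} (y : (ug Y).cell n) : rep C (Theta.D n) ⟶ Y :=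
  (disc_univ n Y y).choose

theorem cm_discDesc {Y : C.Gpd} {n : ℕ} (y : (ug Y).cell n) :
    cm (um (discDesc y)) (discCell C n) = y := (disc_univ n Y y).choose_spec.1

theorem disc_hom_ext {Y : C.Gpd} {n : ℕ} {f g : rep C (Theta.D n) ⟶ Y}
    (h : cm (um f) (discCell C n) = cm (um g) (discCell C n)) : f = g :=
  (disc_univ n Y _).unique h rfl

/-- The boundary inclusion. -/
def sphInc (C : GlobExt) (n : ℕ) : sphObj C n ⟶ rep C (Theta.D n) := sphDesc (bd (discCell C n))

/-- The source inclusion. -/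
def srcInc (C : GlobExt) (m : ℕ) : rep C (Theta.D m) ⟶ rep C (Theta.D (m + 1)) :=
  discDesc (src (discCell C (m + 1)))

theorem sm_sphInc_comp {Y : C.Gpd} {n : ℕ} (a : rep C (Theta.D n) ⟶ Y) :
    sm (um (sphInc C n ≫ a)) (sphEl C n) = bd (cm (um a) (discCell C n)) := by
  rw [sm_um_comp, sphInc, sm_sphDesc, bd_cm]

theorem cm_srcInc_comp {Y : C.Gpd} {m : ℕ} (a : rep C (Theta.D (m + 1)) ⟶ Y) :
    cm (um (srcInc C m ≫ a)) (discCell C m) = src (cm (um a) (discCell C (m + 1))) := by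
  rw [cm_um_comp, srcInc, cm_discDesc, src_cm]

theorem liftAt_iff {E B : C.Gpd} (p : E ⟶ B) (n : ℕ) :
    LiftAt (um p) n ↔ HasLiftingProperty (sphInc C n) p := by
  constructor
  · intro h
    refine ⟨fun {f g} sq => ?_⟩
    obtain ⟨e, he, he'⟩ := h (sm (um f) (sphEl C n)) (cm (um g) (discCell C n)) (by
      rw [← sm_sphInc_comp, ← sq.w, sm_um_comp])
    refine ⟨⟨⟨discDesc e, sph_hom_ext ?_, disc_hom_ext ?_⟩⟩⟩
    · rw [sm_sphInc_comp, cm_discDesc, he]
    · rw [cm_um_comp, cm_discDesc, he']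
  · intro h z b hb
    have sq : CommSq (sphDesc z) (sphInc C n) p (discDesc b) := ⟨sph_hom_ext (by
      rw [sm_sphInc_comp, cm_discDesc, sm_um_comp, sm_sphDesc, hb])⟩
    refine ⟨cm (um sq.lift) (discCell C n), ?_, ?_⟩
    · rw [← sm_sphInc_comp, sq.fac_left, sm_sphDesc]
    · rw [← cm_um_comp, sq.fac_right, cm_discDesc]

theorem jAt_iff {E B : C.Gpd} (p : E ⟶ B) (m : ℕ) :
    JAt (um p) m ↔ HasLiftingProperty (srcInc C m) p := by
  constructor
  · intro h
    refine ⟨fun {f g} sq => ?_⟩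
    obtain ⟨e, he, he'⟩ := h (cm (um f) (discCell C m)) (cm (um g) (discCell C (m + 1))) (by
      rw [← cm_srcInc_comp, ← sq.w, cm_um_comp])
    refine ⟨⟨⟨discDesc e, disc_hom_ext ?_, disc_hom_ext ?_⟩⟩⟩
    · rw [cm_srcInc_comp, cm_discDesc, he]
    · rw [cm_um_comp, cm_discDesc, he']
  · intro h e b hb
    have sq : CommSq (discDesc e) (srcInc C m) p (discDesc b) := ⟨disc_hom_ext (by
      rw [cm_srcInc_comp, cm_discDesc, cm_um_comp, cm_discDesc, hb])⟩
    refine ⟨cm (um sq.lift) (discCell C (m + 1)), ?_, ?_⟩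
    · rw [← cm_srcInc_comp, sq.fac_left, cm_discDesc]
    · rw [← cm_um_comp, sq.fac_right, cm_discDesc]

theorem exists_raise (A : C.Gpd) {m : ℕ} (a : (ug A).cell m) :
    ∃ (B : C.Gpd) (i : A ⟶ B) (h : (ug B).cell (m + 1)), IsRaise i a h := by
  refine ⟨pushout (discDesc a) (srcInc C m), pushout.inl _ _,
    cm (um (pushout.inr _ _)) (discCell C (m + 1)), ?_, fun Y f y hy => ?_⟩
  · rw [← cm_srcInc_comp, ← pushout.condition, cm_um_comp, cm_discDesc]
  · have w : discDesc a ≫ f = srcInc C m ≫ discDesc y := disc_hom_ext (by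
      rw [cm_srcInc_comp, cm_discDesc, cm_um_comp, cm_discDesc, hy])
    refine ⟨pushout.desc f (discDesc y) w, ⟨pushout.inl_desc _ _ _, ?_⟩,
      fun g hg => pushout.hom_ext ?_ ?_⟩
    · rw [← cm_um_comp, pushout.inr_desc, cm_discDesc]
    · rw [pushout.inl_desc, hg.1]
    · rw [pushout.inr_desc]
      exact disc_hom_ext (by rw [cm_um_comp, hg.2, cm_discDesc])

theorem isAttach_aux {A B : C.Gpd} {i : A ⟶ B} {ι : Type} {d : ι → ℕ}
    {g : (∐ fun α => sphObj C (d α)) ⟶ A} {k : (∐ fun α => rep C (Theta.D (d α))) ⟶ B}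
    (h : IsPushout g (Limits.Sigma.map fun α => sphInc C (d α)) i k) :
    IsAttach i d (fun α => sm (um (Sigma.ι (fun α => sphObj C (d α)) α ≫ g)) (sphEl C (d α)))
      (fun α => cm (um (Sigma.ι (fun α => rep C (Theta.D (d α))) α ≫ k)) (discCell C (d α))) := by
  refine ⟨fun α => ?_, fun Y f y hy => ?_⟩
  · rw [← sm_sphInc_comp, ← sm_um_comp, Category.assoc, h.w, Sigma.ι_map_assoc]
  · have w : g ≫ f = (Limits.Sigma.map fun α => sphInc C (d α)) ≫
        Sigma.desc fun α => discDesc (y α) := by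
      refine Sigma.hom_ext _ _ fun α => sph_hom_ext ?_
      rw [Sigma.ι_map_assoc, Sigma.ι_desc, sm_sphInc_comp, cm_discDesc, hy, ← sm_um_comp,
        Category.assoc]
    refine ⟨h.desc f _ w, ⟨h.inl_desc _ _ _, fun α => ?_⟩, fun l hl => h.hom_ext ?_ ?_⟩
    · rw [← cm_um_comp, Category.assoc, h.inr_desc, Sigma.ι_desc, cm_discDesc]
    · rw [h.inl_desc, hl.1]
    · rw [h.inr_desc]
      refine Sigma.hom_ext _ _ fun α => disc_hom_ext ?_
      rw [Sigma.ι_desc, cm_discDesc, ← hl.2 α, ← cm_um_comp, Category.assoc]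

theorem exists_attach (A : C.Gpd) {ι : Type} (d : ι → ℕ) (z : ∀ α, (ug A).Sph (d α)) :
    ∃ (B : C.Gpd) (i : A ⟶ B) (x : ∀ α, (ug B).cell (d α)), IsAttach i d z x := by
  have h := isAttach_aux (IsPushout.of_hasPushout (Sigma.desc fun α => sphDesc (z α))
    (Limits.Sigma.map fun α => sphInc C (d α)))
  have hz : (fun α => sm (um (Sigma.ι (fun α => sphObj C (d α)) α ≫
      Sigma.desc fun α => sphDesc (z α))) (sphEl C (d α))) = z := by
    funext α
    rw [Sigma.ι_desc, sm_sphDesc]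
  rw [hz] at h
  exact ⟨_, _, _, h⟩

theorem IsAttach.isPushout {A B : C.Gpd} {i : A ⟶ B} {ι : Type} {d : ι → ℕ}
    {z : ∀ α, (ug A).Sph (d α)} {x : ∀ α, (ug B).cell (d α)} (h : IsAttach i d z x) :
    IsPushout (Sigma.desc fun α => sphDesc (z α)) (Limits.Sigma.map fun α => sphInc C (d α)) i
      (Sigma.desc fun α => discDesc (x α)) := by
  have w : (Sigma.desc fun α => sphDesc (z α)) ≫ i =
      (Limits.Sigma.map fun α => sphInc C (d α)) ≫ Sigma.desc fun α => discDesc (x α) := by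
    refine Sigma.hom_ext _ _ fun α => sph_hom_ext ?_
    rw [Sigma.ι_map_assoc, Sigma.ι_desc, Sigma.ι_desc_assoc, sm_sphInc_comp, cm_discDesc,
      sm_um_comp, sm_sphDesc, h.bd_eq]
  have key : ∀ {Y : C.Gpd} (f : A ⟶ Y) (k : (∐ fun α => rep C (Theta.D (d α))) ⟶ Y),
      (Sigma.desc fun α => sphDesc (z α)) ≫ f = (Limits.Sigma.map fun α => sphInc C (d α)) ≫ k →
      ∃! g : B ⟶ Y, i ≫ g = f ∧ (Sigma.desc fun α => discDesc (x α)) ≫ g = k := by
    intro Y f k hk
    obtain ⟨g, ⟨hg1, hg2⟩, hg3⟩ := h.univ Y f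
      (fun α => cm (um (Sigma.ι (fun α => rep C (Theta.D (d α))) α ≫ k)) (discCell C (d α)))
      (fun α => by
        rw [← sm_sphInc_comp, ← Sigma.ι_map_assoc (fun α => sphInc C (d α)), ← hk,
          Sigma.ι_desc_assoc, sm_um_comp, sm_sphDesc])
    refine ⟨g, ⟨hg1, Sigma.hom_ext _ _ fun α => disc_hom_ext ?_⟩, fun g' hg' => hg3 g' ⟨hg'.1,
      fun α => ?_⟩⟩
    · rw [Sigma.ι_desc_assoc, cm_um_comp, cm_discDesc, hg2]
    · rw [← hg'.2, Sigma.ι_desc_assoc, cm_um_comp, cm_discDesc]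
  refine ⟨⟨w⟩, ⟨PushoutCocone.IsColimit.mk w (fun s => (key s.inl s.inr s.condition).choose)
    (fun s => (key s.inl s.inr s.condition).choose_spec.1.1)
    (fun s => (key s.inl s.inr s.condition).choose_spec.1.2)
    (fun s m h1 h2 => (key s.inl s.inr s.condition).choose_spec.2 m ⟨h1, h2⟩)⟩⟩

theorem isAttach_of_isPushout {A B : C.Gpd} {i : A ⟶ B} {ι : Type} {d : ι → ℕ}
    {g : (∐ fun α => sphObj C (d α)) ⟶ A} {k : (∐ fun α => rep C (Theta.D (d α))) ⟶ B}
    (h : IsPushout g (Limits.Sigma.map fun α => sphInc C (d α)) i k) :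
    IsAttach i d (fun α => sm (um (Sigma.ι (fun α => sphObj C (d α)) α ≫ g)) (sphEl C (d α)))
      (fun α => cm (um (Sigma.ι (fun α => rep C (Theta.D (d α))) α ≫ k)) (discCell C (d α))) :=
  isAttach_aux h

end Vale.Agent.P259
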