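import Vale.Agent.P259.Core

/-! P259: colimits of models. -/

open CategoryTheory Limits Opposite

noncomputable section

namespace Vale.Agent.P259

variable {C : GlobExt}

namespace Colim

attribute [local instance] Cardinal.fact_isRegular_aleph0

/-- Indices of the gluing squares. -/
structure Idx where
  l : ℕ
  T : Tab l
  j : ℕ
  i : ℕ
  hl : j < l
  hi : j < i

theorem sq_w (C : GlobExt) (a : Idx) :
    yoneda.map (C.F.map (Theta.sqL a.T a.j a.hl)) ≫
        yoneda.map (C.F.map (Theta.inl a.T a.j a.i a.hl a.hi)) =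
      yoneda.map (C.F.map (Theta.sqT a.j a.i a.hi)) ≫
        yoneda.map (C.F.map (Theta.inr a.T a.j a.i a.hl a.hi)) := by
  rw [← yoneda.map_comp, ← yoneda.map_comp, (C.pres a.l a.T a.j a.i a.hl a.hi).w]

/-- The comparison map of a gluing square. -/
def cmp (C : GlobExt) (a : Idx) :
    pushout (yoneda.map (C.F.map (Theta.sqL a.T a.j a.hl)))
        (yoneda.map (C.F.map (Theta.sqT a.j a.i a.hi))) ⟶
      yoneda.obj (C.F.obj (Theta.mk (a.T.snoc a.j a.i a.hl a.hi))) :=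
  pushout.desc _ _ (sq_w C a)

/-- The class of comparison maps. -/
abbrev W (C : GlobExt) : MorphismProperty (C.Cᵒᵖ ⥤ Type) := MorphismProperty.ofHoms (cmp C)

theorem inl_cmp (a : Idx) : pushout.inl _ _ ≫ cmp C a =
    yoneda.map (C.F.map (Theta.inl a.T a.j a.i a.hl a.hi)) := pushout.inl_desc _ _ _

theorem inr_cmp (a : Idx) : pushout.inr _ _ ≫ cmp C a =
    yoneda.map (C.F.map (Theta.inr a.T a.j a.i a.hl a.hi)) := pushout.inr_desc _ _ _

theorem map_symm {X : C.Cᵒᵖ ⥤ Type} {c d : C.C} (f : c ⟶ d) (x : X.obj (op d)) :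
    yoneda.map f ≫ yonedaEquiv.symm x = yonedaEquiv.symm (X.map f.op x) :=
  yonedaEquiv_symm_naturality_left f X x

theorem isModel_eq (C : GlobExt) : C.IsModel = (W C).isLocal := by
  funext X
  apply propext
  rw [isModel_iff]
  constructor
  · rintro h _ _ _ ⟨a⟩
    obtain ⟨h1, h2⟩ := h a.l a.T a.j a.i a.hl a.hi
    refine ⟨fun g g' hg => ?_, fun g => ?_⟩
    · obtain ⟨x, rfl⟩ := yonedaEquiv.symm.surjective g
      obtain ⟨x', rfl⟩ := yonedaEquiv.symm.surjective g'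
      have e1 := congrArg (fun k => pushout.inl _ _ ≫ k) hg
      have e2 := congrArg (fun k => pushout.inr _ _ ≫ k) hg
      simp only [← Category.assoc, inl_cmp, inr_cmp, map_symm] at e1 e2
      rw [h1 x x' ⟨yonedaEquiv.symm.injective e1, yonedaEquiv.symm.injective e2⟩]
    · obtain ⟨x₂, hx₂⟩ := yonedaEquiv.symm.surjective (pushout.inl _ _ ≫ g)
      obtain ⟨x₃, hx₃⟩ := yonedaEquiv.symm.surjective (pushout.inr _ _ ≫ g)
      obtain ⟨x, e1, e2⟩ := h2 x₂ x₃ (yonedaEquiv.symm.injective (by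
        rw [← map_symm, ← map_symm, hx₂, hx₃, pushout.condition_assoc]))
      refine ⟨yonedaEquiv.symm x, pushout.hom_ext ?_ ?_⟩
      · rw [← Category.assoc, inl_cmp, map_symm, e1, hx₂]
      · rw [← Category.assoc, inr_cmp, map_symm, e2, hx₃]
  · intro h
    suffices H : ∀ a : Idx,
        (∀ x y, X.map (C.F.map (Theta.inl a.T a.j a.i a.hl a.hi)).op x =
            X.map (C.F.map (Theta.inl a.T a.j a.i a.hl a.hi)).op y ∧
          X.map (C.F.map (Theta.inr a.T a.j a.i a.hl a.hi)).op x =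
            X.map (C.F.map (Theta.inr a.T a.j a.i a.hl a.hi)).op y → x = y) ∧
        ∀ x₂ x₃, X.map (C.F.map (Theta.sqL a.T a.j a.hl)).op x₂ =
            X.map (C.F.map (Theta.sqT a.j a.i a.hi)).op x₃ →
          ∃ x, X.map (C.F.map (Theta.inl a.T a.j a.i a.hl a.hi)).op x = x₂ ∧
            X.map (C.F.map (Theta.inr a.T a.j a.i a.hl a.hi)).op x = x₃ from
      fun l T j i hl hi => H ⟨l, T, j, i, hl, hi⟩
    intro a
    obtain ⟨h1, h2⟩ := h _ (MorphismProperty.ofHoms.mk (f := cmp C) a)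
    refine ⟨fun x y hxy => yonedaEquiv.symm.injective (h1 (pushout.hom_ext ?_ ?_)),
      fun x₂ x₃ hx => ?_⟩
    · simp only [← Category.assoc, inl_cmp, map_symm]
      exact congrArg _ hxy.1
    · simp only [← Category.assoc, inr_cmp, map_symm]
      exact congrArg _ hxy.2
    · obtain ⟨g, hg⟩ := h2 (pushout.desc (yonedaEquiv.symm x₂) (yonedaEquiv.symm x₃) (by
        rw [map_symm, map_symm]
        exact congrArg _ hx))
      obtain ⟨x, rfl⟩ := yonedaEquiv.symm.surjective g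
      have e1 := congrArg (fun k => pushout.inl _ _ ≫ k) hg
      have e2 := congrArg (fun k => pushout.inr _ _ ≫ k) hg
      simp only [← Category.assoc, inl_cmp, inr_cmp, map_symm, pushout.inl_desc,
        pushout.inr_desc] at e1 e2
      exact ⟨x, yonedaEquiv.symm.injective e1, yonedaEquiv.symm.injective e2⟩

/-- Maps out of a representable presheaf. -/
def coyonedaIso (c : C.C) :
    coyoneda.obj (op (yoneda.obj c)) ≅ (evaluation C.Cᵒᵖ Type).obj (op c) :=
  NatIso.ofComponents (fun _ => Equiv.toIso yonedaEquiv)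

theorem yoneda_pres (c : C.C) : IsCardinalPresentable.{0} (yoneda.obj c) Cardinal.aleph0 where
  preservesColimitOfShape _ _ _ := preservesColimitsOfShape_of_natIso (coyonedaIso c).symm

theorem hW (C : GlobExt) : ∀ ⦃X Y : C.Cᵒᵖ ⥤ Type⦄ (f : X ⟶ Y), W C f →
    IsCardinalPresentable.{0} X Cardinal.aleph0 ∧ IsCardinalPresentable.{0} Y Cardinal.aleph0 := by
  rintro _ _ _ ⟨a⟩
  refine ⟨?_, yoneda_pres _⟩
  have : ∀ k, IsCardinalPresentable.{0} ((span (yoneda.map (C.F.map (Theta.sqL a.T a.j a.hl)))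
      (yoneda.map (C.F.map (Theta.sqT a.j a.i a.hi)))).obj k) Cardinal.aleph0 := by
    rintro (_ | _ | _) <;> exact yoneda_pres _
  exact isCardinalPresentable_of_isColimit' _ (colimit.isColimit _) _
    ((hasCardinalLT_aleph0_iff _).2 inferInstance)

theorem isRightAdjoint (C : GlobExt) : C.IsModel.ι.IsRightAdjoint := by
  rw [isModel_eq]
  exact MorphismProperty.isRightAdjoint_ι_isLocal.{0} (W C) Cardinal.aleph0 (hW C)

theorem accessible (C : GlobExt) : C.IsModel.ι.IsCardinalAccessible.{0} Cardinal.aleph0 := by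
  rw [isModel_eq]
  exact MorphismProperty.isCardinalAccessible_ι_isLocal.{0} (W C) Cardinal.aleph0 (hW C)

end Colim

/-- Hint: `C.IsModel` is `W.isLocal` for the small class `W` of comparison maps
`pushout (yoneda.map sqL) (yoneda.map sqT) ⟶ yoneda.obj (T.snoc ..)`; use
`MorphismProperty.isRightAdjoint_ι_isLocal` with `κ = ℵ₀` (representables and their pushouts are
finitely presentable) and `hasColimits_of_reflective`. -/
instance gpd_hasColimits : HasColimits C.Gpd := by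
  have := Colim.isRightAdjoint C
  let _ : Reflective C.IsModel.ι := ⟨_, Adjunction.ofIsRightAdjoint C.IsModel.ι⟩
  exact hasColimits_of_reflective C.IsModel.ι

/-- Hint: filtered colimits commute with pullbacks in `Type`, or
`MorphismProperty.isCardinalAccessible_ι_isLocal`. -/
instance gpd_preservesFiltered : PreservesFilteredColimits C.IsModel.ι :=
  Functor.IsFinitelyAccessible_iff_preservesFilteredColimitsOfSize.1 (Colim.accessible C)

theorem rep_finPres (S : Theta) : IsFinitelyPresentable.{0} (rep C S) := by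
  rw [isFinitelyPresentable_iff_preservesFilteredColimitsOfSize]
  let e : coyoneda.obj (op (rep C S)) ≅
      C.IsModel.ι ⋙ (evaluation C.Cᵒᵖ Type).obj (op (C.F.obj S)) :=
    NatIso.ofComponents (fun _ => Equiv.toIso
      (C.IsModel.fullyFaithfulι.homEquiv.trans yonedaEquiv))
  exact ⟨fun _ _ _ => preservesColimitsOfShape_of_natIso e.symm⟩

/-- A sequential colimit, by its universal property. -/
structure IsSeqColim {A : Type*} [Category A] (X : ℕ → A) (s : ∀ k, X k ⟶ X (k + 1)) (Z : A)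
    (ι : ∀ k, X k ⟶ Z) : Prop where
  w : ∀ k, s k ≫ ι (k + 1) = ι k
  univ : ∀ (Y : A) (g : ∀ k, X k ⟶ Y), (∀ k, s k ≫ g (k + 1) = g k) →
    ∃! d : Z ⟶ Y, ∀ k, ι k ≫ d = g k

theorem IsSeqColim.map {A B : Type*} [Category A] [Category B] {L : A ⥤ B} {R : B ⥤ A}
    (adj : L ⊣ R) {X : ℕ → A} {s : ∀ k, X k ⟶ X (k + 1)} {Z : A} {ι : ∀ k, X k ⟶ Z}
    (h : IsSeqColim X s Z ι) :
    IsSeqColim (fun k => L.obj (X k)) (fun k => L.map (s k)) (L.obj Z) (fun k => L.map (ι k)) := by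
  refine ⟨fun k => by rw [← L.map_comp, h.w], fun Y g hg => ?_⟩
  obtain ⟨d, hd, hu⟩ := h.univ (R.obj Y) (fun k => adj.homEquiv _ _ (g k)) (fun k => by
    rw [← adj.homEquiv_naturality_left, hg])
  refine ⟨(adj.homEquiv _ _).symm d, fun k => ?_, fun d' hd' => ?_⟩
  · rw [← adj.homEquiv_naturality_left_symm, hd, Equiv.symm_apply_apply]
  · rw [Equiv.eq_symm_apply]
    exact hu _ fun k => by rw [← adj.homEquiv_naturality_left, hd']

namespace Colim

section Seq

variable {A : Type*} [Category A] {X : ℕ → A} {s : ∀ k, X k ⟶ X (k + 1)} {Z : A}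
  {ι : ∀ k, X k ⟶ Z}

/-- The cocone of a sequential colimit. -/
def cocone (h : IsSeqColim X s Z ι) : Cocone (Functor.ofSequence s) where
  pt := Z
  ι := NatTrans.ofSequence ι fun k => by
    rw [Functor.ofSequence_map_homOfLE_succ]
    exact (h.w k).trans (Category.comp_id _).symm

theorem cocone_w (c : Cocone (Functor.ofSequence s)) (k : ℕ) :
    s k ≫ c.ι.app (k + 1) = c.ι.app k := by
  have := c.w (homOfLE (Nat.le_add_right k 1))
  rwa [Functor.ofSequence_map_homOfLE_succ] at this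

/-- A sequential colimit is a colimit. -/
def isColimit (h : IsSeqColim X s Z ι) : IsColimit (cocone h) where
  desc c := (h.univ c.pt (fun k => c.ι.app k) (cocone_w c)).choose
  fac c k := (h.univ c.pt (fun k => c.ι.app k) (cocone_w c)).choose_spec.1 k
  uniq c m hm := (h.univ c.pt (fun k => c.ι.app k) (cocone_w c)).choose_spec.2 m hm

/-- Transition maps. -/
def tr (s : ∀ k, X k ⟶ X (k + 1)) {k k' : ℕ} (e : k ≤ k') : X k ⟶ X k' :=
  (Functor.ofSequence s).map (homOfLE e)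

theorem tr_ι (h : IsSeqColim X s Z ι) {k k' : ℕ} (e : k ≤ k') : tr s e ≫ ι k' = ι k :=
  (cocone h).w (homOfLE e)

theorem tr_tr {k k' k'' : ℕ} (e : k ≤ k') (e' : k' ≤ k'') :
    tr s e ≫ tr s e' = tr s (e.trans e') :=
  ((Functor.ofSequence s).map_comp (homOfLE e) (homOfLE e')).symm

end Seq

variable {X : ℕ → C.Gpd} {s : ∀ k, X k ⟶ X (k + 1)} {Z : C.Gpd} {ι : ∀ k, X k ⟶ Z}

/-- The colimit of the cells. -/
def cellColimit (h : IsSeqColim X s Z ι) (n : ℕ) :
    IsColimit ((C.IsModel.ι ⋙ (evaluation C.Cᵒᵖ Type).obj (op (C.D n))).mapCocone (cocone h)) :=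
  isColimitOfPreserves _ (isColimit h)

theorem cell_surj (h : IsSeqColim X s Z ι) {n : ℕ} (x : (ug Z).cell n) :
    ∃ (k : ℕ) (y : (ug (X k)).cell n), cm (um (ι k)) y = x :=
  Types.jointly_surjective_of_isColimit (cellColimit h n) x

theorem cell_inj (h : IsSeqColim X s Z ι) {n k : ℕ} {x y : (ug (X k)).cell n}
    (e : cm (um (ι k)) x = cm (um (ι k)) y) :
    ∃ (k' : ℕ) (a : k ≤ k'), cm (um (tr s a)) x = cm (um (tr s a)) y := by
  obtain ⟨k', f, g, hfg⟩ := (Types.FilteredColimit.isColimit_eq_iff _ (cellColimit h n)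
    (i := k) (j := k) (xi := x) (xj := y)).1 e
  exact ⟨k', leOfHom f, hfg⟩

theorem sph_inj (h : IsSeqColim X s Z ι) {k : ℕ} : ∀ {n : ℕ} {x y : (ug (X k)).Sph n},
    sm (um (ι k)) x = sm (um (ι k)) y →
      ∃ (k' : ℕ) (a : k ≤ k'), sm (um (tr s a)) x = sm (um (tr s a)) y
  | 0, _, _, _ => ⟨k, le_rfl, Subsingleton.elim _ _⟩
  | _ + 1, x, y, e => by
    obtain ⟨k₁, a₁, e₁⟩ := cell_inj h (x := sfst x) (y := sfst y) (congrArg sfst e)
    obtain ⟨k₂, a₂, e₂⟩ := cell_inj h (x := ssnd x) (y := ssnd y) (congrArg ssnd e)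
    refine ⟨max k₁ k₂, a₁.trans (le_max_left _ _), sph_ext ?_ ?_⟩
    · rw [sfst_sm, sfst_sm, ← tr_tr a₁ (le_max_left k₁ k₂), cm_um_comp, cm_um_comp, e₁]
    · have := tr_tr (s := s) a₂ (le_max_right k₁ k₂)
      rw [ssnd_sm, ssnd_sm, ← this, cm_um_comp, cm_um_comp, e₂]

theorem sph_surj (h : IsSeqColim X s Z ι) : ∀ {n : ℕ} (z : (ug Z).Sph n),
    ∃ (k : ℕ) (w : (ug (X k)).Sph n), sm (um (ι k)) w = z
  | 0, _ => ⟨0, sph0 _, Subsingleton.elim _ _⟩
  | _ + 1, z => by
    obtain ⟨k₁, a, ha⟩ := cell_surj h (sfst z)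
    obtain ⟨k₂, b, hb⟩ := cell_surj h (ssnd z)
    have ha' : cm (um (ι (max k₁ k₂))) (cm (um (tr s (le_max_left k₁ k₂))) a) = sfst z := by
      rw [← cm_um_comp, tr_ι h, ha]
    have hb' : cm (um (ι (max k₁ k₂))) (cm (um (tr s (le_max_right k₁ k₂))) b) = ssnd z := by
      rw [← cm_um_comp, tr_ι h, hb]
    generalize cm (um (tr s (le_max_left k₁ k₂))) a = a' at ha'
    generalize cm (um (tr s (le_max_right k₁ k₂))) b = b' at hb'
    obtain ⟨k, e, he⟩ := sph_inj h (x := bd a') (y := bd b') (by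
      rw [← bd_cm, ← bd_cm, ha', hb', bd_sfst])
    refine ⟨k, sph (cm (um (tr s e)) a') (cm (um (tr s e)) b') (by rw [bd_cm, bd_cm, he]),
      sph_ext ?_ ?_⟩
    · rw [sfst_sm, sfst_sph, ← cm_um_comp, tr_ι h, ha']
    · rw [ssnd_sm, ssnd_sph, ← cm_um_comp, tr_ι h, hb']

end Colim

/-- Spheres in a sequential colimit of models come from every late enough stage. Hint: turn `h`
into an `IsColimit` over `Functor.ofSequence s`, map it to `Type` by the functors preserving
filtered colimits, use `Types.jointly_surjective` and `Types.FilteredColimit.isColimit_eq_iff`. -/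
theorem IsSeqColim.sph_eventually {X : ℕ → C.Gpd} {s : ∀ k, X k ⟶ X (k + 1)} {Z : C.Gpd}
    {ι : ∀ k, X k ⟶ Z} (h : IsSeqColim X s Z ι) (n : ℕ) (z : (ug Z).Sph n) :
    ∃ k₀, ∀ k, k₀ ≤ k → ∃ w : (ug (X k)).Sph n, sm (um (ι k)) w = z := by
  obtain ⟨k₀, w, hw⟩ := Colim.sph_surj h z
  exact ⟨k₀, fun k e => ⟨sm (um (Colim.tr s e)) w, by rw [← sm_um_comp, Colim.tr_ι h, hw]⟩⟩

/-- The cells of `H` are the disjoint union of the cells of the `G α`. -/
def IsCellSum {ι : Type} {G : ι → GPsh} {H : GPsh} (k : ∀ α, G α ⟶ H) : Prop :=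
  ∀ n, Function.Bijective (fun p : (Σ α, (G α).cell n) => cm (k p.1) p.2)

namespace Colim

variable {ι : Type}

/-- The objectwise disjoint union of models. -/
def sumM (X : ι → C.Gpd) : C.Gpd :=
  ⟨{ obj := fun c => Σ α, (X α).obj.obj c
     map := fun f => TypeCat.ofHom fun p => ⟨p.1, (X p.1).obj.map f p.2⟩ },
    (isModel_iff _).2 fun l T j i hl hi => by
      refine ⟨?_, ?_⟩
      · rintro ⟨α, x⟩ ⟨β, y⟩ ⟨h1, h2⟩
        obtain rfl : α = β := congrArg Sigma.fst h1
        exact congrArg (Sigma.mk α) (((isModel_iff _).1 (X α).property l T j i hl hi).1 x y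
          ⟨eq_of_heq (Sigma.mk.inj h1).2, eq_of_heq (Sigma.mk.inj h2).2⟩)
      · rintro ⟨α, x⟩ ⟨β, y⟩ h
        obtain rfl : α = β := congrArg Sigma.fst h
        obtain ⟨z, h1, h2⟩ := ((isModel_iff _).1 (X α).property l T j i hl hi).2 x y
          (eq_of_heq (Sigma.mk.inj h).2)
        exact ⟨⟨α, z⟩, congrArg (Sigma.mk α) h1, congrArg (Sigma.mk α) h2⟩⟩

/-- The inclusion of a summand. -/
def sumInj (X : ι → C.Gpd) (α : ι) : X α ⟶ sumM X :=
  ObjectProperty.homMk { app := fun _ => TypeCat.ofHom fun x => ⟨α, x⟩ }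

/-- The map out of the disjoint union. -/
def sumDesc {X : ι → C.Gpd} {Y : C.Gpd} (g : ∀ α, X α ⟶ Y) : sumM X ⟶ Y :=
  ObjectProperty.homMk
    { app := fun c => TypeCat.ofHom fun p => (g p.1).hom.app c p.2
      naturality := fun _ _ a => by
        ext p
        exact NatTrans.naturality_apply (g p.1).hom a p.2 }

theorem sumInj_desc {X : ι → C.Gpd} {Y : C.Gpd} (g : ∀ α, X α ⟶ Y) (α : ι) :
    sumInj X α ≫ sumDesc g = g α := rfl

theorem cm_inj {G : ι → GPsh} {H : GPsh} {k : ∀ α, G α ⟶ H} (hk : IsCellSum k) (α : ι) {n : ℕ}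
    {x y : (G α).cell n} (h : cm (k α) x = cm (k α) y) : x = y :=
  eq_of_heq (Sigma.mk.inj ((hk n).1 (a₁ := ⟨α, x⟩) (a₂ := ⟨α, y⟩) h)).2

theorem sm_inj {G : ι → GPsh} {H : GPsh} {k : ∀ α, G α ⟶ H} (hk : IsCellSum k) (α : ι) :
    ∀ {n : ℕ} {x y : (G α).Sph n}, sm (k α) x = sm (k α) y → x = y
  | 0, _, _, _ => Subsingleton.elim _ _
  | _ + 1, _, _, h => sph_ext (cm_inj hk α (congrArg sfst h)) (cm_inj hk α (congrArg ssnd h))

end Colim

/-- Hint: the objectwise disjoint union `c ↦ Σ α, (X α).obj.obj c` is a model (`isModel_iff`) and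
is a coproduct; compare with `∐ X` by uniqueness of colimits. -/
theorem isCellSum_coprod {ι : Type} (X : ι → C.Gpd) :
    IsCellSum (fun α => um (Sigma.ι X α)) := by
  intro n
  have h1 : Sigma.desc (Colim.sumInj X) ≫ Colim.sumDesc (Sigma.ι X) = 𝟙 _ :=
    Sigma.hom_ext _ _ fun α => by
      rw [← Category.assoc, Sigma.ι_desc, Colim.sumInj_desc, Category.comp_id]
  have h2 : ∀ p : (Σ α, (ug (X α)).cell n),
      cm (um (Sigma.desc (Colim.sumInj X))) (cm (um (Sigma.ι X p.1)) p.2) = p := fun p => by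
    rw [← cm_um_comp, Sigma.ι_desc]
    rfl
  refine ⟨fun p q h => (h2 p).symm.trans ((congrArg _ h).trans (h2 q)), fun y => ?_⟩
  refine ⟨cm (um (Sigma.desc (Colim.sumInj X))) y, ?_⟩
  have h3 := cm_um_comp (Sigma.desc (Colim.sumInj X)) (Colim.sumDesc (Sigma.ι X)) y
  rw [h1, cm_um_id] at h3
  exact h3.symm

/-- A sum of weak equivalences is a weak equivalence. -/
theorem WE.of_isCellSum {ι : Type} {G H : ι → GPsh} {G' H' : GPsh} {k : ∀ α, G α ⟶ G'}
    {k' : ∀ α, H α ⟶ H'} (hk : IsCellSum k) (hk' : IsCellSum k') (f : ∀ α, G α ⟶ H α)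
    (φ : G' ⟶ H') (hφ : ∀ α, k α ≫ φ = f α ≫ k' α) (hf : ∀ α, WE (f α)) : WE φ := by
  intro n z y hy
  obtain ⟨⟨α, y'⟩, rfl⟩ := (hk' n).2 y
  have key : ∀ {m : ℕ} (x : G'.cell m) (c : (H α).cell m), cm (k' α) c = cm φ x →
      ∃ a : (G α).cell m, cm (k α) a = x ∧ cm (f α) a = c := by
    intro m x c hc
    obtain ⟨⟨β, a⟩, rfl⟩ := (hk m).2 x
    have h1 : cm (k' β) (cm (f β) a) = cm (k' α) c := by
      rw [hc, ← cm_comp, ← hφ, cm_comp]
    have h2 := (hk' m).1 (a₁ := ⟨β, cm (f β) a⟩) (a₂ := ⟨α, c⟩) h1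
    obtain rfl : β = α := congrArg Sigma.fst h2
    exact ⟨a, rfl, eq_of_heq (Sigma.mk.inj h2).2⟩
  have hz : ∃ z' : (G α).Sph n, sm (k α) z' = z ∧ bd y' = sm (f α) z' := by
    cases n with
    | zero => exact ⟨sph0 _, Subsingleton.elim _ _, Subsingleton.elim _ _⟩
    | succ n =>
      obtain ⟨a, ha, ha'⟩ := key (sfst z) (src y')
        ((src_cm (k' α) y').symm.trans (congrArg sfst hy))
      obtain ⟨b, hb, hb'⟩ := key (ssnd z) (tgt y')
        ((tgt_cm (k' α) y').symm.trans (congrArg ssnd hy))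
      refine ⟨sph a b (Colim.sm_inj hk α (by rw [← bd_cm, ← bd_cm, ha, hb, bd_sfst])),
        sph_ext ha hb, sph_ext ha'.symm hb'.symm⟩
  obtain ⟨z', rfl, hz'⟩ := hz
  obtain ⟨x, hx, hh⟩ := hf α n z' y' hz'
  refine ⟨cm (k α) x, by rw [bd_cm, hx], ?_⟩
  rw [← cm_comp, hφ, cm_comp]
  exact hh.map (k' α)

end Vale.Agent.P259
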