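import Vale.Agent.P259.Glob

/-! P259: models, their underlying globular sets, the nerve bijection, representables, explicit
limits of models and the classes of maps used in the proof. -/

open CategoryTheory Limits Opposite

noncomputable section

namespace Vale.Agent.P259

/-- The inclusion of the globe category in `Θ₀`. -/
def iota : Globe ⥤ Theta where
  obj d := Theta.D d.as.n
  map f := InducedCategory.homMk (yoneda.map f)
  map_id _ := InducedCategory.hom_ext (yoneda.map_id _)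
  map_comp _ _ := InducedCategory.hom_ext (yoneda.map_comp _ _)

/-- The inclusion of the last disc. -/
def lastT {l : ℕ} (T : Tab l) : Theta.D l ⟶ Theta.mk T := InducedCategory.homMk T.sum.2

theorem sqL_eq {l : ℕ} (T : Tab l) (j : ℕ) (hl : j < l) :
    Theta.sqL T j hl = iota.map (Globe.tau hl.le) ≫ lastT T := rfl

theorem sqT_eq (j i : ℕ) (hi : j < i) : Theta.sqT j i hi = iota.map (Globe.sig hi.le) := rfl

theorem lastT_base (i : ℕ) : lastT (.base i) = 𝟙 (Theta.D i) := rfl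

theorem lastT_snoc {l : ℕ} (T : Tab l) (j i : ℕ) (hl : j < l) (hi : j < i) :
    lastT (T.snoc j i hl hi) = Theta.inr T j i hl hi := rfl

/-- The Segal condition for presheaves on `Θ₀`. -/
def Segal (Y : Thetaᵒᵖ ⥤ Type) : Prop :=
  ∀ (l : ℕ) (T : Tab l) (j i : ℕ) (hl : j < l) (hi : j < i),
    IsPullback (Y.map (Theta.inl T j i hl hi).op) (Y.map (Theta.inr T j i hl hi).op)
      (Y.map (Theta.sqL T j hl).op) (Y.map (Theta.sqT j i hi).op)

/-- A cell of a globular sum as a morphism of `Θ₀`. -/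
def cellHom {l : ℕ} (T : Tab l) (d : Globe) (e : T.sum.1.obj (op d)) : iota.obj d ⟶ Theta.mk T :=
  InducedCategory.homMk (yonedaEquiv.symm e)

section nv

variable (Y : Thetaᵒᵖ ⥤ Type)

/-- The pasting diagram underlying an element of a presheaf on `Θ₀`. -/
def nv {l : ℕ} (T : Tab l) (x : Y.obj (op (Theta.mk T))) : Ext (iota.op ⋙ Y) T where
  app d := TypeCat.ofHom fun e => Y.map (cellHom T d.unop e).op x
  naturality d d' g := by
    ext e
    change Y.map _ x = Y.map (iota.map g.unop).op (Y.map _ x)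
    rw [← Functor.map_comp_apply, ← op_comp]
    exact congrArg (fun k => Y.map (Quiver.Hom.op k) x)
      (InducedCategory.hom_ext (yonedaEquiv_symm_naturality_left g.unop _ e).symm)

theorem nv_map {l l' : ℕ} {S : Tab l} {T : Tab l'} (a : Theta.mk S ⟶ Theta.mk T)
    (x : Y.obj (op (Theta.mk T))) : nv Y S (Y.map a.op x) = a.hom ≫ nv Y T x := by
  ext d e
  change Y.map _ (Y.map _ x) = Y.map _ x
  rw [← Functor.map_comp_apply, ← op_comp]
  exact congrArg (fun k => Y.map (Quiver.Hom.op k) x)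
    (InducedCategory.hom_ext (yonedaEquiv_symm_naturality_right _ _ _))

theorem nv_nat {Y' : Thetaᵒᵖ ⥤ Type} (φ : Y ⟶ Y') {l : ℕ} (T : Tab l)
    (x : Y.obj (op (Theta.mk T))) :
    nv Y' T (φ.app _ x) = nv Y T x ≫ Functor.whiskerLeft iota.op φ := by
  ext d e
  exact (NatTrans.naturality_apply φ _ x).symm

theorem last_nv {l : ℕ} (T : Tab l) (x : Y.obj (op (Theta.mk T))) :
    Ext.last (nv Y T x) = Y.map (lastT T).op x := by
  change Y.map (cellHom _ _ (yonedaEquiv T.sum.2)).op x = _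
  exact congrArg (fun k => Y.map (Quiver.Hom.op k) x)
    (InducedCategory.hom_ext (Equiv.symm_apply_apply _ _))

theorem init_nv {l : ℕ} (T : Tab l) (j i : ℕ) (hl : j < l) (hi : j < i)
    (x : Y.obj (op (Theta.mk (T.snoc j i hl hi)))) :
    Ext.init (nv Y (T.snoc j i hl hi) x) = nv Y T (Y.map (Theta.inl T j i hl hi).op x) :=
  (nv_map Y (Theta.inl T j i hl hi) x).symm

theorem nv_bijective (hY : Segal Y) {l : ℕ} (T : Tab l) : Function.Bijective (nv Y T) := by
  induction T with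
  | base i =>
    have h : ∀ x, Ext.last (nv Y (.base i) x) = x := fun x => by
      rw [last_nv, lastT_base]
      exact Functor.map_id_apply Y _ _
    refine ⟨fun x y e => by rw [← h x, e, h], fun η => ⟨Ext.last η, Ext.base_ext (h _)⟩⟩
  | @snoc l T j i hl hi ih =>
    constructor
    · intro x y e
      apply Types.ext_of_isPullback (hY l T j i hl hi)
      · apply ih.1
        rw [← init_nv, ← init_nv, e]
      · rw [← lastT_snoc, ← last_nv, ← last_nv, e]
    · intro η
      obtain ⟨x₁, hx₁⟩ := ih.2 (Ext.init η)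
      obtain ⟨x, hx, hx'⟩ := Types.exists_of_isPullback (hY l T j i hl hi) x₁ (Ext.last η) (by
        have := Ext.tgtI_last_init η
        rw [← hx₁, last_nv] at this
        exact (Functor.map_comp_apply Y (lastT T).op (iota.map (Globe.tau hl.le)).op x₁).trans this)
      refine ⟨x, Ext.snoc_ext ?_ ?_⟩
      · rw [init_nv, hx, hx₁]
      · rw [last_nv, lastT_snoc, hx']

end nv

namespace GlobExt

/-- Lifts can be chosen over lifts downstairs. -/
def HasLifts {E B : GlobExt} (π : Hom E B) : Prop :=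
  ∀ (p : E.Pair) (hb : B.D (p.n + 1) ⟶ B.F.obj p.S), IsLift hb (π.push p.f) (π.push p.g) →
    ∃ h, IsLift h p.f p.g ∧ π.push h = hb

end GlobExt

open GlobExt

/-- The two properties of a coherator used in the proof. -/
class Coh (C : GlobExt) : Prop where
  lift : ∀ (S : C.C) (n : ℕ) (f g : C.D n ⟶ S), Parallel f g → ∃ h, IsLift h f g
  along : ∀ (E B : GlobExt) (π : Hom E B) (G : Hom C B), HasLifts π →
    ∃ G' : Hom C E, G'.comp π = G

variable {C : GlobExt}

/-- The underlying globular set functor. -/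
def GlobExt.U (C : GlobExt) : C.Gpd ⥤ GPsh :=
  C.IsModel.ι ⋙ (Functor.whiskeringLeft _ _ _).obj C.F.op ⋙
    (Functor.whiskeringLeft _ _ _).obj iota.op

/-- Underlying globular set of a model. -/
abbrev ug (X : C.Gpd) : GPsh := C.U.obj X

/-- Underlying globular map. -/
abbrev um {X Y : C.Gpd} (f : X ⟶ Y) : ug X ⟶ ug Y := C.U.map f

theorem um_id (X : C.Gpd) : um (𝟙 X) = 𝟙 (ug X) := C.U.map_id X

theorem um_comp {X Y Z : C.Gpd} (f : X ⟶ Y) (g : Y ⟶ Z) : um (f ≫ g) = um f ≫ um g :=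
  C.U.map_comp f g

@[simp] theorem cm_um_id (X : C.Gpd) {n : ℕ} (x : (ug X).cell n) : cm (um (𝟙 X)) x = x := rfl

theorem cm_um_comp {X Y Z : C.Gpd} (f : X ⟶ Y) (g : Y ⟶ Z) {n : ℕ} (x : (ug X).cell n) :
    cm (um (f ≫ g)) x = cm (um g) (cm (um f) x) := rfl

@[simp] theorem sm_um_id (X : C.Gpd) {n : ℕ} (x : (ug X).Sph n) : sm (um (𝟙 X)) x = x := by
  rw [um_id, sm_id]

theorem sm_um_comp {X Y Z : C.Gpd} (f : X ⟶ Y) (g : Y ⟶ Z) {n : ℕ} (x : (ug X).Sph n) :
    sm (um (f ≫ g)) x = sm (um g) (sm (um f) x) := by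
  rw [um_comp, sm_comp]

/-- Elements of a model over a globular sum. -/
abbrev El (X : C.Gpd) (S : Theta) : Type := X.obj.obj (op (C.F.obj S))

/-- Action of an operation `θ` on a model. -/
def act (X : C.Gpd) {S T : Theta} (θ : C.F.obj S ⟶ C.F.obj T) (x : El X T) : El X S :=
  X.obj.map θ.op x

theorem act_comp (X : C.Gpd) {S T W : Theta} (θ : C.F.obj S ⟶ C.F.obj T)
    (θ' : C.F.obj T ⟶ C.F.obj W) (x : El X W) : act X (θ ≫ θ') x = act X θ (act X θ' x) := by
  simp [act]

theorem act_id (X : C.Gpd) {S : Theta} (x : El X S) : act X (𝟙 _) x = x := by simp [act]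

/-- Action of a map of models on elements. -/
def elm {X Y : C.Gpd} (f : X ⟶ Y) {S : Theta} (x : El X S) : El Y S := f.hom.app _ x

theorem act_elm {X Y : C.Gpd} (f : X ⟶ Y) {S T : Theta} (θ : C.F.obj S ⟶ C.F.obj T)
    (x : El X T) : act Y θ (elm f x) = elm f (act X θ x) :=
  (NatTrans.naturality_apply f.hom θ.op x).symm

theorem elm_eq_cm {X Y : C.Gpd} (f : X ⟶ Y) {n : ℕ} (x : (ug X).cell n) :
    elm (S := Theta.D n) f x = cm (um f) x := rfl

theorem src_eq_act (X : C.Gpd) {n : ℕ} (x : (ug X).cell (n + 1)) :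
    src x = act X (S := Theta.D n) (T := Theta.D (n + 1)) (C.cs n) x := rfl

theorem tgt_eq_act (X : C.Gpd) {n : ℕ} (x : (ug X).cell (n + 1)) :
    tgt x = act X (S := Theta.D n) (T := Theta.D (n + 1)) (C.ct n) x := rfl

/-- The nerve bijection of a model. -/
def nerve (X : C.Gpd) {l : ℕ} (T : Tab l) : El X (Theta.mk T) ≃ Ext (ug X) T :=
  Equiv.ofBijective (nv (C.F.op ⋙ X.obj) T) (nv_bijective (C.F.op ⋙ X.obj) X.property T)

theorem nerve_act (X : C.Gpd) {l l' : ℕ} {S : Tab l} {T : Tab l'} (a : Theta.mk S ⟶ Theta.mk T)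
    (x : El X (Theta.mk T)) :
    nerve X S (act X (C.F.map a) x) = a.hom ≫ nerve X T x := nv_map (C.F.op ⋙ X.obj) a x

theorem nerve_elm {X Y : C.Gpd} (f : X ⟶ Y) {l : ℕ} (T : Tab l) (x : El X (Theta.mk T)) :
    nerve Y T (elm f x) = nerve X T x ≫ um f :=
  nv_nat (C.F.op ⋙ X.obj) (Functor.whiskerLeft C.F.op f.hom) T x

theorem last_nerve (X : C.Gpd) {l : ℕ} (T : Tab l) (x : El X (Theta.mk T)) :
    Ext.last (nerve X T x) = act X (C.F.map (lastT T)) x := last_nv (C.F.op ⋙ X.obj) T x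

theorem init_nerve (X : C.Gpd) {l : ℕ} (T : Tab l) (j i : ℕ) (hl : j < l) (hi : j < i)
    (x : El X (Theta.mk (T.snoc j i hl hi))) :
    Ext.init (nerve X (T.snoc j i hl hi) x) =
      nerve X T (act X (C.F.map (Theta.inl T j i hl hi)) x) :=
  init_nv (C.F.op ⋙ X.obj) T j i hl hi x

theorem last_nerve_base (X : C.Gpd) {n : ℕ} (x : (ug X).cell n) :
    Ext.last (nerve X (.base n) x) = x := by
  refine (last_nerve X (.base n) x).trans ?_
  rw [lastT_base, C.F.map_id]
  exact act_id X _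

theorem nerve_base (X : C.Gpd) {n : ℕ} (x : (ug X).cell n) :
    nerve X (.base n) x = Ext.ofCell x :=
  Ext.base_ext ((last_nerve_base X x).trans (Ext.last_ofCell x).symm)

theorem gpd_hom_ext_el {X Y : C.Gpd} {f g : X ⟶ Y}
    (h : ∀ (S : Theta) (x : El X S), elm f x = elm g x) : f = g := by
  apply ObjectProperty.hom_ext
  ext ⟨c⟩ x
  obtain ⟨S, rfl⟩ := C.bij.2 c
  exact h S x

/-- Maps of models are determined by their action on cells. -/
theorem gpd_hom_ext {X Y : C.Gpd} {f g : X ⟶ Y}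
    (h : ∀ (n : ℕ) (x : (ug X).cell n), cm (um f) x = cm (um g) x) : f = g :=
  gpd_hom_ext_el fun S x => (nerve Y S.2).injective (by
    have h1 := nerve_elm f S.2 x
    have h2 := nerve_elm g S.2 x
    rw [GPsh.hom_ext h] at h1
    exact h1.trans h2.symm)

/-- Representable models. -/
def rep (C : GlobExt) (S : Theta) : C.Gpd :=
  ⟨yoneda.obj (C.F.obj S), fun l T j i hl hi =>
    (C.pres l T j i hl hi).op.flip.map (yoneda.obj (C.F.obj S))⟩

/-- The universal element of a representable model. -/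
def repEl (C : GlobExt) (S : Theta) : El (rep C S) S := 𝟙 (C.F.obj S)

/-- The map out of a representable model classifying an element. -/
def repDesc {X : C.Gpd} {S : Theta} (x : El X S) : rep C S ⟶ X :=
  ObjectProperty.homMk (yonedaEquiv.symm x)

theorem elm_repDesc {X : C.Gpd} {S T : Theta} (x : El X S) (θ : El (rep C S) T) :
    elm (repDesc x) θ = act X θ x := rfl

theorem elm_repDesc_repEl {X : C.Gpd} {S : Theta} (x : El X S) :
    elm (repDesc x) (repEl C S) = x := act_id X x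

theorem rep_hom_ext {X : C.Gpd} {S : Theta} {f g : rep C S ⟶ X}
    (h : elm f (repEl C S) = elm g (repEl C S)) : f = g :=
  ObjectProperty.hom_ext _ (yonedaEquiv.injective h)

/-- The universal pasting diagram in a representable model. -/
def repExt (C : GlobExt) {l : ℕ} (S : Tab l) : Ext (ug (rep C (Theta.mk S))) S :=
  nerve _ S (repEl C (Theta.mk S))

theorem rep_univ {l : ℕ} (S : Tab l) (Y : C.Gpd) (ξ : Ext (ug Y) S) :
    ∃! f : rep C (Theta.mk S) ⟶ Y, repExt C S ≫ um f = ξ := by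
  refine ⟨repDesc ((nerve Y S).symm ξ), ?_, fun f hf => rep_hom_ext ?_⟩
  · beta_reduce
    rw [repExt, ← nerve_elm, elm_repDesc_repEl, Equiv.apply_symm_apply]
  · apply (nerve Y S).injective
    rw [elm_repDesc_repEl, Equiv.apply_symm_apply, nerve_elm, ← hf, repExt]

/-- The universal `n`-cell. -/
def discCell (C : GlobExt) (n : ℕ) : (ug (rep C (Theta.D n))).cell n := repEl C (Theta.D n)

theorem disc_univ (n : ℕ) (Y : C.Gpd) (y : (ug Y).cell n) :
    ∃! f : rep C (Theta.D n) ⟶ Y, cm (um f) (discCell C n) = y :=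
  ⟨repDesc (S := Theta.D n) y, elm_repDesc_repEl (S := Theta.D n) y,
    fun _ hf => rep_hom_ext (hf.trans (elm_repDesc_repEl (S := Theta.D n) y).symm)⟩

theorem contr_rep [Coh C] (S : Theta) : Contr (ug (rep C S))
  | 0 => fun _ => ⟨C.F.map (iota.map (Globe.sig (Nat.zero_le S.1)) ≫ lastT S.2), rfl⟩
  | n + 1 => fun z => by
    obtain ⟨h, h1, h2⟩ := Coh.lift (C.F.obj S) n (sfst z) (ssnd z) (by
      have := z.2
      cases n with
      | zero => trivial
      | succ n => exact this)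
    exact ⟨h, bd_eq_iff.2 ⟨h1, h2⟩⟩

/-! ### Explicit limits -/

theorem isModel_iff (X : C.Cᵒᵖ ⥤ Type) : C.IsModel X ↔
    ∀ (l : ℕ) (T : Tab l) (j i : ℕ) (hl : j < l) (hi : j < i),
      (∀ x y, X.map (C.F.map (Theta.inl T j i hl hi)).op x =
          X.map (C.F.map (Theta.inl T j i hl hi)).op y ∧
        X.map (C.F.map (Theta.inr T j i hl hi)).op x =
          X.map (C.F.map (Theta.inr T j i hl hi)).op y → x = y) ∧
      ∀ x₂ x₃, X.map (C.F.map (Theta.sqL T j hl)).op x₂ =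
          X.map (C.F.map (Theta.sqT j i hi)).op x₃ →
        ∃ x, X.map (C.F.map (Theta.inl T j i hl hi)).op x = x₂ ∧
          X.map (C.F.map (Theta.inr T j i hl hi)).op x = x₃ := by
  refine forall_congr' fun l => forall_congr' fun T => forall_congr' fun j =>
    forall_congr' fun i => forall_congr' fun hl => forall_congr' fun hi => ?_
  rw [Types.isPullback_iff]
  refine and_iff_right ?_
  rw [← X.map_comp, ← X.map_comp, ← op_comp, ← op_comp, (C.pres l T j i hl hi).w]

/-- The terminal model. -/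
def oneM (C : GlobExt) : C.Gpd :=
  ⟨(Functor.const _).obj PUnit, (isModel_iff _).2 fun _ _ _ _ _ _ =>
    ⟨fun _ _ _ => rfl, fun _ _ _ => ⟨PUnit.unit, rfl, rfl⟩⟩⟩

/-- The map to the terminal model. -/
def toOne (X : C.Gpd) : X ⟶ oneM C :=
  ObjectProperty.homMk { app := fun _ => TypeCat.ofHom fun _ => PUnit.unit }

instance (n : ℕ) : Subsingleton ((ug (oneM C)).cell n) := inferInstanceAs (Subsingleton PUnit)

theorem toOne_ext {X : C.Gpd} (f g : X ⟶ oneM C) : f = g :=
  gpd_hom_ext fun _ _ => Subsingleton.elim _ _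

/-- The product of two models; its cells are pairs by definition. -/
def prodM (X Y : C.Gpd) : C.Gpd :=
  ⟨{ obj := fun c => X.obj.obj c × Y.obj.obj c
     map := fun f => TypeCat.ofHom fun p => (X.obj.map f p.1, Y.obj.map f p.2) },
    (isModel_iff _).2 fun l T j i hl hi => by
      obtain ⟨h1, h2⟩ := (isModel_iff _).1 X.property l T j i hl hi
      obtain ⟨h3, h4⟩ := (isModel_iff _).1 Y.property l T j i hl hi
      refine ⟨fun x y h => Prod.ext (h1 _ _ ⟨congrArg Prod.fst h.1, congrArg Prod.fst h.2⟩)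
        (h3 _ _ ⟨congrArg Prod.snd h.1, congrArg Prod.snd h.2⟩), fun x y h => ?_⟩
      obtain ⟨a, ha, ha'⟩ := h2 x.1 y.1 (congrArg Prod.fst h)
      obtain ⟨b, hb, hb'⟩ := h4 x.2 y.2 (congrArg Prod.snd h)
      exact ⟨(a, b), Prod.ext ha hb, Prod.ext ha' hb'⟩⟩

def prodFst (X Y : C.Gpd) : prodM X Y ⟶ X :=
  ObjectProperty.homMk { app := fun _ => TypeCat.ofHom Prod.fst }

def prodSnd (X Y : C.Gpd) : prodM X Y ⟶ Y :=
  ObjectProperty.homMk { app := fun _ => TypeCat.ofHom Prod.snd }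

def prodLift {Z X Y : C.Gpd} (f : Z ⟶ X) (g : Z ⟶ Y) : Z ⟶ prodM X Y :=
  ObjectProperty.homMk
    { app := fun c => TypeCat.ofHom fun z => (f.hom.app c z, g.hom.app c z)
      naturality := fun _ _ a => by
        ext z
        have h1 := NatTrans.naturality_apply f.hom a z
        have h2 := NatTrans.naturality_apply g.hom a z
        exact Prod.ext h1 h2 }

theorem prodLift_fst {Z X Y : C.Gpd} (f : Z ⟶ X) (g : Z ⟶ Y) :
    prodLift f g ≫ prodFst X Y = f := rfl

theorem prodLift_snd {Z X Y : C.Gpd} (f : Z ⟶ X) (g : Z ⟶ Y) :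
    prodLift f g ≫ prodSnd X Y = g := rfl

theorem prod_hom_ext {Z X Y : C.Gpd} {f g : Z ⟶ prodM X Y}
    (h1 : f ≫ prodFst X Y = g ≫ prodFst X Y) (h2 : f ≫ prodSnd X Y = g ≫ prodSnd X Y) :
    f = g :=
  gpd_hom_ext_el fun _ x => Prod.ext (congrArg (fun k => elm k x) h1) (congrArg (fun k => elm k x) h2)

/-- The sub-model cut out by a stable, local predicate; its cells are a subtype by definition. -/
def subM (X : C.Gpd) (p : ∀ c : C.Cᵒᵖ, X.obj.obj c → Prop)
    (hp : ∀ {c d : C.Cᵒᵖ} (f : c ⟶ d) (x : X.obj.obj c), p c x → p d (X.obj.map f x))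
    (hloc : ∀ (l : ℕ) (T : Tab l) (j i : ℕ) (hl : j < l) (hi : j < i) (x),
      p _ (X.obj.map (C.F.map (Theta.inl T j i hl hi)).op x) →
      p _ (X.obj.map (C.F.map (Theta.inr T j i hl hi)).op x) → p _ x) : C.Gpd :=
  ⟨{ obj := fun c => {x // p c x}
     map := fun f => TypeCat.ofHom fun x => ⟨X.obj.map f x.1, hp f _ x.2⟩ },
    (isModel_iff _).2 fun l T j i hl hi => by
      obtain ⟨h1, h2⟩ := (isModel_iff _).1 X.property l T j i hl hi
      refine ⟨fun x y h => Subtype.ext (h1 _ _ ⟨congrArg Subtype.val h.1,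
        congrArg Subtype.val h.2⟩), fun x y h => ?_⟩
      obtain ⟨a, ha, ha'⟩ := h2 x.1 y.1 (congrArg Subtype.val h)
      exact ⟨⟨a, hloc l T j i hl hi a (ha ▸ x.2) (ha' ▸ y.2)⟩, Subtype.ext ha, Subtype.ext ha'⟩⟩

def subVal (X : C.Gpd) (p hp hloc) : subM X p hp hloc ⟶ X :=
  ObjectProperty.homMk { app := fun _ => TypeCat.ofHom Subtype.val }

def subLift {Z X : C.Gpd} {p hp hloc} (f : Z ⟶ X) (h : ∀ c z, p c (f.hom.app c z)) :
    Z ⟶ subM X p hp hloc :=
  ObjectProperty.homMk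
    { app := fun c => TypeCat.ofHom fun z => ⟨f.hom.app c z, h c z⟩
      naturality := fun _ _ a => by
        ext z
        have h1 := NatTrans.naturality_apply f.hom a z
        exact Subtype.ext h1 }

theorem subLift_val {Z X : C.Gpd} {p hp hloc} (f : Z ⟶ X) (h : ∀ c z, p c (f.hom.app c z)) :
    subLift (hp := hp) (hloc := hloc) f h ≫ subVal X p hp hloc = f := rfl

theorem sub_hom_ext {Z X : C.Gpd} {p hp hloc} {f g : Z ⟶ subM X p hp hloc}
    (h : f ≫ subVal X p hp hloc = g ≫ subVal X p hp hloc) : f = g :=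
  gpd_hom_ext_el fun _ x => Subtype.ext (congrArg (fun k => elm k x) h)

/-- The pullback of two maps of models; its cells are compatible pairs by definition. -/
def pbM {X Y Z : C.Gpd} (f : X ⟶ Z) (g : Y ⟶ Z) : C.Gpd :=
  subM (prodM X Y) (fun c p => f.hom.app c p.1 = g.hom.app c p.2)
    (fun a x h => (NatTrans.naturality_apply f.hom a x.1).trans
      ((congrArg _ h).trans (NatTrans.naturality_apply g.hom a x.2).symm))
    (fun l T j i hl hi x h1 h2 => ((isModel_iff _).1 Z.property l T j i hl hi).1 _ _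
      ⟨(NatTrans.naturality_apply f.hom _ x.1).symm.trans
        (h1.trans (NatTrans.naturality_apply g.hom _ x.2)),
       (NatTrans.naturality_apply f.hom _ x.1).symm.trans
        (h2.trans (NatTrans.naturality_apply g.hom _ x.2))⟩)

def pbFst {X Y Z : C.Gpd} (f : X ⟶ Z) (g : Y ⟶ Z) : pbM f g ⟶ X :=
  subVal _ _ _ _ ≫ prodFst X Y

def pbSnd {X Y Z : C.Gpd} (f : X ⟶ Z) (g : Y ⟶ Z) : pbM f g ⟶ Y :=
  subVal _ _ _ _ ≫ prodSnd X Y

theorem pb_cond {X Y Z : C.Gpd} (f : X ⟶ Z) (g : Y ⟶ Z) : pbFst f g ≫ f = pbSnd f g ≫ g :=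
  gpd_hom_ext_el fun _ x => x.2

def pbLift {W X Y Z : C.Gpd} {f : X ⟶ Z} {g : Y ⟶ Z} (a : W ⟶ X) (b : W ⟶ Y)
    (h : a ≫ f = b ≫ g) : W ⟶ pbM f g :=
  subLift (prodLift a b) fun c z => congrArg (fun k : W ⟶ Z => k.hom.app c z) h

theorem pbLift_fst {W X Y Z : C.Gpd} {f : X ⟶ Z} {g : Y ⟶ Z} (a : W ⟶ X) (b : W ⟶ Y)
    (h : a ≫ f = b ≫ g) : pbLift a b h ≫ pbFst f g = a := rfl

theorem pbLift_snd {W X Y Z : C.Gpd} {f : X ⟶ Z} {g : Y ⟶ Z} (a : W ⟶ X) (b : W ⟶ Y)
    (h : a ≫ f = b ≫ g) : pbLift a b h ≫ pbSnd f g = b := rfl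

theorem pb_hom_ext {W X Y Z : C.Gpd} {f : X ⟶ Z} {g : Y ⟶ Z} {a b : W ⟶ pbM f g}
    (h1 : a ≫ pbFst f g = b ≫ pbFst f g) (h2 : a ≫ pbSnd f g = b ≫ pbSnd f g) : a = b :=
  sub_hom_ext (prod_hom_ext h1 h2)

/-! ### Classes of maps -/

def tfib (C : GlobExt) : MorphismProperty C.Gpd := fun _ _ p => TFib (um p)

def jfib (C : GlobExt) (n : ℕ) : MorphismProperty C.Gpd := fun _ _ p => JFib n (um p)

/-- Cofibrations. -/
abbrev Cof {X Y : C.Gpd} (i : X ⟶ Y) : Prop := (tfib C).llp i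

/-- Maps with the left lifting property against fibrations in levels `≥ n`. -/
abbrev JCof (n : ℕ) {X Y : C.Gpd} (i : X ⟶ Y) : Prop := (jfib C n).llp i

/-- Cofibrant models. -/
def Cofibt (X : C.Gpd) : Prop :=
  ∀ (E B : C.Gpd) (p : E ⟶ B), TFib (um p) → ∀ b : X ⟶ B, ∃ l : X ⟶ E, l ≫ p = b

/-- `B` is obtained from `A` by freely adding a cell `h` with source `a`. -/
structure IsRaise {A B : C.Gpd} (i : A ⟶ B) {m : ℕ} (a : (ug A).cell m)
    (h : (ug B).cell (m + 1)) : Prop where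
  src_eq : src h = cm (um i) a
  univ : ∀ (Y : C.Gpd) (f : A ⟶ Y) (y : (ug Y).cell (m + 1)), src y = cm (um f) a →
    ∃! g : B ⟶ Y, i ≫ g = f ∧ cm (um g) h = y

/-- `B` is obtained from `A` by freely adding cells `x α` with boundaries `z α`. -/
structure IsAttach {A B : C.Gpd} (i : A ⟶ B) {ι : Type} (d : ι → ℕ)
    (z : ∀ α, (ug A).Sph (d α)) (x : ∀ α, (ug B).cell (d α)) : Prop where
  bd_eq : ∀ α, bd (x α) = sm (um i) (z α)
  univ : ∀ (Y : C.Gpd) (f : A ⟶ Y) (y : ∀ α, (ug Y).cell (d α)),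
    (∀ α, bd (y α) = sm (um f) (z α)) → ∃! g : B ⟶ Y, i ≫ g = f ∧ ∀ α, cm (um g) (x α) = y α

/-- The statement `A(n, N)` proved by downward induction on `n`. -/
def ThmA (C : GlobExt) (n N : ℕ) : Prop :=
  ∀ (X X' : C.Gpd) (i : X ⟶ X'), Cofibt X → JCof n i → ContrLe N (ug X) → ContrLe N (ug X')

end Vale.Agent.P259
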