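import Vale.Agent.P259.Glob

/-! P259: corepresentable functors. -/

open CategoryTheory Limits Opposite

noncomputable section

namespace Vale.Agent.P259

universe u

variable {𝒜 : Type u} [Category.{0} 𝒜]

/-- `(a, ξ)` is a universal element. -/
def Univ (Φ : 𝒜 ⥤ Type) (a : 𝒜) (ξ : Φ.obj a) : Prop :=
  ∀ (b : 𝒜) (y : Φ.obj b), ∃! f : a ⟶ b, Φ.map f ξ = y

/-- `(a, ξ)` is a weakly universal element. -/
def WUniv (Φ : 𝒜 ⥤ Type) (a : 𝒜) (ξ : Φ.obj a) : Prop :=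
  ∀ (b : 𝒜) (y : Φ.obj b), ∃ f : a ⟶ b, Φ.map f ξ = y

def Corep (Φ : 𝒜 ⥤ Type) : Prop := ∃ a ξ, Univ Φ a ξ

theorem Univ.wUniv {Φ : 𝒜 ⥤ Type} {a : 𝒜} {ξ : Φ.obj a} (h : Univ Φ a ξ) : WUniv Φ a ξ :=
  fun b y => (h b y).exists

/-- The functor of `n`-cells. -/
def cellF (G : 𝒜 ⥤ GPsh) (n : ℕ) : 𝒜 ⥤ Type where
  obj a := (G.obj a).cell n
  map f := TypeCat.ofHom fun x => cm (G.map f) x
  map_id a := by
    ext x
    change cm (G.map (𝟙 a)) x = x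
    rw [G.map_id, cm_id]
  map_comp f g := by
    ext x
    change cm (G.map (f ≫ g)) x = cm (G.map g) (cm (G.map f) x)
    rw [G.map_comp, cm_comp]

/-- The functor of `n`-spheres. -/
def sphF (G : 𝒜 ⥤ GPsh) (n : ℕ) : 𝒜 ⥤ Type where
  obj a := (G.obj a).Sph n
  map f := TypeCat.ofHom fun x => sm (G.map f) x
  map_id a := by
    ext x
    change sm (G.map (𝟙 a)) x = x
    rw [G.map_id, sm_id]
  map_comp f g := by
    ext x
    change sm (G.map (f ≫ g)) x = sm (G.map g) (sm (G.map f) x)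
    rw [G.map_comp, sm_comp]

/-- The functor of pasting diagrams of shape `T`. -/
def extF (G : 𝒜 ⥤ GPsh) {l : ℕ} (T : Tab l) : 𝒜 ⥤ Type where
  obj a := Ext (G.obj a) T
  map f := TypeCat.ofHom fun ξ => ξ ≫ G.map f
  map_id a := by
    ext x : 3
    change x ≫ G.map (𝟙 a) = x
    rw [G.map_id, Category.comp_id]
  map_comp f g := by
    ext x : 3
    change x ≫ G.map (f ≫ g) = (x ≫ G.map f) ≫ G.map g
    rw [G.map_comp, Category.assoc]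

theorem cellF_map (G : 𝒜 ⥤ GPsh) (n : ℕ) {a b : 𝒜} (f : a ⟶ b) (x : (G.obj a).cell n) :
    (cellF G n).map f x = cm (G.map f) x := rfl

theorem sphF_map (G : 𝒜 ⥤ GPsh) (n : ℕ) {a b : 𝒜} (f : a ⟶ b) (x : (G.obj a).Sph n) :
    (sphF G n).map f x = sm (G.map f) x := rfl

theorem extF_map (G : 𝒜 ⥤ GPsh) {l : ℕ} (T : Tab l) {a b : 𝒜} (f : a ⟶ b)
    (x : Ext (G.obj a) T) : (extF G T).map f x = x ≫ G.map f := rfl

/-- A natural transformation of type-valued functors from functions. -/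
def natMk {Φ Ψ : 𝒜 ⥤ Type} (u : ∀ a, Φ.obj a → Ψ.obj a)
    (h : ∀ a b (f : a ⟶ b) x, u b (Φ.map f x) = Ψ.map f (u a x)) : Φ ⟶ Ψ where
  app a := TypeCat.ofHom (u a)
  naturality a b f := by
    ext x
    exact h a b f x

theorem natMk_app {Φ Ψ : 𝒜 ⥤ Type} (u : ∀ a, Φ.obj a → Ψ.obj a) (h) (a : 𝒜) (x : Φ.obj a) :
    (natMk u h).app a x = u a x := rfl

/-- The subfunctor cut out by a stable predicate. -/
def subF (Φ : 𝒜 ⥤ Type) (p : ∀ a, Φ.obj a → Prop)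
    (hp : ∀ a b (f : a ⟶ b) x, p a x → p b (Φ.map f x)) : 𝒜 ⥤ Type where
  obj a := {x // p a x}
  map f := TypeCat.ofHom fun x => ⟨Φ.map f x.1, hp _ _ f _ x.2⟩

/-- The product of two type-valued functors. -/
def prodF (Φ Ψ : 𝒜 ⥤ Type) : 𝒜 ⥤ Type where
  obj a := Φ.obj a × Ψ.obj a
  map f := TypeCat.ofHom fun x => (Φ.map f x.1, Ψ.map f x.2)

theorem Corep.of_bij {Φ Ψ : 𝒜 ⥤ Type} (u : Φ ⟶ Ψ) (hu : ∀ a, Function.Bijective (u.app a))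
    (h : Corep Ψ) : Corep Φ := by
  obtain ⟨a, ξ, h⟩ := h
  obtain ⟨ξ, rfl⟩ := (hu a).2 ξ
  refine ⟨a, ξ, fun b y => ?_⟩
  obtain ⟨f, hf, hf'⟩ := h b (u.app b y)
  refine ⟨f, (hu b).1 ((NatTrans.naturality_apply u f ξ).trans hf), fun g hg => hf' g ?_⟩
  exact (NatTrans.naturality_apply u g ξ).symm.trans (congrArg _ hg)

theorem Corep.of_bij' {Φ Ψ : 𝒜 ⥤ Type} (u : Φ ⟶ Ψ) (hu : ∀ a, Function.Bijective (u.app a))
    (h : Corep Φ) : Corep Ψ := by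
  obtain ⟨a, ξ, h⟩ := h
  refine ⟨a, u.app a ξ, fun b y => ?_⟩
  obtain ⟨y, rfl⟩ := (hu b).2 y
  obtain ⟨f, hf, hf'⟩ := h b y
  exact ⟨f, (NatTrans.naturality_apply u f ξ).symm.trans (congrArg _ hf),
    fun g hg => hf' g ((hu b).1 ((NatTrans.naturality_apply u g ξ).trans hg))⟩

theorem corep_of_unique [HasInitial 𝒜] (Φ : 𝒜 ⥤ Type) (h : ∀ a, Nonempty (Unique (Φ.obj a))) :
    Corep Φ := by
  have h' : ∀ a, Unique (Φ.obj a) := fun a => (h a).some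
  exact ⟨⊥_ 𝒜, (h' _).default, fun b y => ⟨initial.to b, (h' b).instSubsingleton.elim _ _,
    fun g _ => initial.hom_ext _ _⟩⟩

theorem Corep.of_pullback [HasPushouts 𝒜] {Φ Φ₁ Φ₂ Ψ : 𝒜 ⥤ Type} (π₁ : Φ ⟶ Φ₁) (π₂ : Φ ⟶ Φ₂)
    (u : Φ₁ ⟶ Ψ) (v : Φ₂ ⟶ Ψ) (w : ∀ a x, u.app a (π₁.app a x) = v.app a (π₂.app a x))
    (hb : ∀ a y₁ y₂, u.app a y₁ = v.app a y₂ → ∃! x, π₁.app a x = y₁ ∧ π₂.app a x = y₂)
    (h₁ : Corep Φ₁) (h₂ : Corep Φ₂) (h₃ : Corep Ψ) : Corep Φ := by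
  obtain ⟨a₁, ξ₁, h₁⟩ := h₁
  obtain ⟨a₂, ξ₂, h₂⟩ := h₂
  obtain ⟨a₃, ξ₃, h₃⟩ := h₃
  obtain ⟨f₁, e₁, -⟩ := h₃ a₁ (u.app _ ξ₁)
  obtain ⟨f₂, e₂, -⟩ := h₃ a₂ (v.app _ ξ₂)
  have k₁ : ∀ {b : 𝒜} (g : a₁ ⟶ b), Ψ.map (f₁ ≫ g) ξ₃ = u.app b (Φ₁.map g ξ₁) := fun g => by
    rw [Functor.map_comp_apply, e₁, NatTrans.naturality_apply]
  have k₂ : ∀ {b : 𝒜} (g : a₂ ⟶ b), Ψ.map (f₂ ≫ g) ξ₃ = v.app b (Φ₂.map g ξ₂) := fun g => by
    rw [Functor.map_comp_apply, e₂, NatTrans.naturality_apply]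
  obtain ⟨x, ⟨x₁, x₂⟩, -⟩ := hb (pushout f₁ f₂) (Φ₁.map (pushout.inl _ _) ξ₁)
    (Φ₂.map (pushout.inr _ _) ξ₂) (by rw [← k₁, ← k₂, pushout.condition])
  have m₁ : ∀ {b : 𝒜} (g : pushout f₁ f₂ ⟶ b),
      π₁.app b (Φ.map g x) = Φ₁.map (pushout.inl _ _ ≫ g) ξ₁ := fun g => by
    rw [Functor.map_comp_apply, ← x₁, NatTrans.naturality_apply]
  have m₂ : ∀ {b : 𝒜} (g : pushout f₁ f₂ ⟶ b),
      π₂.app b (Φ.map g x) = Φ₂.map (pushout.inr _ _ ≫ g) ξ₂ := fun g => by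
    rw [Functor.map_comp_apply, ← x₂, NatTrans.naturality_apply]
  refine ⟨_, x, fun b y => ?_⟩
  obtain ⟨g₁, c₁, d₁⟩ := h₁ b (π₁.app b y)
  obtain ⟨g₂, c₂, d₂⟩ := h₂ b (π₂.app b y)
  have hg : f₁ ≫ g₁ = f₂ ≫ g₂ := (h₃ b (u.app b (π₁.app b y))).unique (by rw [k₁, c₁])
    (by rw [k₂, c₂, w])
  refine ⟨pushout.desc g₁ g₂ hg, (hb b _ _ (w b y)).unique ⟨?_, ?_⟩ ⟨rfl, rfl⟩,
    fun g hg' => pushout.hom_ext ?_ ?_⟩
  · rw [m₁, pushout.inl_desc, c₁]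
  · rw [m₂, pushout.inr_desc, c₂]
  · rw [pushout.inl_desc]
    exact d₁ _ ((m₁ g).symm.trans (congrArg _ hg'))
  · rw [pushout.inr_desc]
    exact d₂ _ ((m₂ g).symm.trans (congrArg _ hg'))

theorem Corep.prod [HasPushouts 𝒜] [HasInitial 𝒜] {Φ Ψ : 𝒜 ⥤ Type} (h₁ : Corep Φ)
    (h₂ : Corep Ψ) : Corep (prodF Φ Ψ) := by
  refine Corep.of_pullback (Ψ := (Functor.const _).obj PUnit)
    (natMk (fun _ x => x.1) fun _ _ _ _ => rfl) (natMk (fun _ x => x.2) fun _ _ _ _ => rfl)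
    (natMk (fun _ _ => PUnit.unit) fun _ _ _ _ => rfl)
    (natMk (fun _ _ => PUnit.unit) fun _ _ _ _ => rfl) (fun _ _ => rfl)
    (fun a y₁ y₂ _ => ⟨(y₁, y₂), ⟨rfl, rfl⟩, fun x hx => Prod.ext hx.1 hx.2⟩) h₁ h₂
    (corep_of_unique _ fun _ => ⟨inferInstanceAs (Unique PUnit)⟩)

/-- Equalizers: `Φ'` is the part of `Φ` on which `u` and `v` agree. -/
theorem Corep.of_eq [HasPushouts 𝒜] [HasInitial 𝒜] {Φ' Φ Ψ : 𝒜 ⥤ Type} (k : Φ' ⟶ Φ)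
    (u v : Φ ⟶ Ψ) (w : ∀ a x, u.app a (k.app a x) = v.app a (k.app a x))
    (hb : ∀ a y, u.app a y = v.app a y → ∃! x, k.app a x = y)
    (h₁ : Corep Φ) (h₂ : Corep Ψ) : Corep Φ' := by
  refine Corep.of_pullback (Ψ := prodF Ψ Ψ) k (k ≫ u)
    (natMk (fun a x => (u.app a x, v.app a x)) fun _ _ f x =>
      Prod.ext (NatTrans.naturality_apply u f x) (NatTrans.naturality_apply v f x))
    (natMk (fun _ x => (x, x)) fun _ _ _ _ => rfl) (fun a x => Prod.ext rfl (w a x).symm)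
    (fun a y₁ y₂ e => ?_) h₁ h₂ (h₂.prod h₂)
  have e₁ : u.app a y₁ = y₂ := congrArg Prod.fst e
  have e₂ : v.app a y₁ = y₂ := congrArg Prod.snd e
  obtain ⟨x, hx, hx'⟩ := hb a y₁ (e₁.trans e₂.symm)
  exact ⟨x, ⟨hx, (congrArg (u.app a) hx).trans e₁⟩, fun x' h => hx' x' h.1⟩

theorem corep_sph [HasPushouts 𝒜] [HasInitial 𝒜] (G : 𝒜 ⥤ GPsh) (n : ℕ)
    (h : ∀ j, j < n → Corep (cellF G j)) : Corep (sphF G n) := by
  induction n with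
  | zero => exact corep_of_unique _ fun _ => ⟨inferInstanceAs (Unique PUnit)⟩
  | succ n ih =>
    exact Corep.of_pullback (Φ₁ := cellF G n) (Φ₂ := cellF G n) (Ψ := sphF G n)
      (natMk (fun _ z => sfst z) fun _ _ _ _ => rfl) (natMk (fun _ z => ssnd z) fun _ _ _ _ => rfl)
      (natMk (fun _ x => bd x) fun _ _ f x => bd_cm (G.map f) x)
      (natMk (fun _ x => bd x) fun _ _ f x => bd_cm (G.map f) x) (fun _ z => bd_sfst z)
      (fun _ y₁ y₂ e => ⟨sph y₁ y₂ e, ⟨rfl, rfl⟩, fun _ hz => sph_ext hz.1 hz.2⟩)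
      (h n (Nat.lt_succ_self n)) (h n (Nat.lt_succ_self n))
      (ih fun j hj => h j (Nat.lt_succ_of_lt hj))

theorem corep_ext [HasPushouts 𝒜] (G : 𝒜 ⥤ GPsh) (h : ∀ j, Corep (cellF G j)) {l : ℕ}
    (T : Tab l) : Corep (extF G T) := by
  induction T with
  | base i =>
    exact Corep.of_bij (Ψ := cellF G i)
      (natMk (fun _ ξ => Ext.last ξ) fun _ _ f ξ => Ext.last_comp ξ (G.map f))
      (fun _ => ⟨fun _ _ e => Ext.base_ext e, fun x => ⟨Ext.ofCell x, Ext.last_ofCell x⟩⟩) (h i)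
  | snoc T j i hl hi ih =>
    exact Corep.of_pullback (Φ₁ := extF G T) (Φ₂ := cellF G i) (Ψ := cellF G j)
      (natMk (fun _ ξ => Ext.init ξ) fun _ _ f ξ => Ext.init_comp ξ (G.map f))
      (natMk (fun _ ξ => Ext.last ξ) fun _ _ f ξ => Ext.last_comp ξ (G.map f))
      (natMk (fun _ ξ => tgtI hl.le (Ext.last ξ)) fun _ _ f ξ =>
        (congrArg (tgtI hl.le) (Ext.last_comp ξ (G.map f))).trans (tgtI_cm _ _ _))
      (natMk (fun _ x => srcI hi.le x) fun _ _ _ _ => srcI_cm _ _ _)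
      (fun _ ξ => Ext.tgtI_last_init ξ)
      (fun _ y₁ y₂ e => ⟨Ext.glue hl hi y₁ y₂ e, ⟨Ext.init_glue _ _ _, Ext.last_glue _ _ _⟩,
        fun _ hz => Ext.snoc_ext (hz.1.trans (Ext.init_glue _ _ e).symm)
          (hz.2.trans (Ext.last_glue _ _ e).symm)⟩) ih (h i) (h j)

theorem Corep.left {Φ : 𝒜 ⥤ Type} (h : Corep Φ) :
    Corep ((Arrow.leftFunc : Arrow 𝒜 ⥤ 𝒜) ⋙ Φ) := by
  obtain ⟨a, ξ, h⟩ := h
  refine ⟨Arrow.mk (𝟙 a), ξ, fun b y => ?_⟩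
  obtain ⟨f, hf, hf'⟩ := h b.left y
  refine ⟨Arrow.homMk f (f ≫ b.hom) (Category.id_comp _).symm, hf, fun g hg => ?_⟩
  have e : g.left = f := hf' g.left hg
  refine Arrow.hom_ext _ _ e ?_
  have := Arrow.w g
  rw [e] at this
  exact (Category.id_comp _).symm.trans this.symm

theorem Corep.right [HasInitial 𝒜] {Φ : 𝒜 ⥤ Type} (h : Corep Φ) :
    Corep ((Arrow.rightFunc : Arrow 𝒜 ⥤ 𝒜) ⋙ Φ) := by
  obtain ⟨a, ξ, h⟩ := h
  refine ⟨Arrow.mk (initial.to a), ξ, fun b y => ?_⟩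
  obtain ⟨f, hf, hf'⟩ := h b.right y
  exact ⟨Arrow.homMk (initial.to _) f (initial.hom_ext _ _), hf,
    fun g hg => Arrow.hom_ext _ _ (initial.hom_ext _ _) (hf' g.right hg)⟩

/-- A relation that can be satisfied at a weakly universal element can be satisfied naturally.
Hint: the universal element is a retract of the weakly universal one. -/
theorem natFill {Φ Ψ : 𝒜 ⥤ Type} (hΦ : Corep Φ) {b : 𝒜} {ζ : Φ.obj b} (hb : WUniv Φ b ζ)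
    (R : ∀ a, Φ.obj a → Ψ.obj a → Prop)
    (hR : ∀ a a' (g : a ⟶ a') ξ y, R a ξ y → R a' (Φ.map g ξ) (Ψ.map g y))
    (y₀ : Ψ.obj b) (h₀ : R b ζ y₀) : ∃ T : Φ ⟶ Ψ, ∀ a ξ, R a ξ (T.app a ξ) := by
  obtain ⟨a, ξ, h⟩ := hΦ
  obtain ⟨r, hr⟩ := hb a ξ
  have h₁ := hR _ _ r _ _ h₀
  rw [hr] at h₁
  choose c hc hc' using h
  refine ⟨natMk (fun a' x => Ψ.map (c a' x) (Ψ.map r y₀)) fun a' b' f x => ?_, fun a' x => ?_⟩
  · rw [← hc' b' _ (c a' x ≫ f) (by beta_reduce; rw [Functor.map_comp_apply, hc]),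
      Functor.map_comp_apply]
  · have := hR _ _ (c a' x) _ _ h₁
    rwa [hc] at this

/-- Lifting properties of the map between universal objects, read on the functors. -/
theorem Univ.hasLiftingProperty {Φ Φ' : 𝒜 ⥤ Type} {a a' : 𝒜} {ξ : Φ.obj a} {ξ' : Φ'.obj a'}
    (h : Univ Φ a ξ) (h' : Univ Φ' a' ξ') (π : Φ' ⟶ Φ) (u : a ⟶ a')
    (hu : Φ.map u ξ = π.app a' ξ') {e b : 𝒜} (p : e ⟶ b)
    (hp : ∀ (x : Φ.obj e) (y : Φ'.obj b), Φ.map p x = π.app b y →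
      ∃ x' : Φ'.obj e, π.app e x' = x ∧ Φ'.map p x' = y) : HasLiftingProperty u p := by
  refine ⟨fun {f g} sq => ?_⟩
  have k : ∀ {c : 𝒜} (l : a' ⟶ c), Φ.map (u ≫ l) ξ = π.app c (Φ'.map l ξ') := fun l => by
    rw [Functor.map_comp_apply, hu, NatTrans.naturality_apply]
  obtain ⟨x', h1, h2⟩ := hp (Φ.map f ξ) (Φ'.map g ξ') (by
    rw [← Functor.map_comp_apply, sq.w, k])
  obtain ⟨l, hl, -⟩ := h' e x'
  refine CommSq.HasLift.mk' ⟨l, (h e (Φ.map f ξ)).unique (by rw [k, hl, h1]) rfl,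
    (h' b (Φ'.map g ξ')).unique (by rw [Functor.map_comp_apply, hl, h2]) rfl⟩

/-- Pointwise pullback of globular sets; cells are compatible pairs by definition. -/
def pbG {X Y Z : GPsh} (f : X ⟶ Z) (g : Y ⟶ Z) : GPsh where
  obj c := {p : X.obj c × Y.obj c // f.app c p.1 = g.app c p.2}
  map a := TypeCat.ofHom fun p => ⟨(X.map a p.1.1, Y.map a p.1.2),
    (NatTrans.naturality_apply f a p.1.1).trans
      ((congrArg _ p.2).trans (NatTrans.naturality_apply g a p.1.2).symm)⟩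

def pbGFst {X Y Z : GPsh} (f : X ⟶ Z) (g : Y ⟶ Z) : pbG f g ⟶ X where
  app _ := TypeCat.ofHom fun p => p.1.1

def pbGSnd {X Y Z : GPsh} (f : X ⟶ Z) (g : Y ⟶ Z) : pbG f g ⟶ Y where
  app _ := TypeCat.ofHom fun p => p.1.2

theorem pbG_cond {X Y Z : GPsh} (f : X ⟶ Z) (g : Y ⟶ Z) : pbGFst f g ≫ f = pbGSnd f g ≫ g :=
  GPsh.hom_ext fun _ x => x.2

def pbGLift {W X Y Z : GPsh} {f : X ⟶ Z} {g : Y ⟶ Z} (a : W ⟶ X) (b : W ⟶ Y)
    (h : a ≫ f = b ≫ g) : W ⟶ pbG f g where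
  app c := TypeCat.ofHom fun w =>
    ⟨(a.app c w, b.app c w), congrArg (fun k : W ⟶ Z => k.app c w) h⟩
  naturality _ _ k := by
    ext w
    have h1 := NatTrans.naturality_apply a k w
    have h2 := NatTrans.naturality_apply b k w
    exact Subtype.ext (Prod.ext h1 h2)

theorem pbGLift_fst {W X Y Z : GPsh} {f : X ⟶ Z} {g : Y ⟶ Z} (a : W ⟶ X) (b : W ⟶ Y)
    (h : a ≫ f = b ≫ g) : pbGLift a b h ≫ pbGFst f g = a := rfl

theorem pbGLift_snd {W X Y Z : GPsh} {f : X ⟶ Z} {g : Y ⟶ Z} (a : W ⟶ X) (b : W ⟶ Y)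
    (h : a ≫ f = b ≫ g) : pbGLift a b h ≫ pbGSnd f g = b := rfl

theorem pbG_hom_ext {W X Y Z : GPsh} {f : X ⟶ Z} {g : Y ⟶ Z} {a b : W ⟶ pbG f g}
    (h1 : a ≫ pbGFst f g = b ≫ pbGFst f g) (h2 : a ≫ pbGSnd f g = b ≫ pbGSnd f g) : a = b :=
  GPsh.hom_ext fun _ x =>
    Subtype.ext (Prod.ext (congrArg (fun k => cm k x) h1) (congrArg (fun k => cm k x) h2))

theorem pbG_cell_ext {X Y Z : GPsh} {f : X ⟶ Z} {g : Y ⟶ Z} {n : ℕ} {a b : (pbG f g).cell n}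
    (h1 : cm (pbGFst f g) a = cm (pbGFst f g) b) (h2 : cm (pbGSnd f g) a = cm (pbGSnd f g) b) :
    a = b := Subtype.ext (Prod.ext h1 h2)

theorem pbG_sph_ext {X Y Z : GPsh} {f : X ⟶ Z} {g : Y ⟶ Z} :
    ∀ {n : ℕ} {a b : (pbG f g).Sph n}, sm (pbGFst f g) a = sm (pbGFst f g) b →
      sm (pbGSnd f g) a = sm (pbGSnd f g) b → a = b
  | 0, _, _, _, _ => rfl
  | _ + 1, _, _, h1, h2 =>
    sph_ext (pbG_cell_ext (congrArg sfst h1) (congrArg sfst h2))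
      (pbG_cell_ext (congrArg ssnd h1) (congrArg ssnd h2))

/-- A cell of the pullback from a compatible pair. -/
def pbGCell {X Y Z : GPsh} {f : X ⟶ Z} {g : Y ⟶ Z} {n : ℕ} (x : X.cell n) (y : Y.cell n)
    (h : cm f x = cm g y) : (pbG f g).cell n := ⟨(x, y), h⟩

theorem cm_fst_pbGCell {X Y Z : GPsh} {f : X ⟶ Z} {g : Y ⟶ Z} {n : ℕ} (x : X.cell n)
    (y : Y.cell n) (h : cm f x = cm g y) : cm (pbGFst f g) (pbGCell x y h) = x := rfl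

theorem cm_snd_pbGCell {X Y Z : GPsh} {f : X ⟶ Z} {g : Y ⟶ Z} {n : ℕ} (x : X.cell n)
    (y : Y.cell n) (h : cm f x = cm g y) : cm (pbGSnd f g) (pbGCell x y h) = y := rfl

/-- The pullback of natural families of globular sets. -/
def pbGF {X Y Z : 𝒜 ⥤ GPsh} (f : X ⟶ Z) (g : Y ⟶ Z) : 𝒜 ⥤ GPsh where
  obj a := pbG (f.app a) (g.app a)
  map k := pbGLift (pbGFst _ _ ≫ X.map k) (pbGSnd _ _ ≫ Y.map k) (by
    rw [Category.assoc, Category.assoc, f.naturality, g.naturality, ← Category.assoc, pbG_cond,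
      Category.assoc])
  map_id a := pbG_hom_ext (by rw [pbGLift_fst, X.map_id, Category.comp_id, Category.id_comp])
    (by rw [pbGLift_snd, Y.map_id, Category.comp_id, Category.id_comp])
  map_comp k k' := pbG_hom_ext
    (by rw [pbGLift_fst, X.map_comp, Category.assoc, pbGLift_fst, ← Category.assoc,
      ← Category.assoc, pbGLift_fst])
    (by rw [pbGLift_snd, Y.map_comp, Category.assoc, pbGLift_snd, ← Category.assoc,
      ← Category.assoc, pbGLift_snd])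

def pbGFFst {X Y Z : 𝒜 ⥤ GPsh} (f : X ⟶ Z) (g : Y ⟶ Z) : pbGF f g ⟶ X where
  app a := pbGFst (f.app a) (g.app a)

def pbGFSnd {X Y Z : 𝒜 ⥤ GPsh} (f : X ⟶ Z) (g : Y ⟶ Z) : pbGF f g ⟶ Y where
  app a := pbGSnd (f.app a) (g.app a)

end Vale.Agent.P259
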