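import Vale.Agent.P259.Glob

/-! P259: relative coskeleta of globular maps. -/

open CategoryTheory Limits Opposite

noncomputable section

namespace Vale.Agent.P259

universe u

namespace Cosk

variable {W B W' B' : GPsh}

/-- Cells of the relative coskeleton: a cell of `B` with lifts of its iterated sources and
targets in dimensions below `N`. -/
@[ext]
structure Cell (N : ℕ) (q : W ⟶ B) (j : ℕ) : Type where
  b : B.cell j
  u : ∀ i, i < N → i ≤ j → W.cell i
  v : ∀ i, i < N → i ≤ j → W.cell i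
  su : ∀ i h1 h2 h3 h4, src (u (i + 1) h1 h2) = u i h3 h4
  tu : ∀ i h1 h2 h3 h4, tgt (u (i + 1) h1 h2) = v i h3 h4
  sv : ∀ i h1 h2 h3 h4, src (v (i + 1) h1 h2) = u i h3 h4
  tv : ∀ i h1 h2 h3 h4, tgt (v (i + 1) h1 h2) = v i h3 h4
  top : ∀ h1 h2, u j h1 h2 = v j h1 h2
  qu : ∀ i h1 h2, cm q (u i h1 h2) = srcI h2 b
  qv : ∀ i h1 h2, cm q (v i h1 h2) = tgtI h2 b

variable {N : ℕ} {q : W ⟶ B} {q' : W' ⟶ B'}

theorem tgtI_src' {j i : ℕ} (h : i ≤ j) (hne : i ≠ j) (h' : i ≤ j + 1) (x : B.cell (j + 1)) :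
    tgtI h (src x) = tgtI h' x := by
  rw [tgtI_succ h h', ← tgtI_src (lt_of_le_of_ne h hne)]

theorem srcI_tgt' {j i : ℕ} (h : i ≤ j) (hne : i ≠ j) (h' : i ≤ j + 1) (x : B.cell (j + 1)) :
    srcI h (tgt x) = srcI h' x := by
  rw [srcI_succ h h', ← srcI_tgt (lt_of_le_of_ne h hne)]

/-- Source. -/
def s (j : ℕ) (p : Cell N q (j + 1)) : Cell N q j where
  b := src p.b
  u i h1 h2 := p.u i h1 (Nat.le_succ_of_le h2)
  v i h1 h2 := if i = j then p.u i h1 (Nat.le_succ_of_le h2) else p.v i h1 (Nat.le_succ_of_le h2)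
  su i h1 h2 h3 h4 := p.su i _ _ _ _
  tu i h1 h2 h3 h4 := by rw [if_neg (by omega)]; exact p.tu i _ _ _ _
  sv i h1 h2 h3 h4 := by
    split_ifs
    · exact p.su i _ _ _ _
    · exact p.sv i _ _ _ _
  tv i h1 h2 h3 h4 := by
    rw [if_neg (show ¬ i = j by omega)]
    split_ifs
    · exact p.tu i _ _ _ _
    · exact p.tv i _ _ _ _
  top h1 h2 := by rw [if_pos rfl]
  qu i h1 h2 := by rw [p.qu, srcI_succ h2]
  qv i h1 h2 := by
    split_ifs with h
    · subst h
      rw [p.qu, srcI_succ h2, srcI_self, tgtI_self]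
    · rw [p.qv, tgtI_src' h2 h]

/-- Target. -/
def t (j : ℕ) (p : Cell N q (j + 1)) : Cell N q j where
  b := tgt p.b
  u i h1 h2 := if i = j then p.v i h1 (Nat.le_succ_of_le h2) else p.u i h1 (Nat.le_succ_of_le h2)
  v i h1 h2 := p.v i h1 (Nat.le_succ_of_le h2)
  su i h1 h2 h3 h4 := by
    rw [if_neg (show ¬ i = j by omega)]
    split_ifs
    · exact p.sv i _ _ _ _
    · exact p.su i _ _ _ _
  tu i h1 h2 h3 h4 := by
    split_ifs
    · exact p.tv i _ _ _ _
    · exact p.tu i _ _ _ _
  sv i h1 h2 h3 h4 := by rw [if_neg (by omega)]; exact p.sv i _ _ _ _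
  tv i h1 h2 h3 h4 := p.tv i _ _ _ _
  top h1 h2 := by rw [if_pos rfl]
  qu i h1 h2 := by
    split_ifs with h
    · subst h
      rw [p.qv, tgtI_succ h2, srcI_self, tgtI_self]
    · rw [p.qu, srcI_tgt' h2 h]
  qv i h1 h2 := by rw [p.qv, tgtI_succ h2]

/-- The relative coskeleton of one map. -/
def data (N : ℕ) (q : W ⟶ B) : GData where
  cell := Cell N q
  s := s
  t := t
  ss n x := by
    refine Cell.ext (src_src _) ?_ ?_
    · funext i h1 h2
      simp only [s, t, if_neg (show ¬ i = n + 1 by omega)]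
    · funext i h1 h2
      simp only [s, t, if_neg (show ¬ i = n + 1 by omega)]
  ts n x := by
    refine Cell.ext (tgt_src _) ?_ ?_
    · funext i h1 h2
      simp only [s, t, if_neg (show ¬ i = n + 1 by omega)]
    · funext i h1 h2
      simp only [s, t, if_neg (show ¬ i = n + 1 by omega)]

/-- Action of a square on cells. -/
def mapC (f : W ⟶ W') (g : B ⟶ B') (w : f ≫ q' = q ≫ g) (j : ℕ) (p : Cell N q j) :
    Cell N q' j where
  b := cm g p.b
  u i h1 h2 := cm f (p.u i h1 h2)
  v i h1 h2 := cm f (p.v i h1 h2)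
  su i h1 h2 h3 h4 := by rw [src_cm, p.su]
  tu i h1 h2 h3 h4 := by rw [tgt_cm, p.tu]
  sv i h1 h2 h3 h4 := by rw [src_cm, p.sv]
  tv i h1 h2 h3 h4 := by rw [tgt_cm, p.tv]
  top h1 h2 := by rw [p.top]
  qu i h1 h2 := by rw [← cm_comp, w, cm_comp, p.qu, srcI_cm]
  qv i h1 h2 := by rw [← cm_comp, w, cm_comp, p.qv, tgtI_cm]

/-- Action of a square. -/
def map (N : ℕ) (f : W ⟶ W') (g : B ⟶ B') (w : f ≫ q' = q ≫ g) :
    (data N q).psh ⟶ (data N q').psh :=
  GPsh.homMk (mapC f g w)
    (fun n x => by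
      change s n (mapC f g w _ x) = mapC f g w _ (s n x)
      refine Cell.ext (src_cm _ _) rfl ?_
      funext i h1 h2
      simp only [s, mapC]
      split_ifs <;> rfl)
    (fun n x => by
      change t n (mapC f g w _ x) = mapC f g w _ (t n x)
      refine Cell.ext (tgt_cm _ _) ?_ rfl
      funext i h1 h2
      simp only [t, mapC]
      split_ifs <;> rfl)

/-- The cell defined by a cell of `W`. -/
def ofC (N : ℕ) (q : W ⟶ B) (j : ℕ) (x : W.cell j) : Cell N q j where
  b := cm q x
  u i _ h2 := srcI h2 x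
  v i _ h2 := tgtI h2 x
  su i h1 h2 h3 h4 := src_srcI _ _
  tu i h1 h2 h3 h4 := by
    induction j, h2 using Nat.le_induction with
    | base => rw [srcI_self, tgtI_succ le_rfl, tgtI_self]
    | succ j h ih =>
      rw [srcI_succ h, ih _ (Nat.le_of_succ_le h), tgtI_src' _ (by omega)]
  sv i h1 h2 h3 h4 := by
    induction j, h2 using Nat.le_induction with
    | base => rw [tgtI_self, srcI_succ le_rfl, srcI_self]
    | succ j h ih =>
      rw [tgtI_succ h, ih _ (Nat.le_of_succ_le h), srcI_tgt' _ (by omega)]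
  tv i h1 h2 h3 h4 := tgt_tgtI _ _
  top h1 h2 := by rw [srcI_self, tgtI_self]
  qu i h1 h2 := (srcI_cm _ _ _).symm
  qv i h1 h2 := (tgtI_cm _ _ _).symm

/-- The map from `W`. -/
def ofE (N : ℕ) (q : W ⟶ B) : W ⟶ (data N q).psh :=
  GPsh.homMk (ofC N q)
    (fun n x => by
      change s n (ofC N q _ x) = ofC N q _ (src x)
      refine Cell.ext (src_cm _ _) ?_ ?_
      · funext i h1 h2
        exact srcI_succ _ _ _
      · funext i h1 h2
        simp only [s, ofC]
        split_ifs with h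
        · subst h
          rw [srcI_succ h2, srcI_self, tgtI_self]
        · exact (tgtI_src' h2 h _ _).symm)
    (fun n x => by
      change t n (ofC N q _ x) = ofC N q _ (tgt x)
      refine Cell.ext (tgt_cm _ _) ?_ ?_
      · funext i h1 h2
        simp only [t, ofC]
        split_ifs with h
        · subst h
          rw [tgtI_succ h2, srcI_self, tgtI_self]
        · exact (srcI_tgt' h2 h _ _).symm
      · funext i h1 h2
        exact tgtI_succ _ _ _)

/-- The map to `B`. -/
def toB (N : ℕ) (q : W ⟶ B) : (data N q).psh ⟶ B :=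
  GPsh.homMk (fun _ (p : Cell N q _) => p.b) (fun _ _ => rfl) fun _ _ => rfl

theorem srcI_u {j : ℕ} (p : Cell N q j) {i k : ℕ} (h : i ≤ k) (h1 h2 h3 h4) :
    srcI h (p.u k h1 h2) = p.u i h3 h4 := by
  induction k, h using Nat.le_induction with
  | base => rw [srcI_self]
  | succ k h ih => rw [srcI_succ h, p.su k h1 h2 (by omega) (by omega), ih]

theorem tgtI_v {j : ℕ} (p : Cell N q j) {i k : ℕ} (h : i ≤ k) (h1 h2 h3 h4) :
    tgtI h (p.v k h1 h2) = p.v i h3 h4 := by
  induction k, h using Nat.le_induction with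
  | base => rw [tgtI_self]
  | succ k h ih => rw [tgtI_succ h, p.tv k h1 h2 (by omega) (by omega), ih]

theorem bij {j : ℕ} (hj : j < N) : Function.Bijective (ofC N q j) := by
  constructor
  · intro x y h
    have h1 : srcI le_rfl x = srcI le_rfl y := congrArg (fun p => p.u j hj le_rfl) h
    rwa [srcI_self, srcI_self] at h1
  · intro p
    refine ⟨p.u j hj le_rfl, Cell.ext ?_ ?_ ?_⟩
    · exact (p.qu _ _ _).trans (srcI_self _ _)
    · funext i h1 h2
      exact srcI_u p h2 _ _ _ _
    · funext i h1 h2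
      change tgtI h2 (p.u j hj le_rfl) = _
      rw [p.top]
      exact tgtI_v p h2 _ _ _ _

theorem par_uv {m : ℕ} {x y : Cell N q m} (h : Par (G := (data N q).psh) (n := m) x y) {i : ℕ}
    (hi : i ≠ m) (h1 : i < N) (h2 : i ≤ m) :
    x.u i h1 h2 = y.u i h1 h2 ∧ x.v i h1 h2 = y.v i h1 h2 := by
  cases m with
  | zero => omega
  | succ m =>
    exact ⟨congrArg (fun p : Cell N q m => p.u i h1 (by omega)) h.1,
      congrArg (fun p : Cell N q m => p.v i h1 (by omega)) h.2⟩

/-- The filler of a sphere over a cell of `B`. -/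
def fill {m : ℕ} (hm : N ≤ m + 1) (x y : Cell N q m)
    (h : Par (G := (data N q).psh) x y) (b : B.cell (m + 1)) (hx : src b = x.b)
    (hy : tgt b = y.b) : Cell N q (m + 1) where
  b := b
  u i h1 _ := x.u i h1 (by omega)
  v i h1 _ := y.v i h1 (by omega)
  su i h1 h2 h3 h4 := x.su i _ _ _ _
  tu i h1 h2 h3 h4 := (x.tu i _ _ h3 (by omega)).trans (par_uv h (by omega) _ _).2
  sv i h1 h2 h3 h4 := (y.sv i _ _ h3 (by omega)).trans (par_uv h (by omega) _ _).1.symm
  tv i h1 h2 h3 h4 := y.tv i _ _ _ _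
  top h1 h2 := by omega
  qu i h1 h2 := by rw [x.qu, ← hx, srcI_succ]
  qv i h1 h2 := by rw [y.qv, ← hy, tgtI_succ]

theorem lift {j : ℕ} (hj : N ≤ j) (z : (data N q).psh.Sph j) (b : B.cell j)
    (hb : bd b = sm (toB N q) z) :
    ∃! x : (data N q).psh.cell j, bd x = z ∧ cm (toB N q) x = b := by
  cases j with
  | zero =>
    obtain rfl : N = 0 := by omega
    refine ⟨(⟨b, fun _ h => absurd h (by omega), fun _ h => absurd h (by omega),
      fun _ h => absurd h (by omega), fun _ h => absurd h (by omega),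
      fun _ h => absurd h (by omega), fun _ h => absurd h (by omega),
      fun h => absurd h (by omega), fun _ h => absurd h (by omega),
      fun _ h => absurd h (by omega)⟩ : Cell 0 q 0), ⟨rfl, rfl⟩, fun y hy => ?_⟩
    refine Cell.ext hy.2 ?_ ?_
    · funext i h
      omega
    · funext i h
      omega
  | succ m =>
    obtain ⟨⟨x, y⟩, h⟩ := z
    obtain ⟨hx, hy⟩ := bd_eq_iff.1 hb
    refine ⟨fill hj x y h b hx hy, ⟨bd_eq_iff.2 ⟨?_, ?_⟩, rfl⟩, fun p hp => ?_⟩
    · change s m (fill hj x y h b hx hy) = x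
      refine Cell.ext hx rfl ?_
      funext i h1 h2
      simp only [s, fill]
      split_ifs with hi
      · subst hi
        exact Cell.top x _ _
      · exact (par_uv h hi _ _).2.symm
    · change t m (fill hj x y h b hx hy) = y
      refine Cell.ext hy ?_ rfl
      funext i h1 h2
      simp only [t, fill]
      split_ifs with hi
      · subst hi
        exact (Cell.top y _ _).symm
      · exact (par_uv h hi _ _).1
    · obtain ⟨h1, h2⟩ := bd_eq_iff.1 hp.1
      refine Cell.ext hp.2 ?_ ?_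
      · funext i h3 h4
        exact congrArg (fun r : Cell N q m => r.u i h3 (by omega)) h1
      · funext i h3 h4
        exact congrArg (fun r : Cell N q m => r.v i h3 (by omega)) h2

end Cosk

variable {𝒜 : Type u} [Category.{0} 𝒜]

/-- The relative coskeleton of a natural family of globular maps. -/
theorem exists_cosk (N : ℕ) (W B : 𝒜 ⥤ GPsh) (q : W ⟶ B) :
    ∃ (K : 𝒜 ⥤ GPsh) (ofE : W ⟶ K) (toB : K ⟶ B), ofE ≫ toB = q ∧
      (∀ a j, j < N → Function.Bijective (fun x : (W.obj a).cell j => cm (ofE.app a) x)) ∧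
      ∀ a j, N ≤ j → ∀ (z : (K.obj a).Sph j) (b : (B.obj a).cell j), bd b = sm (toB.app a) z →
        ∃! x : (K.obj a).cell j, bd x = z ∧ cm (toB.app a) x = b := by
  let K : 𝒜 ⥤ GPsh :=
    { obj := fun a => (Cosk.data N (q.app a)).psh
      map := fun f => Cosk.map N (W.map f) (B.map f) (q.naturality f)
      map_id := fun a => GPsh.hom_ext fun n x => by
        change Cosk.mapC _ _ (q.naturality (𝟙 a)) n x = x
        refine Cosk.Cell.ext ?_ ?_ ?_
        · simp [Cosk.mapC]
        · funext i h1 h2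
          simp [Cosk.mapC]
        · funext i h1 h2
          simp [Cosk.mapC]
      map_comp := fun f g => GPsh.hom_ext fun n x => by
        change Cosk.mapC _ _ (q.naturality (f ≫ g)) n x =
          Cosk.mapC _ _ (q.naturality g) n (Cosk.mapC _ _ (q.naturality f) n x)
        refine Cosk.Cell.ext ?_ ?_ ?_
        · simp [Cosk.mapC]
        · funext i h1 h2
          simp [Cosk.mapC]
        · funext i h1 h2
          simp [Cosk.mapC] }
  refine ⟨K, ⟨fun a => Cosk.ofE N (q.app a), fun a a' f => GPsh.hom_ext fun n x => ?_⟩,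
    ⟨fun a => Cosk.toB N (q.app a), fun a a' f => GPsh.hom_ext fun n x => rfl⟩,
    NatTrans.ext (funext fun a => GPsh.hom_ext fun n x => rfl), fun a j hj => Cosk.bij hj,
    fun a j hj z b hb => Cosk.lift hj z b hb⟩
  change Cosk.ofC N _ n (cm (W.map f) x) =
    Cosk.mapC _ _ (q.naturality f) n (Cosk.ofC N _ n x)
  refine Cosk.Cell.ext ?_ ?_ ?_
  · change cm (W.map f ≫ q.app a') x = cm (q.app a ≫ B.map f) x
    rw [q.naturality]
  · funext i h1 h2
    exact srcI_cm _ _ _
  · funext i h1 h2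
    exact tgtI_cm _ _ _

end Vale.Agent.P259
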