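import Vale.Agent.P259.PathData
import Vale.Agent.P259.Cells

/-! P259: first properties of cylinders. -/

open CategoryTheory Limits Opposite

noncomputable section

namespace Vale.Agent.P259

variable {C : GlobExt} {n : ℕ}

namespace PathData

variable (D : PathData C n)

/-- The transport in dimension `j` has the right boundary. -/
def GoodT (j : ℕ) : Prop := ∀ Y β x h, bd (D.tr Y j β x h) = sm (D.p1 Y) β

/-- `p0` as a natural transformation. -/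
def p0N : D.P ⟶ C.U where
  app := D.p0
  naturality _ _ f := D.p0_nat f

/-- `p1` as a natural transformation. -/
def p1N : D.P ⟶ C.U where
  app := D.p1
  naturality _ _ f := D.p1_nat f

theorem tr_congr {Y : C.Gpd} {j : ℕ} {β β' : (D.P.obj Y).Sph j} {x x' : (ug Y).cell j}
    (hβ : β = β') (hx : x = x') (h h') : D.tr Y j β x h = D.tr Y j β' x' h' := by
  subst hβ hx
  rfl

theorem sm_p1_low (Y : C.Gpd) {j : ℕ} (hj : j ≤ n) (β : (D.P.obj Y).Sph j) :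
    sm (D.p1 Y) β = sm (D.p0 Y) β := by
  cases j with
  | zero => rfl
  | succ j => exact sph_ext (D.low Y j _ hj) (D.low Y j _ hj)

theorem goodT_low {j : ℕ} (hj : j ≤ n) : D.GoodT j := by
  intro Y β x h
  rw [D.tr_low Y j β x h hj, h, D.sm_p1_low Y hj]

theorem p0_bijective (Y : C.Gpd) {j : ℕ} (hj : j < n) :
    Function.Bijective (fun ξ : (D.P.obj Y).cell j => cm (D.p0 Y) ξ) := by
  induction j using Nat.strong_induction_on with
  | _ j ih =>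
    have hs := sm_bijective (D.p0 Y) j (fun k hk => ih k hk (hk.trans hj))
    refine ⟨fun ξ ξ' e => ?_, fun x => ?_⟩
    · beta_reduce at e
      refine D.ext Y j ξ ξ' (hs.1 ?_) e ?_ (fun h => absurd hj (not_lt.2 h))
      · beta_reduce
        rw [← bd_cm, ← bd_cm, e]
      · rw [D.low Y j ξ hj, D.low Y j ξ' hj, e]
    · obtain ⟨β, hβ⟩ := hs.2 (bd x)
      beta_reduce at hβ
      obtain ⟨ξ, -, h, -⟩ := D.mk' Y j β x x hβ.symm (by rw [D.sm_p1_low Y hj.le, hβ])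
        (fun h => absurd hj (not_lt.2 h)) (fun _ => rfl) (fun h => absurd hj (not_lt.2 h))
      exact ⟨ξ, h⟩

/-- Pairs `(β, x₀)`, the domain of the transport. -/
def EF (j : ℕ) : C.Gpd ⥤ Type where
  obj Y := {p : (D.P.obj Y).Sph j × (ug Y).cell j // bd p.2 = sm (D.p0 Y) p.1}
  map f := TypeCat.ofHom fun p => ⟨(sm (D.P.map f) p.1.1, cm (um f) p.1.2), by
    rw [bd_cm, p.2, ← sm_comp, ← sm_comp, D.p0_nat]⟩
  map_id Y := by
    ext p : 3
    exact Subtype.ext (Prod.ext ((congrArg (fun k => sm k p.1.1) (D.P.map_id Y)).trans (sm_id _)) rfl)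
  map_comp f g := by
    ext p : 3
    exact Subtype.ext (Prod.ext
      ((congrArg (fun k => sm k p.1.1) (D.P.map_comp f g)).trans (sm_comp _ _ _)) rfl)

/-- Pairs `(β, x₁)`. -/
def FF (j : ℕ) : C.Gpd ⥤ Type where
  obj Y := {p : (D.P.obj Y).Sph j × (ug Y).cell j // bd p.2 = sm (D.p1 Y) p.1}
  map f := TypeCat.ofHom fun p => ⟨(sm (D.P.map f) p.1.1, cm (um f) p.1.2), by
    rw [bd_cm, p.2, ← sm_comp, ← sm_comp, D.p1_nat]⟩
  map_id Y := by
    ext p : 3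
    exact Subtype.ext (Prod.ext ((congrArg (fun k => sm k p.1.1) (D.P.map_id Y)).trans (sm_id _)) rfl)
  map_comp f g := by
    ext p : 3
    exact Subtype.ext (Prod.ext
      ((congrArg (fun k => sm k p.1.1) (D.P.map_comp f g)).trans (sm_comp _ _ _)) rfl)

theorem EF_map (j : ℕ) {Y Y' : C.Gpd} (f : Y ⟶ Y') (p : (D.EF j).obj Y) :
    ((D.EF j).map f p).1 = (sm (D.P.map f) p.1.1, cm (um f) p.1.2) := rfl

theorem FF_map (j : ℕ) {Y Y' : C.Gpd} (f : Y ⟶ Y') (p : (D.FF j).obj Y) :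
    ((D.FF j).map f p).1 = (sm (D.P.map f) p.1.1, cm (um f) p.1.2) := rfl

theorem corep_cellU (C : GlobExt) (j : ℕ) : Corep (cellF C.U j) :=
  ⟨rep C (Theta.D j), discCell C j, disc_univ j⟩

theorem corep_sphU (C : GlobExt) (j : ℕ) : Corep (sphF C.U j) :=
  ⟨sphObj C j, sphEl C j, sph_univ j⟩

theorem sm_p0_nat {j : ℕ} {Y Y' : C.Gpd} (f : Y ⟶ Y') (β : (D.P.obj Y).Sph j) :
    sm (D.p0 Y') (sm (D.P.map f) β) = sm (um f) (sm (D.p0 Y) β) := by
  rw [← sm_comp, ← sm_comp, D.p0_nat]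

theorem sm_p1_nat {j : ℕ} {Y Y' : C.Gpd} (f : Y ⟶ Y') (β : (D.P.obj Y).Sph j) :
    sm (D.p1 Y') (sm (D.P.map f) β) = sm (um f) (sm (D.p1 Y) β) := by
  rw [← sm_comp, ← sm_comp, D.p1_nat]

theorem cm_p0_nat {j : ℕ} {Y Y' : C.Gpd} (f : Y ⟶ Y') (ξ : (D.P.obj Y).cell j) :
    cm (D.p0 Y') (cm (D.P.map f) ξ) = cm (um f) (cm (D.p0 Y) ξ) := by
  rw [← cm_comp, ← cm_comp, D.p0_nat]

theorem cm_p1_nat {j : ℕ} {Y Y' : C.Gpd} (f : Y ⟶ Y') (ξ : (D.P.obj Y).cell j) :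
    cm (D.p1 Y') (cm (D.P.map f) ξ) = cm (um f) (cm (D.p1 Y) ξ) := by
  rw [← cm_comp, ← cm_comp, D.p1_nat]

theorem corep_EF_of {j : ℕ} (h : Corep (sphF D.P j)) : Corep (D.EF j) :=
  Corep.of_pullback (Φ₁ := sphF D.P j) (Φ₂ := cellF C.U j) (Ψ := sphF C.U j)
    (natMk (fun _ p => p.1.1) fun _ _ _ _ => rfl) (natMk (fun _ p => p.1.2) fun _ _ _ _ => rfl)
    (natMk (fun Y β => sm (D.p0 Y) β) fun _ _ f β => D.sm_p0_nat f β)
    (natMk (fun _ x => bd x) fun _ _ f x => bd_cm (um f) x) (fun _ p => p.2.symm)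
    (fun _ y₁ y₂ e => ⟨⟨(y₁, y₂), e.symm⟩, ⟨rfl, rfl⟩,
      fun _ hx => Subtype.ext (Prod.ext hx.1 hx.2)⟩) h (corep_cellU C j) (corep_sphU C j)

theorem corep_FF_of {j : ℕ} (h : Corep (sphF D.P j)) : Corep (D.FF j) :=
  Corep.of_pullback (Φ₁ := sphF D.P j) (Φ₂ := cellF C.U j) (Ψ := sphF C.U j)
    (natMk (fun _ p => p.1.1) fun _ _ _ _ => rfl) (natMk (fun _ p => p.1.2) fun _ _ _ _ => rfl)
    (natMk (fun Y β => sm (D.p1 Y) β) fun _ _ f β => D.sm_p1_nat f β)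
    (natMk (fun _ x => bd x) fun _ _ f x => bd_cm (um f) x) (fun _ p => p.2.symm)
    (fun _ y₁ y₂ e => ⟨⟨(y₁, y₂), e.symm⟩, ⟨rfl, rfl⟩,
      fun _ hx => Subtype.ext (Prod.ext hx.1 hx.2)⟩) h (corep_cellU C j) (corep_sphU C j)

theorem corep_cell_low {j : ℕ} (hj : j < n) : Corep (cellF D.P j) :=
  Corep.of_bij (Ψ := cellF C.U j)
    (natMk (fun Y ξ => cm (D.p0 Y) ξ) fun _ _ f ξ => D.cm_p0_nat f ξ)
    (fun Y => D.p0_bijective Y hj) (corep_cellU C j)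

theorem corep_cell_high {j : ℕ} (hj : n ≤ j) (h : Corep (sphF D.P j)) :
    Corep (cellF D.P j) := by
  refine Corep.of_eq (Φ := prodF (D.EF j) (cellF C.U (j + 1)))
    (Ψ := prodF (cellF C.U j) (sphF C.U j))
    (natMk (fun Y ξ => (⟨(bd ξ, cm (D.p0 Y) ξ), bd_cm _ _⟩, D.cyl Y j ξ hj)) fun _ _ f ξ =>
      Prod.ext (Subtype.ext (Prod.ext (bd_cm (D.P.map f) ξ) (D.cm_p0_nat f ξ)))
        (D.cyl_nat f j ξ hj).symm)
    (natMk (fun Y p => (src (G := ug Y) p.2, bd (tgt (G := ug Y) p.2))) fun _ _ f p =>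
      Prod.ext (src_cm (um f) p.2)
        ((congrArg bd (tgt_cm (um f) p.2)).trans (bd_cm (um f) (tgt p.2))))
    (natMk (fun Y p => (D.tr Y j p.1.1.1 p.1.1.2 p.1.2, sm (D.p1 Y) p.1.1.1)) fun _ _ f p =>
      Prod.ext (D.tr_nat f j p.1.1.1 p.1.1.2 p.1.2 _).symm (D.sm_p1_nat f p.1.1.1))
    (fun Y ξ => Prod.ext (D.src_cyl Y j ξ hj)
      ((congrArg bd (D.tgt_cyl Y j ξ hj)).trans (bd_cm _ _)))
    (fun Y y e => ?_) ((D.corep_EF_of h).prod (corep_cellU C (j + 1)))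
    ((corep_cellU C j).prod (corep_sphU C j))
  obtain ⟨⟨⟨β, x₀⟩, h₀⟩, c⟩ := y
  have e₁ : src c = D.tr Y j β x₀ h₀ := congrArg Prod.fst e
  have e₂ : bd (tgt c) = sm (D.p1 Y) β := congrArg Prod.snd e
  obtain ⟨ξ, k₁, k₂, k₃, k₄⟩ := D.mk' Y j β x₀ (tgt c) h₀ e₂ (fun _ => c)
    (fun h => absurd h (not_lt.2 hj)) (fun _ => ⟨e₁, rfl⟩)
  refine ⟨ξ, Prod.ext (Subtype.ext (Prod.ext k₁ k₂)) (k₄ hj), fun ξ' hξ' => ?_⟩
  have l₁ : bd ξ' = β := congrArg (fun q => q.1.1.1) hξ'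
  have l₂ : cm (D.p0 Y) ξ' = x₀ := congrArg (fun q => q.1.1.2) hξ'
  have l₃ : D.cyl Y j ξ' hj = c := congrArg (fun q => q.2) hξ'
  exact D.ext Y j ξ' ξ (l₁.trans k₁.symm) (l₂.trans k₂.symm)
    ((D.tgt_cyl Y j ξ' hj).symm.trans ((congrArg tgt l₃).trans k₃.symm))
    (fun _ => l₃.trans (k₄ hj).symm)

/-- Hint: strong induction on `j` with `corep_sph`, `Corep.of_pullback`, `Corep.prod`,
`Corep.of_eq`: for `j < n` use `p0_bijective`; for `n ≤ j` a cell is a triple `((β, x₀), x₁, c)`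
cut out by equations (`ext`, `mk'`). -/
theorem corep_cell (j : ℕ) : Corep (cellF D.P j) := by
  induction j using Nat.strong_induction_on with
  | _ j ih =>
    rcases Nat.lt_or_ge j n with hj | hj
    · exact D.corep_cell_low hj
    · exact D.corep_cell_high hj (corep_sph D.P j ih)

theorem corep_EF (j : ℕ) : Corep (D.EF j) :=
  D.corep_EF_of (corep_sph D.P j fun k _ => D.corep_cell k)

theorem corep_FF (j : ℕ) : Corep (D.FF j) :=
  D.corep_FF_of (corep_sph D.P j fun k _ => D.corep_cell k)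

theorem corep_ext' {l : ℕ} (T : Tab l) : Corep (extF D.P T) := corep_ext D.P D.corep_cell T

/-- A good transport exists once a weakly universal pair `(β, x₀)` lives in an object with fillers.
Hint: `natFill` and `tr_good`. -/
theorem goodT_of_fill {j : ℕ} (hj : n < j) (A : C.Gpd) (e : (D.EF j).obj A)
    (he : WUniv (D.EF j) A e) (hA : Fill (ug A) j) : D.GoodT j := by
  obtain ⟨y₀, h₀⟩ := hA (sm (D.p1 A) e.1.1)
  obtain ⟨T, hT⟩ := natFill (Ψ := cellF C.U j) (D.corep_EF j) he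
    (fun Y p y => bd (G := ug Y) y = sm (D.p1 Y) p.1.1)
    (fun _ _ g p y h => (bd_cm (um g) y).trans
      ((congrArg (sm (um g)) h).trans (D.sm_p1_nat g p.1.1).symm)) y₀ h₀
  exact D.tr_good j hj ⟨fun Y β x h => T.app Y ⟨(β, x), h⟩,
    fun f β x h _ => (NatTrans.naturality_apply T f ⟨(β, x), h⟩).symm,
    fun Y β x h => hT Y ⟨(β, x), h⟩⟩

/-- Extend a pair `(β, x₀)` and a cell with source the transport to a cylinder. -/
theorem exists_of_src {j : ℕ} (hn : n ≤ j) (hg : D.GoodT j) (Y : C.Gpd) (β : (D.P.obj Y).Sph j)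
    (x₀ : (ug Y).cell j) (h₀ : bd x₀ = sm (D.p0 Y) β) (c : (ug Y).cell (j + 1))
    (hc : src c = D.tr Y j β x₀ h₀) :
    ∃ ξ : (D.P.obj Y).cell j, bd ξ = β ∧ cm (D.p0 Y) ξ = x₀ ∧ cm (D.p1 Y) ξ = tgt c ∧
      D.cyl Y j ξ hn = c := by
  obtain ⟨ξ, k₁, k₂, k₃, k₄⟩ := D.mk' Y j β x₀ (tgt c) h₀ (by rw [← bd_src, hc, hg]) (fun _ => c)
    (fun h => absurd h (not_lt.2 hn)) (fun _ => ⟨hc, rfl⟩)
  exact ⟨ξ, k₁, k₂, k₃, k₄ hn⟩

end PathData

end Vale.Agent.P259
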