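import Vale.Agent.P259.Good
import Vale.Agent.P259.PathLem

/-! P259: the universal cylinders have fillers. -/

open CategoryTheory Limits Opposite

noncomputable section

namespace Vale.Agent.P259

variable {C : GlobExt} [Coh C] {n N : ℕ}

namespace PathData

variable (D : PathData C n)

/-- The invariant of the induction. -/
def Inv (N : ℕ) {A : C.Gpd} {l : ℕ} (ξ : (D.P.obj A).cell l) : Prop :=
  (l < n → Good N (cm (D.p0 A) ξ)) ∧ ∀ h : n ≤ l, Good N (D.cyl A n (tgtI h ξ) le_rfl)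

omit [Coh C] in
theorem Inv.cofibt {A : C.Gpd} {l : ℕ} {ξ : (D.P.obj A).cell l} (h : D.Inv N ξ) : Cofibt A :=
  (Nat.lt_or_ge l n).elim (fun hl => (h.1 hl).cofibt) (fun hl => (h.2 hl).cofibt)

omit [Coh C] in
theorem Inv.contrLe {A : C.Gpd} {l : ℕ} {ξ : (D.P.obj A).cell l} (h : D.Inv N ξ) :
    ContrLe N (ug A) :=
  (Nat.lt_or_ge l n).elim (fun hl => (h.1 hl).contrLe) (fun hl => (h.2 hl).contrLe)

omit [Coh C] in
theorem cm_p0_map {Y Y' : C.Gpd} (f : Y ⟶ Y') {j : ℕ} (ξ : (D.P.obj Y).cell j) :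
    cm (D.p0 Y') (cm (D.P.map f) ξ) = cm (um f) (cm (D.p0 Y) ξ) := by
  rw [← cm_comp, D.p0_nat, cm_comp]

omit [Coh C] in
theorem cm_p1_map {Y Y' : C.Gpd} (f : Y ⟶ Y') {j : ℕ} (ξ : (D.P.obj Y).cell j) :
    cm (D.p1 Y') (cm (D.P.map f) ξ) = cm (um f) (cm (D.p1 Y) ξ) := by
  rw [← cm_comp, D.p1_nat, cm_comp]

omit [Coh C] in
theorem sm_p0_map {Y Y' : C.Gpd} (f : Y ⟶ Y') {j : ℕ} (β : (D.P.obj Y).Sph j) :
    sm (D.p0 Y') (sm (D.P.map f) β) = sm (um f) (sm (D.p0 Y) β) := by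
  rw [← sm_comp, D.p0_nat, sm_comp]

omit [Coh C] in
theorem cm_P_comp {Y Y' Y'' : C.Gpd} (f : Y ⟶ Y') (g : Y' ⟶ Y'') {j : ℕ}
    (ξ : (D.P.obj Y).cell j) :
    cm (D.P.map (f ≫ g)) ξ = cm (D.P.map g) (cm (D.P.map f) ξ) := by
  rw [D.P.map_comp, cm_comp]

omit [Coh C] in
theorem sm_P_comp {Y Y' Y'' : C.Gpd} (f : Y ⟶ Y') (g : Y' ⟶ Y'') {j : ℕ}
    (β : (D.P.obj Y).Sph j) :
    sm (D.P.map (f ≫ g)) β = sm (D.P.map g) (sm (D.P.map f) β) := by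
  rw [D.P.map_comp, sm_comp]

omit [Coh C] in
/-- Freely adding a cylinder with given `(β, x₀)`: raise at the transport. -/
theorem lastStep {j : ℕ} (hn : n ≤ j) (hg : D.GoodT j) {A : C.Gpd} (β : (D.P.obj A).Sph j)
    (x₀ : (ug A).cell j) (h₀ : bd x₀ = sm (D.p0 A) β) :
    ∃ (A' : C.Gpd) (i : A ⟶ A') (η : (D.P.obj A').cell j),
      IsRaise i (D.tr A j β x₀ h₀) (D.cyl A' j η hn) ∧ bd η = sm (D.P.map i) β ∧
      cm (D.p0 A') η = cm (um i) x₀ ∧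
      ∀ (Y : C.Gpd) (f : A ⟶ Y) (η' : (D.P.obj Y).cell j), bd η' = sm (D.P.map f) β →
        cm (D.p0 Y) η' = cm (um f) x₀ → ∃ f' : A' ⟶ Y, i ≫ f' = f ∧ cm (D.P.map f') η = η' := by
  obtain ⟨A', i, c, hi⟩ := exists_raise A (D.tr A j β x₀ h₀)
  have e : ∀ {Y : C.Gpd} (f : A ⟶ Y), bd (cm (um f) x₀) = sm (D.p0 Y) (sm (D.P.map f) β) :=
    fun f => by rw [bd_cm, h₀, sm_p0_map]
  obtain ⟨η, h1, h2, h3, h4⟩ := D.exists_of_src hn hg A' (sm (D.P.map i) β) (cm (um i) x₀) (e i) c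
    (hi.src_eq.trans (D.tr_nat i j β x₀ h₀ (e i)))
  refine ⟨A', i, η, h4 ▸ hi, h1, h2, fun Y f η' k1 k2 => ?_⟩
  obtain ⟨f', ⟨m1, m2⟩, -⟩ := hi.univ Y f (D.cyl Y j η' hn)
    ((D.src_cyl Y j η' hn).trans
      ((D.tr_congr k1 k2 _ (e f)).trans (D.tr_nat f j β x₀ h₀ (e f)).symm))
  refine ⟨f', m1, D.ext Y j _ _ ?_ ?_ ?_ fun h => ?_⟩
  · rw [bd_cm, h1, ← sm_P_comp, m1, k1]
  · rw [cm_p0_map, h2, ← cm_um_comp, m1, k2]
  · rw [cm_p1_map, h3, ← tgt_cm, m2, D.tgt_cyl]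
  · rw [← D.cyl_nat, h4, m2]

omit [Coh C] in
/-- The invariant is preserved by maps in `JCof (n + 1)`, in dimensions `≥ n`. -/
theorem Inv.of_jCof (hA : ThmA C (n + 1) N) {A A' : C.Gpd} {l l' : ℕ} (hl : n ≤ l) (hl' : n ≤ l')
    {ξ : (D.P.obj A).cell l} (h : D.Inv N ξ) {g : A ⟶ A'} (hg : JCof (n + 1) g)
    {ξ' : (D.P.obj A').cell l'} (e : tgtI hl' ξ' = cm (D.P.map g) (tgtI hl ξ)) : D.Inv N ξ' := by
  refine ⟨fun h' => absurd h' (by omega), fun h' => ?_⟩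
  rw [e, ← D.cyl_nat]
  exact (h.2 hl).jCof hA hg

omit [Coh C] in
/-- Hint: three cases `l + 1 < n`, `l + 1 = n` (lower twice, `tgt_cyl`, `low`), `n ≤ l`
(`tgtI_succ`). -/
theorem Inv.lower {A : C.Gpd} {l : ℕ} {ξ : (D.P.obj A).cell (l + 1)} (h : D.Inv N ξ) :
    D.Inv N (tgt ξ) := by
  refine ⟨fun hl => ?_, fun hl => ?_⟩
  · rcases Nat.lt_or_ge (l + 1) n with h' | h'
    · rw [← tgt_cm]
      exact (h.1 h').lower
    · obtain rfl : n = l + 1 := by omega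
      have h1 := (h.2 le_rfl).lower
      rw [tgtI_self, D.tgt_cyl] at h1
      have h2 := h1.lower
      rwa [tgt_cm, D.low _ _ _ hl] at h2
  · rw [← tgtI_succ hl (Nat.le_succ_of_le hl)]
    exact h.2 _

omit [Coh C] in
theorem Inv.tgtI {A : C.Gpd} {j l : ℕ} (hj : j ≤ l) {ξ : (D.P.obj A).cell l} (h : D.Inv N ξ) :
    D.Inv N (tgtI hj ξ) := by
  induction l, hj using Nat.le_induction with
  | base => rwa [tgtI_self]
  | succ l hj ih =>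
    rw [tgtI_succ hj]
    exact ih (Inv.lower D h)

/-- The universal `0`-cylinder: the `0`-disc if `0 < n`, the `1`-disc if `n = 0`. -/
theorem exists_base : ∃ (A : C.Gpd) (ξ : (D.P.obj A).cell 0), D.Inv N ξ ∧
    WUniv (cellF D.P 0) A ξ := by
  rcases Nat.eq_zero_or_pos n with rfl | hn
  · obtain ⟨ξ, -, h2, h3, h4⟩ := D.exists_of_src le_rfl (D.goodT_low le_rfl) (rep C (Theta.D 1))
      (sph0 _) (src (discCell C 1)) (Subsingleton.elim _ _) (discCell C 1)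
      (D.tr_low _ _ _ _ _ le_rfl).symm
    refine ⟨_, ξ, ⟨fun h => absurd h (lt_irrefl _), fun h => ?_⟩,
      fun Y (η : (D.P.obj Y).cell 0) => ?_⟩
    · rw [tgtI_self, h4]
      exact good_disc 1
    · obtain ⟨f, hf, -⟩ := disc_univ 1 Y (D.cyl Y 0 η le_rfl)
      refine ⟨f, D.ext Y 0 (cm (D.P.map f) ξ) η (Subsingleton.elim _ _) ?_ ?_ fun h => ?_⟩
      · rw [cm_p0_map, h2, ← src_cm, hf, D.src_cyl, D.tr_low _ _ _ _ _ le_rfl]
      · rw [cm_p1_map, h3, ← tgt_cm, hf, D.tgt_cyl]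
      · rw [← D.cyl_nat, h4, hf]
  · obtain ⟨ξ, hξ⟩ := (D.p0_bijective (rep C (Theta.D 0)) hn).2 (discCell C 0)
    beta_reduce at hξ
    refine ⟨_, ξ, ⟨fun _ => ?_, fun h => absurd h (by omega)⟩, fun Y η => ?_⟩
    · rw [hξ]
      exact good_disc 0
    · obtain ⟨f, hf, -⟩ := disc_univ 0 Y (cm (D.p0 Y) η)
      refine ⟨f, (D.p0_bijective Y hn).1 ?_⟩
      change cm (D.p0 Y) (cm (D.P.map f) ξ) = cm (D.p0 Y) η
      rw [cm_p0_map, hξ, hf]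

/-- Half of a raising step in a dimension `l ≥ n`: raise `h₀` at `p0 ξ`, then raise at
`tr (bd ξ) (tgt h₀)` (`exists_of_src`). For `l = n` use `Good.srcRaise` with `k` the cylinder cell of
`ξ` (`src_cyl`, `tr_low`); for `l > n` both raises are `JCof (n+1)` and the distinguished cell does
not change (`tgtI_succ`, `bd ξ' = bd ξ`). -/
theorem halfStep (hA : ThmA C (n + 1) N) {l : ℕ} (hl : n ≤ l) (hg : D.GoodT l) {A : C.Gpd}
    (ξ : (D.P.obj A).cell l) (h : D.Inv N ξ) :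
    ∃ (A' : C.Gpd) (g : A ⟶ A') (ξ' : (D.P.obj A').cell l) (h₀ : (ug A').cell (l + 1)),
      bd ξ' = bd (cm (D.P.map g) ξ) ∧ src h₀ = cm (D.p0 A') (cm (D.P.map g) ξ) ∧
      tgt h₀ = cm (D.p0 A') ξ' ∧ D.Inv N ξ' ∧
      ∀ (Y : C.Gpd) (f : A ⟶ Y) (η : (D.P.obj Y).cell l) (k : (ug Y).cell (l + 1)),
        bd η = bd (cm (D.P.map f) ξ) → src k = cm (D.p0 Y) (cm (D.P.map f) ξ) →
        tgt k = cm (D.p0 Y) η →
        ∃ f' : A' ⟶ Y, g ≫ f' = f ∧ cm (D.P.map f') ξ' = η ∧ cm (um f') h₀ = k := by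
  obtain ⟨A₁, i₁, h₀, hi₁⟩ := exists_raise A (cm (D.p0 A) ξ)
  have e₀ : bd (tgt h₀) = sm (D.p0 A₁) (bd (cm (D.P.map i₁) ξ)) := by
    rw [← bd_src, hi₁.src_eq, ← cm_p0_map, bd_cm]
  obtain ⟨A₂, i₂, ξ', hi₂, k1, k2, hu⟩ := D.lastStep hl hg (bd (cm (D.P.map i₁) ξ)) (tgt h₀) e₀
  have kb : bd ξ' = bd (cm (D.P.map (i₁ ≫ i₂)) ξ) := by rw [k1, cm_P_comp, ← bd_cm]
  refine ⟨A₂, i₁ ≫ i₂, ξ', cm (um i₂) h₀, kb, ?_, ?_, ?_, fun Y f η k m1 m2 m3 => ?_⟩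
  · rw [src_cm, hi₁.src_eq, cm_p0_map, cm_um_comp]
  · rw [tgt_cm, k2]
  · rcases hl.eq_or_lt with rfl | hl'
    · refine ⟨fun h' => absurd h' (lt_irrefl _), fun h' => ?_⟩
      have h1 := h.2 le_rfl
      rw [tgtI_self] at h1 ⊢
      have h2 : src (D.cyl A n ξ le_rfl) = cm (D.p0 A) ξ :=
        (D.src_cyl _ _ _ _).trans (D.tr_low _ _ _ _ _ le_rfl)
      have h3 := Good.srcRaise hA (D.cyl A n ξ le_rfl) h1.lower (h2 ▸ hi₁)
      rw [D.tr_low _ _ _ _ _ le_rfl] at hi₂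
      exact h3.raise hi₂
    · refine Inv.of_jCof D hA hl hl h ((hi₁.jCof hl').comp (hi₂.jCof hl')) ?_
      obtain ⟨l, rfl⟩ : ∃ k, l = k + 1 := ⟨l - 1, by omega⟩
      have hl'' : n ≤ l := by omega
      have e1 : tgt ξ' = tgt (cm (D.P.map (i₁ ≫ i₂)) ξ) := congrArg ssnd kb
      rw [← tgtI_cm, tgtI_succ hl'', tgtI_succ hl'', e1]
  · obtain ⟨f₁, ⟨n1, n2⟩, -⟩ := hi₁.univ Y f k (by rw [m2, cm_p0_map])
    obtain ⟨f₂, n3, n4⟩ := hu Y f₁ η (by rw [m1, ← bd_cm, ← cm_P_comp, n1])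
      (by rw [← m3, ← tgt_cm, n2])
    exact ⟨f₂, by rw [Category.assoc, n3, n1], n4, by rw [← cm_um_comp, n3, n2]⟩

/-- A raising step. For `n ≤ l`: `halfStep` and one more raise (level `l + 1`) at the transport of
`h₀`; for `l + 1 < n` one ordinary raise; for `l + 1 = n` two ordinary raises. -/
theorem raiseStep (hA : ThmA C (n + 1) N) {l : ℕ} (hg : D.GoodT l) (hg' : D.GoodT (l + 1))
    {A : C.Gpd} (ξ : (D.P.obj A).cell l) (h : D.Inv N ξ) :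
    ∃ (A' : C.Gpd) (g : A ⟶ A') (η : (D.P.obj A').cell (l + 1)),
      src η = cm (D.P.map g) ξ ∧ D.Inv N η ∧
      ∀ (Y : C.Gpd) (f : A ⟶ Y) (η' : (D.P.obj Y).cell (l + 1)), src η' = cm (D.P.map f) ξ →
        ∃ f' : A' ⟶ Y, g ≫ f' = f ∧ cm (D.P.map f') η = η' := by
  rcases Nat.lt_or_ge l n with hl | hl
  · obtain ⟨A₁, i₁, h₀, hi₁⟩ := exists_raise A (cm (D.p0 A) ξ)
    have hgood : Good N h₀ := (h.1 hl).raise hi₁
    have inj : ∀ (Y : C.Gpd) (a b : (D.P.obj Y).cell l), cm (D.p0 Y) a = cm (D.p0 Y) b → a = b :=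
      fun Y a b e => (D.p0_bijective Y hl).1 e
    rcases Nat.lt_or_ge (l + 1) n with hl' | hl'
    · obtain ⟨η, hη⟩ := (D.p0_bijective A₁ hl').2 h₀
      beta_reduce at hη
      refine ⟨A₁, i₁, η, inj _ _ _ ?_, ⟨fun _ => hη ▸ hgood, fun h' => absurd h' (by omega)⟩,
        fun Y f η' m => ?_⟩
      · rw [← src_cm, hη, hi₁.src_eq, cm_p0_map]
      · obtain ⟨f₁, ⟨n1, n2⟩, -⟩ := hi₁.univ Y f (cm (D.p0 Y) η') (by rw [src_cm, m, cm_p0_map])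
        refine ⟨f₁, n1, (D.p0_bijective Y hl').1 ?_⟩
        change cm (D.p0 Y) (cm (D.P.map f₁) η) = cm (D.p0 Y) η'
        rw [cm_p0_map, hη, n2]
    · obtain rfl : n = l + 1 := by omega
      obtain ⟨ζ, hζ⟩ := (D.p0_bijective A₁ hl).2 (tgt h₀)
      beta_reduce at hζ
      have hb : bd (cm (D.P.map i₁) ξ) = bd ζ := by
        apply sm_injective (D.p0 A₁) l (fun j hj => (D.p0_bijective A₁ (hj.trans hl)).1)
        beta_reduce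
        rw [← bd_cm, ← bd_cm, hζ, cm_p0_map, ← hi₁.src_eq, bd_src]
      have e₀ : bd h₀ = sm (D.p0 A₁) (sph _ _ hb) :=
        bd_eq_iff.2 ⟨hi₁.src_eq.trans (D.cm_p0_map i₁ ξ).symm, hζ.symm⟩
      obtain ⟨A₂, i₂, η, hi₂, k1, k2, hu⟩ := D.lastStep le_rfl hg' (sph _ _ hb) h₀ e₀
      rw [D.tr_low _ _ _ _ _ le_rfl] at hi₂
      refine ⟨A₂, i₁ ≫ i₂, η, ?_, ⟨fun h' => absurd h' (lt_irrefl _), fun h' => ?_⟩,
        fun Y f η' m => ?_⟩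
      · rw [cm_P_comp]
        exact congrArg sfst k1
      · rw [tgtI_self]
        exact hgood.raise hi₂
      · obtain ⟨f₁, ⟨n1, n2⟩, -⟩ := hi₁.univ Y f (cm (D.p0 Y) η') (by rw [src_cm, m, cm_p0_map])
        obtain ⟨f₂, n3, n4⟩ := hu Y f₁ η' (bd_eq_iff.2
          ⟨m.trans (by rw [← n1, cm_P_comp]; rfl), inj _ _ _ (by
            change _ = cm (D.p0 Y) (cm (D.P.map f₁) ζ)
            rw [cm_p0_map, hζ, ← tgt_cm, ← tgt_cm, n2])⟩) n2.symm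
        exact ⟨f₂, by rw [Category.assoc, n3, n1], n4⟩
  · obtain ⟨A₁, g, ξ', h₀, k1, k2, k3, k4, hu₁⟩ := D.halfStep hA hl hg ξ h
    have e₀ : bd h₀ = sm (D.p0 A₁) (sph _ _ k1.symm) := bd_eq_iff.2 ⟨k2, k3⟩
    have hl' : n ≤ l + 1 := Nat.le_succ_of_le hl
    obtain ⟨A₂, i₂, η, hi₂, k5, k6, hu⟩ := D.lastStep hl' hg' (sph _ _ k1.symm) h₀ e₀
    refine ⟨A₂, g ≫ i₂, η, ?_, ?_, fun Y f η' m => ?_⟩
    · rw [cm_P_comp]
      exact congrArg sfst k5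
    · refine Inv.of_jCof D hA hl hl' k4 (hi₂.jCof (Nat.succ_le_succ hl)) ?_
      have e1 : tgt η = cm (D.P.map i₂) ξ' := congrArg ssnd k5
      rw [tgtI_succ hl, e1, tgtI_cm]
    · obtain ⟨f₁, n1, n2, n3⟩ := hu₁ Y f (tgt η') (cm (D.p0 Y) η') (by rw [← bd_src, m])
        (by rw [src_cm, m]) (tgt_cm _ _)
      obtain ⟨f₂, n4, n5⟩ := hu Y f₁ η' (bd_eq_iff.2
        ⟨m.trans (by rw [← n1, cm_P_comp]; rfl), n2.symm⟩) n3.symm
      exact ⟨f₂, by rw [Category.assoc, n4, n1], n5⟩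

end PathData

end Vale.Agent.P259
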