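import Vale.Agent.P259.Cyl

/-! P259: consequences of the raising steps. -/

open CategoryTheory Limits Opposite

noncomputable section

namespace Vale.Agent.P259

variable {C : GlobExt} [Coh C] {n N : ℕ}

namespace PathData

variable (D : PathData C n)

/-- Iterate `raiseStep`. -/
theorem raiseMany (hA : ThmA C (n + 1) N) {j i : ℕ} (hj : j ≤ i) (hg : ∀ l, l ≤ i → D.GoodT l)
    {A : C.Gpd} (ξ : (D.P.obj A).cell j) (h : D.Inv N ξ) :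
    ∃ (A' : C.Gpd) (g : A ⟶ A') (η : (D.P.obj A').cell i),
      srcI hj η = cm (D.P.map g) ξ ∧ D.Inv N η ∧
      ∀ (Y : C.Gpd) (f : A ⟶ Y) (η' : (D.P.obj Y).cell i), srcI hj η' = cm (D.P.map f) ξ →
        ∃ f' : A' ⟶ Y, g ≫ f' = f ∧ cm (D.P.map f') η = η' := by
  induction i, hj using Nat.le_induction with
  | base =>
    refine ⟨A, 𝟙 A, ξ, ?_, h, fun Y f η' m => ⟨f, Category.id_comp f, ?_⟩⟩
    · rw [srcI_self, D.P.map_id, cm_id]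
    · rw [← m, srcI_self]
  | succ i hj ih =>
    obtain ⟨A₁, g₁, η₁, k1, k2, hu₁⟩ := ih (fun l hl => hg l (Nat.le_succ_of_le hl))
    obtain ⟨A₂, g₂, η₂, k3, k4, hu₂⟩ :=
      D.raiseStep hA (hg i (Nat.le_succ i)) (hg (i + 1) le_rfl) η₁ k2
    refine ⟨A₂, g₁ ≫ g₂, η₂, ?_, k4, fun Y f η' m => ?_⟩
    · rw [srcI_succ hj, k3, srcI_cm, k1, cm_P_comp]
    · obtain ⟨f₁, n1, n2⟩ := hu₁ Y f (src η') (by rw [← m, srcI_succ hj])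
      obtain ⟨f₂, n3, n4⟩ := hu₂ Y f₁ η' n2.symm
      exact ⟨f₂, by rw [Category.assoc, n3, n1], n4⟩

theorem exists_cylD (hA : ThmA C (n + 1) N) {i : ℕ} (hg : ∀ l, l ≤ i → D.GoodT l) :
    ∃ (A : C.Gpd) (ξ : (D.P.obj A).cell i), D.Inv N ξ ∧ WUniv (cellF D.P i) A ξ := by
  obtain ⟨A, ξ, h, hu⟩ := D.exists_base (N := N)
  obtain ⟨A₁, g, η, -, k2, hu₁⟩ := D.raiseMany hA (Nat.zero_le i) hg ξ h
  refine ⟨A₁, η, k2, fun Y (η' : (D.P.obj Y).cell i) => ?_⟩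
  obtain ⟨f, hf⟩ := hu Y (srcI (Nat.zero_le i) η')
  obtain ⟨f', -, n2⟩ := hu₁ Y f η' hf.symm
  exact ⟨f', n2⟩

/-- Hint: strong induction; `goodT_low`; for `j = l + 1 > n` use `exists_cylD`, `halfStep` and
`goodT_of_fill` with the pair `(sph (g ξ) ξ', h₀)`. -/
theorem goodT (hA : ThmA C (n + 1) N) (j : ℕ) (hj : j ≤ N) : D.GoodT j := by
  induction j using Nat.strong_induction_on with
  | _ j ih =>
    rcases Nat.lt_or_ge n j with hn | hn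
    · obtain ⟨l, rfl⟩ : ∃ k, j = k + 1 := ⟨j - 1, by omega⟩
      have hg : ∀ k, k ≤ l → D.GoodT k := fun k hk => ih k (by omega) (by omega)
      obtain ⟨A, ξ, h, hu⟩ := D.exists_cylD hA hg
      obtain ⟨A₁, g, ξ', h₀, k1, k2, k3, k4, hu₁⟩ :=
        D.halfStep hA (Nat.le_of_lt_succ hn) (hg l le_rfl) ξ h
      have e₀ : bd h₀ = sm (D.p0 A₁) (sph _ _ k1.symm) := bd_eq_iff.2 ⟨k2, k3⟩
      refine D.goodT_of_fill hn A₁ ⟨(sph _ _ k1.symm, h₀), e₀⟩ ?_ (k4.contrLe D _ hj)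
      rintro Y ⟨⟨β, x₀⟩, hx⟩
      obtain ⟨f, hf⟩ := hu Y (sfst β)
      have hf' : cm (D.P.map f) ξ = sfst β := hf
      obtain ⟨f₁, n1, n2, n3⟩ := hu₁ Y f (ssnd β) x₀ (by rw [hf', bd_sfst])
        (by rw [hf']; exact congrArg sfst hx) (congrArg ssnd hx)
      refine ⟨f₁, Subtype.ext (Prod.ext (sph_ext ?_ n2) n3)⟩
      change cm (D.P.map f₁) (cm (D.P.map g) ξ) = sfst β
      rw [← cm_P_comp, n1, hf']
    · exact D.goodT_low hn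

/-- Hint: induction on `T` keeping `Inv` of the last cell. -/
theorem exists_cylT (hA : ThmA C (n + 1) N) {l : ℕ} (T : Tab l) (hT : T.dim ≤ N) :
    ∃ (A : C.Gpd) (ζ : Ext (D.P.obj A) T), WUniv (extF D.P T) A ζ ∧ D.Inv N (Ext.last ζ) := by
  induction T with
  | base i =>
    obtain ⟨A, ξ, h, hu⟩ := D.exists_cylD hA (i := i) (fun k hk => D.goodT hA k (hk.trans hT))
    refine ⟨A, Ext.ofCell ξ, fun Y (ζ : Ext (D.P.obj Y) (.base i)) => ?_, by rwa [Ext.last_ofCell]⟩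
    obtain ⟨f, hf⟩ := hu Y ζ.last
    refine ⟨f, Ext.base_ext ?_⟩
    rw [extF_map, Ext.last_comp, Ext.last_ofCell]
    exact hf
  | snoc T j i hl hi ih =>
    obtain ⟨A, ζ, hu, h⟩ := ih ((le_max_left _ _).trans hT)
    obtain ⟨A₁, g, η, k1, k2, hu₁⟩ := D.raiseMany hA hi.le
      (fun k hk => D.goodT hA k (hk.trans ((le_max_right _ _).trans hT))) _ (h.tgtI D hl.le)
    have e : tgtI hl.le (Ext.last (ζ ≫ D.P.map g : Ext (D.P.obj A₁) T)) = srcI hi.le η := by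
      rw [Ext.last_comp, tgtI_cm, k1]
    refine ⟨A₁, Ext.glue hl hi (ζ ≫ D.P.map g) η e,
      fun Y (ζ' : Ext (D.P.obj Y) (T.snoc j i hl hi)) => ?_, by rwa [Ext.last_glue]⟩
    obtain ⟨f, hf⟩ := hu Y ζ'.init
    have hf' : (ζ ≫ D.P.map f : Ext (D.P.obj Y) T) = ζ'.init := hf
    obtain ⟨f₁, n1, n2⟩ := hu₁ Y f ζ'.last
      (by rw [← Ext.tgtI_last_init, ← hf', Ext.last_comp, tgtI_cm])
    refine ⟨f₁, Ext.snoc_ext ?_ ?_⟩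
    · rw [extF_map, Ext.init_comp, Ext.init_glue, Category.assoc, ← D.P.map_comp, n1, hf']
    · rw [extF_map, Ext.last_comp, Ext.last_glue, n2]

omit [Coh C] in
/-- The fibration property in an object with fillers. -/
theorem jlift_of_contr {m : ℕ} (hn : n ≤ m) (hm : m + 1 ≤ N) (hg : D.GoodT m)
    (hg' : D.GoodT (m + 1)) (Y : C.Gpd) (hY : ContrLe N (ug Y))
    (ξ : (D.P.obj Y).cell m) (h₀ h₁ : (ug Y).cell (m + 1)) (e₀ : src h₀ = cm (D.p0 Y) ξ)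
    (e₁ : src h₁ = cm (D.p1 Y) ξ) :
    ∃ ξ' : (D.P.obj Y).cell m, bd ξ' = bd ξ ∧ cm (D.p0 Y) ξ' = tgt h₀ ∧
      cm (D.p1 Y) ξ' = tgt h₁ ∧
      (m + 2 ≤ N → ∃ η : (D.P.obj Y).cell (m + 1), src η = ξ ∧ tgt η = ξ' ∧
        cm (D.p0 Y) η = h₀ ∧ cm (D.p1 Y) η = h₁) := by
  have b0 : bd (tgt h₀) = sm (D.p0 Y) (bd ξ) := by rw [← bd_src, e₀, bd_cm]
  have b1 : bd (tgt h₁) = sm (D.p1 Y) (bd ξ) := by rw [← bd_src, e₁, bd_cm]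
  obtain ⟨c, hc1, hc2⟩ := (hY _ hm).htp ((hg Y _ _ b0).trans b1.symm)
  obtain ⟨ξ', k1, k2, k3, -⟩ := D.exists_of_src hn hg Y (bd ξ) (tgt h₀) b0 c hc1
  rw [hc2] at k3
  refine ⟨ξ', k1, k2, k3, fun hm' => ?_⟩
  have d0 : bd h₀ = sm (D.p0 Y) (sph ξ ξ' k1.symm) := bd_eq_iff.2 ⟨e₀, k2.symm⟩
  have d1 : bd h₁ = sm (D.p1 Y) (sph ξ ξ' k1.symm) := bd_eq_iff.2 ⟨e₁, k3.symm⟩
  obtain ⟨c', hc3, hc4⟩ := (hY _ hm').htp ((hg' Y _ _ d0).trans d1.symm)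
  obtain ⟨η, m1, m2, m3, -⟩ :=
    D.exists_of_src (Nat.le_succ_of_le hn) hg' Y (sph ξ ξ' k1.symm) h₀ d0 c' hc3
  exact ⟨η, congrArg sfst m1, congrArg ssnd m1, m2, m3.trans hc4⟩

/-- The fibration property of `(p0, p1)`. Hint: work in the weakly universal case: `exists_cylD`,
raise `h₁` at `p1 ξ`, raise `h₀` at `p0 ξ`; for `m > n` both are `JCof (n+1)`; for `m = n` use
`Good.lower`, `Good.raise`, then `Good.srcRaise` with `k` any cell from `p0 ξ` to `tgt h₁`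
(`htpEq`). Fill the cylinder cells (dimensions `m + 1` and `m + 2`) and push forward. -/
theorem jlift (hA : ThmA C (n + 1) N) {m : ℕ} (hn : n ≤ m) (hm : m + 1 ≤ N) (Y : C.Gpd)
    (ξ : (D.P.obj Y).cell m) (h₀ h₁ : (ug Y).cell (m + 1)) (e₀ : src h₀ = cm (D.p0 Y) ξ)
    (e₁ : src h₁ = cm (D.p1 Y) ξ) :
    ∃ ξ' : (D.P.obj Y).cell m, bd ξ' = bd ξ ∧ cm (D.p0 Y) ξ' = tgt h₀ ∧
      cm (D.p1 Y) ξ' = tgt h₁ ∧
      (m + 2 ≤ N → ∃ η : (D.P.obj Y).cell (m + 1), src η = ξ ∧ tgt η = ξ' ∧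
        cm (D.p0 Y) η = h₀ ∧ cm (D.p1 Y) η = h₁) := by
  have hg : ∀ k, k ≤ m + 1 → D.GoodT k := fun k hk => D.goodT hA k (hk.trans hm)
  obtain ⟨A, ζ, h, hu⟩ := D.exists_cylD hA (i := m) (fun k hk => hg k (Nat.le_succ_of_le hk))
  obtain ⟨f, hf⟩ := hu Y ξ
  have hf' : cm (D.P.map f) ζ = ξ := hf
  obtain ⟨A₁, i₁, k₁, hi₁⟩ := exists_raise A (cm (D.p1 A) ζ)
  obtain ⟨A₂, i₂, k₀, hi₂⟩ := exists_raise A₁ (cm (um i₁) (cm (D.p0 A) ζ))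
  have hc : ContrLe N (ug A₂) := by
    rcases hn.eq_or_lt with rfl | hn'
    · have h1 := (h.2 le_rfl).lower
      rw [tgtI_self, D.tgt_cyl] at h1
      have h2 := h1.raise hi₁
      have hb : bd (cm (um i₁) (cm (D.p0 A) ζ)) = bd (tgt k₁) := by
        rw [← bd_src, hi₁.src_eq, bd_cm, bd_cm, bd_cm, bd_cm, D.sm_p1_low A le_rfl]
      obtain ⟨k, hk1, hk2⟩ := (h2.contrLe _ hm).htp hb
      exact (Good.srcRaise hA k (hk2 ▸ h2.lower) (hk1 ▸ hi₂)).contrLe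
    · exact hA A A₂ (i₁ ≫ i₂) (h.cofibt D) ((hi₁.jCof hn').comp (hi₂.jCof hn')) (h.contrLe D)
  obtain ⟨f₁, ⟨n1, n2⟩, -⟩ := hi₁.univ Y f h₁ (by rw [e₁, ← hf', cm_p1_map])
  obtain ⟨f₂, ⟨n3, n4⟩, -⟩ := hi₂.univ Y f₁ h₀
    (by rw [e₀, ← hf', cm_p0_map, ← cm_um_comp, n1])
  obtain ⟨ξ', m1, m2, m3, m4⟩ := D.jlift_of_contr hn hm (hg m (Nat.le_succ m)) (hg _ le_rfl) A₂ hc
    (cm (D.P.map (i₁ ≫ i₂)) ζ) k₀ (cm (um i₂) k₁)
    (by rw [hi₂.src_eq, cm_p0_map, cm_um_comp])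
    (by rw [src_cm, hi₁.src_eq, cm_p1_map, cm_um_comp])
  have hξ : cm (D.P.map f₂) (cm (D.P.map (i₁ ≫ i₂)) ζ) = ξ := by
    rw [← cm_P_comp, Category.assoc, n3, n1, hf']
  have hk : cm (um f₂) (cm (um i₂) k₁) = h₁ := by rw [← cm_um_comp, n3, n2]
  refine ⟨cm (D.P.map f₂) ξ', ?_, ?_, ?_, fun hm' => ?_⟩
  · rw [bd_cm, m1, ← bd_cm, hξ]
  · rw [cm_p0_map, m2, ← tgt_cm, n4]
  · rw [cm_p1_map, m3, ← tgt_cm, hk]
  · obtain ⟨η, r1, r2, r3, r4⟩ := m4 hm'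
    refine ⟨cm (D.P.map f₂) η, ?_, ?_, ?_, ?_⟩
    · rw [src_cm, r1, hξ]
    · rw [tgt_cm, r2]
    · rw [cm_p0_map, r3, n4]
    · rw [cm_p1_map, r4, hk]

end PathData

end Vale.Agent.P259
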