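import Vale.Agent.P259.Grid

/-! P259: small maps suffice. -/

open CategoryTheory Limits Opposite Topology

noncomputable section

namespace Vale.Agent.P259

variable {C : GlobExt} [Coh C] (Γ : GamData C)

namespace GamData

/-- Covering families on boxes have fillers in dimensions `< N`. -/
def SmallFill (N : ℕ) : Prop :=
  ∀ (M : Box) (S : Sv M.sp), S.Cover → ∀ j, j < N → Fill (ug (Γ.Gam S)) j

section

omit [Coh C]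

variable {N : ℕ} (Q : QData C 0 N) {Y : TopCat.{0}} (S S₀ : Sv Y)

theorem dl_congr {Y₀ Y₁ Z₀ Z₁ : C.Gpd} {f : Y₀ ⟶ Y₁} {g : Z₀ ⟶ Z₁} {a a' : Y₀ ⟶ Z₀}
    {b b' : Y₁ ⟶ Z₁} (ha : a = a') (hb : b = b') (w : a ≫ g = f ≫ b) (w' : a' ≫ g = f ≫ b') :
    Q.map a b w = Q.map a' b' w' := by
  subst ha hb
  rfl

theorem dl_comp {Y₀ Y₁ Z₀ Z₁ W₀ W₁ : C.Gpd} {f : Y₀ ⟶ Y₁} {g : Z₀ ⟶ Z₁} {k : W₀ ⟶ W₁}
    {a : Y₀ ⟶ Z₀} {b : Y₁ ⟶ Z₁} {a' : Z₀ ⟶ W₀} {b' : Z₁ ⟶ W₁} {a'' : Y₀ ⟶ W₀} {b'' : Y₁ ⟶ W₁}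
    (ha : a ≫ a' = a'') (hb : b ≫ b' = b'') (w : a ≫ g = f ≫ b) (w' : a' ≫ k = g ≫ b')
    (w'' : a'' ≫ k = f ≫ b'') : Q.map a b w ≫ Q.map a' b' w' = Q.map a'' b'' w'' := by
  subst ha hb
  exact Q.map_comp _ _ _ _ _ _ _

/-- The inclusion of the small maps into a box. -/
def dlI {M : Box} (f : M.sp ⟶ Y) : Γ.Gam (S₀.pull f) ⟶ Γ.Gam (Sv.top M.sp) :=
  Γ.incl fun _ _ _ => trivial

theorem dl_mem {M M' : Box} {f : M.sp ⟶ Y} {f' : M'.sp ⟶ Y} {g : M.sp ⟶ M'.sp} (hg : g ≫ f' = f)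
    (K : Box) (u : K.sp ⟶ M.sp) (hu : (S₀.pull f).mem K u) : (S₀.pull f').mem K (u ≫ g) := by
  change S₀.mem K ((u ≫ g) ≫ f')
  rw [Category.assoc, hg]
  exact hu

theorem dl_sq {Y₁ Y₂ : TopCat.{0}} {A B : Sv Y₁} {A' B' : Sv Y₂} (φ : Y₁ ⟶ Y₂) (hA hB)
    (h : A.Le B) (h' : A'.Le B') :
    Γ.map (S := A) (S' := A') φ hA ≫ Γ.incl h' = Γ.incl h ≫ Γ.map (S := B) (S' := B') φ hB :=
  Γ.hom_ext fun M f hf => by
    rw [← Category.assoc, ι_map, ι_incl, ← Category.assoc, ι_incl, ι_map]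

theorem dl_map_incl {Y₁ Y₂ : TopCat.{0}} {A : Sv Y₁} {A' B' : Sv Y₂} (φ : Y₁ ⟶ Y₂) (hA hB)
    (h' : A'.Le B') :
    Γ.map (S := A) (S' := A') φ hA ≫ Γ.incl h' = Γ.map (S := A) (S' := B') φ hB :=
  Γ.hom_ext fun M f hf => by rw [← Category.assoc, ι_map, ι_incl, ι_map]

/-- The diagram of path objects. -/
def dlE : S.El ⥤ C.Gpd where
  obj e := Q.obj (dlI Γ S₀ e.f)
  map g := Q.map (Γ.map g.1 (dl_mem S₀ g.2)) (Γ.map g.1 fun _ _ _ => trivial) (dl_sq Γ _ _ _ _ _)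
  map_id _ := (dl_congr Q (Γ.map_id _ _) (Γ.map_id _ _) _
    ((Category.id_comp _).trans (Category.comp_id _).symm)).trans (Q.map_id _ _)
  map_comp _ _ := (dl_comp Q (Γ.map_comp _ _ _ _ _) (Γ.map_comp _ _ _ _ _) _ _ _).symm

/-- The diagram of bases. -/
def dlB : S.El ⥤ C.Gpd := S.proj ⋙ boxF ⋙ Γ.Top

def dlP : dlE Γ Q S S₀ ⟶ dlB Γ S where
  app e := Q.ρ (dlI Γ S₀ e.f)
  naturality _ _ _ := Q.map_ρ _ _ _

def dlb : S.proj ⋙ Γ.G ⟶ dlB Γ S where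
  app e := Γ.ι (Sv.top e.M.sp) e.M (𝟙 _) trivial
  naturality e e' g :=
    (Γ.ι_comp (Sv.top e'.M.sp) g.1 (𝟙 _) trivial trivial).trans
      ((Γ.ι_congr _ ((Category.comp_id _).trans (Category.id_comp _).symm) _ _).trans
        (Γ.ι_map (S := Sv.top e.M.sp) (S' := Sv.top e'.M.sp) g.1 (fun _ _ _ => trivial) e.M
          (𝟙 _) trivial).symm)

variable {S}

/-- Pushing forward small maps. -/
def dlA {M : Box} (f : M.sp ⟶ Y) (hf : S.mem M f) : Γ.Gam (S₀.pull f) ⟶ Γ.Gam (S.inf S₀) :=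
  Γ.map f fun _ u hu => ⟨S.comp u hf, hu⟩

/-- Pushing forward all maps. -/
def dlC {T : Sv Y} {M : Box} (f : M.sp ⟶ Y) (hf : T.mem M f) : Γ.Gam (Sv.top M.sp) ⟶ Γ.Gam T :=
  Γ.map f fun _ u _ => T.comp u hf

theorem dl_w {T : Sv Y} (hT' : (S.inf S₀).Le T) {k : Γ.Gam (S.inf S₀) ⟶ Γ.Gam T}
    (hk : k = Γ.incl hT') {M : Box} (f : M.sp ⟶ Y) (hf : S.mem M f) (hf' : T.mem M f) :
    dlA Γ S₀ f hf ≫ k = dlI Γ S₀ f ≫ dlC Γ f hf' := by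
  subst hk
  exact dl_sq Γ _ _ _ _ _

variable (l : S.proj ⋙ Γ.G ⟶ dlE Γ Q S S₀)

/-- The components of the lift. -/
def dlL (M : Box) (f : M.sp ⟶ Y) (hf : S.mem M f) : Γ.G.obj M ⟶ Q.obj (dlI Γ S₀ f) :=
  l.app ⟨M, f, hf⟩

theorem dlL_nat {M M' : Box} (g : M.sp ⟶ M'.sp) (f : M'.sp ⟶ Y) (hf : S.mem M' f) :
    Γ.G.map (boxHom g) ≫ dlL Γ Q S₀ l M' f hf = dlL Γ Q S₀ l M (g ≫ f) (S.comp g hf) ≫
      Q.map (f := dlI Γ S₀ (g ≫ f)) (g := dlI Γ S₀ f) (Γ.map g (dl_mem S₀ rfl))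
        (Γ.map g fun _ _ _ => trivial) (dl_sq Γ _ _ _ _ _) :=
  l.naturality (show (⟨M, g ≫ f, S.comp g hf⟩ : S.El) ⟶ (⟨M', f, hf⟩ : S.El) from ⟨g, rfl⟩)

/-- The deformation. -/
def dlH {T : Sv Y} (hT : T.Le S) (hT' : (S.inf S₀).Le T) {k : Γ.Gam (S.inf S₀) ⟶ Γ.Gam T}
    (hk : k = Γ.incl hT') : Γ.Gam T ⟶ Q.obj k :=
  Γ.desc (fun M f hf => dlL Γ Q S₀ l M f (hT M f hf) ≫
      Q.map (dlA Γ S₀ f (hT M f hf)) (dlC Γ f hf) (dl_w Γ S₀ hT' hk f _ hf))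
    fun M M' g f hf => by
      have e1 : Γ.map (S := S₀.pull (g ≫ f)) (S' := S₀.pull f) g (dl_mem S₀ rfl) ≫
          dlA Γ S₀ f (hT M' f hf) = dlA Γ S₀ (g ≫ f) (hT M _ (T.comp g hf)) :=
        Γ.map_comp _ _ _ _ _
      have e2 : Γ.map (S := Sv.top M.sp) (S' := Sv.top M'.sp) g (fun _ _ _ => trivial) ≫
          dlC Γ f hf = dlC Γ (g ≫ f) (T.comp g hf) := Γ.map_comp _ _ _ _ _
      rw [← Category.assoc, dlL_nat, Category.assoc]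
      exact congrArg _ (dl_comp Q e1 e2 _ _ _)

theorem ι_dlH {T : Sv Y} (hT : T.Le S) (hT' : (S.inf S₀).Le T) {k : Γ.Gam (S.inf S₀) ⟶ Γ.Gam T}
    (hk : k = Γ.incl hT') (M : Box) (f : M.sp ⟶ Y) (hf : T.mem M f) :
    Γ.ι T M f hf ≫ dlH Γ Q S₀ l hT hT' hk = dlL Γ Q S₀ l M f (hT M f hf) ≫
      Q.map (dlA Γ S₀ f (hT M f hf)) (dlC Γ f hf) (dl_w Γ S₀ hT' hk f _ hf) :=
  Γ.ι_desc _ _ M f hf

theorem dlH_ρ (hl : l ≫ dlP Γ Q S S₀ = dlb Γ S) {T : Sv Y} (hT : T.Le S) (hT' : (S.inf S₀).Le T)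
    {k : Γ.Gam (S.inf S₀) ⟶ Γ.Gam T} (hk : k = Γ.incl hT') :
    dlH Γ Q S₀ l hT hT' hk ≫ Q.ρ k = 𝟙 _ :=
  Γ.hom_ext fun M f hf => by
    have e : dlL Γ Q S₀ l M f (hT M f hf) ≫ Q.ρ (dlI Γ S₀ f) =
        Γ.ι (Sv.top M.sp) M (𝟙 _) trivial :=
      congrArg (fun t => t.app (⟨M, f, hT M f hf⟩ : S.El)) hl
    rw [← Category.assoc, ι_dlH, Category.assoc, Q.map_ρ, ← Category.assoc, e, Category.comp_id]
    exact (Γ.ι_map _ _ _ _ _).trans (Γ.ι_congr _ (Category.id_comp _) _ _)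

end

/-- Deformation lemma. Hint: `carrier` on `S.El` with `E e := Q.obj (incl : Gam (S₀.pull e.f) ⟶
Gam ⊤)` over `B e := Γ.Top.obj e.M.sp` (functorial by `Γ.map`, `Q.map`), `b e := ι ⊤ e.M (𝟙 _)`;
`Q.tfib` by `hN`, `Cover.pull`, `contr_top_box`. Then `H := desc (l e ≫ Q.map (Γ.map e.f) (Γ.map e.f))`
and `H'` likewise on `S.inf S₀` into `Q.obj (𝟙 _)`. -/
theorem deform {N : ℕ} (Q : QData C 0 N) (hN : Γ.SmallFill N) {Y : TopCat.{0}} (S S₀ : Sv Y)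
    (h₀ : S₀.Cover) (h : (S.inf S₀).Le S) :
    ∃ (H : Γ.Gam S ⟶ Q.obj (Γ.incl h)) (H' : Γ.Gam (S.inf S₀) ⟶ Q.obj (𝟙 (Γ.Gam (S.inf S₀)))),
      H ≫ Q.ρ _ = 𝟙 _ ∧ H' ≫ Q.ρ _ = 𝟙 _ ∧
      H' ≫ Q.map (f := 𝟙 _) (g := Γ.incl h) (𝟙 _) (Γ.incl h) rfl = Γ.incl h ≫ H := by
  obtain ⟨l, hl⟩ := Γ.carrier S (dlE Γ Q S S₀) (dlB Γ S) (dlP Γ Q S S₀)
    (fun e => Q.tfib (dlI Γ S₀ e.f) (fun j _ hj => hN e.M _ (h₀.pull e.f) j hj)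
      (fun j _ => Γ.contr_top_box e.M j) fun j hj => absurd hj (Nat.not_lt_zero j)) (dlb Γ S)
  refine ⟨dlH Γ Q S₀ l (fun _ _ hf => hf) h rfl,
    dlH Γ Q S₀ l h (fun _ _ hf => hf) (Γ.incl_self _).symm, dlH_ρ Γ Q S₀ l hl _ _ _,
    dlH_ρ Γ Q S₀ l hl _ _ _, Γ.hom_ext fun M f hf => ?_⟩
  have e2 : dlC Γ f hf ≫ Γ.incl h = dlC Γ f (h M f hf) := dl_map_incl Γ _ _ _ _
  have e3 := ι_dlH Γ Q S₀ l h (fun _ _ hf => hf) (Γ.incl_self _).symm M f hf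
  have e4 := ι_dlH Γ Q S₀ l (fun _ _ hf => hf) h rfl M f (h M f hf)
  refine ((Category.assoc _ _ _).symm.trans (congrArg (· ≫ _) e3)).trans ?_
  refine Eq.trans ?_ ((Category.assoc _ _ _).symm.trans
    ((congrArg (· ≫ _) (Γ.ι_incl h M f hf)).trans e4)).symm
  exact (Category.assoc _ _ _).trans (congrArg _ (dl_comp Q (Category.comp_id _) e2 _ _ _))

/-- Hint: induction on `N`; `exists_grid_le`, `gridSv_cover`, `contr_grid` (the infimum of `S` and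
the grid is the grid), `deform`, `Q.transp`; `exists_qData (fun _ => thmA _ _)`. -/
theorem smallFill (N : ℕ) : Γ.SmallFill N := by
  induction N with
  | zero => exact fun _ _ _ j hj => absurd hj (Nat.not_lt_zero j)
  | succ N ih =>
    intro M S hS j hj
    rcases (Nat.lt_succ_iff.1 hj).lt_or_eq with hj | rfl
    · exact ih M S hS j hj
    obtain ⟨Q⟩ := exists_qData (C := C) (n := 0) (N := j) fun _ => thmA _ _
    obtain ⟨δ, hδ, hle⟩ := exists_grid_le M S hS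
    obtain ⟨H, -, hH, -, -⟩ := Γ.deform Q ih S _ (gridSv_cover M hδ) fun _ _ hf => hf.1
    have e : S.inf (gridSv M δ M.d M.a M.b) = gridSv M δ M.d M.a M.b :=
      Sv.ext (funext fun K => funext fun f => propext ⟨fun hf => hf.2, fun hf => ⟨hle K f hf, hf⟩⟩)
    have hc : Contr (ug (Γ.Gam (S.inf (gridSv M δ M.d M.a M.b)))) := by
      rw [e]
      exact Γ.contr_grid M hδ _ _ _ M.le le_rfl le_rfl
    intro z
    obtain ⟨x, hx⟩ := Q.transp _ j le_rfl (hc j) (sm (um H) z)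
    exact ⟨x, by rw [hx, ← sm_um_comp, hH, sm_um_id]⟩

/-- Hint: in dimension `n` use `deform` with `N = n + 1`, `S = ⊤`, and `Q.back`. -/
theorem we_incl_top {Y : TopCat.{0}} (S₀ : Sv Y) (h₀ : S₀.Cover) (h : S₀.Le (Sv.top Y)) :
    WE (um (Γ.incl h)) := by
  suffices H : ∀ (T : Sv Y) (hT : T.Le (Sv.top Y)), T = (Sv.top Y).inf S₀ → WE (um (Γ.incl hT)) from
    H S₀ h (Sv.ext (funext fun K => funext fun f =>
      propext ⟨fun hf => ⟨trivial, hf⟩, fun hf => hf.2⟩))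
  rintro _ hT rfl n z y hy
  obtain ⟨Q⟩ := exists_qData (C := C) (n := 0) (N := n + 1) fun _ => thmA _ _
  obtain ⟨H, H', hH, hH', hw⟩ := Γ.deform Q (Γ.smallFill _) (Sv.top Y) S₀ h₀ hT
  obtain ⟨x, hx, hx'⟩ := Q.back (Γ.incl hT) n (Nat.zero_le n) (Nat.lt_succ_self n) (sm (um H') z)
    (cm (um H) y) (by rw [bd_cm, hy, ← sm_um_comp, ← sm_um_comp, hw])
  refine ⟨x, by rw [hx, ← sm_um_comp, hH', sm_um_id], ?_⟩
  rwa [← cm_um_comp, hH, cm_um_id] at hx'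

end GamData

end Vale.Agent.P259
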