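import Vale.Agent.P259.TopData

/-! P259: existence of disc functors and of the realization. -/

open CategoryTheory Limits Opposite

noncomputable section

namespace Vale.Agent.P259

variable {C : GlobExt}

namespace DiscF

open GlobExt

/-- Objects of the terminal globular extension. -/
def Cod : Type := Theta

instance : SmallCategory Cod where
  Hom _ _ := PUnit
  id _ := PUnit.unit
  comp _ _ := PUnit.unit

/-- The terminal globular extension. -/
def codExt : GlobExt where
  C := Cod
  F := { obj := fun S => S, map := fun _ => PUnit.unit }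
  bij := Function.bijective_id
  pres := fun _ _ _ _ _ _ => ⟨⟨rfl⟩, ⟨PushoutCocone.IsColimit.mk _ (fun _ => PUnit.unit)
    (fun _ => rfl) (fun _ => rfl) fun _ _ _ _ => rfl⟩⟩

/-- The morphism to the terminal globular extension. -/
def toCod (E : GlobExt) : Hom E codExt where
  G := { obj := fun c => (Equiv.ofBijective _ E.bij).symm c, map := fun _ => PUnit.unit }
  w := CategoryTheory.Functor.ext (fun S => (Equiv.ofBijective _ E.bij).symm_apply_apply S)
    fun _ _ _ => rfl

/-- The globular extension of all continuous maps between topological globular sums. -/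
def topExt (R : ThetaTop) : GlobExt where
  C := InducedCategory TopCat.{0} R.R.obj
  F :=
    { obj := fun S => S
      map := fun f => InducedCategory.homMk (R.R.map f)
      map_id := fun S => InducedCategory.hom_ext (R.R.map_id S)
      map_comp := fun f g => InducedCategory.hom_ext (R.R.map_comp f g) }
  bij := Function.bijective_id
  pres := fun l T j i hl hi =>
    IsPushout.of_map_of_faithful (inducedFunctor _) (R.pres l T j i hl hi)

theorem hasLifts (R : ThetaTop) : HasLifts (toCod (topExt R)) := by
  rintro ⟨n, S, f, g, hpar, -⟩ hb -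
  let T : TopData theta := ⟨R.R, R.pres, R.e, R.e_cs, R.e_ct⟩
  have := R.contractible S
  have hfg : bd (G := ug (T.Pi.obj (R.R.obj S))) (n := n) f.hom = bd (n := n) g.hom := by
    cases n with
    | zero => rfl
    | succ n =>
      have h1 := congrArg InducedCategory.Hom.hom hpar.1
      have h2 := congrArg InducedCategory.Hom.hom hpar.2
      exact sph_ext h1 h2
  obtain ⟨x, hx⟩ := T.contr_pi (R.R.obj S) (n + 1) (sph _ _ hfg)
  obtain ⟨h1, h2⟩ := bd_eq_sph_iff.1 hx
  exact ⟨InducedCategory.homMk x, ⟨InducedCategory.hom_ext h1, InducedCategory.hom_ext h2⟩, rfl⟩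

theorem cg_of_isColimit {J : Type*} [Category J] {F : J ⥤ TopCat.{0}} {c : Cocone F}
    (hc : IsColimit c) (h : ∀ j, CompactlyGeneratedSpace (F.obj j)) :
    CompactlyGeneratedSpace c.pt :=
  compactlyGeneratedSpace_of_continuous_maps fun _ hf =>
    (TopCat.continuous_iff_of_isColimit c hc _).2 fun j =>
      continuous_from_compactlyGeneratedSpace _ fun K _ _ _ _ hq =>
        hf K _ ((c.ι.app j).hom.continuous.comp hq)

end DiscF

/-- Hint: take `R` from `exists_thetaTop`; `E` the globular extension
`InducedCategory TopCat R.R.obj`, `B` the one with exactly one morphism between any two objects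
(`Codiscrete` or by hand). `HasLifts` holds since `discSing (R S)` is contractible
(`ThetaTop.contractible`, `contr_discSing`, translate through `R.e`). Get `Hom C B` and `Hom C E` from
`Coh.along` (or directly), `Dc := G ⋙ inducedFunctor _`, transport along `C.F ⋙ G = E.F`. -/
theorem exists_topData [Coh C] :
    ∃ T : TopData C, ∀ c, CompactlyGeneratedSpace (T.Dc.obj c) := by
  obtain ⟨R, hR⟩ := exists_thetaTop
  obtain ⟨G, -⟩ := Coh.along (DiscF.topExt R) DiscF.codExt (DiscF.toCod _) (DiscF.toCod C)
    (DiscF.hasLifts R)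
  have e : C.F ⋙ G.G ⋙ inducedFunctor R.R.obj = R.R :=
    congrArg (· ⋙ inducedFunctor R.R.obj) G.w
  generalize G.G ⋙ inducedFunctor R.R.obj = Dc at e
  clear G
  obtain ⟨R, pres, e', ecs, ect⟩ := R
  subst e
  refine ⟨⟨Dc, pres, e', ecs, ect⟩, fun c => ?_⟩
  obtain ⟨S, rfl⟩ := C.bij.2 c
  exact hR S

/-- Hint: left Kan extension of `T.Dc` along Yoneda (`Presheaf.uliftYonedaAdjunction`, or directly
`L X := colimit` over the category of elements of `X.obj` of `T.Dc`); a colimit in `TopCat` of
compactly generated spaces is compactly generated. -/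
theorem TopData.exists_adj (T : TopData C) (h : ∀ c, CompactlyGeneratedSpace (T.Dc.obj c)) :
    ∃ L : C.Gpd ⥤ TopCat.{0}, Nonempty (L ⊣ T.Pi) ∧ ∀ X, CompactlyGeneratedSpace (L.obj X) := by
  let L : (C.Cᵒᵖ ⥤ Type) ⥤ TopCat.{0} := uliftYoneda.{0}.leftKanExtension T.Dc
  have adj := Presheaf.uliftYonedaAdjunction.{0} L (uliftYoneda.{0}.leftKanExtensionUnit T.Dc)
  refine ⟨C.IsModel.ι ⋙ L, ⟨adj.restrictFullyFaithful C.IsModel.fullyFaithfulι
    (Functor.FullyFaithful.id _) (Functor.rightUnitor _).symm (Functor.leftUnitor _ ≪≫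
      Functor.isoWhiskerRight uliftYonedaIsoYoneda.{0} _)⟩, fun X => ?_⟩
  exact DiscF.cg_of_isColimit
    (Functor.isPointwiseLeftKanExtensionLeftKanExtensionUnit uliftYoneda.{0} T.Dc X.obj)
    fun j => h _

end Vale.Agent.P259
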