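import Vale.Agent.P259.RData

/-! P259: the free model is weakly equivalent to the fundamental infinity-groupoid. -/

open CategoryTheory Limits Opposite

noncomputable section

namespace Vale.Agent.P259

theorem eps_we {X Q R PX PQ : GPsh} {et : X ⟶ R} {r0 : R ⟶ Q} {r1 : R ⟶ X} {ρ : Q ⟶ X}
    {c : R ⟶ PX} {H : X ⟶ PX} {p0 p1 : PX ⟶ X} {κ : Q ⟶ PQ} {q0 q1 : PQ ⟶ Q} (hX : HtpEq X)
    (t0 : TFib p0) (t1 : TFib p1) (s1 : TFib q1) (c0 : c ≫ p0 = r0 ≫ ρ) (c1 : c ≫ p1 = r1)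
    (H0 : H ≫ p0 = et ≫ r1) (H1 : H ≫ p1 = 𝟙 _) (κ0 : κ ≫ q0 = 𝟙 _)
    (κ1 : κ ≫ q1 = ρ ≫ et ≫ r0) : WE (et ≫ r0) := by
  intro n z d hd
  obtain ⟨A, hA, hA0⟩ := t0 n (sm c (sm et z)) (cm ρ d)
    (by rw [bd_cm, hd, ← sm_comp c, c0, sm_comp, sm_comp])
  obtain ⟨B, hB, hB0⟩ := t0 n (sm H z) (cm p1 A)
    (by rw [bd_cm, hA, ← sm_comp c, c1, ← sm_comp H, H0, sm_comp])
  have hx : bd (cm p1 B) = z := by rw [bd_cm, hB, ← sm_comp, H1, sm_id]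
  refine ⟨cm p1 B, hx, ?_⟩
  have h1 : Htp (cm H (cm p1 B)) B := LiftAt.htp (t1 (n + 1)) (by rw [bd_cm, hx, hB])
    (by rw [← cm_comp H, H1, cm_id]; exact hX.refl _)
  have h2 := h1.map p0
  rw [← cm_comp H, H0, hB0, cm_comp] at h2
  have h3 : Htp (cm c (cm et (cm p1 B))) A := LiftAt.htp (t1 (n + 1))
    (by rw [bd_cm, bd_cm, hx, hA]) (by rwa [← cm_comp c, c1])
  have h4 := (h3.map p0).map (et ≫ r0)
  rw [← cm_comp c, c0, hA0, cm_comp r0] at h4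
  have h5 : Htp (cm κ (cm (et ≫ r0) (cm p1 B))) (cm κ d) := LiftAt.htp (s1 (n + 1))
    (by rw [bd_cm, bd_cm, hx, bd_cm, hd]) (by rwa [← cm_comp κ, ← cm_comp κ, κ1])
  have h6 := h5.map q0
  rwa [← cm_comp κ, ← cm_comp κ, κ0, cm_id, cm_id] at h6

variable {C : GlobExt}

/-- The natural map out of the free model determined by its values on boxes. -/
def epsExt (Γ : GamData C) {F : TopCat.{0} ⥤ C.Gpd} (l : Γ.G ⟶ boxF ⋙ F) : Γ.Top ⟶ F where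
  app Y := Γ.desc (S := Sv.top Y) (fun M f _ => l.app M ≫ F.map f) fun M M' g f _ => by
    have h : Γ.G.map (boxHom g) ≫ l.app M' = l.app M ≫ F.map g := l.naturality (boxHom g)
    rw [← Category.assoc, h, F.map_comp]
    exact Category.assoc _ _ _
  naturality Y Y' φ := Γ.hom_ext fun M f hf => by
    refine (Category.assoc _ _ _).symm.trans (Eq.trans ?_ (Category.assoc _ _ _))
    refine ((Γ.ι_map φ _ M f hf =≫ _).trans (Γ.ι_desc _ _ M _ _)).trans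
      (Eq.trans ?_ (Γ.ι_desc _ _ M f hf =≫ _).symm)
    rw [F.map_comp]
    exact (Category.assoc _ _ _).symm

theorem ι_epsExt (Γ : GamData C) {F : TopCat.{0} ⥤ C.Gpd} (l : Γ.G ⟶ boxF ⋙ F) {Y : TopCat.{0}}
    (M : Box) (f : M.sp ⟶ Y) :
    Γ.ι (Sv.top Y) M f trivial ≫ (epsExt Γ l).app Y = l.app M ≫ F.map f := Γ.ι_desc _ _ M f _

theorem epsExt_comp (Γ : GamData C) {F F' : TopCat.{0} ⥤ C.Gpd} (l : Γ.G ⟶ boxF ⋙ F)
    (α : F ⟶ F') : epsExt Γ (l ≫ Functor.whiskerLeft boxF α) = epsExt Γ l ≫ α :=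
  NatTrans.ext (funext fun Y => Γ.hom_ext fun M f _ => by
    refine (ι_epsExt Γ _ M f).trans (Eq.trans ?_ (Category.assoc _ _ _))
    refine Eq.trans ?_ (ι_epsExt Γ l M f =≫ _).symm
    refine (Category.assoc _ _ _).trans (Eq.trans ?_ (Category.assoc _ _ _).symm)
    exact l.app M ≫= (α.naturality f).symm)

/-- The tautological map on boxes. -/
def epsUnit (Γ : GamData C) : Γ.G ⟶ boxF ⋙ Γ.Top where
  app M := Γ.ι (Sv.top (Box.sp M)) M (𝟙 _) trivial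
  naturality M M' g := (Γ.ι_comp (Sv.top (Box.sp M')) g.hom (𝟙 _) trivial trivial).trans
    ((Γ.ι_congr _ ((Category.comp_id _).trans (Category.id_comp _).symm) _ _).trans
      (Γ.ι_map g.hom _ M (𝟙 _) trivial).symm)

theorem epsExt_unit (Γ : GamData C) : epsExt Γ (epsUnit Γ) = 𝟙 _ :=
  NatTrans.ext (funext fun _ => Γ.hom_ext fun M f _ => (ι_epsExt Γ _ M f).trans
    ((Γ.ι_map f _ M (𝟙 _) trivial).trans
      ((Γ.ι_congr _ (Category.id_comp _) _ _).trans (Category.comp_id _).symm)))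

/-- The first end point as a natural transformation. -/
def epsP0 (Pd : PData C) (F : TopCat.{0} ⥤ C.Gpd) : F ⋙ Pd.P ⟶ F where
  app Y := Pd.p0 (F.obj Y)
  naturality _ _ f := Pd.p0_nat (F.map f)

/-- The second end point as a natural transformation. -/
def epsP1 (Pd : PData C) (F : TopCat.{0} ⥤ C.Gpd) : F ⋙ Pd.P ⟶ F where
  app Y := Pd.p1 (F.obj Y)
  naturality _ _ f := Pd.p1_nat (F.map f)

variable [Coh C]

/-- Hint: take `Pd`, `R : RData`. (1) `et : Γ.Top ⟶ R.R` natural: `Γ.lift` on boxes (`R M` is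
contractible, `tFib_toOne`), then `desc (l M ≫ R.map f)`; `ε := et ≫ r0`. (2) For each `Y`,
`H : Γ Y ⟶ P (Γ Y)` with `H ≫ p0 = et ≫ r1`, `H ≫ p1 = 𝟙` (`lift2`, `PData.tFib2`,
`contr_top_box`, `desc`). (3) `κ : U Pi ⟶ U P Pi` with `κ ≫ p0 = 𝟙`, `κ ≫ p1 = ρ ≫ U ε`
(`discLift`, `piU`, `contr_pi`). Given `z` and `d` over `ε z`: lift `ρ d` along `p0` to `A` over
`c (et z)`, lift `p1 A` along `p0` to `B` over `H z`, put `x = p1 B`. `H x` and `B` have the same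
boundary and the same `p1`, so (`LiftAt.htp` for `tfib1`) `r1 (et x) ~ p1 A`; likewise
`c (et x) ~ A` so `ρ (ε x) ~ ρ d`; apply `ε` and compare `κ (ε x)` with `κ d`. -/
theorem exists_eps (T : TopData C) (Γ : GamData C) :
    ∃ ε : Γ.Top ⟶ T.Pi, ∀ Y, WE (um (ε.app Y)) := by
  obtain ⟨Pd⟩ := exists_pData C
  obtain ⟨R⟩ := exists_rData T Γ Pd
  have hR : ∀ M : Box, Contr (ug (R.R.obj M.sp)) := fun M n z => by
    obtain ⟨y, hy⟩ := T.contr_pi M.sp n (sm (um (R.r0.app _)) z)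
    obtain ⟨x, hx, -⟩ := R.tfib _ n z y hy
    exact ⟨x, hx⟩
  obtain ⟨l, -⟩ := Γ.lift (boxF ⋙ R.R) ((Functor.const _).obj (oneM C))
    { app := fun _ => toOne _, naturality := fun _ _ _ => toOne_ext _ _ }
    (fun M => tFib_toOne (hR M))
    { app := fun _ => toOne _, naturality := fun _ _ _ => toOne_ext _ _ }
  obtain ⟨H, H0, H1⟩ := Γ.lift2 (boxF ⋙ Γ.Top ⋙ Pd.P) (boxF ⋙ Γ.Top) (boxF ⋙ Γ.Top)
    (Functor.whiskerLeft boxF (epsP0 Pd Γ.Top)) (Functor.whiskerLeft boxF (epsP1 Pd Γ.Top))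
    (fun M => Pd.tFib2 (Γ.contr_top_box M)) (l ≫ Functor.whiskerLeft boxF R.r1) (epsUnit Γ)
  have H0' := congrArg (epsExt Γ) H0
  have H1' := congrArg (epsExt Γ) H1
  rw [epsExt_comp, epsExt_comp] at H0'
  rw [epsExt_comp, epsExt_unit] at H1'
  obtain ⟨κ, κ0, κ1⟩ := discLift (Φ := (T.Pi ⋙ Pd.P) ⋙ C.U)
    (Functor.whiskerRight (epsP0 Pd T.Pi) C.U) (Functor.whiskerRight (epsP1 Pd T.Pi) C.U)
    (fun m => Pd.tFib2 (T.contr_pi _)) T.piU.inv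
    (T.piU.inv ≫ R.ρ ≫ Functor.whiskerRight (epsExt Γ l ≫ R.r0) C.U)
  refine ⟨epsExt Γ l ≫ R.r0, fun Y => ?_⟩
  have κ0' := NatTrans.congr_app (T.piU.hom ≫= κ0) Y
  have κ1' := NatTrans.congr_app (T.piU.hom ≫= κ1) Y
  rw [Iso.hom_inv_id] at κ0'
  rw [Iso.hom_inv_id_assoc] at κ1'
  exact eps_we (et := um ((epsExt Γ l).app Y)) (H := um ((epsExt Γ H).app Y))
    (κ := T.piU.hom.app Y ≫ κ.app Y) (htpEq _) (Pd.tfib0 _) (Pd.tfib1 _) (Pd.tfib1 _) (R.c_p0 Y)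
    (R.c_p1 Y) (congrArg um (NatTrans.congr_app H0' Y)) (congrArg um (NatTrans.congr_app H1' Y))
    κ0' κ1'

end Vale.Agent.P259
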