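import Vale.Agent.P259.Lift

/-! P259: the small object argument for models. -/

open CategoryTheory Limits Opposite

noncomputable section

namespace Vale.Agent.P259

variable {C : GlobExt}

attribute [local instance] Cardinal.fact_isRegular_aleph0 Cardinal.orderBotAleph0OrdToType

/-- Generating cofibrations. -/
def genI_sm (C : GlobExt) : MorphismProperty C.Gpd := MorphismProperty.ofHoms (sphInc C)

/-- Generating anodyne maps. -/
def genJ_sm (C : GlobExt) : MorphismProperty C.Gpd := MorphismProperty.ofHoms (srcInc C)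

instance isSmall_genI_sm : MorphismProperty.IsSmall.{0} (genI_sm C) :=
  inferInstanceAs (MorphismProperty.IsSmall.{0} (MorphismProperty.ofHoms (sphInc C)))

instance isSmall_genJ_sm : MorphismProperty.IsSmall.{0} (genJ_sm C) :=
  inferInstanceAs (MorphismProperty.IsSmall.{0} (MorphismProperty.ofHoms (srcInc C)))

instance isCard_genI_sm :
    MorphismProperty.IsCardinalForSmallObjectArgument (genI_sm C) Cardinal.aleph0.{0} where
  preservesColimit {A B X Y} i hi f hf := by
    have : IsFinitelyPresentable.{0} A := by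
      obtain ⟨n⟩ := hi
      exact sphObj_finPres n
    infer_instance

instance isCard_genJ_sm :
    MorphismProperty.IsCardinalForSmallObjectArgument (genJ_sm C) Cardinal.aleph0.{0} where
  preservesColimit {A B X Y} i hi f hf := by
    have : IsFinitelyPresentable.{0} A := by
      obtain ⟨n⟩ := hi
      exact rep_finPres _
    infer_instance

theorem tfib_eq_rlp_sm : tfib C = (genI_sm C).rlp := by
  ext X Y p
  constructor
  · rintro hp _ _ _ ⟨n⟩
    exact (liftAt_iff p n).1 (hp n)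
  · intro hp n
    exact (liftAt_iff p n).2 (hp _ ⟨n⟩)

theorem jfib_eq_rlp_sm : jfib C 0 = (genJ_sm C).rlp := by
  ext X Y p
  constructor
  · rintro hp _ _ _ ⟨n⟩
    exact (jAt_iff p n).1 (hp n (Nat.zero_le n))
  · intro hp n _
    exact (jAt_iff p n).2 (hp _ ⟨n⟩)

/-- Hint: `I := MorphismProperty.ofHoms (sphInc C)`, `tfib C = I.rlp` by `liftAt_iff`; instance
`IsCardinalForSmallObjectArgument I ℵ₀` as in
`Mathlib/AlgebraicTopology/SimplicialSet/AnodyneExtensions/Basic.lean`; `SmallObject.ιObj`,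
`πObj`, `llp_rlp_ιObj`, `rlp_πObj`. -/
theorem exists_fac_cof_tfib {X Y : C.Gpd} (f : X ⟶ Y) :
    ∃ (W : C.Gpd) (i : X ⟶ W) (p : W ⟶ Y), Cof i ∧ TFib (um p) ∧ i ≫ p = f := by
  refine ⟨SmallObject.obj (genI_sm C) Cardinal.aleph0.{0} f,
    SmallObject.ιObj (genI_sm C) Cardinal.aleph0.{0} f,
    SmallObject.πObj (genI_sm C) Cardinal.aleph0.{0} f, ?_, ?_, SmallObject.ιObj_πObj _ _ _⟩
  · change (tfib C).llp _
    rw [tfib_eq_rlp_sm]
    exact SmallObject.llp_rlp_ιObj _ _ _
  · change tfib C _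
    rw [tfib_eq_rlp_sm]
    exact SmallObject.rlp_πObj _ _ _

/-- Same with `J := MorphismProperty.ofHoms (srcInc C)` and `jAt_iff`. -/
theorem exists_fac_jcof_jfib {X Y : C.Gpd} (f : X ⟶ Y) :
    ∃ (W : C.Gpd) (i : X ⟶ W) (p : W ⟶ Y), JCof 0 i ∧ JFib 0 (um p) ∧ i ≫ p = f := by
  refine ⟨SmallObject.obj (genJ_sm C) Cardinal.aleph0.{0} f,
    SmallObject.ιObj (genJ_sm C) Cardinal.aleph0.{0} f,
    SmallObject.πObj (genJ_sm C) Cardinal.aleph0.{0} f, ?_, ?_, SmallObject.ιObj_πObj _ _ _⟩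
  · change (jfib C 0).llp _
    rw [jfib_eq_rlp_sm]
    exact SmallObject.llp_rlp_ιObj _ _ _
  · change jfib C 0 _
    rw [jfib_eq_rlp_sm]
    exact SmallObject.rlp_πObj _ _ _

/-- Models built from the initial one by attaching cells in countably many steps. -/
def Cellular (X : C.Gpd) : Prop :=
  ∃ (T : ℕ → C.Gpd) (s : ∀ k, T k ⟶ T (k + 1)) (ι : ∀ k, T k ⟶ X),
    IsSeqColim T s X ι ∧ Nonempty (IsInitial (T 0)) ∧
      ∀ k, ∃ (A : Type) (d : A → ℕ) (z : ∀ α, (ug (T k)).Sph (d α))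
        (x : ∀ α, (ug (T (k + 1))).cell (d α)), IsAttach (s k) d z x

theorem isAttach_of_attachCells_sm {A B : C.Gpd} {i : A ⟶ B}
    (c : HomotopicalAlgebra.AttachCells.{0} (sphInc C) i) :
    ∃ (J : Type) (d : J → ℕ) (z : ∀ α, (ug A).Sph (d α)) (x : ∀ α, (ug B).cell (d α)),
      IsAttach i d z x := by
  let e₁ : (∐ fun α => sphObj C (c.π α)) ≅ c.cofan₁.pt :=
    (colimit.isColimit _).coconePointUniqueUpToIso c.isColimit₁
  let e₂ : (∐ fun α => rep C (Theta.D (c.π α))) ≅ c.cofan₂.pt :=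
    (colimit.isColimit _).coconePointUniqueUpToIso c.isColimit₂
  have h₁ : ∀ α, Sigma.ι (fun α => sphObj C (c.π α)) α ≫ e₁.hom = c.cofan₁.inj α := fun α =>
    (colimit.isColimit _).comp_coconePointUniqueUpToIso_hom c.isColimit₁ ⟨α⟩
  have h₂ : ∀ α, Sigma.ι (fun α => rep C (Theta.D (c.π α))) α ≫ e₂.hom = c.cofan₂.inj α :=
    fun α => (colimit.isColimit _).comp_coconePointUniqueUpToIso_hom c.isColimit₂ ⟨α⟩
  have hm : e₁.hom ≫ c.m = (Limits.Sigma.map fun α => sphInc C (c.π α)) ≫ e₂.hom := by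
    apply Sigma.hom_ext
    intro α
    rw [← Category.assoc, h₁, c.hm, Sigma.ι_map_assoc, h₂]
  have sq : IsPushout (e₁.hom ≫ c.g₁) (Limits.Sigma.map fun α => sphInc C (c.π α)) i
      (e₂.hom ≫ c.g₂) :=
    c.isPushout.of_iso' e₁ (Iso.refl _) e₂ (Iso.refl _) (by simp) hm (by simp) (by simp)
  exact ⟨c.ι, c.π, _, _, isAttach_of_isPushout sq⟩

theorem isSeqColim_of_isColimit_sm {A : Type*} [Category A] (F : ℕ ⥤ A) {Z : A}
    (ι : F ⟶ (Functor.const ℕ).obj Z) (h : IsColimit (Cocone.mk Z ι)) :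
    IsSeqColim (fun k => F.obj k) (fun k => F.map (homOfLE (Nat.le_succ k))) Z
      (fun k => ι.app k) := by
  refine ⟨fun k => ?_, fun Y g hg => ?_⟩
  · exact (Cocone.mk Z ι).w (homOfLE (Nat.le_succ k))
  · let c : Cocone F := Cocone.mk Y (NatTrans.ofSequence (F := F) (G := (Functor.const ℕ).obj Y)
      g (fun k => by simpa using hg k))
    refine ⟨h.desc c, fun k => h.fac c k, fun d hd => ?_⟩
    exact h.uniq c d hd

theorem cellular_of_mem_sm {X Y : C.Gpd} (hX : IsInitial X) {f : X ⟶ Y}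
    (hf : (MorphismProperty.coproducts.{0} (genI_sm C)).pushouts.transfiniteCompositionsOfShape
      ℕ f) : Cellular Y := by
  obtain ⟨c⟩ := hf
  refine ⟨fun k => c.F.obj k, fun k => c.F.map (homOfLE (Nat.le_succ k)), fun k => c.incl.app k,
    isSeqColim_of_isColimit_sm c.F c.incl c.isColimit, ⟨hX.ofIso c.isoBot.symm⟩, fun k => ?_⟩
  have := c.map_mem k (not_isMax k)
  obtain ⟨a⟩ := (HomotopicalAlgebra.nonempty_attachCells_iff.{0} (sphInc C) _).2 this
  exact isAttach_of_attachCells_sm a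

/-- The arrow from the initial object, as a functor. -/
def fromInit_sm (C : GlobExt) : C.Gpd ⥤ Arrow C.Gpd where
  obj Z := Arrow.mk (initial.to Z)
  map {Z Z'} g := Arrow.homMk (𝟙 _) g (initial.hom_ext _ _)

/-- Hint: `Q Z := SmallObject.obj I ℵ₀ (initial.to Z)` with `SmallObject.objMap`; cellularity from
`relativeCellComplexιObj` (or `transfiniteCompositionsOfShape_ιObj` moved to `ℕ` by
`transfiniteCompositionsOfShape_eq_of_orderIso`) and `isAttach_of_isPushout`. A direct construction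
by recursion with `exists_attach` and `IsSeqColim.sph_eventually` is also fine. -/
theorem exists_cellular_replacement (C : GlobExt) :
    ∃ (Q : C.Gpd ⥤ C.Gpd) (q : Q ⟶ 𝟭 _),
      (∀ Z, TFib (um (q.app Z))) ∧ ∀ Z, Cellular (Q.obj Z) := by
  let D := SmallObject.functorialFactorizationData (genI_sm C) Cardinal.aleph0.{0}
  let q : fromInit_sm C ⋙ D.Z ⟶ 𝟭 _ :=
    { app := fun Z => SmallObject.πObj (genI_sm C) Cardinal.aleph0.{0} (initial.to Z)
      naturality := fun Z Z' g =>
        SmallObject.πObj_naturality (genI_sm C) Cardinal.aleph0.{0} ((fromInit_sm C).map g) }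
  refine ⟨fromInit_sm C ⋙ D.Z, q, fun Z => ?_, fun Z => ?_⟩
  · change tfib C (SmallObject.πObj (genI_sm C) Cardinal.aleph0.{0} (initial.to Z))
    rw [tfib_eq_rlp_sm]
    exact SmallObject.rlp_πObj _ _ _
  · let e : ℕ ≃o Cardinal.aleph0.{0}.ord.ToType :=
      ULift.orderIso.{0}.symm.trans
        (OrderIso.ofRelIsoLT (Nonempty.some (by simp [← Ordinal.type_eq])))
    have h := SmallObject.transfiniteCompositionsOfShape_ιObj (genI_sm C) Cardinal.aleph0.{0}
      (initial.to Z)
    rw [← MorphismProperty.transfiniteCompositionsOfShape_eq_of_orderIso _ e] at h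
    exact cellular_of_mem_sm initialIsInitial h

end Vale.Agent.P259
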