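import Vale.Agent.P259.Gam
import Vale.Agent.P259.Small

/-! P259: existence of the projectively cofibrant diagram on boxes. -/

open CategoryTheory Limits Opposite

noncomputable section

namespace Vale.Agent.P259

attribute [local instance] Cardinal.fact_isRegular_aleph0 Cardinal.orderBotAleph0OrdToType

/-- The generating projective cofibrations. -/
def genMap_ge (C : GlobExt) (x : BoxCat × ℕ) :
    (evaluationLeftAdjoint C.Gpd x.1).obj (sphObj C x.2) ⟶
      (evaluationLeftAdjoint C.Gpd x.1).obj (rep C (Theta.D x.2)) :=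
  (evaluationLeftAdjoint C.Gpd x.1).map (sphInc C x.2)

/-- The class of generating projective cofibrations. -/
def genI_ge (C : GlobExt) : MorphismProperty (BoxCat ⥤ C.Gpd) :=
  MorphismProperty.ofHoms (genMap_ge C)

instance isSmall_genI_ge (C : GlobExt) : MorphismProperty.IsSmall.{0} (genI_ge C) :=
  inferInstanceAs (MorphismProperty.IsSmall.{0} (MorphismProperty.ofHoms (genMap_ge C)))

theorem finPres_ge (C : GlobExt) (M : BoxCat) (n : ℕ) :
    IsFinitelyPresentable.{0} ((evaluationLeftAdjoint C.Gpd M).obj (sphObj C n)) := by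
  have h : IsCardinalPresentable (sphObj C n) Cardinal.aleph0.{0} := sphObj_finPres n
  have h' : ((evaluation BoxCat C.Gpd).obj M).IsCardinalAccessible Cardinal.aleph0.{0} :=
    ⟨fun _ _ _ => inferInstance⟩
  exact (evaluationAdjunctionRight C.Gpd M).isCardinalPresentable_leftAdjoint_obj
    Cardinal.aleph0.{0} (sphObj C n)

instance isCard_genI_ge (C : GlobExt) :
    MorphismProperty.IsCardinalForSmallObjectArgument (genI_ge C) Cardinal.aleph0.{0} where
  preservesColimit {A B X Y} i hi f hf := by
    have : IsFinitelyPresentable.{0} A := by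
      obtain ⟨x⟩ := hi
      exact finPres_ge C x.1 x.2
    infer_instance

theorem rlp_genI_ge {C : GlobExt} {E B : BoxCat ⥤ C.Gpd} (p : E ⟶ B) :
    (genI_ge C).rlp p ↔ ∀ M, TFib (um (p.app M)) := by
  constructor
  · intro hp M n
    exact (liftAt_iff (p.app M) n).2
      (((evaluationAdjunctionRight C.Gpd M).hasLiftingProperty_iff (sphInc C n) p).1
        (hp (genMap_ge C (M, n)) ⟨(M, n)⟩))
  · rintro hp _ _ _ ⟨x⟩
    exact ((evaluationAdjunctionRight C.Gpd x.1).hasLiftingProperty_iff (sphInc C x.2) p).2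
      ((liftAt_iff (p.app x.1) x.2).1 (hp x.1 x.2))

theorem contr_one_ge (C : GlobExt) : Contr (ug (oneM C))
  | 0, _ => ⟨PUnit.unit, Subsingleton.elim _ _⟩
  | _ + 1, _ => ⟨PUnit.unit, sph_ext (Subsingleton.elim _ _) (Subsingleton.elim _ _)⟩

/-- Hint: small object argument (see `Small.lean`) in the functor category `BoxCat ⥤ C.Gpd` for the
maps `(evaluationLeftAdjoint _ M).map (sphInc C n)` (`evaluationAdjunctionRight`,
`Adjunction.hasLiftingProperty_iff`, `Adjunction.isCardinalPresentable_leftAdjoint_obj`,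
`liftAt_iff`); their right lifting class is the objectwise trivial fibrations. Factor the map from
the initial functor to the constant functor at `oneM C`; `TFib.contr`. -/
theorem exists_gamData (C : GlobExt) : Nonempty (GamData C) := by
  let f : ⊥_ (BoxCat ⥤ C.Gpd) ⟶ (Functor.const BoxCat).obj (oneM C) := initial.to _
  have h1 := SmallObject.llp_rlp_ιObj (genI_ge C) Cardinal.aleph0.{0} f
  have h2 := (rlp_genI_ge _).1 (SmallObject.rlp_πObj (genI_ge C) Cardinal.aleph0.{0} f)
  refine ⟨⟨SmallObject.obj (genI_ge C) Cardinal.aleph0.{0} f,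
    fun M => (h2 M).contr (contr_one_ge C), fun E B p hp b => ?_⟩⟩
  have := h1 p ((rlp_genI_ge p).2 hp)
  have sq : CommSq (initial.to E) (SmallObject.ιObj (genI_ge C) Cardinal.aleph0.{0} f) p b :=
    ⟨initial.hom_ext _ _⟩
  exact ⟨sq.lift, sq.fac_right⟩

end Vale.Agent.P259
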