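import Vale.Agent.P259.PData

/-! P259: weak equivalences of models. -/

open CategoryTheory Limits Opposite

noncomputable section

namespace Vale.Agent.P259

variable {C : GlobExt} [Coh C]

/-- A cell whose boundary is the end of a cylinder starting in the image is itself such an end. -/
theorem PData.cell_lift (Pd : PData C) {X Y : C.Gpd} {f : X ⟶ Y} (hf : WE (um f)) {n : ℕ}
    {z' : (ug X).Sph n} {ζ : (ug (Pd.P.obj Y)).Sph n} (h : sm (um (Pd.p0 Y)) ζ = sm (um f) z')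
    (a : (ug Y).cell n) (ha : bd a = sm (um (Pd.p1 Y)) ζ) :
    ∃ (a' : (ug X).cell n) (A : (ug (Pd.P.obj Y)).cell n), bd a' = z' ∧ bd A = ζ ∧
      cm (um (Pd.p0 Y)) A = cm (um f) a' ∧ cm (um (Pd.p1 Y)) A = a := by
  obtain ⟨A, hA, hA1⟩ := Pd.tfib1 Y n ζ a ha
  obtain ⟨a', ha', hh⟩ := hf n z' (cm (um (Pd.p0 Y)) A) (by rw [bd_cm, hA, h])
  obtain ⟨k, hk1, hk2⟩ := (htpEq Y).symm hh
  obtain ⟨e, he1, he2⟩ := (htpEq Y).refl a
  obtain ⟨η, hη, hη0, hη1⟩ := Pd.jfib2 Y n A k e hk1 (he1.trans hA1.symm)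
  exact ⟨a', tgt η, ha', by rw [← bd_src, hη, hA], by rw [← tgt_cm, hη0, hk2],
    by rw [← tgt_cm, hη1, he2]⟩

/-- Every sphere of the target of a weak equivalence is joined by a cylinder to the image of a
sphere. Hint: induction on `n`; lift along `p1`, use `WE`, then move the start of the cylinder with
`jfib2` (inverse homotopy and an identity). -/
theorem PData.sph_lift (Pd : PData C) {X Y : C.Gpd} {f : X ⟶ Y} (hf : WE (um f)) (n : ℕ)
    (z : (ug Y).Sph n) : ∃ (z' : (ug X).Sph n) (ζ : (ug (Pd.P.obj Y)).Sph n),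
      sm (um (Pd.p0 Y)) ζ = sm (um f) z' ∧ sm (um (Pd.p1 Y)) ζ = z := by
  induction n with
  | zero => exact ⟨sph0 _, sph0 _, Subsingleton.elim _ _, Subsingleton.elim _ _⟩
  | succ n ih =>
    obtain ⟨z', ζ, h0, h1⟩ := ih (bd (sfst z))
    obtain ⟨a', A, ha', hA, hA0, hA1⟩ := Pd.cell_lift hf h0 (sfst z) h1.symm
    obtain ⟨b', B, hb', hB, hB0, hB1⟩ := Pd.cell_lift hf h0 (ssnd z) (by rw [h1, bd_sfst])
    exact ⟨sph a' b' (ha'.trans hb'.symm), sph A B (hA.trans hB.symm), sph_ext hA0 hB0,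
      sph_ext hA1 hB1⟩

/-- The hard case of two-out-of-three. Hint: `sph_lift`; lift the given cell along `p1` in `P Z`,
use `WE (f ≫ g)`, lift `f x` along `p0` in `P Y`, compare with `LiftAt.htp` for `p0`. -/
theorem we_of_comp_right {X Y Z : C.Gpd} {f : X ⟶ Y} {g : Y ⟶ Z} (hf : WE (um f))
    (hfg : WE (um (f ≫ g))) : WE (um g) := by
  intro n z y hy
  obtain ⟨Pd⟩ := exists_pData C
  obtain ⟨z', ζ, h0, h1⟩ := Pd.sph_lift hf n z
  obtain ⟨x, W, hx, hW, hW0, hW1⟩ := Pd.cell_lift hfg (z' := z') (ζ := sm (um (Pd.P.map g)) ζ)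
    (by rw [← sm_um_comp, Pd.p0_nat, sm_um_comp, h0, sm_um_comp]) y
    (by rw [← sm_um_comp, Pd.p1_nat, sm_um_comp, h1, hy])
  obtain ⟨A, hA, hA0⟩ := Pd.tfib0 Y n ζ (cm (um f) x) (by rw [bd_cm, hx, h0])
  have h2 : Htp (cm (um (Pd.P.map g)) A) W := (Pd.tfib0 Z (n + 1)).htp (by rw [bd_cm, hA, hW])
    (by
      rw [← cm_um_comp, Pd.p0_nat, cm_um_comp, hA0, hW0, cm_um_comp]
      exact (htpEq Z).refl _)
  have h3 := h2.map (um (Pd.p1 Z))
  rw [← cm_um_comp, Pd.p1_nat, cm_um_comp, hW1] at h3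
  exact ⟨cm (um (Pd.p1 Y)) A, by rw [bd_cm, hA, h1], h3⟩

theorem we_comp {X Y Z : C.Gpd} {f : X ⟶ Y} {g : Y ⟶ Z} (hf : WE (um f)) (hg : WE (um g)) :
    WE (um (f ≫ g)) := by
  rw [um_comp]
  exact hf.comp hg (htpEq Z)

theorem we_of_comp_left {X Y Z : C.Gpd} {f : X ⟶ Y} {g : Y ⟶ Z} (hfg : WE (um (f ≫ g)))
    (hg : WE (um g)) : WE (um f) := by
  rw [um_comp] at hfg
  exact hfg.of_comp_left hg

theorem we_of_tFib {X Y : C.Gpd} {f : X ⟶ Y} (hf : TFib (um f)) : WE (um f) := hf.we (htpEq Y)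

theorem we_id (X : C.Gpd) : WE (um (𝟙 X)) :=
  fun _ z y hy => ⟨y, by rw [hy, sm_um_id], (htpEq X).refl y⟩

theorem we_of_isIso {X Y : C.Gpd} (f : X ⟶ Y) [IsIso f] : WE (um f) :=
  WE.of_six (g := um (inv f)) (h := um f)
    (by rw [← um_comp, IsIso.hom_inv_id]; exact we_id X)
    (by rw [← um_comp, IsIso.inv_hom_id]; exact we_id Y)

/-- The pushout conjecture. Hint: `s` a section of `p0 X`, `φ = s ≫ p1`, `r` a retraction of `i`
(`jFib_toOne`), `H : X' ⟶ P X'` from `JCof.lift2` over `(𝟙, r ≫ φ ≫ i)`; then `WE.of_six`. -/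
theorem JCof.we {X X' : C.Gpd} {i : X ⟶ X'} (hi : JCof 0 i) (hX : Cofibt X) : WE (um i) := by
  obtain ⟨Pd⟩ := exists_pData C
  obtain ⟨s, hs⟩ := hX _ _ (Pd.p0 X) (Pd.tfib0 X) (𝟙 X)
  obtain ⟨r, hr, -⟩ := hi.lift (toOne X) (jFib_toOne X) (𝟙 X) (toOne X') (toOne_ext _ _)
  obtain ⟨H, -, hH0, hH1⟩ := hi.lift2 (Pd.p0 X') (Pd.p1 X') (Pd.jfib2 X') (s ≫ Pd.P.map i) (𝟙 X')
    (r ≫ (s ≫ Pd.p1 X) ≫ i)
    (by rw [Category.assoc, Pd.p0_nat, ← Category.assoc, hs, Category.id_comp, Category.comp_id])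
    (by rw [Category.assoc, Pd.p1_nat, ← Category.assoc i, hr, Category.id_comp, Category.assoc])
  have hH : WE (um H) := we_of_comp_left (hH0 ▸ we_id X') (we_of_tFib (Pd.tfib0 X'))
  refine WE.of_six (g := um r) (h := um ((s ≫ Pd.p1 X) ≫ i)) ?_ ?_
  · rw [← um_comp, hr]
    exact we_id X
  · rw [← um_comp, ← hH1]
    exact we_comp hH (we_of_tFib (Pd.tfib1 X'))

/-- Hint: factor with `exists_fac_jcof_jfib`, `JCof.we`, `we_of_comp_right`, `JFib.tFib_of_we`,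
retract argument as in `jCof_of_contr`. -/
theorem jCof_of_cof_we {X Y : C.Gpd} {i : X ⟶ Y} (hi : Cof i) (hX : Cofibt X) (hw : WE (um i)) :
    JCof 0 i := by
  obtain ⟨W, j, q, hj, hq, w⟩ := exists_fac_jcof_jfib i
  obtain ⟨l, hl1, hl2⟩ := hi.lift q (hq.tFib_of_we (we_of_comp_right (hj.we hX) (w ▸ hw))) j (𝟙 Y)
    (by rw [w, Category.comp_id])
  refine jCof_of_lift fun E D p hp f g e => ?_
  obtain ⟨k, hk1, hk2⟩ := hj.lift p hp f (q ≫ g) (by rw [e, ← Category.assoc, w])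
  exact ⟨l ≫ k, by rw [← Category.assoc, hl1, hk1],
    by rw [Category.assoc, hk2, ← Category.assoc, hl2, Category.id_comp]⟩

end Vale.Agent.P259
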