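import Vale.Agent.P259.Eps
import Vale.Agent.P259.DL
import Vale.Agent.P259.GamEx
import Vale.Agent.P259.WEq

/-! P259: excision for the fundamental infinity-groupoid. -/

open CategoryTheory Limits Opposite

noncomputable section

namespace Vale.Agent.P259

namespace Exc

variable {C : GlobExt} (Γ : GamData C) {Y : TopCat.{0}}

/-- Corestriction of a map to a subspace. -/
def cr {Z : TopCat.{0}} {A : Set Y} (f : Z ⟶ Y) (hf : ∀ x, f.hom x ∈ A) : Z ⟶ TopCat.of A :=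
  TopCat.ofHom ⟨fun x => ⟨f.hom x, hf x⟩, f.hom.continuous.subtype_mk _⟩

/-- Corestriction on the free models. -/
def cores {S : Sv Y} {A : Set Y} (h : S.Le (Sv.range A)) : Γ.Gam S ⟶ Γ.Top.obj (TopCat.of A) :=
  Γ.desc (fun M f hf => Γ.ι (Sv.top _) M (cr f (h M f hf)) trivial)
    fun _ _ g f hf => Γ.ι_comp (Sv.top _) g (cr f (h _ f hf)) trivial trivial

theorem ι_cores {S : Sv Y} {A : Set Y} (h : S.Le (Sv.range A)) (M : Box) (f : M.sp ⟶ Y)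
    (hf : S.mem M f) :
    Γ.ι S M f hf ≫ cores Γ h = Γ.ι (Sv.top _) M (cr f (h M f hf)) trivial :=
  Γ.ι_desc _ _ M f hf

theorem ι_top {Y' : TopCat.{0}} (φ : Y ⟶ Y') (M : Box) (f : M.sp ⟶ Y) :
    Γ.ι (Sv.top _) M f trivial ≫ Γ.Top.map φ = Γ.ι (Sv.top _) M (f ≫ φ) trivial :=
  Γ.ι_map (S := Sv.top Y) (S' := Sv.top Y') φ (fun _ _ _ => trivial) M f trivial

theorem isIso_cores {S : Sv Y} {A : Set Y} (h : S.Le (Sv.range A)) (h' : (Sv.range A).Le S) :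
    IsIso (cores Γ h) := by
  have hm : ∀ M f, (Sv.top (TopCat.of A)).mem M f → S.mem M (f ≫ subInc A) :=
    fun M f _ => h' M _ fun x => (f.hom x).2
  refine ⟨Γ.map (S := Sv.top (TopCat.of A)) (subInc A) hm, ?_, ?_⟩
  · refine Γ.hom_ext fun M f hf => ?_
    exact (Category.assoc _ _ _).symm.trans ((congrArg (· ≫ _) (ι_cores Γ h M f hf)).trans
      ((Γ.ι_map _ hm M _ trivial).trans (Category.comp_id _).symm))
  · refine Γ.hom_ext (S := Sv.top (TopCat.of A)) fun M f hf => ?_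
    exact (Category.assoc _ _ _).symm.trans ((congrArg (· ≫ _) (Γ.ι_map _ hm M f hf)).trans
      ((ι_cores Γ h M _ _).trans (Category.comp_id _).symm))

theorem incl_cores {S S' : Sv Y} {A A' : Set Y} (h : S.Le (Sv.range A))
    (h' : S'.Le (Sv.range A')) (k : S.Le S') (k' : A ⊆ A') :
    Γ.incl k ≫ cores Γ h' = cores Γ h ≫ Γ.Top.map (subLe k') :=
  Γ.hom_ext fun M f hf => by
    rw [← Category.assoc, Γ.ι_incl, ι_cores, ← Category.assoc, ι_cores]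
    exact (ι_top Γ (subLe k') M (cr f (h M f hf))).symm

theorem incl_top {S : Sv Y} {A : Set Y} (h : S.Le (Sv.range A)) (k : S.Le (Sv.top Y)) :
    Γ.incl k = cores Γ h ≫ Γ.Top.map (subInc A) :=
  Γ.hom_ext fun M f hf => (Γ.ι_incl k M f hf).trans ((ι_top Γ (subInc A) M _).symm.trans
    ((congrArg (· ≫ _) (ι_cores Γ h M f hf).symm).trans (Category.assoc _ _ _)))

end Exc

variable {C : GlobExt} [Coh C]

/-- Hint: `W₁ = Gam (range U)`, `W₂ = Gam (range V)`, `W₀ = Gam ((range U).inf (range V))`,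
`W = Gam (sup)` (`isPushout_sup`, `cof_incl`, `cofibt_gam`). For a family `S` whose maps are exactly
those with values in `A`, corestriction gives an isomorphism `Gam S ⟶ Γ.Top.obj A` (inverse
`Γ.map (subInc A)`); compose with `ε`. `ψ = incl ≫ ε` is `WE` by `we_incl_top`. -/
theorem excision (T : TopData C) {Y : TopCat.{0}} (U V : Set Y) (hU : IsOpen U) (hV : IsOpen V)
    (hUV : U ∪ V = Set.univ) :
    ∃ (W₀ W₁ W₂ W : C.Gpd) (a₁ : W₀ ⟶ W₁) (a₂ : W₀ ⟶ W₂) (b₁ : W₁ ⟶ W) (b₂ : W₂ ⟶ W)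
      (ψ₀ : W₀ ⟶ T.Pi.obj (TopCat.of (U ∩ V : Set Y))) (ψ₁ : W₁ ⟶ T.Pi.obj (TopCat.of U))
      (ψ₂ : W₂ ⟶ T.Pi.obj (TopCat.of V)) (ψ : W ⟶ T.Pi.obj Y),
      IsPushout a₁ a₂ b₁ b₂ ∧ Cof a₂ ∧ Cofibt W₀ ∧ Cofibt W₁ ∧
      a₁ ≫ ψ₁ = ψ₀ ≫ T.Pi.map (subLe Set.inter_subset_left) ∧
      a₂ ≫ ψ₂ = ψ₀ ≫ T.Pi.map (subLe Set.inter_subset_right) ∧
      b₁ ≫ ψ = ψ₁ ≫ T.Pi.map (subInc U) ∧ b₂ ≫ ψ = ψ₂ ≫ T.Pi.map (subInc V) ∧
      WE (um ψ₀) ∧ WE (um ψ₁) ∧ WE (um ψ₂) ∧ WE (um ψ) := by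
  obtain ⟨Γ⟩ := exists_gamData C
  obtain ⟨ε, hε⟩ := exists_eps T Γ
  have h₀ : ((Sv.range U).inf (Sv.range V)).Le (Sv.range (U ∩ V)) :=
    fun _ _ h x => ⟨h.1 x, h.2 x⟩
  have h₀' : (Sv.range (U ∩ V)).Le ((Sv.range U).inf (Sv.range V)) :=
    fun _ _ h => ⟨fun x => (h x).1, fun x => (h x).2⟩
  have hr : ∀ A : Set Y, (Sv.range A).Le (Sv.range A) := fun _ _ _ h => h
  have ht : ∀ S : Sv Y, S.Le (Sv.top Y) := fun _ _ _ _ => trivial
  have hc : ((Sv.range U).sup (Sv.range V)).Cover := fun y => by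
    rcases (hUV.ge (Set.mem_univ y) : y ∈ U ∨ y ∈ V) with h | h
    · exact ⟨U, hU.mem_nhds h, fun _ _ h => Or.inl h⟩
    · exact ⟨V, hV.mem_nhds h, fun _ _ h => Or.inr h⟩
  have we : ∀ {S : Sv Y} {A : Set Y} (h : S.Le (Sv.range A)), (Sv.range A).Le S →
      WE (um (Exc.cores Γ h ≫ ε.app (TopCat.of A))) := fun h h' =>
    have := Exc.isIso_cores Γ h h'
    we_comp (we_of_isIso _) (hε _)
  have e1 : ∀ {S S' : Sv Y} {A A' : Set Y} (h : S.Le (Sv.range A)) (h' : S'.Le (Sv.range A'))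
      (k : S.Le S') (k' : A ⊆ A'), Γ.incl k ≫ Exc.cores Γ h' ≫ ε.app _ =
        (Exc.cores Γ h ≫ ε.app _) ≫ T.Pi.map (subLe k') := fun h h' k k' => by
    rw [← Category.assoc, Exc.incl_cores Γ h h' k k', Category.assoc, ε.naturality,
      Category.assoc]
  have e2 : ∀ {S S' : Sv Y} {A : Set Y} (h : S.Le (Sv.range A)) (k : S.Le S'),
      Γ.incl k ≫ (Γ.incl (ht S') ≫ ε.app Y : Γ.Gam S' ⟶ T.Pi.obj Y) =
        (Exc.cores Γ h ≫ ε.app _) ≫ T.Pi.map (subInc A) := fun {S S' A} h k =>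
    (Category.assoc _ _ _).symm.trans ((congrArg (· ≫ ε.app Y)
      ((Γ.incl_incl k (ht S') (ht S)).trans (Exc.incl_top Γ h (ht S)))).trans (by
        rw [Category.assoc, ε.naturality, Category.assoc]))
  exact ⟨_, _, _, _, _, _, _, _, Exc.cores Γ h₀ ≫ ε.app _, Exc.cores Γ (hr U) ≫ ε.app _,
    Exc.cores Γ (hr V) ≫ ε.app _, Γ.incl (ht _) ≫ ε.app Y,
    Γ.isPushout_sup (Sv.range U) (Sv.range V), Γ.cof_incl _, Γ.cofibt_gam _, Γ.cofibt_gam _,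
    e1 _ _ _ _, e1 _ _ _ _, e2 _ _, e2 _ _, we h₀ h₀', we _ (hr U), we _ (hr V),
    we_comp (Γ.we_incl_top _ hc _) (hε Y)⟩

end Vale.Agent.P259
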