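import Mathlib

/-! P259: a criterion for an equivalence of localizations. -/

open CategoryTheory

namespace Vale.Agent.P259

/-- Hint: lift `Ψ ⋙ W₁.Q` too; the natural transformations become isomorphisms after `Q`
(`NatIso.isIso_of_isIso_app`, `Q_inverts`); extend them with
`Localization.Construction.natTransExtension` or `Localization.liftNatIso`, then
`Functor.IsEquivalence.mk'`. -/
theorem isEquivalence_lift {A B : Type*} [Category A] [Category B] (W₁ : MorphismProperty A)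
    (W₂ : MorphismProperty B) (Φ : A ⥤ B) (Ψ : B ⥤ A)
    (hΦ : ∀ ⦃X Y : A⦄ (f : X ⟶ Y), W₁ f → W₂ (Φ.map f))
    (hΨ : ∀ ⦃X Y : B⦄ (f : X ⟶ Y), W₂ f → W₁ (Ψ.map f))
    (Q : B ⥤ B) (q : Q ⟶ 𝟭 B) (u : Q ⟶ Ψ ⋙ Φ) (v : Φ ⋙ Ψ ⟶ 𝟭 A)
    (hq : ∀ X, W₂ (q.app X)) (hu : ∀ X, W₂ (u.app X)) (hv : ∀ X, W₁ (v.app X)) :
    (Localization.Construction.lift (Φ ⋙ W₂.Q)
      (fun _ _ f hf => W₂.Q_inverts _ (hΦ f hf))).IsEquivalence := by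
  have h₁ : W₁.IsInvertedBy (Φ ⋙ W₂.Q) := fun _ _ f hf => W₂.Q_inverts _ (hΦ f hf)
  have h₂ : W₂.IsInvertedBy (Ψ ⋙ W₁.Q) := fun _ _ f hf => W₁.Q_inverts _ (hΨ f hf)
  let F := Localization.Construction.lift (Φ ⋙ W₂.Q) h₁
  let G := Localization.Construction.lift (Ψ ⋙ W₁.Q) h₂
  have eF : W₁.Q ⋙ F = Φ ⋙ W₂.Q := Localization.Construction.fac _ _
  have eG : W₂.Q ⋙ G = Ψ ⋙ W₁.Q := Localization.Construction.fac _ _
  have e₁ : W₁.Q ⋙ F ⋙ G = (Φ ⋙ Ψ) ⋙ W₁.Q := by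
    rw [← Functor.assoc, eF, Functor.assoc, eG, Functor.assoc]
  have e₂ : W₂.Q ⋙ G ⋙ F = (Ψ ⋙ Φ) ⋙ W₂.Q := by
    rw [← Functor.assoc, eG, Functor.assoc, eF, Functor.assoc]
  have iv : IsIso (Functor.whiskerRight v W₁.Q) := by
    have : ∀ X, IsIso ((Functor.whiskerRight v W₁.Q).app X) := fun X => W₁.Q_inverts _ (hv X)
    exact NatIso.isIso_of_isIso_app _
  have iq : IsIso (Functor.whiskerRight q W₂.Q) := by
    have : ∀ X, IsIso ((Functor.whiskerRight q W₂.Q).app X) := fun X => W₂.Q_inverts _ (hq X)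
    exact NatIso.isIso_of_isIso_app _
  have iu : IsIso (Functor.whiskerRight u W₂.Q) := by
    have : ∀ X, IsIso ((Functor.whiskerRight u W₂.Q).app X) := fun X => W₂.Q_inverts _ (hu X)
    exact NatIso.isIso_of_isIso_app _
  let η : W₁.Q ⋙ 𝟭 _ ≅ W₁.Q ⋙ F ⋙ G :=
    W₁.Q.rightUnitor ≪≫ W₁.Q.leftUnitor.symm ≪≫ (asIso (Functor.whiskerRight v W₁.Q)).symm ≪≫
      eqToIso e₁.symm
  let ε : W₂.Q ⋙ G ⋙ F ≅ W₂.Q ⋙ 𝟭 _ :=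
    eqToIso e₂ ≪≫ (asIso (Functor.whiskerRight u W₂.Q)).symm ≪≫
      asIso (Functor.whiskerRight q W₂.Q) ≪≫ W₂.Q.leftUnitor ≪≫ W₂.Q.rightUnitor.symm
  exact Functor.IsEquivalence.mk' G
    (Localization.liftNatIso W₁.Q W₁ (W₁.Q ⋙ 𝟭 _) (W₁.Q ⋙ F ⋙ G) _ _
      (h₁ := ⟨Iso.refl _⟩) (h₂ := ⟨Iso.refl _⟩) η)
    (Localization.liftNatIso W₂.Q W₂ (W₂.Q ⋙ G ⋙ F) (W₂.Q ⋙ 𝟭 _) _ _
      (h₁ := ⟨Iso.refl _⟩) (h₂ := ⟨Iso.refl _⟩) ε)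

end Vale.Agent.P259
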