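import Vale.Agent.P259.Unit
import Vale.Agent.P259.DiscF
import Vale.Agent.P259.Loc
import Vale.Agent.P259.Along
import Vale.Agent.P259.Small

/-! P259: the homotopy hypothesis. -/

open CategoryTheory Limits Opposite

noncomputable section

namespace Vale.Agent.P259

open GlobExt

variable {C : GlobExt}

/-- The inclusion of compactly generated spaces in spaces. -/
abbrev cgInc : CG ⥤ TopCat.{0} := CompactlyGenerated.compactlyGeneratedToTop.{0, 0}

/-- A functor to spaces with compactly generated values, as a functor to `CG`. -/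
def toCG {A : Type*} [Category A] (F : A ⥤ TopCat.{0})
    (h : ∀ a, CompactlyGeneratedSpace (F.obj a)) : A ⥤ CG where
  obj a := @CompactlyGenerated.mk (F.obj a) (h a)
  map f := InducedCategory.homMk (F.map f)
  map_id a := congrArg InducedCategory.homMk (F.map_id a)
  map_comp f g := congrArg InducedCategory.homMk (F.map_comp f g)

namespace TopData

variable (T : TopData C) (h : ∀ c, CompactlyGeneratedSpace (T.Dc.obj c))

theorem isDiscFunctor : IsDiscFunctor (toCG T.Dc h) := by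
  refine ⟨fun l S j i hl hi => IsPushout.of_map_of_faithful cgInc (T.pres l S j i hl hi),
    fun n => CompactlyGenerated.fullyFaithfulCompactlyGeneratedToTop.preimageIso (T.e n),
    fun n => ⟨cgInc.map_injective (T.e_cs n), cgInc.map_injective (T.e_ct n)⟩⟩

/-- The two versions of the fundamental infinity-groupoid agree. -/
def fundIso : fundGpd (toCG T.Dc h) (T.isDiscFunctor h) ≅ cgInc ⋙ T.Pi :=
  NatIso.ofComponents
    (fun Y => ObjectProperty.isoMk _ (NatIso.ofComponents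
      (fun c => (CompactlyGenerated.fullyFaithfulCompactlyGeneratedToTop.homEquiv
        (X := (toCG T.Dc h).obj c.unop) (Y := Y)).toIso) (fun _ => rfl)))
    (fun _ => rfl)

end TopData

theorem we_iff_of_iso [Coh C] {A : Type*} [Category A] {F G : A ⥤ C.Gpd} (e : F ≅ G) {X Y : A}
    (f : X ⟶ Y) : WE (um (F.map f)) ↔ WE (um (G.map f)) := by
  refine ⟨fun hf => we_of_comp_right (we_of_isIso (e.hom.app X)) ?_,
    fun hf => we_of_comp_left (g := e.hom.app Y) ?_ (we_of_isIso _)⟩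
  · rw [← e.hom.naturality]
    exact we_comp hf (we_of_isIso _)
  · rw [e.hom.naturality]
    exact we_comp (we_of_isIso _) hf

theorem unit_counit {A B : Type*} [Category A] [Category B] {L : A ⥤ B} {R : B ⥤ A} (adj : L ⊣ R)
    {X : A} {Y : B} (g : X ⟶ R.obj Y) :
    adj.unit.app X ≫ R.map (L.map g ≫ adj.counit.app Y) = g := by
  simp

theorem isLocalizedEquivalence_of {A B : Type*} [Category A] [Category B]
    {W₁ : MorphismProperty A} {W₂ : MorphismProperty B} (Φ : LocalizerMorphism W₁ W₂) (Ψ : B ⥤ A)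
    (hΨ : ∀ ⦃X Y : B⦄ (f : X ⟶ Y), W₂ f → W₁ (Ψ.map f))
    (Q : B ⥤ B) (q : Q ⟶ 𝟭 B) (u : Q ⟶ Ψ ⋙ Φ.functor) (v : Φ.functor ⋙ Ψ ⟶ 𝟭 A)
    (hq : ∀ X, W₂ (q.app X)) (hu : ∀ X, W₂ (u.app X)) (hv : ∀ X, W₁ (v.app X)) :
    Φ.IsLocalizedEquivalence := by
  have := isEquivalence_lift W₁ W₂ Φ.functor Ψ (fun _ _ f hf => Φ.map f hf) hΨ Q q u v hq hu hv
  let G := Localization.Construction.lift (Φ.functor ⋙ W₂.Q)
    (fun _ _ f hf => W₂.Q_inverts _ (Φ.map f hf))
  let _ : CatCommSq Φ.functor W₁.Q W₂.Q G :=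
    ⟨eqToIso (Localization.Construction.fac _ _).symm⟩
  exact LocalizerMorphism.IsLocalizedEquivalence.mk' Φ W₁.Q W₂.Q G

theorem nonempty_units (hC : C.IsCoherator) : Nonempty C.Units := by
  have h : ∀ n, ∃ k, IsLift (E := C) k (𝟙 (C.D n)) (𝟙 _) := fun n =>
    hC.2 _ n _ _ (by cases n <;> simp [Parallel])
  choose k hk using h
  exact ⟨⟨k, hk⟩⟩

theorem hh_of_topData [Coh C] (T : TopData C) (h : ∀ c, CompactlyGeneratedSpace (T.Dc.obj c))
    (u : C.Units) :
    ∃ hW : WHE ≤ (WeakEq u).inverseImage (fundGpd (toCG T.Dc h) (T.isDiscFunctor h)),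
      (LocalizerMorphism.mk (W₁ := WHE) (W₂ := WeakEq u)
        (fundGpd (toCG T.Dc h) (T.isDiscFunctor h)) hW).IsLocalizedEquivalence := by
  obtain ⟨L, ⟨adj⟩, hL⟩ := T.exists_adj h
  obtain ⟨Q, q, hq, hQ⟩ := exists_cellular_replacement C
  have e := T.fundIso h
  have key : ∀ {X Y : CG} (f : X ⟶ Y),
      WE (um ((fundGpd (toCG T.Dc h) (T.isDiscFunctor h)).map f)) ↔ WHE f :=
    fun f => (we_iff_of_iso e f).trans (T.we_iff_isWHE (cgInc.map f))
  refine ⟨fun X Y f hf => (weakEq_iff_we u _).2 ((key f).2 hf), ?_⟩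
  let Ψ : C.Gpd ⥤ CG := toCG (Q ⋙ L) fun Z => hL _
  have hu : ∀ Z, WE (um (adj.unit.app (Q.obj Z))) := fun Z => T.we_unit adj (hQ Z)
  let η : Q ⟶ Ψ ⋙ fundGpd (toCG T.Dc h) (T.isDiscFunctor h) :=
    { app := fun Z => adj.unit.app (Q.obj Z) ≫ e.inv.app (Ψ.obj Z)
      naturality := fun Z Z' g =>
        (Category.assoc _ _ _).symm.trans
          ((congrArg (· ≫ e.inv.app (Ψ.obj Z')) (adj.unit.naturality (Q.map g))).trans
            ((Category.assoc _ _ _).trans
              ((congrArg (adj.unit.app (Q.obj Z) ≫ ·) (e.inv.naturality (Ψ.map g))).trans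
                (Category.assoc _ _ _).symm))) }
  let v : (Q ⋙ L) ⟶ L := Functor.whiskerRight q L
  let w : (cgInc ⋙ T.Pi) ⋙ (Q ⋙ L) ⟶ cgInc :=
    Functor.whiskerLeft (cgInc ⋙ T.Pi) v ≫ Functor.whiskerLeft cgInc adj.counit
  let w' : fundGpd (toCG T.Dc h) (T.isDiscFunctor h) ⋙ (Q ⋙ L) ⟶ cgInc :=
    Functor.whiskerRight e.hom (Q ⋙ L) ≫ w
  let ε : fundGpd (toCG T.Dc h) (T.isDiscFunctor h) ⋙ Ψ ⟶ 𝟭 CG :=
    { app := fun Y => InducedCategory.homMk (w'.app Y)
      naturality := fun Y Y' f => cgInc.map_injective (w'.naturality f) }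
  have hLQ : ∀ {Z Z' : C.Gpd} (g : Z ⟶ Z'), WE (um g) → WE (um (T.Pi.map (L.map (Q.map g)))) :=
    fun {Z Z'} g hg => by
      have h1 : WE (um (Q.map g)) := by
        refine we_of_comp_left (g := q.app Z') ?_ (we_of_tFib (hq Z'))
        rw [q.naturality]
        exact we_comp (we_of_tFib (hq Z)) hg
      refine we_of_comp_right (hu Z) ?_
      have h2 := adj.unit.naturality (Q.map g)
      exact h2 ▸ we_comp h1 (hu Z')
  refine isLocalizedEquivalence_of _ Ψ
    (fun Z Z' g hg => (T.we_iff_isWHE _).1 (hLQ g ((weakEq_iff_we u g).1 hg))) Q q η ε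
    (fun Z => (weakEq_iff_we u _).2 (we_of_tFib (hq Z)))
    (fun Z => (weakEq_iff_we u _).2 (we_comp (hu Z) (we_of_isIso (e.symm.app (Ψ.obj Z)).hom)))
    fun Y => ?_
  refine (T.we_iff_isWHE (w'.app Y)).1 ?_
  have h3 : WE (um (T.Pi.map (w.app Y))) := by
    refine we_of_comp_right (hu (T.Pi.obj (cgInc.obj Y))) ?_
    have h4 : adj.unit.app (Q.obj (T.Pi.obj (cgInc.obj Y))) ≫ T.Pi.map (w.app Y) =
        q.app (T.Pi.obj (cgInc.obj Y)) := unit_counit adj (q.app (T.Pi.obj (cgInc.obj Y)))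
    rw [h4]
    exact we_of_tFib (hq _)
  change WE (um (T.Pi.map (L.map (Q.map (e.hom.app Y)) ≫ w.app Y)))
  rw [Functor.map_comp]
  exact we_comp (hLQ _ (we_of_isIso _)) h3

/-- The inclusion of `CG` in spaces preserves pushouts. -/
theorem isPushout_cgInc {A X Y P : CG} {g : A ⟶ X} {s : A ⟶ Y} {inl : X ⟶ P} {inr : Y ⟶ P}
    (h : IsPushout g s inl inr) :
    IsPushout (cgInc.map g) (cgInc.map s) (cgInc.map inl) (cgInc.map inr) := by
  have sq := IsPushout.of_hasPushout (cgInc.map g) (cgInc.map s)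
  have hX : CompactlyGeneratedSpace (cgInc.obj X) := X.is_compactly_generated
  have hY : CompactlyGeneratedSpace (cgInc.obj Y) := Y.is_compactly_generated
  let P' : CG := @CompactlyGenerated.mk _ (TopSum.po_cg sq)
  have sq' : IsPushout g s (InducedCategory.homMk (pushout.inl _ _) : X ⟶ P')
      (InducedCategory.homMk (pushout.inr _ _) : Y ⟶ P') :=
    IsPushout.of_map_of_faithful cgInc sq
  exact sq.of_iso (Iso.refl _) (Iso.refl _) (Iso.refl _) (cgInc.mapIso (sq'.isoIsPushout _ _ h))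
    ((Category.comp_id _).trans (Category.id_comp _).symm)
    ((Category.comp_id _).trans (Category.id_comp _).symm)
    ((congrArg cgInc.map (sq'.inl_isoIsPushout_hom _ _ h)).trans (Category.id_comp _).symm)
    ((congrArg cgInc.map (sq'.inr_isoIsPushout_hom _ _ h)).trans (Category.id_comp _).symm)

theorem homotopy_hypothesis (C : GlobExt) (hC : C.IsCoherator) :
    (∃ Dsc : C.C ⥤ CG, IsDiscFunctor Dsc) ∧
    ∀ (Dsc : C.C ⥤ CG) (h : IsDiscFunctor Dsc) (u : C.Units),
      ∃ hW : WHE ≤ (WeakEq u).inverseImage (fundGpd Dsc h),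
        (LocalizerMorphism.mk (W₁ := WHE) (W₂ := WeakEq u) (fundGpd Dsc h)
          hW).IsLocalizedEquivalence := by
  have := coh_of_isCoherator hC
  refine ⟨?_, fun Dsc h u => ?_⟩
  · obtain ⟨T, h⟩ := exists_topData (C := C)
    exact ⟨_, T.isDiscFunctor h⟩
  · obtain ⟨e, he⟩ := h.2
    exact hh_of_topData
      ⟨Dsc ⋙ cgInc, fun l S j i hl hi => isPushout_cgInc (h.1 l S j i hl hi),
        fun n => cgInc.mapIso (e n), fun n => congrArg cgInc.map (he n).1,
        fun n => congrArg cgInc.map (he n).2⟩ (fun c => (Dsc.obj c).is_compactly_generated) u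

end Vale.Agent.P259
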