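import Vale.Agent.P259.Colim

/-! P259: the globular set of discs in a space. -/

open CategoryTheory Limits Opposite

noncomputable section

namespace Vale.Agent.P259

theorem norm_sq_hemi (ε : ℝ) (hε : ε ^ 2 = 1) (n : ℕ) (x : Disc n) :
    ‖(hemi ε hε n x).1‖ ^ 2 = 1 := by
  have hx : ‖x.1‖ ≤ 1 := mem_closedBall_zero_iff.mp x.2
  have h0 : 0 ≤ 1 - ‖x.1‖ ^ 2 := by nlinarith [norm_nonneg x.1]
  change ‖snocPt x.1 (ε * √(1 - ‖x.1‖ ^ 2))‖ ^ 2 = 1
  rw [norm_sq_snocPt, mul_pow, hε, Real.sq_sqrt h0]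
  ring

theorem hemi_hemi (ε ε₁ ε₂ : ℝ) (hε hε₁ hε₂) (n : ℕ) :
    (hemi ε₁ hε₁ (n + 1)).comp (hemi ε hε n) = (hemi ε₂ hε₂ (n + 1)).comp (hemi ε hε n) := by
  ext1 x
  apply Subtype.ext
  change snocPt _ (ε₁ * √(1 - ‖(hemi ε hε n x).1‖ ^ 2)) =
    snocPt _ (ε₂ * √(1 - ‖(hemi ε hε n x).1‖ ^ 2))
  rw [norm_sq_hemi]
  simp

/-- The globular set of discs in a space; `n`-cells are `C(Disc n, Y)` by definition. -/
def discSing : TopCat.{0} ⥤ GPsh where
  obj Y := GData.psh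
    { cell := fun n => C(Disc n, Y)
      s := fun n x => x.comp (south n)
      t := fun n x => x.comp (north n)
      ss := fun n x =>
        congrArg x.comp (hemi_hemi (-1) (-1) 1 (by norm_num) (by norm_num) (by norm_num) n)
      ts := fun n x =>
        congrArg x.comp (hemi_hemi 1 (-1) 1 (by norm_num) (by norm_num) (by norm_num) n) }
  map f := GPsh.homMk (fun _ x => f.hom.comp x) (fun _ _ => rfl) (fun _ _ => rfl)
  map_id _ := GPsh.hom_ext fun _ _ => rfl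
  map_comp _ _ := GPsh.hom_ext fun _ _ => rfl

/-- A cell of `discSing` as a continuous map. -/
def toCM {Y : TopCat.{0}} {n : ℕ} (x : (discSing.obj Y).cell n) : C(Disc n, Y) := x

/-- A continuous map as a cell of `discSing`. -/
def ofCM {Y : TopCat.{0}} {n : ℕ} (x : C(Disc n, Y)) : (discSing.obj Y).cell n := x

@[simp] theorem toCM_ofCM {Y : TopCat.{0}} {n : ℕ} (x : C(Disc n, Y)) : toCM (ofCM x) = x := rfl

@[simp] theorem ofCM_toCM {Y : TopCat.{0}} {n : ℕ} (x : (discSing.obj Y).cell n) :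
    ofCM (toCM x) = x := rfl

theorem toCM_injective {Y : TopCat.{0}} {n : ℕ} {x y : (discSing.obj Y).cell n}
    (h : toCM x = toCM y) : x = y := h

theorem toCM_src {Y : TopCat.{0}} {n : ℕ} (x : (discSing.obj Y).cell (n + 1)) :
    toCM (src x) = (toCM x).comp (south n) := rfl

theorem toCM_tgt {Y : TopCat.{0}} {n : ℕ} (x : (discSing.obj Y).cell (n + 1)) :
    toCM (tgt x) = (toCM x).comp (north n) := rfl

theorem toCM_cm {Y Y' : TopCat.{0}} (f : Y ⟶ Y') {n : ℕ} (x : (discSing.obj Y).cell n) :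
    toCM (cm (discSing.map f) x) = f.hom.comp (toCM x) := rfl

/-- The boundary of the `n`-disc. -/
abbrev Sphere (n : ℕ) : Type := Metric.sphere (0 : EuclideanSpace ℝ (Fin n)) 1

def sphIncl (n : ℕ) : C(Sphere n, Disc n) :=
  ⟨fun x => ⟨x.1, Metric.sphere_subset_closedBall x.2⟩, by fun_prop⟩

/-- The centre of the disc. -/
def discPt (n : ℕ) : Disc n := ⟨0, Metric.mem_closedBall_self zero_le_one⟩

/-- The punctured disc. -/
abbrev PDisc (n : ℕ) : Type := {x : Disc n // x.1 ≠ 0}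

def sphToP (n : ℕ) : C(Sphere n, PDisc n) :=
  ⟨fun x => ⟨sphIncl n x, ne_zero_of_mem_unit_sphere x⟩, by fun_prop⟩

def pdVal (n : ℕ) : C(PDisc n, Disc n) := ⟨Subtype.val, continuous_subtype_val⟩

/-- Homotopy equivalences. -/
def IsHE {X Y : Type} [TopologicalSpace X] [TopologicalSpace Y] (f : C(X, Y)) : Prop :=
  ∃ e : ContinuousMap.HomotopyEquiv X Y, e.toFun = f

def subInc {Y : TopCat.{0}} (A : Set Y) : TopCat.of A ⟶ Y :=
  TopCat.ofHom ⟨Subtype.val, continuous_subtype_val⟩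

def subLe {Y : TopCat.{0}} {A B : Set Y} (h : A ⊆ B) : TopCat.of A ⟶ TopCat.of B :=
  TopCat.ofHom (ContinuousMap.inclusion h)

theorem subLe_subInc {Y : TopCat.{0}} {A B : Set Y} (h : A ⊆ B) :
    subLe h ≫ subInc B = subInc A := rfl

theorem subInc_ext {Z Y : TopCat.{0}} {A : Set Y} {f g : Z ⟶ TopCat.of A}
    (h : f ≫ subInc A = g ≫ subInc A) : f = g := by
  ext x
  exact congrArg (fun k : Z ⟶ Y => k.hom x) h

/-- The disjoint union of a family of spaces. -/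
abbrev sumT {ι : Type} (X : ι → Type) [∀ α, TopologicalSpace (X α)] : TopCat.{0} :=
  TopCat.of (Σ α, X α)

def sumInc {ι : Type} (X : ι → Type) [∀ α, TopologicalSpace (X α)] (α : ι) :
    TopCat.of (X α) ⟶ sumT X := TopCat.ofHom (ContinuousMap.sigmaMk α)

def sumDesc {ι : Type} {X : ι → Type} [∀ α, TopologicalSpace (X α)] {Y : TopCat.{0}}
    (f : ∀ α, C(X α, Y)) : sumT X ⟶ Y := TopCat.ofHom (ContinuousMap.sigma f)

theorem sumInc_sumDesc {ι : Type} {X : ι → Type} [∀ α, TopologicalSpace (X α)] {Y : TopCat.{0}}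
    (f : ∀ α, C(X α, Y)) (α : ι) : sumInc X α ≫ sumDesc f = TopCat.ofHom (f α) := rfl

/-- The inclusion of the punctured discs in the discs. -/
def pdInc {ι : Type} (d : ι → ℕ) : sumT (fun α => PDisc (d α)) ⟶ sumT (fun α => Disc (d α)) :=
  sumDesc fun α => (ContinuousMap.sigmaMk (X := fun α => Disc (d α)) α).comp (pdVal (d α))

/-- `Y'` is obtained from `Y` by attaching discs `χ α` along the maps `g α`. -/
structure IsTopAttach {Y Y' : TopCat.{0}} (j : Y ⟶ Y') {ι : Type} (d : ι → ℕ)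
    (g : ∀ α, C(Sphere (d α), Y)) (χ : ∀ α, C(Disc (d α), Y')) : Prop where
  comm : ∀ α, (χ α).comp (sphIncl (d α)) = j.hom.comp (g α)
  univ : ∀ (Z : TopCat.{0}) (f : Y ⟶ Z) (k : ∀ α, C(Disc (d α), Z)),
    (∀ α, (k α).comp (sphIncl (d α)) = f.hom.comp (g α)) →
      ∃! h : Y' ⟶ Z, j ≫ h = f ∧ ∀ α, h.hom.comp (χ α) = k α

end Vale.Agent.P259
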