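import Vale.Agent.P259.Lift
import Vale.Agent.P259.TopDisc

/-! P259: the cofibrant model of a space that is free on maps from boxes. -/

open CategoryTheory Limits Opposite Topology

noncomputable section

namespace Vale.Agent.P259

/-- Nonempty compact boxes. -/
structure Box where
  d : ℕ
  a : Fin d → ℝ
  b : Fin d → ℝ
  le : a ≤ b

abbrev Box.sp (M : Box) : TopCat.{0} := TopCat.of (Set.Icc M.a M.b)

instance (M : Box) : Nonempty M.sp := ⟨⟨M.a, le_rfl, M.le⟩⟩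

instance (M : Box) : ContractibleSpace M.sp :=
  (convex_Icc M.a M.b).contractibleSpace ⟨M.a, le_rfl, M.le⟩

/-- The full subcategory of spaces on boxes. -/
abbrev BoxCat : Type := InducedCategory TopCat.{0} Box.sp

/-- The inclusion of boxes in spaces. -/
abbrev boxF : BoxCat ⥤ TopCat.{0} := inducedFunctor Box.sp

/-- A map of boxes as a morphism of `BoxCat`. -/
abbrev boxHom {M M' : Box} (g : M.sp ⟶ M'.sp) : @Quiver.Hom BoxCat _ M M' :=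
  InducedCategory.homMk g

/-- Families of maps from boxes to `Y` closed under precomposition. -/
@[ext]
structure Sv (Y : TopCat.{0}) where
  mem : ∀ M : Box, (M.sp ⟶ Y) → Prop
  comp : ∀ {M M' : Box} (g : M.sp ⟶ M'.sp) {f : M'.sp ⟶ Y}, mem M' f → mem M (g ≫ f)

namespace Sv

variable {Y Y' : TopCat.{0}}

def top (Y : TopCat.{0}) : Sv Y := ⟨fun _ _ => True, fun _ _ _ => trivial⟩

def inf (S S' : Sv Y) : Sv Y :=
  ⟨fun M f => S.mem M f ∧ S'.mem M f, fun g _ h => ⟨S.comp g h.1, S'.comp g h.2⟩⟩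

def sup (S S' : Sv Y) : Sv Y :=
  ⟨fun M f => S.mem M f ∨ S'.mem M f, fun g _ h => h.imp (S.comp g) (S'.comp g)⟩

/-- Maps with values in `A`. -/
def range (A : Set Y) : Sv Y := ⟨fun _ f => ∀ x, f.hom x ∈ A, fun g _ h x => h (g.hom x)⟩

def pull (φ : Y ⟶ Y') (S : Sv Y') : Sv Y :=
  ⟨fun M f => S.mem M (f ≫ φ), fun g _ h => by rw [Category.assoc]; exact S.comp g h⟩

def Le (S S' : Sv Y) : Prop := ∀ M f, S.mem M f → S'.mem M f

/-- Every point has a neighbourhood all of whose maps from boxes belong to `S`. -/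
def Cover (S : Sv Y) : Prop := ∀ y : Y, ∃ U ∈ 𝓝 y, (range U).Le S

theorem Cover.pull {S : Sv Y'} (h : S.Cover) (φ : Y ⟶ Y') : (S.pull φ).Cover := fun y => by
  obtain ⟨U, hU, hle⟩ := h (φ.hom y)
  exact ⟨φ.hom ⁻¹' U, φ.hom.continuous.continuousAt.preimage_mem_nhds hU,
    fun M f hf => hle M (f ≫ φ) hf⟩

/-- The category of elements. -/
structure El (S : Sv Y) where
  M : Box
  f : M.sp ⟶ Y
  hf : S.mem M f

instance (S : Sv Y) : SmallCategory S.El where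
  Hom e e' := {g : e.M.sp ⟶ e'.M.sp // g ≫ e'.f = e.f}
  id e := ⟨𝟙 _, Category.id_comp _⟩
  comp g g' := ⟨g.1 ≫ g'.1, by rw [Category.assoc, g'.2, g.2]⟩
  id_comp _ := Subtype.ext (Category.id_comp _)
  comp_id _ := Subtype.ext (Category.comp_id _)
  assoc _ _ _ := Subtype.ext (Category.assoc _ _ _)

theorem El.id_val {S : Sv Y} (e : S.El) : (𝟙 e : e ⟶ e).1 = 𝟙 _ := rfl

theorem El.comp_val {S : Sv Y} {e e' e'' : S.El} (g : e ⟶ e') (g' : e' ⟶ e'') :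
    (g ≫ g').1 = g.1 ≫ g'.1 := rfl

def proj (S : Sv Y) : S.El ⥤ BoxCat where
  obj e := e.M
  map g := boxHom g.1

end Sv

/-- A projectively cofibrant diagram of contractible models on boxes. -/
structure GamData (C : GlobExt) where
  G : BoxCat ⥤ C.Gpd
  contr : ∀ M : Box, Contr (ug (G.obj M))
  lift : ∀ (E B : BoxCat ⥤ C.Gpd) (p : E ⟶ B), (∀ M, TFib (um (p.app M))) →
    ∀ b : G ⟶ B, ∃ l : G ⟶ E, l ≫ p = b

namespace GamData

variable {C : GlobExt} (Γ : GamData C) {Y Y' Y'' : TopCat.{0}}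

/-- The model generated by the maps in `S`. -/
def Gam (S : Sv Y) : C.Gpd := colimit (S.proj ⋙ Γ.G)

def ι (S : Sv Y) (M : Box) (f : M.sp ⟶ Y) (hf : S.mem M f) : Γ.G.obj M ⟶ Γ.Gam S :=
  colimit.ι (S.proj ⋙ Γ.G) ⟨M, f, hf⟩

theorem ι_comp (S : Sv Y) {M M' : Box} (g : M.sp ⟶ M'.sp) (f : M'.sp ⟶ Y) (hf : S.mem M' f)
    (hf' : S.mem M (g ≫ f)) :
    Γ.G.map (boxHom g) ≫ Γ.ι S M' f hf = Γ.ι S M (g ≫ f) hf' :=
  colimit.w (S.proj ⋙ Γ.G)
    (show (⟨M, g ≫ f, hf'⟩ : S.El) ⟶ (⟨M', f, hf⟩ : S.El) from ⟨g, rfl⟩)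

theorem ι_congr (S : Sv Y) {M : Box} {f f' : M.sp ⟶ Y} (e : f = f') (hf : S.mem M f)
    (hf' : S.mem M f') : Γ.ι S M f hf = Γ.ι S M f' hf' := by
  subst e
  rfl

def desc {S : Sv Y} {Z : C.Gpd} (φ : ∀ (M : Box) (f : M.sp ⟶ Y), S.mem M f → (Γ.G.obj M ⟶ Z))
    (w : ∀ (M M' : Box) (g : M.sp ⟶ M'.sp) (f : M'.sp ⟶ Y) (hf : S.mem M' f),
      Γ.G.map (boxHom g) ≫ φ M' f hf = φ M (g ≫ f) (S.comp g hf)) : Γ.Gam S ⟶ Z :=
  colimit.desc (S.proj ⋙ Γ.G) (Cocone.mk Z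
    { app := fun e => φ e.M e.f e.hf
      naturality := by
        rintro ⟨M, f, hf⟩ ⟨M', f', hf'⟩ ⟨g, hg⟩
        have key : ∀ (f₁ : M.sp ⟶ Y) (h₁ : S.mem M f₁), f₁ = f → φ M f₁ h₁ = φ M f hf := by
          rintro _ _ rfl
          rfl
        exact (w M M' g f' hf').trans ((key _ _ hg).trans (Category.comp_id _).symm) })

theorem ι_desc {S : Sv Y} {Z : C.Gpd} (φ w) (M : Box) (f : M.sp ⟶ Y) (hf : S.mem M f) :
    Γ.ι S M f hf ≫ Γ.desc (Z := Z) φ w = φ M f hf := colimit.ι_desc _ _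

theorem hom_ext {S : Sv Y} {Z : C.Gpd} {a b : Γ.Gam S ⟶ Z}
    (h : ∀ M f hf, Γ.ι S M f hf ≫ a = Γ.ι S M f hf ≫ b) : a = b :=
  colimit.hom_ext fun e => h e.M e.f e.hf

/-- Functoriality. -/
def map {S : Sv Y} {S' : Sv Y'} (φ : Y ⟶ Y') (h : ∀ M f, S.mem M f → S'.mem M (f ≫ φ)) :
    Γ.Gam S ⟶ Γ.Gam S' :=
  Γ.desc (fun M f hf => Γ.ι S' M (f ≫ φ) (h M f hf)) fun M _ g f hf =>
    (Γ.ι_comp S' g (f ≫ φ) _ (S'.comp g (h _ f hf))).trans
      (Γ.ι_congr S' (Category.assoc _ _ _).symm _ (h M _ (S.comp g hf)))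

theorem ι_map {S : Sv Y} {S' : Sv Y'} (φ : Y ⟶ Y') (h) (M : Box) (f : M.sp ⟶ Y)
    (hf : S.mem M f) : Γ.ι S M f hf ≫ Γ.map (S' := S') φ h = Γ.ι S' M (f ≫ φ) (h M f hf) :=
  Γ.ι_desc _ _ M f hf

theorem map_id (S : Sv Y) (h) : Γ.map (S := S) (S' := S) (𝟙 Y) h = 𝟙 _ :=
  Γ.hom_ext fun M f hf =>
    (Γ.ι_map _ _ M f hf).trans
      ((Γ.ι_congr S (Category.comp_id _) _ _).trans (Category.comp_id _).symm)

theorem map_comp {S : Sv Y} {S' : Sv Y'} {S'' : Sv Y''} (φ : Y ⟶ Y') (ψ : Y' ⟶ Y'') (h h' h'') :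
    Γ.map (S := S) (S' := S') φ h ≫ Γ.map (S' := S'') ψ h' = Γ.map (φ ≫ ψ) h'' :=
  Γ.hom_ext fun M f hf => by
    rw [← Category.assoc, ι_map, ι_map, ι_map]
    exact Γ.ι_congr S'' (Category.assoc _ _ _) _ _

theorem map_congr {S : Sv Y} {S' : Sv Y'} {φ ψ : Y ⟶ Y'} (e : φ = ψ) (h h') :
    Γ.map (S := S) (S' := S') φ h = Γ.map ψ h' := by
  subst e
  rfl

/-- The map induced by an inclusion of families. -/
def incl {S S' : Sv Y} (h : S.Le S') : Γ.Gam S ⟶ Γ.Gam S' :=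
  Γ.map (𝟙 Y) fun M f hf => by rw [Category.comp_id]; exact h M f hf

theorem ι_incl {S S' : Sv Y} (h : S.Le S') (M : Box) (f : M.sp ⟶ Y) (hf : S.mem M f) :
    Γ.ι S M f hf ≫ Γ.incl h = Γ.ι S' M f (h M f hf) :=
  (Γ.ι_map _ _ M f hf).trans (Γ.ι_congr S' (Category.comp_id _) _ _)

theorem incl_incl {S S' S'' : Sv Y} (h : S.Le S') (h' : S'.Le S'') (h'' : S.Le S'') :
    Γ.incl h ≫ Γ.incl h' = Γ.incl h'' :=
  Γ.hom_ext fun M f hf => by rw [← Category.assoc, ι_incl, ι_incl, ι_incl]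

theorem incl_self {S : Sv Y} (h : S.Le S) : Γ.incl h = 𝟙 _ := Γ.map_id S _

/-- The functor `Y ↦ Gam ⊤`. -/
def Top : TopCat.{0} ⥤ C.Gpd where
  obj Y := Γ.Gam (Sv.top Y)
  map φ := Γ.map φ fun _ _ _ => trivial
  map_id _ := Γ.map_id _ _
  map_comp φ ψ := (Γ.map_comp φ ψ _ _ _).symm

end GamData

end Vale.Agent.P259
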