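import Vale.Agent.P259.P1

/-! P259: the path object functor on models. -/

open CategoryTheory Limits Opposite

noncomputable section

namespace Vale.Agent.P259

/-- A functorial path object (without reflexivity). -/
structure PData (C : GlobExt) where
  P : C.Gpd ⥤ C.Gpd
  p0 : ∀ Y, P.obj Y ⟶ Y
  p1 : ∀ Y, P.obj Y ⟶ Y
  p0_nat : ∀ {Y Y' : C.Gpd} (f : Y ⟶ Y'), P.map f ≫ p0 Y' = p0 Y ≫ f
  p1_nat : ∀ {Y Y' : C.Gpd} (f : Y ⟶ Y'), P.map f ≫ p1 Y' = p1 Y ≫ f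
  tfib0 : ∀ Y, TFib (um (p0 Y))
  tfib1 : ∀ Y, TFib (um (p1 Y))
  jfib2 : ∀ Y, JFib2 (um (p0 Y)) (um (p1 Y))
  corep : ∀ (l : ℕ) (T : Tab l), Corep (extF (P ⋙ C.U) T)
  gap : ∀ {E B : C.Gpd} (p : E ⟶ B), JFib 0 (um p) →
    TFib (um (pbLift (f := p) (g := p0 B) (p0 E) (P.map p) (p0_nat p).symm))

variable {C : GlobExt} [Coh C]

namespace PDataAux

theorem cm_hom_inv {G H : GPsh} (e : G ≅ H) {n : ℕ} (x : G.cell n) :
    cm e.inv (cm e.hom x) = x := by rw [← cm_comp, e.hom_inv_id, cm_id]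

theorem cm_inv_hom {G H : GPsh} (e : G ≅ H) {n : ℕ} (x : H.cell n) :
    cm e.hom (cm e.inv x) = x := by rw [← cm_comp, e.inv_hom_id, cm_id]

theorem sm_hom_inv {G H : GPsh} (e : G ≅ H) {n : ℕ} (x : G.Sph n) :
    sm e.inv (sm e.hom x) = x := by rw [← sm_comp, e.hom_inv_id, sm_id]

theorem tFib_iso {G H B : GPsh} (e : G ≅ H) {p : H ⟶ B} (hp : TFib p) : TFib (e.hom ≫ p) := by
  intro n z b hb
  obtain ⟨x, hx, hx'⟩ := hp n (sm e.hom z) b (by rw [hb, sm_comp])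
  exact ⟨cm e.inv x, by rw [bd_cm, hx, sm_hom_inv], by rw [cm_comp, cm_inv_hom, hx']⟩

theorem jFib2_iso {G H B₀ B₁ : GPsh} (e : G ≅ H) {p₀ : H ⟶ B₀} {p₁ : H ⟶ B₁}
    (hp : JFib2 p₀ p₁) : JFib2 (e.hom ≫ p₀) (e.hom ≫ p₁) := by
  intro m x b₀ b₁ h₀ h₁
  obtain ⟨y, hy, hy₀, hy₁⟩ := hp m (cm e.hom x) b₀ b₁ h₀ h₁
  exact ⟨cm e.inv y, by rw [src_cm, hy, cm_hom_inv], by rw [cm_comp, cm_inv_hom, hy₀],
    by rw [cm_comp, cm_inv_hom, hy₁]⟩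

/-- The map into the pullback is a trivial fibration, in terms of cells. -/
def Gap {W X V Z : GPsh} (a : W ⟶ X) (b : W ⟶ V) (f : X ⟶ Z) (g : V ⟶ Z) : Prop :=
  ∀ (n : ℕ) (z : W.Sph n) (x : X.cell n) (y : V.cell n), bd x = sm a z → bd y = sm b z →
    cm f x = cm g y → ∃ w : W.cell n, bd w = z ∧ cm a w = x ∧ cm b w = y

theorem Gap.iso {W W' X V V' Z : GPsh} {a : W ⟶ X} {b : W ⟶ V} {f : X ⟶ Z} {g : V ⟶ Z}
    (h : Gap a b f g) (e : W' ≅ W) (e' : V' ≅ V) (b' : W' ⟶ V') (hb : b' ≫ e'.hom = e.hom ≫ b) :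
    Gap (e.hom ≫ a) b' f (e'.hom ≫ g) := by
  intro n z x y hx hy hxy
  obtain ⟨w, hw, hw1, hw2⟩ := h n (sm e.hom z) x (cm e'.hom y) (by rw [hx, sm_comp])
    (by rw [bd_cm, hy, ← sm_comp, hb, sm_comp]) hxy
  refine ⟨cm e.inv w, by rw [bd_cm, hw, sm_hom_inv], by rw [cm_comp, cm_inv_hom, hw1], ?_⟩
  rw [← cm_hom_inv e' (cm b' _), ← cm_comp b', hb, cm_comp, cm_inv_hom, hw2, cm_hom_inv]

omit [Coh C] in
theorem Gap.tFib {W X V Z : C.Gpd} {a : W ⟶ X} {b : W ⟶ V} {f : X ⟶ Z} {g : V ⟶ Z}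
    (w : a ≫ f = b ≫ g) (h : Gap (um a) (um b) (um f) (um g)) : TFib (um (pbLift a b w)) := by
  intro n z c hc
  obtain ⟨x, hx, hx1, hx2⟩ := h n z (cm (um (pbFst f g)) c) (cm (um (pbSnd f g)) c)
    (by rw [bd_cm, hc, ← sm_um_comp, pbLift_fst]) (by rw [bd_cm, hc, ← sm_um_comp, pbLift_snd])
    (by rw [← cm_um_comp, ← cm_um_comp, pb_cond])
  exact ⟨x, hx, Subtype.ext (Prod.ext hx1 hx2)⟩

theorem corep_iso {𝒜 : Type 1} [Category.{0} 𝒜] {G H : 𝒜 ⥤ GPsh} (α : G ≅ H) {l : ℕ} (T : Tab l)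
    (h : Corep (extF H T)) : Corep (extF G T) := by
  refine Corep.of_bij (Ψ := extF H T)
    (natMk (fun a (ξ : Ext (G.obj a) T) => (ξ ≫ α.hom.app a : Ext (H.obj a) T))
      fun a b f (ξ : Ext (G.obj a) T) => ?_) (fun a => ?_) h
  · change (ξ ≫ G.map f) ≫ α.hom.app b = (ξ ≫ α.hom.app a) ≫ H.map f
    rw [Category.assoc, Category.assoc, α.hom.naturality]
  · refine ⟨fun (ξ ξ' : Ext (G.obj a) T) e => (cancel_mono (α.hom.app a)).1 e,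
      fun (η : Ext (H.obj a) T) => ⟨(η ≫ α.inv.app a : Ext (G.obj a) T), ?_⟩⟩
    change (η ≫ α.inv.app a) ≫ α.hom.app a = η
    rw [Category.assoc, α.inv_hom_id_app, Category.comp_id]

variable (D : PathData C 0)

theorem tFib_p0 (Y : C.Gpd) : TFib (D.p0 Y) := by
  intro n z b hb
  obtain ⟨c, hc, -⟩ := (htpEq Y).refl (D.tr Y n z b hb)
  obtain ⟨ξ, h1, h2, -⟩ := D.exists_of_src (Nat.zero_le n) (D.goodT_all n) Y z b hb c hc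
  exact ⟨ξ, h1, h2⟩

theorem jFib2_p (Y : C.Gpd) : JFib2 (D.p0 Y) (D.p1 Y) := by
  intro m ξ b₀ b₁ h₀ h₁
  obtain ⟨ξ', -, -, -, h⟩ := D.jlift (thmA (0 + 1) (m + 2)) (Nat.zero_le m) (Nat.le_succ _) Y ξ
    b₀ b₁ h₀ h₁
  obtain ⟨η, e1, -, e2, e3⟩ := h le_rfl
  exact ⟨η, e1, e2, e3⟩

theorem liftAt2_p {A : C.Gpd} {m : ℕ} (hA : Fill (ug A) (m + 1)) :
    LiftAt2 (D.p0 A) (D.p1 A) m := by
  intro z b₀ b₁ h₀ h₁
  obtain ⟨c, hc, hc'⟩ := hA.htp (a := D.tr A m z b₀ h₀) (b := b₁)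
    ((D.goodT_all m A z b₀ h₀).trans h₁.symm)
  obtain ⟨ξ, e1, e2, e3, -⟩ := D.exists_of_src (Nat.zero_le m) (D.goodT_all m) A z b₀ h₀ c hc
  exact ⟨ξ, e1, e2, e3.trans hc'⟩

theorem gap_p {E B : C.Gpd} (p : E ⟶ B) (hp : JFib 0 (um p)) :
    Gap (D.p0 E) (D.P.map p) (um p) (D.p0 B) := by
  intro n z x η hx hη hxη
  have h1 : src (D.cyl B n η (Nat.zero_le n)) = cm (um p) (D.tr E n z x hx) := by
    rw [D.src_cyl, D.tr_nat p n z x hx (by rw [hxη, bd_cm, hη])]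
    exact D.tr_congr hη hxη.symm _ _
  obtain ⟨c, hc, hc'⟩ := hp n (Nat.zero_le n) _ _ h1
  obtain ⟨ξ, e1, e2, e3, e4⟩ := D.exists_of_src (Nat.zero_le n) (D.goodT_all n) E z x hx c hc
  refine ⟨ξ, e1, e2, D.ext B n _ _ ?_ ?_ ?_ fun h => ?_⟩
  · rw [bd_cm, e1, hη]
  · rw [← cm_comp, D.p0_nat, cm_comp, e2, hxη]
  · rw [← cm_comp, D.p1_nat, cm_comp, e3, ← tgt_cm, hc', D.tgt_cyl]
  · rw [← D.cyl_nat, e4, hc']

end PDataAux

open PDataAux in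
/-- The path object functor exists. -/
theorem exists_pData (C : GlobExt) [Coh C] : Nonempty (PData C) := by
  obtain ⟨D⟩ := exists_pathData C 0
  obtain ⟨E, ρ₀, ρ₁, α, h₀, h₁⟩ := principle (𝟭 C.Gpd) (𝟭 C.Gpd) D.P
    { app := D.p0, naturality := fun _ _ f => D.p0_nat f }
    { app := D.p1, naturality := fun _ _ f => D.p1_nat f } (fun _ T => D.corep_ext' T)
    (fun l T m hT => by
      obtain ⟨A, ζ, hζ, hI⟩ := D.exists_cylT (thmA (0 + 1) (m + 2)) T (hT.trans (Nat.le_succ _))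
      exact ⟨A, ζ, hζ, liftAt2_p D (PathData.Inv.contrLe D hI (m + 2) le_rfl)⟩)
  have h₀' : ∀ a, um (ρ₀.app a) = (α.app a).hom ≫ D.p0 a := h₀
  have h₁' : ∀ a, um (ρ₁.app a) = (α.app a).hom ≫ D.p1 a := h₁
  refine ⟨⟨E, ρ₀.app, ρ₁.app, fun f => ρ₀.naturality f, fun f => ρ₁.naturality f,
    fun Y => ?_, fun Y => ?_, fun Y => ?_, fun l T => ?_, fun {X B} p hp => ?_⟩⟩
  · have := tFib_iso (α.app Y) (tFib_p0 D Y)
    rwa [← h₀'] at this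
  · have := tFib_iso (α.app Y) (D.tFib_p1 Y)
    rwa [← h₁'] at this
  · have := jFib2_iso (α.app Y) (jFib2_p D Y)
    rwa [← h₀', ← h₁'] at this
  · exact corep_iso α T (D.corep_ext' T)
  · have := (gap_p D p hp).iso (α.app X) (α.app B) (um (E.map p)) (α.hom.naturality p)
    rw [← h₀', ← h₀'] at this
    exact Gap.tFib _ this

theorem PData.tFib2 (Pd : PData C) {Z : C.Gpd} (hZ : Contr (ug Z)) :
    TFib2 (um (Pd.p0 Z)) (um (Pd.p1 Z)) := fun n z b₀ b₁ h₀ h₁ => by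
  obtain ⟨A, hA, hA0⟩ := Pd.tfib0 Z n z b₀ h₀
  obtain ⟨k, hk1, hk2⟩ := (hZ (n + 1)).htp (a := cm (um (Pd.p1 Z)) A) (b := b₁)
    (by rw [bd_cm, hA, h₁])
  obtain ⟨e, he1, he2⟩ := (htpEq Z).refl b₀
  obtain ⟨η, hη, hη0, hη1⟩ := Pd.jfib2 Z n A e k (he1.trans hA0.symm) hk1
  exact ⟨tgt η, by rw [← bd_src, hη, hA], by rw [← tgt_cm, hη0, he2], by rw [← tgt_cm, hη1, hk2]⟩

end Vale.Agent.P259
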