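import Vale.Agent.P259.Carrier
import Vale.Agent.P259.PData

/-! P259: the free model of a contractible space is contractible. -/

open CategoryTheory Limits Opposite Topology

noncomputable section

namespace Vale.Agent.P259

variable {C : GlobExt} [Coh C]

namespace GamContr

/-- The cylinder functor. -/
def cyl : TopCat.{0} ⥤ TopCat.{0} where
  obj Y := TopCat.of (unitInterval × Y)
  map f := TopCat.ofHom ((ContinuousMap.id _).prodMap f.hom)

/-- The ends of the cylinder. -/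
def inc (t : unitInterval) (Y : TopCat.{0}) : Y ⟶ cyl.obj Y :=
  TopCat.ofHom ⟨fun y => (t, y), by fun_prop⟩

theorem inc_nat (t : unitInterval) {Y Z : TopCat.{0}} (f : Y ⟶ Z) :
    inc t Y ≫ cyl.map f = f ≫ inc t Z := by
  ext x
  rfl

omit [Coh C] in
theorem ι_top (Γ : GamData C) {Y Z : TopCat.{0}} (φ : Y ⟶ Z) (M : Box) (f : M.sp ⟶ Y) :
    Γ.ι (Sv.top Y) M f trivial ≫ Γ.Top.map φ = Γ.ι (Sv.top Z) M (f ≫ φ) trivial :=
  Γ.ι_map φ _ M f trivial

/-- The box one dimension up. -/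
def up (M : Box) : Box :=
  ⟨M.d + 1, Fin.cons 0 M.a, Fin.cons 1 M.b, Fin.cons_le_cons.2 ⟨zero_le_one, M.le⟩⟩

omit [Coh C] in
theorem contr_cyl (Γ : GamData C) (M : Box) : Contr (ug (Γ.Top.obj (cyl.obj M.sp))) := by
  refine Γ.contr_top_of_retract (up M)
    (TopCat.ofHom ⟨fun p : unitInterval × Set.Icc M.a M.b =>
      (⟨(Fin.cons (p.1 : ℝ) p.2.1 : Fin (M.d + 1) → ℝ),
        (Fin.cons_le_cons (α := fun _ => ℝ)).2 ⟨p.1.2.1, p.2.2.1⟩,
        (Fin.cons_le_cons (α := fun _ => ℝ)).2 ⟨p.1.2.2, p.2.2.2⟩⟩ : Set.Icc (up M).a (up M).b), ?_⟩)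
    (TopCat.ofHom ⟨fun y : Set.Icc (up M).a (up M).b =>
      ((⟨y.1 (0 : Fin (M.d + 1)), y.2.1 (0 : Fin (M.d + 1)), y.2.2 (0 : Fin (M.d + 1))⟩,
        ⟨fun i => y.1 i.succ, fun i => y.2.1 i.succ, fun i => y.2.2 i.succ⟩) :
          unitInterval × Set.Icc M.a M.b), ?_⟩) rfl
  · refine Continuous.subtype_mk (continuous_pi fun i => ?_) _
    refine Fin.cases ?_ (fun i => ?_) i
    · exact continuous_subtype_val.comp continuous_fst
    · exact (continuous_apply i).comp (continuous_subtype_val.comp continuous_snd)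
  · refine (Continuous.subtype_mk ((continuous_apply _).comp continuous_subtype_val) _).prodMk
      (Continuous.subtype_mk (continuous_pi fun i => ?_) _)
    exact (continuous_apply (Fin.succ i)).comp continuous_subtype_val

/-- The two ends, naturally in the box. -/
def ends (Γ : GamData C) (t : unitInterval) : Γ.G ⟶ boxF ⋙ cyl ⋙ Γ.Top where
  app M := Γ.ι (Sv.top _) M (inc t _) trivial
  naturality M _ g := (Γ.ι_comp (Sv.top _) g.hom (inc t _) trivial trivial).trans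
    ((ι_top Γ (cyl.map g.hom) M (inc t _)).trans (Γ.ι_congr _ (inc_nat t g.hom) _ _)).symm

theorem exists_htp (Γ : GamData C) (Pd : PData C) {Y Z : TopCat.{0}} (h : cyl.obj Y ⟶ Z) :
    ∃ H : Γ.Top.obj Y ⟶ Pd.P.obj (Γ.Top.obj Z), H ≫ Pd.p0 _ = Γ.Top.map (inc 0 Y ≫ h) ∧
      H ≫ Pd.p1 _ = Γ.Top.map (inc 1 Y ≫ h) := by
  obtain ⟨l, h0, h1⟩ := Γ.lift2 ((boxF ⋙ cyl ⋙ Γ.Top) ⋙ Pd.P) _ _
    { app := fun M => Pd.p0 _, naturality := fun _ _ _ => Pd.p0_nat _ }
    { app := fun M => Pd.p1 _, naturality := fun _ _ _ => Pd.p1_nat _ }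
    (fun M => Pd.tFib2 (contr_cyl Γ M)) (ends Γ 0) (ends Γ 1)
  let φ : ∀ (M : Box) (f : M.sp ⟶ Y), (Sv.top Y).mem M f → (Γ.G.obj M ⟶ Pd.P.obj (Γ.Top.obj Z)) :=
    fun M f _ => l.app M ≫ Pd.P.map (Γ.Top.map (cyl.map f ≫ h))
  have w : ∀ (M M' : Box) (g : M.sp ⟶ M'.sp) (f : M'.sp ⟶ Y) (hf : (Sv.top Y).mem M' f),
      Γ.G.map (boxHom g) ≫ φ M' f hf = φ M (g ≫ f) ((Sv.top Y).comp g hf) := by
    intro M M' g f _
    have e : Γ.G.map (boxHom g) ≫ l.app M' = l.app M ≫ Pd.P.map (Γ.Top.map (cyl.map g)) :=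
      l.naturality (boxHom g)
    refine ((Category.assoc _ _ _).symm.trans (congrArg (· ≫ _) e)).trans
      ((Category.assoc _ _ _).trans (congrArg (l.app M ≫ ·) ?_))
    rw [cyl.map_comp, Category.assoc, Γ.Top.map_comp (cyl.map g), Pd.P.map_comp]
  have key : ∀ (p : ∀ X, Pd.P.obj X ⟶ X) (t : unitInterval),
      (∀ {X X' : C.Gpd} (f : X ⟶ X'), Pd.P.map f ≫ p X' = p X ≫ f) →
      (∀ M : Box, l.app M ≫ p _ = Γ.ι (Sv.top _) M (inc t _) trivial) →
      Γ.desc φ w ≫ p _ = Γ.Top.map (inc t Y ≫ h) := fun p t hp hl =>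
    Γ.hom_ext fun M f hf => by
      refine ((Category.assoc _ _ _).symm.trans (congrArg (· ≫ _) (Γ.ι_desc φ w M f hf))).trans ?_
      refine ((Category.assoc _ _ _).trans (congrArg (l.app M ≫ ·) (hp _))).trans ?_
      refine ((Category.assoc _ _ _).symm.trans (congrArg (· ≫ _) (hl M))).trans ?_
      refine (ι_top Γ (cyl.map f ≫ h) M (inc t _)).trans
        ((Γ.ι_congr _ ?_ _ _).trans (ι_top Γ (inc t Y ≫ h) M f).symm)
      rw [← Category.assoc, inc_nat, Category.assoc]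
  exact ⟨Γ.desc φ w, key Pd.p0 0 Pd.p0_nat fun M => NatTrans.congr_app h0 M,
    key Pd.p1 1 Pd.p1_nat fun M => NatTrans.congr_app h1 M⟩

end GamContr

open GamContr in
/-- Hint: `M × I` is a retract of a box (`Fin.cons`, `Fin.tail`), so `Γ.Top.obj (M × I)` is
contractible (`contr_top_of_retract`). By `lift2` and `PData.tFib2` there is a natural
`l M : G M ⟶ P (Γ.Top.obj (M × I))` over the two ends. With a contraction `h` put
`H := desc (l M ≫ P (Γ.Top.map (h ∘ (f × 𝟙))))`: one end is the identity, the other factors through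
`G` of the `0`-dimensional box. Fill there and transport with `tfib0`. -/
theorem GamData.contr_top (Γ : GamData C) (Y : TopCat.{0}) [ContractibleSpace Y] :
    Contr (ug (Γ.Top.obj Y)) := by
  obtain ⟨Pd⟩ := exists_pData C
  obtain ⟨y, ⟨K⟩⟩ := id_nullhomotopic Y
  obtain ⟨H, h0, h1⟩ := exists_htp Γ Pd (Y := Y) (TopCat.ofHom K.toContinuousMap)
  let M : Box := ⟨0, 0, 0, le_rfl⟩
  let a : Y ⟶ M.sp := TopCat.ofHom (ContinuousMap.const _ ⟨0, le_rfl, le_rfl⟩)
  let b : M.sp ⟶ Y := TopCat.ofHom (ContinuousMap.const _ y)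
  have e0 : inc 0 Y ≫ TopCat.ofHom K.toContinuousMap = 𝟙 Y := by
    ext x
    exact K.apply_zero x
  have e1 : inc 1 Y ≫ TopCat.ofHom K.toContinuousMap = a ≫ b := by
    ext x
    exact K.apply_one x
  rw [e0, Γ.Top.map_id] at h0
  rw [e1, Γ.Top.map_comp] at h1
  intro n z
  obtain ⟨x, hx⟩ := Γ.contr_top_box M n (sm (um (Γ.Top.map a)) z)
  obtain ⟨e, he, -⟩ := Pd.tfib1 _ n (sm (um H) z) (cm (um (Γ.Top.map b)) x) (by
    rw [bd_cm, hx, ← sm_um_comp, ← sm_um_comp, h1])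
  exact ⟨cm (um (Pd.p0 _)) e, by rw [bd_cm, he, ← sm_um_comp, h0, sm_um_id]⟩

end Vale.Agent.P259
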