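import Vale.Agent.P259.Defs

/-! P259: cells, spheres and lifting properties of globular sets (presheaves on the globe
category). -/

open CategoryTheory Limits Opposite

noncomputable section

namespace Vale.Agent.P259

namespace Globe

theorem cs_cs (n : ℕ) : cs n ≫ cs (n + 1) = cs n ≫ ct (n + 1) := by
  exact CategoryTheory.Quotient.sound _ (GlobeRelI.ss n)

theorem ct_cs (n : ℕ) : ct n ≫ cs (n + 1) = ct n ≫ ct (n + 1) := by
  exact CategoryTheory.Quotient.sound _ (GlobeRelI.tt n)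

theorem sig_self {j : ℕ} (h : j ≤ j) : sig h = 𝟙 (D j) := Nat.leRec_self _ _

theorem tau_self {j : ℕ} (h : j ≤ j) : tau h = 𝟙 (D j) := Nat.leRec_self _ _

theorem sig_succ {j i : ℕ} (h : j ≤ i) (h' : j ≤ i + 1) : sig h' = sig h ≫ cs i :=
  Nat.leRec_succ _ _ h

theorem tau_succ {j i : ℕ} (h : j ≤ i) (h' : j ≤ i + 1) : tau h' = tau h ≫ ct i :=
  Nat.leRec_succ _ _ h

/-- Induction on morphisms of the globe category. -/
theorem hom_induction (P : ∀ {a b : Globe}, (a ⟶ b) → Prop) (hid : ∀ a, P (𝟙 a))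
    (hs : ∀ a n (f : a ⟶ D n), P f → P (f ≫ cs n))
    (ht : ∀ a n (f : a ⟶ D n), P f → P (f ≫ ct n)) {a b : Globe} (f : a ⟶ b) : P f := by
  obtain ⟨a⟩ := a
  obtain ⟨b⟩ := b
  obtain ⟨f, rfl⟩ := (CategoryTheory.Quotient.functor GlobeRel).map_surjective
    (X := a) (Y := b) f
  have key : ∀ (b : GlobeV) (f : Quiver.Path (V := GlobeV) a b),
      P ((CategoryTheory.Quotient.functor GlobeRel).map (X := a) (Y := b) f) := by
    intro b f
    induction f with
    | nil => exact hid _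
    | cons p e ih =>
      change GlobeE _ _ at e
      cases e with
      | cs n => exact hs _ n _ ih
      | ct n => exact ht _ n _ ih
  exact key b f

end Globe

namespace GPsh

abbrev cell (G : GPsh) (n : ℕ) : Type := G.obj (op (Globe.D n))

end GPsh

variable {G H K : GPsh}

def src {n : ℕ} (x : G.cell (n + 1)) : G.cell n := G.map (Globe.cs n).op x

def tgt {n : ℕ} (x : G.cell (n + 1)) : G.cell n := G.map (Globe.ct n).op x

theorem src_src {n : ℕ} (x : G.cell (n + 2)) : src (src x) = src (tgt x) := by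
  simp only [src, tgt, ← Functor.map_comp_apply, ← op_comp, Globe.cs_cs]

theorem tgt_src {n : ℕ} (x : G.cell (n + 2)) : tgt (src x) = tgt (tgt x) := by
  simp only [src, tgt, ← Functor.map_comp_apply, ← op_comp, Globe.ct_cs]

/-- Parallel cells. -/
def Par : {n : ℕ} → G.cell n → G.cell n → Prop
  | 0, _, _ => True
  | _ + 1, a, b => src a = src b ∧ tgt a = tgt b

theorem par_src_tgt : ∀ {n : ℕ} (x : G.cell (n + 1)), Par (src x) (tgt x)
  | 0, _ => trivial
  | _ + 1, x => ⟨src_src x, tgt_src x⟩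

/-- Spheres: possible boundaries of `n`-cells. -/
def GPsh.Sph (G : GPsh) : ℕ → Type
  | 0 => PUnit
  | n + 1 => {p : G.cell n × G.cell n // Par p.1 p.2}

/-- The boundary of a cell. -/
def bd : {n : ℕ} → G.cell n → G.Sph n
  | 0, _ => PUnit.unit
  | _ + 1, x => ⟨(src x, tgt x), par_src_tgt x⟩

theorem par_iff_bd : ∀ {n : ℕ} {a b : G.cell n}, Par a b ↔ bd a = bd b
  | 0, _, _ => ⟨fun _ => rfl, fun _ => trivial⟩
  | _ + 1, _, _ => ⟨fun h => Subtype.ext (Prod.ext h.1 h.2),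
      fun h => ⟨congrArg (fun z => z.1.1) h, congrArg (fun z => z.1.2) h⟩⟩

instance : Subsingleton (G.Sph 0) := inferInstanceAs (Subsingleton PUnit)

/-- The unique `0`-sphere. -/
def sph0 (G : GPsh) : G.Sph 0 := PUnit.unit

/-- The sphere formed by two parallel cells. -/
def sph {n : ℕ} (a b : G.cell n) (h : bd a = bd b) : G.Sph (n + 1) := ⟨(a, b), par_iff_bd.2 h⟩

/-- First cell of a sphere. -/
def sfst {n : ℕ} (z : G.Sph (n + 1)) : G.cell n := z.1.1

/-- Second cell of a sphere. -/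
def ssnd {n : ℕ} (z : G.Sph (n + 1)) : G.cell n := z.1.2

theorem bd_sfst {n : ℕ} (z : G.Sph (n + 1)) : bd (sfst z) = bd (ssnd z) := par_iff_bd.1 z.2

@[simp] theorem sfst_sph {n : ℕ} (a b : G.cell n) (h) : sfst (sph a b h) = a := rfl
@[simp] theorem ssnd_sph {n : ℕ} (a b : G.cell n) (h) : ssnd (sph a b h) = b := rfl
@[simp] theorem sfst_bd {n : ℕ} (x : G.cell (n + 1)) : sfst (bd x) = src x := rfl
@[simp] theorem ssnd_bd {n : ℕ} (x : G.cell (n + 1)) : ssnd (bd x) = tgt x := rfl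

theorem sph_ext {n : ℕ} {z w : G.Sph (n + 1)} (h1 : sfst z = sfst w) (h2 : ssnd z = ssnd w) :
    z = w := Subtype.ext (Prod.ext h1 h2)

theorem sph_eta {n : ℕ} (z : G.Sph (n + 1)) : sph (sfst z) (ssnd z) (bd_sfst z) = z := rfl

theorem bd_eq_iff {n : ℕ} {x : G.cell (n + 1)} {z : G.Sph (n + 1)} :
    bd x = z ↔ src x = sfst z ∧ tgt x = ssnd z :=
  ⟨fun h => h ▸ ⟨rfl, rfl⟩, fun h => sph_ext h.1 h.2⟩

theorem bd_eq_sph_iff {n : ℕ} {x : G.cell (n + 1)} {a b : G.cell n} {h : bd a = bd b} :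
    bd x = sph a b h ↔ src x = a ∧ tgt x = b := bd_eq_iff

theorem bd_src {n : ℕ} (x : G.cell (n + 1)) : bd (src x) = bd (tgt x) :=
  par_iff_bd.1 (par_src_tgt x)

/-- Action of a globular map on cells. -/
def cm (f : G ⟶ H) {n : ℕ} (x : G.cell n) : H.cell n := f.app (op (Globe.D n)) x

@[simp] theorem cm_id {n : ℕ} (x : G.cell n) : cm (𝟙 G) x = x := rfl

@[simp] theorem cm_comp (f : G ⟶ H) (g : H ⟶ K) {n : ℕ} (x : G.cell n) :
    cm (f ≫ g) x = cm g (cm f x) := rfl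

theorem src_cm (f : G ⟶ H) {n : ℕ} (x : G.cell (n + 1)) : src (cm f x) = cm f (src x) :=
  (NatTrans.naturality_apply f (Globe.cs n).op x).symm

theorem tgt_cm (f : G ⟶ H) {n : ℕ} (x : G.cell (n + 1)) : tgt (cm f x) = cm f (tgt x) :=
  (NatTrans.naturality_apply f (Globe.ct n).op x).symm

theorem Par.map (f : G ⟶ H) : ∀ {n : ℕ} {a b : G.cell n}, Par a b → Par (cm f a) (cm f b)
  | 0, _, _, _ => trivial
  | _ + 1, _, _, h => ⟨by rw [src_cm, src_cm, h.1], by rw [tgt_cm, tgt_cm, h.2]⟩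

/-- Action of a globular map on spheres. -/
def sm (f : G ⟶ H) : {n : ℕ} → G.Sph n → H.Sph n
  | 0, _ => PUnit.unit
  | _ + 1, z => ⟨(cm f z.1.1, cm f z.1.2), z.2.map f⟩

@[simp] theorem sfst_sm (f : G ⟶ H) {n : ℕ} (z : G.Sph (n + 1)) :
    sfst (sm f z) = cm f (sfst z) := rfl
@[simp] theorem ssnd_sm (f : G ⟶ H) {n : ℕ} (z : G.Sph (n + 1)) :
    ssnd (sm f z) = cm f (ssnd z) := rfl

@[simp] theorem sm_id : ∀ {n : ℕ} (z : G.Sph n), sm (𝟙 G) z = z
  | 0, _ => rfl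
  | _ + 1, _ => rfl

@[simp] theorem sm_comp (f : G ⟶ H) (g : H ⟶ K) :
    ∀ {n : ℕ} (z : G.Sph n), sm (f ≫ g) z = sm g (sm f z)
  | 0, _ => rfl
  | _ + 1, _ => rfl

theorem bd_cm (f : G ⟶ H) : ∀ {n : ℕ} (x : G.cell n), bd (cm f x) = sm f (bd x)
  | 0, _ => rfl
  | _ + 1, x => sph_ext (src_cm f x) (tgt_cm f x)

theorem sm_sph (f : G ⟶ H) {n : ℕ} (a b : G.cell n) (h : bd a = bd b) :
    sm f (sph a b h) = sph (cm f a) (cm f b) (by rw [bd_cm, bd_cm, h]) := rfl

theorem GPsh.hom_ext {f g : G ⟶ H} (h : ∀ n (x : G.cell n), cm f x = cm g x) : f = g := by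
  ext ⟨⟨⟨n⟩⟩⟩ x
  exact h n x

/-- A globular map from its action on cells. -/
def GPsh.homMk (f : ∀ n, G.cell n → H.cell n)
    (hs : ∀ n (x : G.cell (n + 1)), src (f _ x) = f _ (src x))
    (ht : ∀ n (x : G.cell (n + 1)), tgt (f _ x) = f _ (tgt x)) : G ⟶ H where
  app a := TypeCat.ofHom (f a.unop.as.n)
  naturality := by
    rintro ⟨b⟩ ⟨a⟩ ⟨g⟩
    ext x
    change f a.as.n (G.map g.op x) = H.map g.op (f b.as.n x)
    revert x
    refine Globe.hom_induction (fun {a b} g => ∀ x : G.obj (op b),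
      f a.as.n (G.map g.op x) = H.map g.op (f b.as.n x)) ?_ ?_ ?_ g
    · intro a x
      simp only [op_id, Functor.map_id_apply]
      exact (Functor.map_id_apply H _ _).symm
    · intro a n g ih x
      simp only [op_comp, Functor.map_comp_apply]
      rw [ih]
      exact (congrArg _ (hs n x).symm).trans (Functor.map_comp_apply H _ _ _).symm
    · intro a n g ih x
      simp only [op_comp, Functor.map_comp_apply]
      rw [ih]
      exact (congrArg _ (ht n x).symm).trans (Functor.map_comp_apply H _ _ _).symm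

@[simp] theorem cm_homMk (f : ∀ n, G.cell n → H.cell n) (hs ht) {n : ℕ} (x : G.cell n) :
    cm (GPsh.homMk f hs ht) x = f n x := rfl

/-- Data for a globular set. -/
structure GData where
  cell : ℕ → Type
  s : ∀ n, cell (n + 1) → cell n
  t : ∀ n, cell (n + 1) → cell n
  ss : ∀ n (x : cell (n + 2)), s n (s (n + 1) x) = s n (t (n + 1) x)
  ts : ∀ n (x : cell (n + 2)), t n (s (n + 1) x) = t n (t (n + 1) x)

/-- A functor out of the globe category from a coglobular object. -/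
def Globe.lift {A : Type*} [Category A] (X : ℕ → A) (s t : ∀ n, X n ⟶ X (n + 1))
    (h1 : ∀ n, s n ≫ s (n + 1) = s n ≫ t (n + 1))
    (h2 : ∀ n, t n ≫ s (n + 1) = t n ≫ t (n + 1)) : Globe ⥤ A :=
  CategoryTheory.Quotient.lift GlobeRel
    (Paths.lift (C := A)
      { obj := fun v : GlobeV => X v.n
        map := fun {_ _} e => match e with
          | GlobeE.cs n => s n
          | GlobeE.ct n => t n })
    (by
      rintro _ _ _ _ (⟨n⟩ | ⟨n⟩)
      · change (𝟙 _ ≫ s n) ≫ s (n + 1) = (𝟙 _ ≫ s n) ≫ t (n + 1)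
        rw [Category.id_comp, h1]
      · change (𝟙 _ ≫ t n) ≫ s (n + 1) = (𝟙 _ ≫ t n) ≫ t (n + 1)
        rw [Category.id_comp, h2])

theorem Globe.lift_obj {A : Type*} [Category A] (X : ℕ → A) (s t h1 h2) (n : ℕ) :
    (Globe.lift X s t h1 h2).obj (Globe.D n) = X n := rfl

theorem Globe.lift_cs {A : Type*} [Category A] (X : ℕ → A) (s t h1 h2) (n : ℕ) :
    (Globe.lift X s t h1 h2).map (Globe.cs n) = s n := Category.id_comp _

theorem Globe.lift_ct {A : Type*} [Category A] (X : ℕ → A) (s t h1 h2) (n : ℕ) :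
    (Globe.lift X s t h1 h2).map (Globe.ct n) = t n := Category.id_comp _

/-- The globular set with given cells; `d.psh.cell n` is `d.cell n` by definition. -/
def GData.psh (d : GData) : GPsh :=
  (Globe.lift (A := (Type)ᵒᵖ) (fun n => op (d.cell n))
    (fun n => (TypeCat.ofHom (d.s n)).op) (fun n => (TypeCat.ofHom (d.t n)).op)
    (fun n => by
      apply Quiver.Hom.unop_inj
      ext x
      exact d.ss n x)
    (fun n => by
      apply Quiver.Hom.unop_inj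
      ext x
      exact d.ts n x)).leftOp

theorem GData.psh_cell (d : GData) (n : ℕ) : d.psh.cell n = d.cell n := rfl

theorem GData.src_eq (d : GData) {n : ℕ} (x : d.psh.cell (n + 1)) : src x = d.s n x := rfl

theorem GData.tgt_eq (d : GData) {n : ℕ} (x : d.psh.cell (n + 1)) : tgt x = d.t n x := rfl

/-- Iterated source. -/
def srcI {j i : ℕ} (h : j ≤ i) (x : G.cell i) : G.cell j := G.map (Globe.sig h).op x

/-- Iterated target. -/
def tgtI {j i : ℕ} (h : j ≤ i) (x : G.cell i) : G.cell j := G.map (Globe.tau h).op x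

@[simp] theorem srcI_self {j : ℕ} (h : j ≤ j) (x : G.cell j) : srcI h x = x := by
  simp [srcI, Globe.sig_self]

@[simp] theorem tgtI_self {j : ℕ} (h : j ≤ j) (x : G.cell j) : tgtI h x = x := by
  simp [tgtI, Globe.tau_self]

theorem srcI_succ {j i : ℕ} (h : j ≤ i) (h' : j ≤ i + 1) (x : G.cell (i + 1)) :
    srcI h' x = srcI h (src x) := by
  simp [srcI, src, Globe.sig_succ h h']

theorem tgtI_succ {j i : ℕ} (h : j ≤ i) (h' : j ≤ i + 1) (x : G.cell (i + 1)) :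
    tgtI h' x = tgtI h (tgt x) := by
  simp [tgtI, tgt, Globe.tau_succ h h']

theorem srcI_cm (f : G ⟶ H) {j i : ℕ} (h : j ≤ i) (x : G.cell i) :
    srcI h (cm f x) = cm f (srcI h x) := (NatTrans.naturality_apply f (Globe.sig h).op x).symm

theorem tgtI_cm (f : G ⟶ H) {j i : ℕ} (h : j ≤ i) (x : G.cell i) :
    tgtI h (cm f x) = cm f (tgtI h x) := (NatTrans.naturality_apply f (Globe.tau h).op x).symm

theorem src_srcI {j i : ℕ} (h : j + 1 ≤ i) (x : G.cell i) :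
    src (srcI h x) = srcI (Nat.le_of_succ_le h) x := by
  induction i, h using Nat.le_induction with
  | base => rw [srcI_self, srcI_succ le_rfl, srcI_self]
  | succ i h ih => rw [srcI_succ h, ih, srcI_succ (Nat.le_of_succ_le h)]

theorem tgt_tgtI {j i : ℕ} (h : j + 1 ≤ i) (x : G.cell i) :
    tgt (tgtI h x) = tgtI (Nat.le_of_succ_le h) x := by
  induction i, h using Nat.le_induction with
  | base => rw [tgtI_self, tgtI_succ le_rfl, tgtI_self]
  | succ i h ih => rw [tgtI_succ h, ih, tgtI_succ (Nat.le_of_succ_le h)]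

theorem tgtI_tgtI {k j i : ℕ} (h : k ≤ j) (h' : j ≤ i) (x : G.cell i) :
    tgtI h (tgtI h' x) = tgtI (h.trans h') x := by
  induction i, h' using Nat.le_induction with
  | base => rw [tgtI_self]
  | succ i h' ih => rw [tgtI_succ h', ih, tgtI_succ (h.trans h')]

theorem srcI_srcI {k j i : ℕ} (h : k ≤ j) (h' : j ≤ i) (x : G.cell i) :
    srcI h (srcI h' x) = srcI (h.trans h') x := by
  induction i, h' using Nat.le_induction with
  | base => rw [srcI_self]
  | succ i h' ih => rw [srcI_succ h', ih, srcI_succ (h.trans h')]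

theorem tgtI_src {j i : ℕ} (h : j < i) (x : G.cell (i + 1)) :
    tgtI h.le (src x) = tgtI h.le (tgt x) := by
  obtain ⟨i, rfl⟩ : ∃ k, i = k + 1 := ⟨i - 1, by omega⟩
  have h' : j ≤ i := by omega
  rw [tgtI_succ h', tgtI_succ h', tgt_src]

theorem srcI_tgt {j i : ℕ} (h : j < i) (x : G.cell (i + 1)) :
    srcI h.le (tgt x) = srcI h.le (src x) := by
  obtain ⟨i, rfl⟩ : ∃ k, i = k + 1 := ⟨i - 1, by omega⟩
  have h' : j ≤ i := by omega
  rw [srcI_succ h', srcI_succ h', src_src]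

/-! ### Lifting properties -/

variable {E B B₀ B₁ : GPsh}

/-- Lifting against the boundary inclusion in dimension `n`. -/
def LiftAt (p : E ⟶ B) (n : ℕ) : Prop :=
  ∀ (z : E.Sph n) (b : B.cell n), bd b = sm p z → ∃ e : E.cell n, bd e = z ∧ cm p e = b

/-- Trivial fibrations. -/
def TFib (p : E ⟶ B) : Prop := ∀ n, LiftAt p n

/-- Lifting against the source inclusion `D m ⟶ D (m+1)`. -/
def JAt (p : E ⟶ B) (m : ℕ) : Prop :=
  ∀ (e : E.cell m) (b : B.cell (m + 1)), src b = cm p e →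
    ∃ e' : E.cell (m + 1), src e' = e ∧ cm p e' = b

/-- Fibrations in levels `≥ n`. -/
def JFib (n : ℕ) (p : E ⟶ B) : Prop := ∀ m, n ≤ m → JAt p m

/-- `LiftAt` for the map into a product. -/
def LiftAt2 (p₀ : E ⟶ B₀) (p₁ : E ⟶ B₁) (n : ℕ) : Prop :=
  ∀ (z : E.Sph n) (b₀ : B₀.cell n) (b₁ : B₁.cell n), bd b₀ = sm p₀ z → bd b₁ = sm p₁ z →
    ∃ e : E.cell n, bd e = z ∧ cm p₀ e = b₀ ∧ cm p₁ e = b₁

def TFib2 (p₀ : E ⟶ B₀) (p₁ : E ⟶ B₁) : Prop := ∀ n, LiftAt2 p₀ p₁ n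

/-- `JFib 0` for the map into a product. -/
def JFib2 (p₀ : E ⟶ B₀) (p₁ : E ⟶ B₁) : Prop :=
  ∀ (m : ℕ) (e : E.cell m) (b₀ : B₀.cell (m + 1)) (b₁ : B₁.cell (m + 1)),
    src b₀ = cm p₀ e → src b₁ = cm p₁ e →
    ∃ e' : E.cell (m + 1), src e' = e ∧ cm p₀ e' = b₀ ∧ cm p₁ e' = b₁

/-- Every `n`-dimensional boundary has a filler. -/
def Fill (G : GPsh) (n : ℕ) : Prop := ∀ z : G.Sph n, ∃ x : G.cell n, bd x = z

def Contr (G : GPsh) : Prop := ∀ n, Fill G n

def ContrLe (N : ℕ) (G : GPsh) : Prop := ∀ n, n ≤ N → Fill G n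

/-- There is an `(n+1)`-cell from `a` to `b`. -/
def Htp {n : ℕ} (a b : G.cell n) : Prop := ∃ h : G.cell (n + 1), src h = a ∧ tgt h = b

/-- Weak equivalences, in lifting-up-to-homotopy form. -/
def WE (f : G ⟶ H) : Prop :=
  ∀ (n : ℕ) (z : G.Sph n) (y : H.cell n), bd y = sm f z → ∃ x : G.cell n, bd x = z ∧ Htp (cm f x) y

/-- `Htp` is an equivalence relation in every dimension (true for models). -/
structure HtpEq (G : GPsh) : Prop where
  refl : ∀ {n : ℕ} (a : G.cell n), Htp a a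
  symm : ∀ {n : ℕ} {a b : G.cell n}, Htp a b → Htp b a
  trans : ∀ {n : ℕ} {a b c : G.cell n}, Htp a b → Htp b c → Htp a c

theorem Htp.bd_eq {n : ℕ} {a b : G.cell n} (h : Htp a b) : bd a = bd b := by
  obtain ⟨c, rfl, rfl⟩ := h
  exact bd_src c

theorem Htp.map (f : G ⟶ H) {n : ℕ} {a b : G.cell n} (h : Htp a b) : Htp (cm f a) (cm f b) := by
  obtain ⟨c, rfl, rfl⟩ := h
  exact ⟨cm f c, src_cm f c, tgt_cm f c⟩

theorem Fill.htp {n : ℕ} (h : Fill G (n + 1)) {a b : G.cell n} (hab : bd a = bd b) : Htp a b := by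
  obtain ⟨x, hx⟩ := h (sph a b hab)
  exact ⟨x, bd_eq_sph_iff.1 hx⟩

theorem Fill.of_retract {n : ℕ} (i : G ⟶ H) (r : H ⟶ G) (hr : i ≫ r = 𝟙 G) (h : Fill H n) :
    Fill G n := fun z => by
  obtain ⟨x, hx⟩ := h (sm i z)
  exact ⟨cm r x, by rw [bd_cm, hx, ← sm_comp, hr, sm_id]⟩

theorem LiftAt.htp {p : E ⟶ B} {n : ℕ} (hp : LiftAt p (n + 1)) {a b : E.cell n}
    (hab : bd a = bd b) (h : Htp (cm p a) (cm p b)) : Htp a b := by
  obtain ⟨c, hc1, hc2⟩ := h
  obtain ⟨e, he, -⟩ := hp (sph a b hab) c (bd_eq_iff.2 ⟨hc1, hc2⟩)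
  exact ⟨e, bd_eq_sph_iff.1 he⟩

theorem WE.htp {f : G ⟶ H} (hf : WE f) {n : ℕ} {a b : G.cell n}
    (hab : bd a = bd b) (h : Htp (cm f a) (cm f b)) : Htp a b := by
  obtain ⟨c, hc1, hc2⟩ := h
  obtain ⟨e, he, -⟩ := hf (n + 1) (sph a b hab) c (bd_eq_iff.2 ⟨hc1, hc2⟩)
  exact ⟨e, bd_eq_sph_iff.1 he⟩

theorem TFib.we {p : E ⟶ B} (hp : TFib p) (hB : HtpEq B) : WE p := fun n z y hy => by
  obtain ⟨e, he, rfl⟩ := hp n z y hy
  exact ⟨e, he, hB.refl _⟩

theorem WE.comp {f : G ⟶ H} {g : H ⟶ K} (hf : WE f) (hg : WE g) (hK : HtpEq K) :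
    WE (f ≫ g) := fun n z y hy => by
  obtain ⟨y', hy', h1⟩ := hg n (sm f z) y (by rw [hy, sm_comp])
  obtain ⟨x, hx, h2⟩ := hf n z y' hy'
  exact ⟨x, hx, hK.trans (h2.map g) h1⟩

theorem WE.of_comp_left {f : G ⟶ H} {g : H ⟶ K} (hfg : WE (f ≫ g)) (hg : WE g) : WE f :=
  fun n z y hy => by
  obtain ⟨x, hx, h⟩ := hfg n z (cm g y) (by rw [bd_cm, hy, sm_comp])
  exact ⟨x, hx, hg.htp (by rw [bd_cm, hx, hy]) h⟩

/-- Two-out-of-six, first map. -/
theorem WE.of_six {L : GPsh} {f : G ⟶ H} {g : H ⟶ K} {h : K ⟶ L} (hfg : WE (f ≫ g))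
    (hgh : WE (g ≫ h)) : WE f := fun n z y hy => by
  obtain ⟨x, hx, h1⟩ := hfg n z (cm g y) (by rw [bd_cm, hy, sm_comp])
  exact ⟨x, hx, hgh.htp (by rw [bd_cm, hx, hy]) (h1.map h)⟩

theorem WE.of_contr {f : G ⟶ H} (hG : Contr G) (hH : Contr H) : WE f := fun n z y hy => by
  obtain ⟨x, hx⟩ := hG n z
  exact ⟨x, hx, (hH (n + 1)).htp (by rw [bd_cm, hx, hy])⟩

theorem TFib.sph_surj {p : E ⟶ B} (hp : TFib p) : ∀ (n : ℕ) (w : B.Sph n), ∃ z, sm p z = w
  | 0, _ => ⟨sph0 E, rfl⟩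
  | n + 1, w => by
    obtain ⟨z, hz⟩ := hp.sph_surj n (bd (sfst w))
    obtain ⟨a, ha, ha'⟩ := hp n z (sfst w) hz.symm
    obtain ⟨b, hb, hb'⟩ := hp n z (ssnd w) (by rw [hz, bd_sfst])
    exact ⟨sph a b (ha.trans hb.symm), sph_ext ha' hb'⟩

theorem TFib2.sph_surj {p₀ : E ⟶ B₀} {p₁ : E ⟶ B₁} (hp : TFib2 p₀ p₁) :
    ∀ (n : ℕ) (w₀ : B₀.Sph n) (w₁ : B₁.Sph n), ∃ z, sm p₀ z = w₀ ∧ sm p₁ z = w₁
  | 0, _, _ => ⟨sph0 E, rfl, rfl⟩
  | n + 1, w₀, w₁ => by
    obtain ⟨z, hz, hz'⟩ := hp.sph_surj n (bd (sfst w₀)) (bd (sfst w₁))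
    obtain ⟨a, ha, ha0, ha1⟩ := hp n z (sfst w₀) (sfst w₁) hz.symm hz'.symm
    obtain ⟨b, hb, hb0, hb1⟩ := hp n z (ssnd w₀) (ssnd w₁) (by rw [hz, bd_sfst])
      (by rw [hz', bd_sfst])
    exact ⟨sph a b (ha.trans hb.symm), sph_ext ha0 hb0, sph_ext ha1 hb1⟩

theorem TFib.contr {p : E ⟶ B} (hp : TFib p) (hB : Contr B) : Contr E := fun n z => by
  obtain ⟨b, hb⟩ := hB n (sm p z)
  obtain ⟨e, he, -⟩ := hp n z b hb
  exact ⟨e, he⟩

theorem LiftAt.jAt {p : E ⟶ B} {m : ℕ} (h0 : LiftAt p m) (h1 : LiftAt p (m + 1)) : JAt p m :=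
  fun e b hb => by
  obtain ⟨e₁, he₁, he₁'⟩ := h0 (bd e) (tgt b) (by rw [← bd_src, hb, bd_cm])
  obtain ⟨e₂, he₂, he₂'⟩ := h1 (sph e e₁ he₁.symm) b (bd_eq_iff.2 ⟨hb, he₁'.symm⟩)
  exact ⟨e₂, (bd_eq_sph_iff.1 he₂).1, he₂'⟩

theorem TFib.jFib {p : E ⟶ B} (hp : TFib p) (n : ℕ) : JFib n p :=
  fun m _ => (hp m).jAt (hp (m + 1))

theorem JFib.mono {p : E ⟶ B} {n m : ℕ} (hp : JFib n p) (h : n ≤ m) : JFib m p :=
  fun k hk => hp k (h.trans hk)

/-- A fibration that is a weak equivalence is a trivial fibration. -/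
theorem JFib.tFib_of_we {p : E ⟶ B} (hp : JFib 0 p) (hw : WE p) : TFib p := fun n z b hb => by
  obtain ⟨x, hx, c, hc1, hc2⟩ := hw n z b hb
  obtain ⟨e, he, he'⟩ := hp n (Nat.zero_le n) x c hc1
  exact ⟨tgt e, by rw [← bd_src, he, hx], by rw [← tgt_cm, he', hc2]⟩

theorem sm_injective (f : G ⟶ H) :
    ∀ (n : ℕ), (∀ j, j < n → Function.Injective (fun x : G.cell j => cm f x)) →
      Function.Injective (fun z : G.Sph n => sm f z)
  | 0, _ => fun _ _ _ => Subsingleton.elim _ _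
  | n + 1, h => fun _ _ e =>
      sph_ext (h n (Nat.lt_succ_self n) (congrArg sfst e))
        (h n (Nat.lt_succ_self n) (congrArg ssnd e))

theorem sm_bijective (f : G ⟶ H) :
    ∀ (n : ℕ), (∀ j, j < n → Function.Bijective (fun x : G.cell j => cm f x)) →
      Function.Bijective (fun z : G.Sph n => sm f z)
  | 0, _ => ⟨fun _ _ _ => Subsingleton.elim _ _, fun _ => ⟨sph0 G, rfl⟩⟩
  | n + 1, h => by
    refine ⟨sm_injective f _ (fun j hj => (h j hj).1), fun w => ?_⟩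
    obtain ⟨a, ha⟩ := (h n (Nat.lt_succ_self n)).2 (sfst w)
    obtain ⟨b, hb⟩ := (h n (Nat.lt_succ_self n)).2 (ssnd w)
    have hab : bd a = bd b := by
      apply sm_injective f n (fun j hj => (h j (Nat.lt_succ_of_lt hj)).1)
      beta_reduce at ha hb ⊢
      rw [← bd_cm, ← bd_cm, ha, hb, bd_sfst]
    exact ⟨sph a b hab, sph_ext ha hb⟩

/-! ### Pasting diagrams of a given shape -/

/-- Pasting diagrams of shape `T` in `G`. -/
abbrev Ext (G : GPsh) {l : ℕ} (T : Tab l) : Type := T.sum.1 ⟶ G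

namespace Ext

variable {l : ℕ} {T : Tab l} {j i : ℕ} {hl : j < l} {hi : j < i}

/-- The last cell of a pasting diagram. -/
def last (ξ : Ext G T) : G.cell l := yonedaEquiv (T.sum.2 ≫ ξ)

theorem last_comp (ξ : Ext G T) (f : G ⟶ H) : last (ξ ≫ f : Ext H T) = cm f ξ.last := by
  simp only [last, ← Category.assoc]
  exact yonedaEquiv_comp _ _

/-- A single cell as a pasting diagram. -/
def ofCell (x : G.cell i) : Ext G (.base i) := yonedaEquiv.symm x

@[simp] theorem last_ofCell (x : G.cell i) : (ofCell x).last = x := by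
  change yonedaEquiv (𝟙 _ ≫ yonedaEquiv.symm x) = x
  rw [Category.id_comp, Equiv.apply_symm_apply]

theorem base_ext {ξ ξ' : Ext G (.base i)} (h : ξ.last = ξ'.last) : ξ = ξ' := by
  have h' := yonedaEquiv.injective h
  change 𝟙 _ ≫ ξ = 𝟙 _ ≫ ξ' at h'
  simpa using h'

/-- Forget the last cell. -/
def init (ξ : Ext G (T.snoc j i hl hi)) : Ext G T :=
  pushout.inl (yoneda.map (Globe.tau hl.le) ≫ T.sum.2) (yoneda.map (Globe.sig hi.le)) ≫ ξ

theorem init_comp (ξ : Ext G (T.snoc j i hl hi)) (f : G ⟶ H) :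
    init (ξ ≫ f : Ext H (T.snoc j i hl hi)) = ξ.init ≫ f := (Category.assoc _ _ _).symm

theorem tgtI_last_init (ξ : Ext G (T.snoc j i hl hi)) :
    tgtI hl.le ξ.init.last = srcI hi.le ξ.last := by
  simp only [tgtI, srcI, last, init, yonedaEquiv_naturality]
  congr 1
  have := pushout.condition (f := yoneda.map (Globe.tau hl.le) ≫ T.sum.2)
    (g := yoneda.map (Globe.sig hi.le))
  simp only [← Category.assoc] at this ⊢
  exact congrArg (· ≫ ξ) this

/-- Add one more cell. -/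
def glue (hl : j < l) (hi : j < i) (ξ : Ext G T) (x : G.cell i)
    (h : tgtI hl.le ξ.last = srcI hi.le x) :
    Ext G (T.snoc j i hl hi) :=
  pushout.desc (f := yoneda.map (Globe.tau hl.le) ≫ T.sum.2) (g := yoneda.map (Globe.sig hi.le))
    ξ (yonedaEquiv.symm x) (by
    apply yonedaEquiv.injective
    rw [Category.assoc, ← yonedaEquiv_naturality, ← yonedaEquiv_naturality,
      Equiv.apply_symm_apply]
    exact h)

@[simp] theorem init_glue (ξ : Ext G T) (x : G.cell i) (h : tgtI hl.le ξ.last = srcI hi.le x) :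
    (glue hl hi ξ x h).init = ξ := pushout.inl_desc _ _ _

@[simp] theorem last_glue (ξ : Ext G T) (x : G.cell i) (h : tgtI hl.le ξ.last = srcI hi.le x) :
    (glue hl hi ξ x h).last = x := by
  have : pushout.inr _ _ ≫ glue hl hi ξ x h = yonedaEquiv.symm x := pushout.inr_desc _ _ _
  exact (congrArg yonedaEquiv this).trans (Equiv.apply_symm_apply _ _)

theorem snoc_ext {ξ ξ' : Ext G (T.snoc j i hl hi)} (h1 : ξ.init = ξ'.init)
    (h2 : ξ.last = ξ'.last) : ξ = ξ' :=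
  pushout.hom_ext h1 (yonedaEquiv.injective h2)

end Ext

theorem Tab.le_dim : ∀ {l : ℕ} (T : Tab l), l ≤ T.dim
  | _, .base _ => le_rfl
  | _, .snoc _ _ _ _ _ => le_max_right _ _

theorem ext_injective (f : G ⟶ H) {l : ℕ} (T : Tab l)
    (h : ∀ j, j ≤ T.dim → Function.Injective (fun x : G.cell j => cm f x)) :
    Function.Injective (fun ξ : Ext G T => (ξ ≫ f : Ext H T)) := by
  induction T with
  | base i =>
    intro ξ ξ' e
    apply Ext.base_ext
    apply h i le_rfl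
    beta_reduce at e ⊢
    rw [← Ext.last_comp, ← Ext.last_comp, e]
  | snoc T j i hl hi ih =>
    intro ξ ξ' e
    beta_reduce at e
    apply Ext.snoc_ext
    · apply ih (fun k hk => h k (hk.trans (le_max_left _ _)))
      beta_reduce
      rw [← Ext.init_comp, ← Ext.init_comp, e]
    · apply h i (le_max_right _ _)
      beta_reduce
      rw [← Ext.last_comp, ← Ext.last_comp, e]

theorem ext_bijective (f : G ⟶ H) {l : ℕ} (T : Tab l)
    (h : ∀ j, j ≤ T.dim → Function.Bijective (fun x : G.cell j => cm f x)) :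
    Function.Bijective (fun ξ : Ext G T => (ξ ≫ f : Ext H T)) := by
  refine ⟨ext_injective f T (fun j hj => (h j hj).1), ?_⟩
  induction T with
  | base i =>
    intro (η : Ext H _)
    obtain ⟨x, hx⟩ := (h i le_rfl).2 η.last
    exact ⟨Ext.ofCell x, Ext.base_ext (by rw [Ext.last_comp, Ext.last_ofCell]; exact hx)⟩
  | snoc T j i hl hi ih =>
    intro (η : Ext H _)
    obtain ⟨ξ, hξ⟩ := ih (fun k hk => h k (hk.trans (le_max_left _ _))) η.init
    obtain ⟨x, hx⟩ := (h i (le_max_right _ _)).2 η.last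
    beta_reduce at hξ hx
    have hc : tgtI hl.le ξ.last = srcI hi.le x := by
      apply (h j (hi.le.trans (le_max_right _ _))).1
      beta_reduce
      rw [← tgtI_cm, ← srcI_cm, ← Ext.last_comp, hξ, hx, Ext.tgtI_last_init]
    refine ⟨Ext.glue hl hi ξ x hc, Ext.snoc_ext ?_ ?_⟩
    · beta_reduce
      rw [Ext.init_comp, Ext.init_glue, hξ]
    · beta_reduce
      rw [Ext.last_comp, Ext.last_glue, hx]

/-- Lifting along the iterated source inclusion. -/
theorem JFib.lift_srcI {p : E ⟶ B} {n : ℕ} (hp : JFib n p) {j i : ℕ} (hn : n ≤ j) (h : j ≤ i)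
    (e : E.cell j) (b : B.cell i) (hb : srcI h b = cm p e) :
    ∃ e' : E.cell i, srcI h e' = e ∧ cm p e' = b := by
  induction i, h using Nat.le_induction with
  | base => exact ⟨e, srcI_self _ _, by rw [← hb, srcI_self]⟩
  | succ i h ih =>
    obtain ⟨e₁, h1, h2⟩ := ih (src b) (by rw [← hb, srcI_succ h])
    obtain ⟨e₂, h3, h4⟩ := hp i (hn.trans h) e₁ b h2.symm
    exact ⟨e₂, by rw [srcI_succ h, h3, h1], h4⟩

theorem TFib.cell_surj {p : E ⟶ B} (hp : TFib p) {n : ℕ} (b : B.cell n) : ∃ e, cm p e = b := by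
  obtain ⟨z, hz⟩ := hp.sph_surj n (bd b)
  obtain ⟨e, -, he⟩ := hp n z b hz.symm
  exact ⟨e, he⟩

theorem TFib.ext_surj {p : E ⟶ B} (hp : TFib p) {l : ℕ} (T : Tab l) (η : Ext B T) :
    ∃ ξ : Ext E T, ξ ≫ p = η := by
  induction T with
  | base i =>
    obtain ⟨x, hx⟩ := hp.cell_surj η.last
    exact ⟨Ext.ofCell x, Ext.base_ext (by rw [Ext.last_comp, Ext.last_ofCell]; exact hx)⟩
  | snoc T j i hl hi ih =>
    obtain ⟨ξ, hξ⟩ := ih η.init
    obtain ⟨x, hx1, hx2⟩ := (hp.jFib 0).lift_srcI (Nat.zero_le j) hi.le (tgtI hl.le ξ.last) η.last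
      (by rw [← tgtI_cm, ← Ext.last_comp, hξ, Ext.tgtI_last_init])
    refine ⟨Ext.glue hl hi ξ x hx1.symm, Ext.snoc_ext ?_ ?_⟩
    · rw [Ext.init_comp, Ext.init_glue, hξ]
    · rw [Ext.last_comp, Ext.last_glue, hx2]

end Vale.Agent.P259
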