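import Vale.Agent.P259.WEq

/-! P259: the gluing lemma. -/

open CategoryTheory Limits Opposite

noncomputable section

namespace Vale.Agent.P259

variable {C : GlobExt} [Coh C]

omit [Coh C] in
theorem cof_of_isInitial {A X : C.Gpd} (hA : IsInitial A) (hX : Cofibt X) (i : A ⟶ X) : Cof i :=
  cof_of_lift fun E D p hp _ g _ => by
    obtain ⟨l, hl⟩ := hX E D p hp g
    exact ⟨l, hA.hom_ext _ _, hl⟩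

omit [Coh C] in
/-- Simultaneous factorization of two maps out of cofibrations under `A`. -/
theorem glue_facRel {A P P' Z : C.Gpd} {i : A ⟶ P} {i' : A ⟶ P'} (hi : Cof i) (hi' : Cof i')
    (φ : P ⟶ Z) (φ' : P' ⟶ Z) (w : i ≫ φ = i' ≫ φ') :
    ∃ (M : C.Gpd) (t : P ⟶ M) (t' : P' ⟶ M) (q : M ⟶ Z), Cof t ∧ Cof t' ∧ TFib (um q) ∧
      i ≫ t = i' ≫ t' ∧ t ≫ q = φ ∧ t' ≫ q = φ' := by
  obtain ⟨M, j, q, hj, hq, e⟩ := exists_fac_cof_tfib (pushout.desc φ φ' w)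
  have sq := IsPushout.of_hasPushout i i'
  refine ⟨M, pushout.inl _ _ ≫ j, pushout.inr _ _ ≫ j, q, (Cof.of_isPushout sq hi').comp hj,
    (Cof.of_isPushout sq.flip hi).comp hj, hq, ?_, ?_, ?_⟩
  · rw [← Category.assoc, ← Category.assoc, sq.w]
  · rw [Category.assoc, e, pushout.inl_desc]
  · rw [Category.assoc, e, pushout.inr_desc]

omit [Coh C] in
/-- Simultaneous factorization of two maps out of cofibrant models. -/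
theorem glue_fac {P P' Z : C.Gpd} (hP : Cofibt P) (hP' : Cofibt P') (φ : P ⟶ Z) (φ' : P' ⟶ Z) :
    ∃ (M : C.Gpd) (t : P ⟶ M) (t' : P' ⟶ M) (q : M ⟶ Z), Cof t ∧ Cof t' ∧ TFib (um q) ∧
      t ≫ q = φ ∧ t' ≫ q = φ' := by
  obtain ⟨M, t, t', q, h1, h2, h3, -, h4, h5⟩ :=
    glue_facRel (cof_of_isInitial initialIsInitial hP (initial.to P))
      (cof_of_isInitial initialIsInitial hP' (initial.to P')) φ φ' (initial.hom_ext _ _)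
  exact ⟨M, t, t', q, h1, h2, h3, h4, h5⟩

omit [Coh C] in
/-- A map of spans inducing a `JCof 0` on pushouts. -/
theorem glue_jCof {X₀ X₁ X₂ X M₀ M₁ M₂ M P : C.Gpd}
    {a₁ : X₀ ⟶ X₁} {a₂ : X₀ ⟶ X₂} {b₁ : X₁ ⟶ X} {b₂ : X₂ ⟶ X} (sq : IsPushout a₁ a₂ b₁ b₂)
    {m₁ : M₀ ⟶ M₁} {m₂ : M₀ ⟶ M₂} {n₁ : M₁ ⟶ M} {n₂ : M₂ ⟶ M} (sqM : IsPushout m₁ m₂ n₁ n₂)
    {u₀ : X₀ ⟶ M₀} {u₁ : X₁ ⟶ M₁} {k : X₂ ⟶ P} {r : M₀ ⟶ P} (sqP : IsPushout a₂ u₀ k r)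
    {t : P ⟶ M₂} (ht : r ≫ t = m₂) (w : a₁ ≫ u₁ = u₀ ≫ m₁) (h₁ : JCof 0 u₁) (h₂ : JCof 0 t)
    {u : X ⟶ M} (v₁ : b₁ ≫ u = u₁ ≫ n₁) (v₂ : b₂ ≫ u = k ≫ t ≫ n₂) : JCof 0 u := by
  refine jCof_of_lift fun E D p hp f g e => ?_
  obtain ⟨l₁, hl₁, hl₁'⟩ := h₁.lift p hp (b₁ ≫ f) (n₁ ≫ g) (by
    rw [Category.assoc, e, ← Category.assoc, v₁, Category.assoc])
  have e1 : a₂ ≫ b₂ ≫ f = u₀ ≫ m₁ ≫ l₁ := by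
    rw [← Category.assoc, ← sq.w, Category.assoc, ← hl₁, ← Category.assoc, w, Category.assoc]
  obtain ⟨l₂, hl₂, hl₂'⟩ := h₂.lift p hp (sqP.desc (b₂ ≫ f) (m₁ ≫ l₁) e1) (n₂ ≫ g)
    (sqP.hom_ext
      (by rw [sqP.inl_desc_assoc, Category.assoc, e, ← Category.assoc, v₂, Category.assoc,
        Category.assoc])
      (by rw [sqP.inr_desc_assoc, Category.assoc, hl₁', ← Category.assoc r, ht,
        ← Category.assoc, sqM.w, Category.assoc]))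
  have e2 : m₁ ≫ l₁ = m₂ ≫ l₂ := by rw [← ht, Category.assoc, hl₂, sqP.inr_desc]
  refine ⟨sqM.desc l₁ l₂ e2, sq.hom_ext ?_ ?_, sqM.hom_ext ?_ ?_⟩
  · rw [← Category.assoc, v₁, Category.assoc, sqM.inl_desc, hl₁]
  · rw [← Category.assoc, v₂, Category.assoc, Category.assoc, sqM.inr_desc, hl₂, sqP.inl_desc]
  · rw [sqM.inl_desc_assoc, hl₁']
  · rw [sqM.inr_desc_assoc, hl₂']

/-- A levelwise weak equivalence which is a cofibration of spans induces a weak equivalence. -/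
theorem glue_half {X₀ X₁ X₂ X M₀ M₁ M₂ M P : C.Gpd}
    {a₁ : X₀ ⟶ X₁} {a₂ : X₀ ⟶ X₂} {b₁ : X₁ ⟶ X} {b₂ : X₂ ⟶ X} (sq : IsPushout a₁ a₂ b₁ b₂)
    (ha : Cof a₂) (h₀ : Cofibt X₀) (h₁ : Cofibt X₁)
    {m₁ : M₀ ⟶ M₁} {m₂ : M₀ ⟶ M₂} {n₁ : M₁ ⟶ M} {n₂ : M₂ ⟶ M} (sqM : IsPushout m₁ m₂ n₁ n₂)
    {u₀ : X₀ ⟶ M₀} {u₁ : X₁ ⟶ M₁} {k : X₂ ⟶ P} {r : M₀ ⟶ P} (sqP : IsPushout a₂ u₀ k r)
    {t : P ⟶ M₂} (ht : r ≫ t = m₂) (w : a₁ ≫ u₁ = u₀ ≫ m₁)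
    (c₀ : Cof u₀) (c₁ : Cof u₁) (c₂ : Cof t)
    (e₀ : WE (um u₀)) (e₁ : WE (um u₁)) (e₂ : WE (um (k ≫ t))) :
    ∃ u : X ⟶ M, WE (um u) ∧ b₁ ≫ u = u₁ ≫ n₁ ∧ b₂ ≫ u = k ≫ t ≫ n₂ := by
  have h₂ : Cofibt X₂ := h₀.of_cof ha
  have hk : JCof 0 k := JCof.of_isPushout sqP (jCof_of_cof_we c₀ h₀ e₀)
  have ht' : JCof 0 t :=
    jCof_of_cof_we c₂ (h₂.of_cof hk.cof) (we_of_comp_right (hk.we h₂) e₂)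
  have e1 : a₁ ≫ u₁ ≫ n₁ = a₂ ≫ k ≫ t ≫ n₂ := by
    rw [← Category.assoc, w, Category.assoc, sqM.w, ← ht, ← Category.assoc a₂, sqP.w,
      Category.assoc, Category.assoc]
  exact ⟨sq.desc _ _ e1, (glue_jCof sq sqM sqP ht w (jCof_of_cof_we c₁ h₁ e₁) ht'
    (sq.inl_desc _ _ _) (sq.inr_desc _ _ _)).we (h₁.of_cof (Cof.of_isPushout sq ha)),
    sq.inl_desc _ _ _, sq.inr_desc _ _ _⟩

/-- Two cofibrant spans mapping by weak equivalences to the same span `Z₁ ← Z₀ → Z₂` with a cocone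
`Z`. Hint (Brown factorization): factor `X₁ ⨿ X₁' ⟶ M₁ ⟶ Z₁`, `X₀ ⨿ X₀' ⟶ M₀ ⟶ pbM c₁ q₁`,
and `pushout (X₀ ⨿ X₀' ⟶ X₂ ⨿ X₂') (X₀ ⨿ X₀' ⟶ M₀) ⟶ M₂ ⟶ Z₂` as cofibrations followed by trivial
fibrations. Prove first a lemma: a map of spans with `X₁ ⟶ M₁` and `pushout a₂ (X₀ ⟶ M₀) ⟶ M₂` in
`JCof 0` induces a `JCof 0` on pushouts (direct lifting argument). The hypotheses follow from
`jCof_of_cof_we`, two-out-of-three and `JCof.we`; conclude by two-out-of-three with the map from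
the pushout of the `M` span to `Z`. -/
theorem glue_we {X₀ X₁ X₂ X X₀' X₁' X₂' X' Z₀ Z₁ Z₂ Z : C.Gpd}
    {a₁ : X₀ ⟶ X₁} {a₂ : X₀ ⟶ X₂} {b₁ : X₁ ⟶ X} {b₂ : X₂ ⟶ X} (sq : IsPushout a₁ a₂ b₁ b₂)
    (ha : Cof a₂) (h₀ : Cofibt X₀) (h₁ : Cofibt X₁)
    {a₁' : X₀' ⟶ X₁'} {a₂' : X₀' ⟶ X₂'} {b₁' : X₁' ⟶ X'} {b₂' : X₂' ⟶ X'}
    (sq' : IsPushout a₁' a₂' b₁' b₂') (ha' : Cof a₂') (h₀' : Cofibt X₀') (h₁' : Cofibt X₁')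
    {c₁ : Z₀ ⟶ Z₁} {c₂ : Z₀ ⟶ Z₂} {d₁ : Z₁ ⟶ Z} {d₂ : Z₂ ⟶ Z} (w : c₁ ≫ d₁ = c₂ ≫ d₂)
    {φ₀ : X₀ ⟶ Z₀} {φ₁ : X₁ ⟶ Z₁} {φ₂ : X₂ ⟶ Z₂} {φ : X ⟶ Z}
    (w₁ : a₁ ≫ φ₁ = φ₀ ≫ c₁) (w₂ : a₂ ≫ φ₂ = φ₀ ≫ c₂)
    (v₁ : b₁ ≫ φ = φ₁ ≫ d₁) (v₂ : b₂ ≫ φ = φ₂ ≫ d₂)
    (e₀ : WE (um φ₀)) (e₁ : WE (um φ₁)) (e₂ : WE (um φ₂))
    {φ₀' : X₀' ⟶ Z₀} {φ₁' : X₁' ⟶ Z₁} {φ₂' : X₂' ⟶ Z₂} {φ' : X' ⟶ Z}
    (w₁' : a₁' ≫ φ₁' = φ₀' ≫ c₁) (w₂' : a₂' ≫ φ₂' = φ₀' ≫ c₂)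
    (v₁' : b₁' ≫ φ' = φ₁' ≫ d₁) (v₂' : b₂' ≫ φ' = φ₂' ≫ d₂)
    (e₀' : WE (um φ₀')) (e₁' : WE (um φ₁')) (e₂' : WE (um φ₂'))
    (e' : WE (um φ')) : WE (um φ) := by
  obtain ⟨M₁, u₁, u₁', q₁, k₁, k₁', t₁, f₁, f₁'⟩ := glue_fac h₁ h₁' φ₁ φ₁'
  obtain ⟨M₀, u₀, u₀', r₀, k₀, k₀', t₀, f₀, f₀'⟩ := glue_fac h₀ h₀'
    (pbLift (f := q₁) (g := c₁) (a₁ ≫ u₁) φ₀ (by rw [Category.assoc, f₁, w₁]))
    (pbLift (f := q₁) (g := c₁) (a₁' ≫ u₁') φ₀' (by rw [Category.assoc, f₁', w₁']))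
  obtain ⟨m₁, hm₁⟩ : ∃ m, m = r₀ ≫ pbFst q₁ c₁ := ⟨_, rfl⟩
  obtain ⟨q₀, hq₀⟩ : ∃ q, q = r₀ ≫ pbSnd q₁ c₁ := ⟨_, rfl⟩
  have t₀' : WE (um q₀) := hq₀ ▸ we_comp (we_of_tFib t₀) (we_of_tFib (tFib_pbSnd t₁ c₁))
  have g₀ : u₀ ≫ q₀ = φ₀ := by rw [hq₀, ← Category.assoc, f₀, pbLift_snd]
  have g₀' : u₀' ≫ q₀ = φ₀' := by rw [hq₀, ← Category.assoc, f₀', pbLift_snd]
  have g₁ : a₁ ≫ u₁ = u₀ ≫ m₁ := by rw [hm₁, ← Category.assoc, f₀, pbLift_fst]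
  have g₁' : a₁' ≫ u₁' = u₀' ≫ m₁ := by rw [hm₁, ← Category.assoc, f₀', pbLift_fst]
  have g₂ : m₁ ≫ q₁ = q₀ ≫ c₁ := by rw [hm₁, hq₀, Category.assoc, Category.assoc, pb_cond]
  have sP := IsPushout.of_hasPushout a₂ u₀
  have sP' := IsPushout.of_hasPushout a₂' u₀'
  obtain ⟨M₂, t, t', q₂, k₂, k₂', t₂, f₃, f₂, f₂'⟩ := glue_facRel
    (Cof.of_isPushout sP.flip ha) (Cof.of_isPushout sP'.flip ha')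
    (sP.desc φ₂ (q₀ ≫ c₂) (by rw [w₂, ← Category.assoc, g₀]))
    (sP'.desc φ₂' (q₀ ≫ c₂) (by rw [w₂', ← Category.assoc, g₀']))
    (by rw [sP.inr_desc, sP'.inr_desc])
  have g₃ : (pushout.inl a₂ u₀ ≫ t) ≫ q₂ = φ₂ := by rw [Category.assoc, f₂, sP.inl_desc]
  have g₃' : (pushout.inl a₂' u₀' ≫ t') ≫ q₂ = φ₂' := by rw [Category.assoc, f₂', sP'.inl_desc]
  have g₄ : (pushout.inr a₂ u₀ ≫ t) ≫ q₂ = q₀ ≫ c₂ := by rw [Category.assoc, f₂, sP.inr_desc]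
  have sM := IsPushout.of_hasPushout m₁ (pushout.inr a₂ u₀ ≫ t)
  obtain ⟨u, hu, x₁, x₂⟩ := glue_half sq ha h₀ h₁ sM sP rfl g₁ k₀ k₁ k₂
    (we_of_comp_left (g₀ ▸ e₀) t₀') (we_of_comp_left (f₁ ▸ e₁) (we_of_tFib t₁))
    (we_of_comp_left (g₃ ▸ e₂) (we_of_tFib t₂))
  obtain ⟨u', hu', x₁', x₂'⟩ := glue_half sq' ha' h₀' h₁' sM sP' f₃.symm g₁' k₀' k₁' k₂'
    (we_of_comp_left (g₀' ▸ e₀') t₀') (we_of_comp_left (f₁' ▸ e₁') (we_of_tFib t₁))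
    (we_of_comp_left (g₃' ▸ e₂') (we_of_tFib t₂))
  have g₅ : m₁ ≫ q₁ ≫ d₁ = (pushout.inr a₂ u₀ ≫ t) ≫ q₂ ≫ d₂ := by
    rw [← Category.assoc, g₂, ← Category.assoc _ q₂, g₄, Category.assoc, Category.assoc, w]
  have y : u ≫ sM.desc _ _ g₅ = φ := sq.hom_ext
    (by rw [← Category.assoc, x₁, Category.assoc, sM.inl_desc, ← Category.assoc, f₁, v₁])
    (by rw [← Category.assoc, x₂, Category.assoc, Category.assoc, sM.inr_desc, v₂, ← g₃,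
      Category.assoc, Category.assoc])
  have y' : u' ≫ sM.desc _ _ g₅ = φ' := sq'.hom_ext
    (by rw [← Category.assoc, x₁', Category.assoc, sM.inl_desc, ← Category.assoc, f₁', v₁'])
    (by rw [← Category.assoc, x₂', Category.assoc, Category.assoc, sM.inr_desc, v₂', ← g₃',
      Category.assoc, Category.assoc])
  exact y ▸ we_comp hu (we_of_comp_right hu' (y' ▸ e'))

end Vale.Agent.P259
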