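import Vale.Agent.P259.Lift
import Vale.Agent.P259.Alg

/-! P259: pointed models all of whose extensions by globular sums have fillers. -/

open CategoryTheory Limits Opposite

noncomputable section

namespace Vale.Agent.P259

variable {C : GlobExt}

/-- Sequences of moves: pass to the target, or freely add a cell with the given source. -/
inductive Moves {A : C.Gpd} {l : ℕ} (a : (ug A).cell l) :
    (B : C.Gpd) → (A ⟶ B) → (m : ℕ) → (ug B).cell m → Prop
  | refl : Moves a A (𝟙 A) l a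
  | lower {B : C.Gpd} {g : A ⟶ B} {m : ℕ} {b : (ug B).cell (m + 1)} :
      Moves a B g (m + 1) b → Moves a B g m (tgt b)
  | raise {B B' : C.Gpd} {g : A ⟶ B} {m : ℕ} {b : (ug B).cell m} {i : B ⟶ B'}
      {h : (ug B').cell (m + 1)} : Moves a B g m b → IsRaise i b h → Moves a B' (g ≫ i) (m + 1) h

/-- A cofibrant pointed model all of whose extensions by moves have fillers up to dimension `N`. -/
def Good (N : ℕ) {A : C.Gpd} {l : ℕ} (a : (ug A).cell l) : Prop :=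
  Cofibt A ∧ ∀ (B : C.Gpd) (g : A ⟶ B) (m : ℕ) (b : (ug B).cell m), Moves a B g m b →
    ContrLe N (ug B)

variable {N : ℕ}

theorem Good.cofibt {A : C.Gpd} {l : ℕ} {a : (ug A).cell l} (h : Good N a) : Cofibt A := h.1

theorem Good.contrLe {A : C.Gpd} {l : ℕ} {a : (ug A).cell l} (h : Good N a) : ContrLe N (ug A) :=
  h.2 _ _ _ _ Moves.refl

theorem Moves.trans {A B B' : C.Gpd} {l m m' : ℕ} {a : (ug A).cell l} {g : A ⟶ B}
    {b : (ug B).cell m} {g' : B ⟶ B'} {b' : (ug B').cell m'} (h : Moves a B g m b)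
    (h' : Moves b B' g' m' b') : Moves a B' (g ≫ g') m' b' := by
  induction h' with
  | refl => rwa [Category.comp_id]
  | lower _ ih => exact ih.lower
  | raise _ hi ih =>
    rw [← Category.assoc]
    exact ih.raise hi

theorem Moves.cofibt {A B : C.Gpd} {l m : ℕ} {a : (ug A).cell l} {g : A ⟶ B}
    {b : (ug B).cell m} (h : Moves a B g m b) (hA : Cofibt A) : Cofibt B := by
  induction h with
  | refl => exact hA
  | lower _ ih => exact ih
  | raise _ hi ih => exact ih.of_cof (hi.jCof (Nat.zero_le _)).cof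

theorem Good.of_moves {A B : C.Gpd} {l m : ℕ} {a : (ug A).cell l} {g : A ⟶ B}
    {b : (ug B).cell m} (h : Good N a) (hm : Moves a B g m b) : Good N b :=
  ⟨hm.cofibt h.1, fun _ _ _ _ h' => h.2 _ _ _ _ (hm.trans h')⟩

theorem Good.lower {A : C.Gpd} {l : ℕ} {a : (ug A).cell (l + 1)} (h : Good N a) :
    Good N (tgt a) := h.of_moves Moves.refl.lower

theorem Good.tgtI {A : C.Gpd} {j l : ℕ} (hj : j ≤ l) {a : (ug A).cell l} (h : Good N a) :
    Good N (tgtI hj a) := by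
  induction l, hj using Nat.le_induction with
  | base => rwa [tgtI_self]
  | succ l hj ih =>
    rw [tgtI_succ hj]
    exact ih h.lower

theorem Good.raise {A B : C.Gpd} {l : ℕ} {a : (ug A).cell l} (h : Good N a) {i : A ⟶ B}
    {k : (ug B).cell (l + 1)} (hi : IsRaise i a k) : Good N k :=
  h.of_moves (Moves.refl.raise hi)

/-- Adding a cell whose source is an iterated target of the last cell gives a globular sum. -/
theorem Tab.exists_up {l : ℕ} (T : Tab l) {m : ℕ} (h : m ≤ l) :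
    ∃ (T' : Tab (m + 1)) (r : ∀ G : GPsh, Ext G T' → Ext G T),
      (∀ (G H : GPsh) (f : G ⟶ H) (η : Ext G T'), r H (η ≫ f) = r G η ≫ f) ∧
      (∀ (G : GPsh) (η : Ext G T'), src η.last = tgtI h (r G η).last) ∧
      (∀ (G : GPsh) (η η' : Ext G T'), r G η = r G η' → η.last = η'.last → η = η') ∧
      ∀ (G : GPsh) (ξ : Ext G T) (y : G.cell (m + 1)), src y = tgtI h ξ.last →
        ∃ η : Ext G T', r G η = ξ ∧ η.last = y := by
  rcases h.lt_or_eq with hlt | rfl
  · refine ⟨T.snoc m (m + 1) hlt (Nat.lt_succ_self m), fun _ η => η.init,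
      fun _ _ f η => Ext.init_comp η f, fun G η => ?_, fun _ _ _ h1 h2 => Ext.snoc_ext h1 h2,
      fun G ξ y hy => ?_⟩
    · have := Ext.tgtI_last_init η
      rw [srcI_succ le_rfl, srcI_self] at this
      exact this.symm
    · refine ⟨Ext.glue hlt (Nat.lt_succ_self m) ξ y ?_, Ext.init_glue _ _ _, Ext.last_glue _ _ _⟩
      rw [srcI_succ le_rfl, srcI_self, hy]
  · cases T with
    | base =>
      refine ⟨.base (m + 1), fun _ η => Ext.ofCell (src η.last), fun _ _ f η => Ext.base_ext ?_,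
        fun G η => ?_, fun _ _ _ _ h2 => Ext.base_ext h2, fun G ξ y hy => ?_⟩
      · rw [Ext.last_comp, Ext.last_ofCell, Ext.last_ofCell, Ext.last_comp, src_cm]
      · rw [Ext.last_ofCell, tgtI_self]
      · refine ⟨Ext.ofCell y, Ext.base_ext ?_, Ext.last_ofCell _⟩
        rw [Ext.last_ofCell, Ext.last_ofCell, hy, tgtI_self]
    | snoc T j _ hl hi =>
      have e : ∀ (G : GPsh) (η : Ext G (T.snoc j (m + 1) hl (Nat.lt_succ_of_lt hi))),
          tgtI hl.le η.init.last = srcI hi.le (src η.last) := fun G η => by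
        rw [Ext.tgtI_last_init, srcI_succ hi.le]
      refine ⟨T.snoc j (m + 1) hl (Nat.lt_succ_of_lt hi),
        fun G η => Ext.glue hl hi η.init (src η.last) (e G η),
        fun _ _ f η => Ext.snoc_ext ?_ ?_, fun G η => ?_,
        fun _ η η' h1 h2 => Ext.snoc_ext ?_ h2, fun G ξ y hy => ?_⟩
      · rw [Ext.init_glue, Ext.init_comp, Ext.init_comp, Ext.init_glue]
      · rw [Ext.last_glue, Ext.last_comp, Ext.last_comp, Ext.last_glue, src_cm]
      · rw [Ext.last_glue, tgtI_self]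
      · have := congrArg Ext.init h1
        rwa [Ext.init_glue, Ext.init_glue] at this
      · rw [tgtI_self] at hy
        refine ⟨Ext.glue hl (Nat.lt_succ_of_lt hi) ξ.init y ?_, Ext.snoc_ext ?_ ?_,
          Ext.last_glue _ _ _⟩
        · rw [srcI_succ hi.le, hy, Ext.tgtI_last_init]
        · rw [Ext.init_glue, Ext.init_glue]
        · rw [Ext.last_glue, Ext.last_glue, hy]

theorem Moves.disc {l m : ℕ} {B : C.Gpd} {g : rep C (Theta.D l) ⟶ B} {b : (ug B).cell m}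
    (hm : Moves (discCell C l) B g m b) :
    ∃ (l' : ℕ) (T : Tab l') (ξ : Ext (ug B) T) (h : m ≤ l'), b = tgtI h ξ.last ∧
      ∀ (Y : C.Gpd) (η : Ext (ug Y) T), ∃! f : B ⟶ Y, ξ ≫ um f = η := by
  induction hm with
  | refl =>
    refine ⟨l, .base l, repExt C (.base l), le_rfl, ?_, rep_univ _⟩
    rw [tgtI_self]
    exact (last_nerve_base _ (discCell C l)).symm
  | lower _ ih =>
    obtain ⟨l', T, ξ, h, hb, hu⟩ := ih
    exact ⟨l', T, ξ, Nat.le_of_succ_le h, by rw [hb, tgt_tgtI], hu⟩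
  | @raise B B' g m b i k _ hi ih =>
    obtain ⟨l', T, ξ, h, hb, hu⟩ := ih
    obtain ⟨T', r, r1, r2, r3, r4⟩ := T.exists_up h
    obtain ⟨ξ', h1, h2⟩ := r4 _ (ξ ≫ um i) k (by rw [hi.src_eq, hb, Ext.last_comp, tgtI_cm])
    refine ⟨m + 1, T', ξ', le_rfl, by rw [tgtI_self, h2], fun Y η => ?_⟩
    obtain ⟨f, hf, hf'⟩ := hu Y (r _ η)
    obtain ⟨f', ⟨e1, e2⟩, hf''⟩ := hi.univ Y f η.last (by
      rw [r2, ← hf, Ext.last_comp, tgtI_cm, hb])
    refine ⟨f', r3 _ _ _ ?_ ?_, fun f₂ e => hf'' f₂ ⟨hf' _ ?_, ?_⟩⟩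
    · rw [r1, h1, Category.assoc, ← um_comp, e1, hf]
    · rw [Ext.last_comp, h2, e2]
    · beta_reduce at e ⊢
      rw [← e, r1, h1, Category.assoc, um_comp]
    · beta_reduce at e
      rw [← e, Ext.last_comp, h2]

/-- Hint: every `(B, b)` reached by moves is isomorphic (or satisfies the universal property
`rep_univ`) to `rep C (Theta.mk T)` with `b` an iterated target of the last cell; raising at a
proper target gives `T.snoc j (j+1)`, raising at the last cell increases the last entry of `T`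
(use `Ext.glue`, `srcI_succ`, `Ext.snoc_ext`); `contr_rep`, `cofibt_rep`. -/
theorem good_disc [Coh C] (l : ℕ) : Good N (discCell C l) := by
  refine ⟨cofibt_rep _, fun B g m b hm n _ => ?_⟩
  obtain ⟨l', T, ξ, -, -, hu⟩ := hm.disc
  obtain ⟨f, hf, -⟩ := hu _ (repExt C T)
  obtain ⟨f', hf', -⟩ := rep_univ T B ξ
  have e : f ≫ f' = 𝟙 B := (hu B ξ).unique (by rw [um_comp, ← Category.assoc, hf, hf'])
    (by rw [um_id, Category.comp_id])
  exact Fill.of_retract (um f) (um f') (by rw [← um_comp, e, um_id]) (contr_rep _ n)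

theorem Moves.of_jCof {n : ℕ} {A A' B' : C.Gpd} {l m : ℕ} {a : (ug A).cell l} {i : A ⟶ A'}
    (hi : JCof n i) {g' : A' ⟶ B'} {b' : (ug B').cell m} (hm : Moves (cm (um i) a) B' g' m b') :
    ∃ (B : C.Gpd) (g : A ⟶ B) (b : (ug B).cell m) (k : B ⟶ B'),
      Moves a B g m b ∧ cm (um k) b = b' ∧ JCof n k := by
  induction hm with
  | refl => exact ⟨A, 𝟙 A, a, i, Moves.refl, rfl, hi⟩
  | lower _ ih =>
    obtain ⟨B, g, b, k, h1, h2, h3⟩ := ih
    exact ⟨B, g, tgt b, k, h1.lower, by rw [← tgt_cm, h2], h3⟩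
  | @raise B' B₁' g' m b' i' h' _ hi' ih =>
    obtain ⟨B, g, b, k, h1, rfl, h3⟩ := ih
    obtain ⟨B₁, i₁, h, hr⟩ := exists_raise B b
    obtain ⟨k₁, ⟨e1, e2⟩, -⟩ := hr.univ B₁' (k ≫ i') h' (by rw [hi'.src_eq, cm_um_comp])
    exact ⟨B₁, g ≫ i₁, h, k₁, h1.raise hr, e2, h3.of_isPushout (hr.isPushout hi' e1 e2)⟩

/-- Hint: a sequence of moves from `i a` is the pushout along `i` of a sequence of moves from `a`
(`exists_raise`, `IsRaise.isPushout`, `JCof.of_isPushout`), then `hA`. -/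
theorem Good.jCof {m : ℕ} (hA : ThmA C m N) {A A' : C.Gpd} {l : ℕ} {a : (ug A).cell l}
    (h : Good N a) {i : A ⟶ A'} (hi : JCof m i) : Good N (cm (um i) a) := by
  refine ⟨h.1.of_cof hi.cof, fun B' g' m' b' hm => ?_⟩
  obtain ⟨B, g, b, k, h1, -, h3⟩ := hm.of_jCof hi
  exact hA B B' k (h1.cofibt h.1) h3 (h.2 _ _ _ _ h1)

theorem Moves.of_retract {V Z B : C.Gpd} {l m : ℕ} {v : (ug V).cell l} (ι : V ⟶ Z) (r : Z ⟶ V)
    (hr : ι ≫ r = 𝟙 V) {g : V ⟶ B} {b : (ug B).cell m} (hm : Moves v B g m b) :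
    ∃ (B' : C.Gpd) (g' : Z ⟶ B') (ι' : B ⟶ B') (r' : B' ⟶ B), ι' ≫ r' = 𝟙 B ∧
      Moves (cm (um ι) v) B' g' m (cm (um ι') b) := by
  induction hm with
  | refl => exact ⟨Z, 𝟙 Z, ι, r, hr, Moves.refl⟩
  | lower _ ih =>
    obtain ⟨B', g', ι', r', h1, h2⟩ := ih
    exact ⟨B', g', ι', r', h1, by rw [← tgt_cm]; exact h2.lower⟩
  | @raise B B₁ g m b i h _ hi ih =>
    obtain ⟨B', g', ι', r', h1, h2⟩ := ih
    obtain ⟨B₁', i', h', hi'⟩ := exists_raise B' (cm (um ι') b)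
    obtain ⟨ι₁, ⟨e1, e2⟩, -⟩ := hi.univ B₁' (ι' ≫ i') h' (by rw [hi'.src_eq, cm_um_comp])
    obtain ⟨r₁, ⟨e3, e4⟩, -⟩ := hi'.univ B₁ (r' ≫ i) h (by
      rw [hi.src_eq, ← cm_um_comp, ← Category.assoc, h1, Category.id_comp])
    refine ⟨B₁', g' ≫ i', ι₁, r₁, (hi.univ B₁ i h hi.src_eq).unique ⟨?_, ?_⟩
      ⟨Category.comp_id _, rfl⟩, by rw [e2]; exact h2.raise hi'⟩
    · rw [← Category.assoc, e1, Category.assoc, e3, ← Category.assoc, h1, Category.id_comp]
    · rw [cm_um_comp, e2, e4]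

theorem Good.retract {V Z : C.Gpd} {l : ℕ} {v : (ug V).cell l} (ι : V ⟶ Z) (r : Z ⟶ V)
    (hr : ι ≫ r = 𝟙 V) (hV : Cofibt V) (h : Good N (cm (um ι) v)) : Good N v := by
  refine ⟨hV, fun B g m b hm n hn => ?_⟩
  obtain ⟨B', g', ι', r', h1, h2⟩ := hm.of_retract ι r hr
  exact Fill.of_retract (um ι') (um r') (by rw [← um_comp, h1, um_id]) (h.2 _ _ _ _ h2 n hn)

/-- Adding a cell at the source of `k`. Hint: raise at `tgt k` (new cell `w`), raise at
`cmp k w` (new cell `α`, level `n + 1`, `Good.jCof`); `B` is a retract of the result, pointed at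
`tgt h` and `tgt w = tgt (tgt α)`: send `h` to `tgt α`, and back `w, α` to the data given by the
division property in `exists_cmp`. -/
theorem Good.srcRaise [Coh C] {n : ℕ} (hA : ThmA C (n + 1) N) {A B : C.Gpd}
    (k : (ug A).cell (n + 1)) (hk : Good N (tgt k)) {i : A ⟶ B} {h : (ug B).cell (n + 1)}
    (hi : IsRaise i (src k) h) : Good N (tgt h) := by
  obtain ⟨cmp, c1, c2, c3⟩ := exists_cmp (C := C) n
  obtain ⟨A₁, j₁, w, hw⟩ := exists_raise A (tgt k)
  have e0 : tgt (cm (um j₁) k) = src w := by rw [tgt_cm, hw.src_eq]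
  obtain ⟨A₂, j₂, α, hα⟩ := exists_raise A₁ (cmp A₁ (cm (um j₁) k) w e0)
  have g2 : Good N (cm (um j₂) (tgt w)) := (hk.raise hw).lower.jCof hA (hα.jCof le_rfl)
  obtain ⟨ι, ⟨i1, i2⟩, -⟩ := hi.univ A₂ (j₁ ≫ j₂) (tgt α) (by
    rw [← src_src, hα.src_eq, src_cm, (c1 _ _ _ _).1, src_cm, cm_um_comp])
  obtain ⟨w', hw', -, β, b1, b2⟩ := c3 B (cm (um i) k) h (by rw [src_cm, hi.src_eq])
  obtain ⟨r₁, ⟨r1, r2⟩, -⟩ := hw.univ B i w' (by rw [← hw', tgt_cm])
  obtain ⟨r, ⟨r3, r4⟩, -⟩ := hα.univ B r₁ β (by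
    rw [c2 _ _ r₁ _ _ e0 (by rw [← cm_um_comp, r1, r2, hw']), b1]
    subst r1 r2
    rfl)
  have e : ι ≫ r = 𝟙 B := (hi.univ B i h hi.src_eq).unique
    ⟨by rw [← Category.assoc, i1, Category.assoc, r3, r1],
      by rw [cm_um_comp, i2, ← tgt_cm, r4, b2]⟩ ⟨Category.comp_id _, rfl⟩
  refine Good.retract ι r e (hk.1.of_cof (hi.jCof (Nat.zero_le _)).cof) ?_
  rw [← tgt_cm, i2, ← tgt_src, hα.src_eq, tgt_cm, (c1 _ _ _ _).2]
  exact g2

end Vale.Agent.P259
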