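import Vale.Agent.P259.QData
import Vale.Agent.P259.Small

/-! P259: extensions along source inclusions preserve contractibility. -/

open CategoryTheory Limits Opposite

noncomputable section

namespace Vale.Agent.P259

variable {C : GlobExt} [Coh C]

theorem thmA_of_qData {n N : ℕ} (Q : QData C n N) : ThmA C n N := by
  intro X X' i hX hi hN j hj z
  obtain ⟨s, hs⟩ := hX _ _ (Q.ρ (𝟙 X)) (Q.tfib (𝟙 X) (fun j _ hj => hN j hj.le) hN
    (fun _ _ _ => Function.bijective_id)) (𝟙 X)
  obtain ⟨H, -, hH⟩ := hi.lift (Q.ρ i) (Q.jfib i)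
    (s ≫ Q.map (f := 𝟙 X) (g := i) (𝟙 X) i rfl) (𝟙 X') (by
      rw [Category.assoc, Q.map_ρ, ← Category.assoc, hs, Category.id_comp, Category.comp_id])
  obtain ⟨x, hx⟩ := Q.transp i j hj (hN j hj) (sm (um H) z)
  exact ⟨x, by rw [hx, ← sm_um_comp, hH, sm_um_id]⟩

theorem thmA (n N : ℕ) : ThmA C n N := by
  induction h : N - n generalizing n with
  | zero => exact thmA_of_qData (exists_qData (fun hn => by omega)).some
  | succ k ih => exact thmA_of_qData (exists_qData (fun _ => ih (n + 1) (by omega))).some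

theorem JCof.contr {X X' : C.Gpd} {i : X ⟶ X'} (hi : JCof 0 i) (hX : Cofibt X)
    (h : Contr (ug X)) : Contr (ug X') :=
  fun j => thmA 0 j X X' i hX hi (fun k _ => h k) j le_rfl

theorem tFib_of_jFib_of_contr {E B : GPsh} {p : E ⟶ B} (hp : JFib 0 p) (hE : Contr E)
    (hB : Contr B) : TFib p := hp.tFib_of_we (WE.of_contr hE hB)

/-- A cofibration between contractible models with cofibrant source is a `JCof`. -/
theorem jCof_of_contr {A B : C.Gpd} {u : A ⟶ B} (hu : Cof u) (hA : Cofibt A) (cA : Contr (ug A))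
    (cB : Contr (ug B)) : JCof 0 u := by
  obtain ⟨W, j, q, hj, hq, w⟩ := exists_fac_jcof_jfib u
  obtain ⟨l, hl1, hl2⟩ := hu.lift q (tFib_of_jFib_of_contr hq (hj.contr hA cA) cB) j (𝟙 B)
    (by rw [w, Category.comp_id])
  refine jCof_of_lift fun E D p hp f g e => ?_
  obtain ⟨k, hk1, hk2⟩ := hj.lift p hp f (q ≫ g) (by rw [e, ← Category.assoc, w])
  exact ⟨l ≫ k, by rw [← Category.assoc, hl1, hk1],
    by rw [Category.assoc, hk2, ← Category.assoc, hl2, Category.id_comp]⟩

theorem PathData.goodT_all {n : ℕ} (D : PathData C n) (j : ℕ) : D.GoodT j :=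
  D.goodT (thmA (n + 1) j) j le_rfl

end Vale.Agent.P259
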