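import Vale.Agent.P259.Carrier
import Vale.Agent.P259.ThmA

/-! P259: grids of small boxes. -/

open CategoryTheory Limits Opposite Topology

noncomputable section

namespace Vale.Agent.P259

variable {C : GlobExt} [Coh C]

theorem GamData.contr_sup (Γ : GamData C) {Y : TopCat.{0}} (S₁ S₂ : Sv Y)
    (h₁ : Contr (ug (Γ.Gam S₁))) (h₂ : Contr (ug (Γ.Gam S₂)))
    (h₀ : Contr (ug (Γ.Gam (S₁.inf S₂)))) : Contr (ug (Γ.Gam (S₁.sup S₂))) :=
  (JCof.of_isPushout (Γ.isPushout_sup S₁ S₂)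
    (jCof_of_contr (Γ.cof_incl _) (Γ.cofibt_gam _) h₀ h₂)).contr (Γ.cofibt_gam _) h₁

/-- Maps into the sub-box `[a, b]` whose first `k` coordinates each stay in one interval
`[a i + j δ, a i + (j + 2) δ]`. -/
def gridSv (M : Box) (δ : ℝ) (k : ℕ) (a b : Fin M.d → ℝ) : Sv M.sp where
  mem _ f := (∀ x, (f.hom x).1 ∈ Set.Icc a b) ∧ ∀ i : Fin M.d, i.1 < k → ∃ j : ℕ,
    ∀ x, (f.hom x).1 i ∈ Set.Icc (a i + j * δ) (a i + (j + 2) * δ)
  comp g _ h := ⟨fun x => h.1 (g.hom x), fun i hi => (h.2 i hi).imp fun _ hj x => hj (g.hom x)⟩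

theorem grid_ext {Y : TopCat.{0}} {S S' : Sv Y} (h : ∀ N f, S.mem N f ↔ S'.mem N f) : S = S' :=
  Sv.ext (funext fun N => funext fun f => propext (h N f))

/-- Members of the grid with `κ`-th coordinate in `[s, t]`. -/
def gridSlab (M : Box) (δ : ℝ) (κ : Fin M.d) (a b : Fin M.d → ℝ) (s t : ℝ) : Sv M.sp :=
  (gridSv M δ κ a b).inf (Sv.range {y | y.1 κ ∈ Set.Icc s t})

/-- Members of the grid with `κ`-th coordinate in one of the first intervals. -/
def gridFil (M : Box) (δ : ℝ) (κ : Fin M.d) (a b : Fin M.d → ℝ) (J : ℕ) : Sv M.sp where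
  mem N f := (gridSv M δ κ a b).mem N f ∧ ∃ j ≤ J,
    ∀ x, (f.hom x).1 κ ∈ Set.Icc (a κ + j * δ) (a κ + (j + 2) * δ)
  comp g _ h := ⟨Sv.comp _ g h.1, h.2.imp fun _ hj => ⟨hj.1, fun x => hj.2 (g.hom x)⟩⟩

theorem gridSlab_eq (M : Box) (δ : ℝ) (κ : Fin M.d) (a b : Fin M.d → ℝ) {s : ℝ} (t : ℝ)
    (hs : a κ ≤ s) : gridSlab M δ κ a b s t =
      gridSv M δ κ (Function.update a κ s) (Function.update b κ (min (b κ) t)) := by
  refine grid_ext fun N f => ?_
  have h1 : ∀ y : Fin M.d → ℝ, y ∈ Set.Icc a b ∧ y κ ∈ Set.Icc s t ↔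
      y ∈ Set.Icc (Function.update a κ s) (Function.update b κ (min (b κ) t)) := fun y => by
    simp only [Set.mem_Icc, update_le_iff, le_update_iff, le_min_iff]
    refine ⟨fun h => ⟨⟨h.2.1, fun i _ => h.1.1 i⟩, ⟨h.1.2 κ, h.2.2⟩, fun i _ => h.1.2 i⟩,
      fun h => ⟨⟨fun i => ?_, fun i => ?_⟩, h.1.1, h.2.1.2⟩⟩
    · rcases eq_or_ne i κ with rfl | hi
      exacts [hs.trans h.1.1, h.1.2 i hi]
    · rcases eq_or_ne i κ with rfl | hi
      exacts [h.2.1.1, h.2.2 i hi]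
  have h2 : ∀ i : Fin M.d, i.1 < κ.1 → Function.update a κ s i = a i := fun i hi =>
    Function.update_of_ne (Fin.ne_of_val_ne hi.ne) _ _
  exact ⟨fun h => ⟨fun x => (h1 _).1 ⟨h.1.1 x, h.2 x⟩, fun i hi => h2 i hi ▸ h.1.2 i hi⟩,
    fun h => ⟨⟨fun x => ((h1 _).2 (h.1 x)).1, fun i hi => h2 i hi ▸ h.2 i hi⟩,
      fun x => ((h1 _).2 (h.1 x)).2⟩⟩

theorem gridFil_succ (M : Box) (δ : ℝ) (κ : Fin M.d) (a b : Fin M.d → ℝ) (J : ℕ) :
    gridFil M δ κ a b (J + 1) = (gridFil M δ κ a b J).sup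
      (gridSlab M δ κ a b (a κ + (J + 1) * δ) (a κ + (J + 1 + 2) * δ)) := by
  refine grid_ext fun N f => ⟨fun ⟨h, j, hj, h1⟩ => ?_, ?_⟩
  · rcases hj.eq_or_lt with rfl | hj
    · exact Or.inr ⟨h, fun x => by simpa using h1 x⟩
    · exact Or.inl ⟨h, j, Nat.le_of_lt_succ hj, h1⟩
  · rintro (⟨h, j, hj, h1⟩ | ⟨h, h1⟩)
    · exact ⟨h, j, Nat.le_succ_of_le hj, h1⟩
    · exact ⟨h, J + 1, le_rfl, fun x => by simpa using h1 x⟩

theorem gridFil_inf (M : Box) {δ : ℝ} (hδ : 0 < δ) (κ : Fin M.d) (a b : Fin M.d → ℝ) (J : ℕ) :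
    (gridFil M δ κ a b J).inf (gridSlab M δ κ a b (a κ + (J + 1) * δ) (a κ + (J + 1 + 2) * δ)) =
      gridSlab M δ κ a b (a κ + (J + 1) * δ) (a κ + (J + 2) * δ) := by
  refine grid_ext fun N f => ⟨fun ⟨⟨h, j, hj, h1⟩, _, h2⟩ => ⟨h, fun x => ⟨(h2 x).1, ?_⟩⟩,
    fun ⟨h, h1⟩ => ⟨⟨h, J, le_rfl, fun x => ⟨le_trans (by linarith) (h1 x).1, (h1 x).2⟩⟩, h,
      fun x => ⟨(h1 x).1, (h1 x).2.trans (by linarith)⟩⟩⟩
  have h3 := mul_le_mul_of_nonneg_right (Nat.cast_le.2 hj : (j : ℝ) ≤ J) hδ.le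
  exact (h1 x).2.trans (by linarith)

/-- Hint: induction on `k` for all `a, b`. For `k = 0` use `contr_of_univ` with the box `[a, b]`.
For `k + 1` with `k < M.d` (otherwise the family does not change) filter by `j ≤ J` in coordinate
`k`: `J = 0` is `gridSv k` of a sub-box, the step is either trivial (boxes are nonempty) or
`contr_sup` with `gridSv k` of the sub-box with `k`-th side `[a k + (J+1) δ, min (b k) (a k + (J+3) δ)]`,
the intersection being the sub-box with side `[a k + (J+1) δ, min (b k) (a k + (J+2) δ)]`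
(`Function.update`, `Sv.ext`); for large `J` the filter is everything. -/
theorem GamData.contr_grid (Γ : GamData C) (M : Box) {δ : ℝ} (hδ : 0 < δ) (k : ℕ)
    (a b : Fin M.d → ℝ) (hab : a ≤ b) (ha : M.a ≤ a) (hb : b ≤ M.b) :
    Contr (ug (Γ.Gam (gridSv M δ k a b))) := by
  induction k generalizing a b with
  | zero =>
    exact Γ.contr_of_univ _ ⟨M.d, a, b, hab⟩
      (TopCat.ofHom ⟨Set.inclusion (Set.Icc_subset_Icc ha hb), continuous_inclusion _⟩)
      ⟨fun x => x.2, fun _ hi => absurd hi (Nat.not_lt_zero _)⟩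
      (fun _ f hf => TopCat.ofHom ⟨fun x => ⟨(f.hom x).1, hf.1 x⟩,
        (continuous_subtype_val.comp f.hom.continuous).subtype_mk _⟩)
      (fun _ _ _ => rfl) fun _ _ _ _ _ => rfl
  | succ k ih =>
    rcases le_or_gt M.d k with hk | hk
    · have e : gridSv M δ (k + 1) a b = gridSv M δ k a b :=
        grid_ext fun _ f => and_congr_right fun _ => forall_congr' fun i =>
          imp_congr_left (by have := i.2; omega)
      exact e ▸ ih a b hab ha hb
    let κ : Fin M.d := ⟨k, hk⟩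
    have hT : ∀ s t, a κ ≤ s → s ≤ b κ → s ≤ t →
        Contr (ug (Γ.Gam (gridSlab M δ κ a b s t))) := fun s t h1 h2 h3 => by
      rw [gridSlab_eq M δ κ a b t h1]
      refine ih _ _ (fun i => ?_) (ha.trans (le_update_self_iff.2 h1))
        ((update_le_self_iff.2 (min_le_left (b κ) t)).trans hb)
      rcases eq_or_ne i κ with rfl | hi
      · simpa using ⟨h2, h3⟩
      · simpa [hi] using hab i
    have hF : ∀ J : ℕ, Contr (ug (Γ.Gam (gridFil M δ κ a b J))) := fun J => by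
      induction J with
      | zero =>
        have e : gridFil M δ κ a b 0 = gridSlab M δ κ a b (a κ) (a κ + 2 * δ) :=
          grid_ext fun _ f => and_congr_right fun _ => by simp [Sv.range]
        exact e ▸ hT _ _ le_rfl (hab κ) (by linarith)
      | succ J ihJ =>
        have h0 : (0 : ℝ) ≤ J * δ := by positivity
        rcases le_or_gt (a κ + (J + 1) * δ) (b κ) with h1 | h1
        · rw [gridFil_succ]
          refine Γ.contr_sup _ _ ihJ (hT _ _ (by linarith) h1 (by linarith)) ?_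
          rw [gridFil_inf M hδ]
          exact hT _ _ (by linarith) h1 (by linarith)
        · have e : gridFil M δ κ a b (J + 1) = gridFil M δ κ a b J := by
            rw [gridFil_succ]
            refine grid_ext fun N f => or_iff_left fun h => ?_
            obtain ⟨x⟩ : Nonempty N.sp := inferInstance
            exact absurd ((h.2 x).1.trans ((h.1.1 x).2 κ)) h1.not_ge
          exact e ▸ ihJ
    obtain ⟨J, hJ⟩ := exists_nat_gt ((b κ - a κ) / δ)
    rw [div_lt_iff₀ hδ] at hJ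
    have e : gridSv M δ (k + 1) a b = gridFil M δ κ a b J := by
      refine grid_ext fun N f => ⟨fun h => ⟨⟨h.1, fun i hi => h.2 i (Nat.lt_succ_of_lt hi)⟩, ?_⟩,
        fun h => ⟨h.1.1, fun i hi => ?_⟩⟩
      · obtain ⟨j, hj⟩ := h.2 κ (Nat.lt_succ_self k)
        obtain ⟨x⟩ : Nonempty N.sp := inferInstance
        have h1 := (hj x).1.trans ((h.1 x).2 κ)
        exact ⟨j, Nat.cast_le.1 (le_of_mul_le_mul_right (by linarith) hδ : (j : ℝ) ≤ J), hj⟩
      · rcases (Nat.le_of_lt_succ hi).eq_or_lt with hi | hi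
        · obtain rfl : i = κ := Fin.ext hi
          exact h.2.imp fun _ hj => hj.2
        · exact h.1.2 i hi
    exact e ▸ hF J

/-- Hint: near `y` take `j = ⌊(y i - a i) / δ - 1 / 2⌋₊` in each coordinate. -/
theorem gridSv_cover (M : Box) {δ : ℝ} (hδ : 0 < δ) : (gridSv M δ M.d M.a M.b).Cover := by
  intro (y : Set.Icc M.a M.b)
  refine ⟨Metric.ball y (δ / 2), Metric.ball_mem_nhds y (half_pos hδ), fun N f hf =>
    ⟨fun x => (f.hom x).2, fun i _ => ⟨⌊(y.1 i - M.a i) / δ - 1 / 2⌋₊, fun x => ?_⟩⟩⟩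
  have h1 := abs_lt.1 ((dist_pi_lt_iff (half_pos hδ)).1 (hf x) i)
  have h2 := Nat.lt_floor_add_one ((y.1 i - M.a i) / δ - 1 / 2)
  rw [sub_lt_iff_lt_add, div_lt_iff₀ hδ] at h2
  refine ⟨?_, by linarith [h1.2]⟩
  rcases le_total 0 ((y.1 i - M.a i) / δ - 1 / 2) with h | h
  · have h3 := Nat.floor_le h
    rw [le_sub_iff_add_le, le_div_iff₀ hδ] at h3
    linarith [h1.1]
  · rw [Nat.floor_of_nonpos h, Nat.cast_zero, zero_mul, add_zero]
    exact (f.hom x).2.1 i

/-- Hint: Lebesgue number (`lebesgue_number_lemma_of_metric_nhds` or similar), sup metric. -/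
theorem exists_grid_le (M : Box) (S : Sv M.sp) (hS : S.Cover) :
    ∃ δ : ℝ, 0 < δ ∧ (gridSv M δ M.d M.a M.b).Le S := by
  choose U hU hle using hS
  obtain ⟨ε, hε, h⟩ := lebesgue_number_lemma_of_metric (α := Set.Icc M.a M.b)
    (c := fun y => interior (U y)) isCompact_univ (fun _ => isOpen_interior)
    fun y _ => Set.mem_iUnion.2 ⟨y, mem_interior_iff_mem_nhds.2 (hU y)⟩
  refine ⟨ε / 3, by positivity, fun N f hf => ?_⟩
  obtain ⟨x₀⟩ : Nonempty N.sp := inferInstance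
  obtain ⟨y, hy⟩ := h (f.hom x₀) trivial
  refine hle y N f fun x => interior_subset (hy ((dist_pi_lt_iff hε).2 fun i => ?_))
  obtain ⟨j, hj⟩ := hf.2 i i.2
  exact abs_lt.2 ⟨by linarith [(hj x).1, (hj x₀).2], by linarith [(hj x).2, (hj x₀).1]⟩

end Vale.Agent.P259
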