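import Vale.Agent.P259.Glob

/-! P259: bijectivity on homotopy groups without quotients. -/

open CategoryTheory

namespace Vale.Agent.P259

/-- Bijectivity on components and on loops at the cells `e x n`, without quotients. -/
def PiBij {G H : GPsh} (f : G ⟶ H) (e : G.cell 0 → ∀ n, G.cell n) : Prop :=
  (∀ y : H.cell 0, ∃ x, Htp (cm f x) y) ∧
  (∀ x x' : G.cell 0, Htp (cm f x) (cm f x') → Htp x x') ∧
  ∀ x n, (∀ b : H.cell (n + 1), src b = cm f (e x n) → tgt b = cm f (e x n) →
      ∃ a : G.cell (n + 1), src a = e x n ∧ tgt a = e x n ∧ Htp (cm f a) b) ∧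
    ∀ a a' : G.cell (n + 1), src a = e x n → tgt a = e x n → src a' = e x n → tgt a' = e x n →
      Htp (cm f a) (cm f a') → Htp a a'

end Vale.Agent.P259
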