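import Vale.Agent.P259.WEq
import Vale.Agent.P259.PiBij

/-! P259: weak equivalences and homotopy groups. -/

open CategoryTheory Limits Opposite

noncomputable section

namespace Vale.Agent.P259

open GlobExt

namespace PiWE

theorem quot_bij {α β : Type} {r : α → α → Prop} {s : β → β → Prop} (hr : Equivalence r)
    (hs : Equivalence s) (g : α → β) (h : ∀ a b, r a b → s (g a) (g b)) :
    Function.Bijective (Quot.map g h) ↔
      (∀ y, ∃ x, s (g x) y) ∧ ∀ x x', s (g x) (g x') → r x x' := by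
  have er : ∀ a b, Quot.mk r a = Quot.mk r b ↔ r a b := fun a b =>
    Quot.eq.trans hr.eqvGen_iff
  have es : ∀ a b, Quot.mk s a = Quot.mk s b ↔ s a b := fun a b =>
    Quot.eq.trans hs.eqvGen_iff
  constructor
  · rintro ⟨h1, h2⟩
    refine ⟨fun y => ?_, fun x x' e => (er _ _).1 (h1 ((es _ _).2 e))⟩
    obtain ⟨⟨x⟩, hx⟩ := h2 (Quot.mk s y)
    exact ⟨x, (es _ _).1 hx⟩
  · rintro ⟨h1, h2⟩
    refine ⟨?_, ?_⟩
    · rintro ⟨x⟩ ⟨x'⟩ e
      exact (er _ _).2 (h2 x x' ((es _ _).1 e))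
    · rintro ⟨y⟩
      obtain ⟨x, hx⟩ := h1 y
      exact ⟨Quot.mk r x, (es _ _).2 hx⟩

/-- Surjectivity up to homotopy over a sphere. -/
def Sur {G H : GPsh} (f : G ⟶ H) {n : ℕ} (z : G.Sph n) : Prop :=
  ∀ y : H.cell n, bd y = sm f z → ∃ x : G.cell n, bd x = z ∧ Htp (cm f x) y

/-- Injectivity up to homotopy over a sphere. -/
def Inj {G H : GPsh} (f : G ⟶ H) {n : ℕ} (z : G.Sph n) : Prop :=
  ∀ a a' : G.cell n, bd a = z → bd a' = z → Htp (cm f a) (cm f a') → Htp a a'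

variable {C : GlobExt} (Pd : PData C) {X Y : C.Gpd} (f : X ⟶ Y)

theorem sm_p0 {n : ℕ} (ζ : (ug (Pd.P.obj X)).Sph n) :
    sm (um (Pd.p0 Y)) (sm (um (Pd.P.map f)) ζ) = sm (um f) (sm (um (Pd.p0 X)) ζ) := by
  rw [← sm_um_comp, Pd.p0_nat, sm_um_comp]

theorem sm_p1 {n : ℕ} (ζ : (ug (Pd.P.obj X)).Sph n) :
    sm (um (Pd.p1 Y)) (sm (um (Pd.P.map f)) ζ) = sm (um f) (sm (um (Pd.p1 X)) ζ) := by
  rw [← sm_um_comp, Pd.p1_nat, sm_um_comp]

theorem cm_p0 {n : ℕ} (ξ : (ug (Pd.P.obj X)).cell n) :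
    cm (um (Pd.p0 Y)) (cm (um (Pd.P.map f)) ξ) = cm (um f) (cm (um (Pd.p0 X)) ξ) := by
  rw [← cm_um_comp, Pd.p0_nat, cm_um_comp]

theorem cm_p1 {n : ℕ} (ξ : (ug (Pd.P.obj X)).cell n) :
    cm (um (Pd.p1 Y)) (cm (um (Pd.P.map f)) ξ) = cm (um f) (cm (um (Pd.p1 X)) ξ) := by
  rw [← cm_um_comp, Pd.p1_nat, cm_um_comp]

theorem sur_transfer {n : ℕ} (ζ : (ug (Pd.P.obj X)).Sph n)
    (h : Sur (um f) (sm (um (Pd.p0 X)) ζ)) : Sur (um f) (sm (um (Pd.p1 X)) ζ) := by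
  intro y hy
  obtain ⟨η, hη, rfl⟩ := Pd.tfib1 Y n (sm (um (Pd.P.map f)) ζ) y (by rw [hy, sm_p1])
  obtain ⟨x, hx, e⟩ := h (cm (um (Pd.p0 Y)) η) (by rw [bd_cm, hη, sm_p0])
  obtain ⟨ξ, hξ, rfl⟩ := Pd.tfib0 X n ζ x hx
  refine ⟨cm (um (Pd.p1 X)) ξ, by rw [bd_cm, hξ], ?_⟩
  rw [← cm_p1]
  refine Htp.map _ ((Pd.tfib0 Y (n + 1)).htp (by rw [bd_cm, hξ, hη]) ?_)
  rw [cm_p0]
  exact e

theorem inj_transfer {n : ℕ} (ζ : (ug (Pd.P.obj X)).Sph n)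
    (h : Inj (um f) (sm (um (Pd.p0 X)) ζ)) : Inj (um f) (sm (um (Pd.p1 X)) ζ) := by
  intro a a' ha ha' e
  obtain ⟨ξ, hξ, rfl⟩ := Pd.tfib1 X n ζ a ha
  obtain ⟨ξ', hξ', rfl⟩ := Pd.tfib1 X n ζ a' ha'
  rw [← cm_p1, ← cm_p1] at e
  have e1 := ((Pd.tfib1 Y (n + 1)).htp (by rw [bd_cm, bd_cm, hξ, hξ']) e).map (um (Pd.p0 Y))
  rw [cm_p0, cm_p0] at e1
  have e2 := h _ _ (by rw [bd_cm, hξ]) (by rw [bd_cm, hξ']) e1
  exact Htp.map _ ((Pd.tfib0 X (n + 1)).htp (hξ.trans hξ'.symm) e2)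

theorem exists_cyl [Coh C] (u : C.Units) {n : ℕ} (c : (ug X).cell (n + 1)) :
    ∃ (x : Cell X 0) (ζ : (ug (Pd.P.obj X)).Sph (n + 1)),
      sm (um (Pd.p0 X)) ζ = sph (G := ug X) (idn u X x n) (idn u X x n) rfl ∧
        sm (um (Pd.p1 X)) ζ = bd c := by
  obtain ⟨R, a, hR, hu⟩ := alg_univ1 C (n + 1)
  obtain ⟨φ, rfl, -⟩ := hu X c
  obtain ⟨x, -⟩ := hR 0 (sph0 _)
  obtain ⟨ζ, h0, h1⟩ := (Pd.tFib2 hR).sph_surj (n + 1)
    (sph (G := ug R) (idn u R x n) (idn u R x n) rfl) (bd a)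
  refine ⟨cellMap φ 0 x, sm (um (Pd.P.map φ)) ζ, ?_, ?_⟩
  · rw [sm_p0, h0]
    exact sph_ext (cellMap_idn u φ x n) (cellMap_idn u φ x n)
  · rw [sm_p1, h1, bd_cm]

end PiWE

variable {C : GlobExt} [Coh C]

/-- Hint: `Conn` is `Htp`, `cellMap` is `cm (um f)` by definition; `htpEq` makes `Quot` exact
(`Quot.eq`, `Equivalence.eqvGen_iff`); `cellMap_idn`. -/
theorem weakEq_iff_piBij (u : C.Units) {X Y : C.Gpd} (f : X ⟶ Y) :
    WeakEq u f ↔ PiBij (um f) (fun x n => idn u X x n) := by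
  have e0 : ∀ Z : C.Gpd, Equivalence fun a b : Cell Z 0 => Conn Z a b := fun Z =>
    ⟨fun a => (htpEq Z).refl (n := 0) a, fun h => (htpEq Z).symm (n := 0) h,
      fun h h' => (htpEq Z).trans (n := 0) h h'⟩
  have e1 : ∀ (Z : C.Gpd) (x : Cell Z 0) (n : ℕ),
      Equivalence fun a b : Loop u Z x n => Conn Z a.1 b.1 := fun Z x n =>
    ⟨fun a => (htpEq Z).refl (n := n + 1) a.1, fun h => (htpEq Z).symm (n := n + 1) h,
      fun h h' => (htpEq Z).trans (n := n + 1) h h'⟩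
  have h0 := PiWE.quot_bij (e0 X) (e0 Y) (cellMap f 0) (fun _ _ h => h.map f)
  have h1 := fun x n => PiWE.quot_bij (e1 X x n) (e1 Y (cellMap f 0 x) n) (loopMap u f x n)
    (fun _ _ h => h.map f)
  constructor
  · rintro ⟨a0, a1⟩
    refine ⟨(h0.1 a0).1, (h0.1 a0).2, fun x n => ⟨fun b hb hb' => ?_,
      fun a a' p1 p2 p3 p4 e => ((h1 x n).1 (a1 x n)).2 ⟨a, p1, p2⟩ ⟨a', p3, p4⟩ e⟩⟩
    obtain ⟨a, ha⟩ := ((h1 x n).1 (a1 x n)).1
      ⟨b, hb.trans (cellMap_idn u f x n), hb'.trans (cellMap_idn u f x n)⟩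
    exact ⟨a.1, a.2.1, a.2.2, ha⟩
  · rintro ⟨a0, a0', a1⟩
    refine ⟨h0.2 ⟨a0, a0'⟩, fun x n => (h1 x n).2 ⟨fun b => ?_,
      fun a a' e => (a1 x n).2 a.1 a'.1 a.2.1 a.2.2 a'.2.1 a'.2.2 e⟩⟩
    obtain ⟨a, p1, p2, ha⟩ := (a1 x n).1 b.1 (b.2.1.trans (cellMap_idn u f x n).symm)
      (b.2.2.trans (cellMap_idn u f x n).symm)
    exact ⟨⟨a, p1, p2⟩, ha⟩

/-- Hint: for the converse prove by induction on `n` surjectivity and injectivity up to `Htp` over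
every sphere `z`. Both transfer along a cylinder of spheres (use `P f`, `tfib0`, `tfib1`,
`LiftAt.htp`). If `z = (a, b)` has a filler `c`, classify it by `discDesc c`; in the contractible
disc `PData.tFib2` and `TFib2.sph_surj` give a cylinder from the sphere of units
`(idn x n, idn x n)` (parallel to itself) to the boundary of `discCell`; `cellMap_idn`. If `z` has
no filler both statements are vacuous by injectivity one level down. -/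
theorem we_iff_piBij (u : C.Units) {X Y : C.Gpd} (f : X ⟶ Y) :
    WE (um f) ↔ PiBij (um f) (fun x n => idn u X x n) := by
  constructor
  · intro hf
    refine ⟨fun y => ?_, fun x x' e => hf.htp (Subsingleton.elim _ _) e, fun x n =>
      ⟨fun b hb hb' => ?_, fun a a' p1 p2 p3 p4 e =>
        hf.htp (sph_ext (p1.trans p3.symm) (p2.trans p4.symm)) e⟩⟩
    · obtain ⟨x, -, hx⟩ := hf 0 (sph0 _) y (Subsingleton.elim _ _)
      exact ⟨x, hx⟩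
    · obtain ⟨a, ha, e⟩ := hf (n + 1) (sph (G := ug X) (idn u X x n) (idn u X x n) rfl) b
        (bd_eq_iff.2 ⟨hb, hb'⟩)
      exact ⟨a, (bd_eq_sph_iff.1 ha).1, (bd_eq_sph_iff.1 ha).2, e⟩
  · rintro ⟨a0, a0', a1⟩
    obtain ⟨Pd⟩ := exists_pData C
    have fil : ∀ {n : ℕ} (c : (ug X).cell (n + 1)),
        PiWE.Sur (um f) (bd c) ∧ PiWE.Inj (um f) (bd c) := by
      intro n c
      obtain ⟨x, ζ, h0, h1⟩ := PiWE.exists_cyl Pd u c
      rw [← h1]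
      refine ⟨PiWE.sur_transfer Pd f ζ ?_, PiWE.inj_transfer Pd f ζ ?_⟩
      · rw [h0]
        intro y hy
        obtain ⟨a, p1, p2, e⟩ := (a1 x n).1 y (bd_eq_iff.1 hy).1 (bd_eq_iff.1 hy).2
        exact ⟨a, bd_eq_sph_iff.2 ⟨p1, p2⟩, e⟩
      · rw [h0]
        intro a a' ha ha' e
        exact (a1 x n).2 a a' (bd_eq_sph_iff.1 ha).1 (bd_eq_sph_iff.1 ha).2
          (bd_eq_sph_iff.1 ha').1 (bd_eq_sph_iff.1 ha').2 e
    have inj : ∀ (n : ℕ) (z : (ug X).Sph n), PiWE.Inj (um f) z := by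
      intro n z a a' ha ha' e
      cases n with
      | zero => exact a0' a a' e
      | succ n => exact (fil a).2 a a' rfl (ha'.trans ha.symm) e
    intro n z y hy
    cases n with
    | zero =>
      obtain ⟨x, hx⟩ := a0 y
      exact ⟨x, Subsingleton.elim _ _, hx⟩
    | succ n =>
      obtain ⟨c, hc⟩ := inj n _ (sfst z) (ssnd z) rfl (bd_sfst z).symm ⟨y, bd_eq_iff.1 hy⟩
      obtain rfl : bd c = z := bd_eq_iff.2 hc
      exact (fil c).1 y hy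

theorem weakEq_iff_we (u : C.Units) {X Y : C.Gpd} (f : X ⟶ Y) : WeakEq u f ↔ WE (um f) :=
  (weakEq_iff_piBij u f).trans (we_iff_piBij u f).symm

end Vale.Agent.P259
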