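import Vale.Agent.P259.TopSph
import Vale.Agent.P259.PiBij

/-! P259: homotopy groups through discs. -/

open CategoryTheory Limits Opposite

noncomputable section

namespace Vale.Agent.P259

/-- The constant cells at a point. -/
def constCell {Y : TopCat.{0}} (x : (discSing.obj Y).cell 0) (n : ℕ) : (discSing.obj Y).cell n :=
  ofCM (ContinuousMap.const _ (toCM x (discPt 0)))

namespace TopPi

open Topology unitInterval

theorem one_sub_nonneg {n : ℕ} (x : Disc n) : 0 ≤ 1 - ‖x.1‖ ^ 2 := by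
  have hx : ‖x.1‖ ≤ 1 := mem_closedBall_zero_iff.mp x.2
  nlinarith [norm_nonneg x.1]

theorem snocPt_inj {n : ℕ} {x y : EuclideanSpace ℝ (Fin n)} {s t : ℝ}
    (h : snocPt x s = snocPt y t) : x = y ∧ s = t := by
  constructor
  · ext i
    simpa [snocPt] using congrArg (fun p : EuclideanSpace ℝ (Fin (n + 1)) => p i.castSucc) h
  · simpa [snocPt] using congrArg (fun p : EuclideanSpace ℝ (Fin (n + 1)) => p (Fin.last n)) h

theorem exists_snocPt {n : ℕ} (p : EuclideanSpace ℝ (Fin (n + 1))) :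
    ∃ x s, snocPt x s = p := by
  refine ⟨WithLp.toLp 2 fun i => p i.castSucc, p (Fin.last n), ?_⟩
  ext i
  refine Fin.lastCases ?_ (fun k => ?_) i <;> simp [snocPt]

/-- The cylinder over a disc, pinched along the boundary. -/
def q (n : ℕ) : C(I × Disc n, Disc (n + 1)) where
  toFun p := ⟨snocPt p.2.1 ((2 * (p.1 : ℝ) - 1) * √(1 - ‖p.2.1‖ ^ 2)), by
    have h0 := one_sub_nonneg p.2
    have h1 : ‖snocPt p.2.1 ((2 * (p.1 : ℝ) - 1) * √(1 - ‖p.2.1‖ ^ 2))‖ ^ 2 ≤ 1 := by
      rw [norm_sq_snocPt, mul_pow, Real.sq_sqrt h0]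
      have h2 : (2 * (p.1 : ℝ) - 1) ^ 2 ≤ 1 := by nlinarith [p.1.2.1, p.1.2.2]
      nlinarith
    have h2 := norm_nonneg (snocPt p.2.1 ((2 * (p.1 : ℝ) - 1) * √(1 - ‖p.2.1‖ ^ 2)))
    simp only [Metric.mem_closedBall, dist_zero_right]
    nlinarith⟩
  continuous_toFun := by
    refine Continuous.subtype_mk ?_ _
    exact continuous_snocPt.comp
      (f := fun p : I × Disc n => (p.2.1, (2 * (p.1 : ℝ) - 1) * √(1 - ‖p.2.1‖ ^ 2))) (by fun_prop)

theorem q_val {n : ℕ} (t : I) (x : Disc n) :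
    (q n (t, x)).1 = snocPt x.1 ((2 * (t : ℝ) - 1) * √(1 - ‖x.1‖ ^ 2)) := rfl

theorem south_val {n : ℕ} (x : Disc n) :
    (south n x).1 = snocPt x.1 (-1 * √(1 - ‖x.1‖ ^ 2)) := rfl

theorem north_val {n : ℕ} (x : Disc n) :
    (north n x).1 = snocPt x.1 (1 * √(1 - ‖x.1‖ ^ 2)) := rfl

theorem q_zero {n : ℕ} (x : Disc n) : q n (0, x) = south n x := by
  apply Subtype.ext
  rw [q_val, south_val]
  norm_num

theorem q_one {n : ℕ} (x : Disc n) : q n (1, x) = north n x := by
  apply Subtype.ext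
  rw [q_val, north_val]
  norm_num

theorem mem_range_iff {n : ℕ} (x : Disc n) : x ∈ Set.range (sphIncl n) ↔ ‖x.1‖ = 1 :=
  ⟨by rintro ⟨y, rfl⟩; exact mem_sphere_zero_iff_norm.1 y.2,
    fun h => ⟨⟨x.1, mem_sphere_zero_iff_norm.2 h⟩, rfl⟩⟩

theorem q_bd {n : ℕ} (t : I) {x : Disc n} (hx : x ∈ Set.range (sphIncl n)) :
    q n (t, x) = south n x := by
  apply Subtype.ext
  rw [q_val, south_val, (mem_range_iff x).1 hx]
  norm_num

theorem q_surj (n : ℕ) : Function.Surjective (q n) := by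
  rintro ⟨p, hp⟩
  obtain ⟨x, s, rfl⟩ := exists_snocPt p
  have h1 : ‖snocPt x s‖ ≤ 1 := mem_closedBall_zero_iff.mp hp
  have h2 : ‖x‖ ^ 2 + s ^ 2 ≤ 1 := by
    rw [← norm_sq_snocPt]
    nlinarith [norm_nonneg (snocPt x s)]
  have hx : ‖x‖ ≤ 1 := by nlinarith [norm_nonneg x, sq_nonneg s]
  have hs : |s| ≤ √(1 - ‖x‖ ^ 2) := Real.abs_le_sqrt (by linarith)
  set r := √(1 - ‖x‖ ^ 2) with hr
  have hr0 : 0 ≤ r := Real.sqrt_nonneg _
  have h3 : |s / r| ≤ 1 := by
    rw [abs_div, abs_of_nonneg hr0]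
    exact div_le_one_of_le₀ hs hr0
  have h4 : s / r * r = s := by
    rcases hr0.eq_or_lt with h | h
    · rw [← h] at hs ⊢
      simp [abs_nonpos_iff.1 hs]
    · exact div_mul_cancel₀ _ h.ne'
  obtain ⟨h5, h6⟩ := abs_le.1 h3
  refine ⟨(⟨(s / r + 1) / 2, by linarith, by linarith⟩, ⟨x, mem_closedBall_zero_iff.2 hx⟩),
    Subtype.ext ?_⟩
  rw [q_val]
  congr 1
  change (2 * ((s / r + 1) / 2) - 1) * r = s
  rw [show 2 * ((s / r + 1) / 2) - 1 = s / r by ring, h4]

theorem q_quot (n : ℕ) : IsQuotientMap (q n) :=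
  (q n).continuous.isClosedMap.isQuotientMap (q n).continuous (q_surj n)

theorem q_eq {n : ℕ} {t t' : I} {x x' : Disc n} (h : q n (t, x) = q n (t', x')) :
    x = x' ∧ (t = t' ∨ x ∈ Set.range (sphIncl n)) := by
  have h1 := congrArg Subtype.val h
  rw [q_val, q_val] at h1
  obtain ⟨h2, h3⟩ := snocPt_inj h1
  obtain rfl : x = x' := Subtype.ext h2
  refine ⟨rfl, ?_⟩
  rcases mul_eq_mul_right_iff.1 h3 with h4 | h4
  · exact Or.inl (Subtype.ext (by linarith))
  · right
    rw [mem_range_iff]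
    have h5 := (Real.sqrt_eq_zero (one_sub_nonneg x)).1 h4
    nlinarith [norm_nonneg x.1]

theorem range_succ {n : ℕ} (z : Disc (n + 1)) :
    z ∈ Set.range (sphIncl (n + 1)) ↔ (∃ x, south n x = z) ∨ ∃ x, north n x = z := by
  rw [mem_range_iff]
  constructor
  · intro hz
    obtain ⟨⟨t, x⟩, rfl⟩ := q_surj n z
    have h0 := one_sub_nonneg x
    have h1 : ‖(q n (t, x)).1‖ ^ 2 = 1 := by rw [hz]; norm_num
    rw [q_val, norm_sq_snocPt, mul_pow, Real.sq_sqrt h0] at h1
    have h2 : (t : ℝ) * ((t : ℝ) - 1) * (1 - ‖x.1‖ ^ 2) = 0 := by linarith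
    rcases mul_eq_zero.1 h2 with h3 | h3
    · rcases mul_eq_zero.1 h3 with h4 | h4
      · obtain rfl : t = 0 := Subtype.ext h4
        exact Or.inl ⟨x, (q_zero x).symm⟩
      · obtain rfl : t = 1 := Subtype.ext (by simpa [sub_eq_zero] using h4)
        exact Or.inr ⟨x, (q_one x).symm⟩
    · exact Or.inl ⟨x, (q_bd t ((mem_range_iff x).2 (by nlinarith [norm_nonneg x.1]))).symm⟩
  · rintro (⟨x, rfl⟩ | ⟨x, rfl⟩)
    · have := norm_sq_hemi (-1) (by norm_num) n x
      have h2 : ‖(south n x).1‖ ^ 2 = 1 := this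
      nlinarith [norm_nonneg (south n x).1]
    · have := norm_sq_hemi 1 (by norm_num) n x
      have h2 : ‖(north n x).1‖ ^ 2 = 1 := this
      nlinarith [norm_nonneg (north n x).1]

end TopPi

/-- Hint: `Disc n × I → Disc (n+1)`, `(x, t) ↦ snocPt x ((2t - 1) √(1 - ‖x‖²))` is a quotient map
(compact to Hausdorff, surjective) collapsing exactly the segments over the boundary. -/
theorem htp_iff_homotopicRel {Y : TopCat.{0}} {n : ℕ} (a b : (discSing.obj Y).cell n) :
    Htp a b ↔ (toCM a).HomotopicRel (toCM b) (Set.range (sphIncl n)) := by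
  constructor
  · rintro ⟨h, rfl, rfl⟩
    refine ⟨⟨⟨(toCM h).comp (TopPi.q n), fun x => ?_, fun x => ?_⟩, fun t x hx => ?_⟩⟩
    · exact congrArg (toCM h) (TopPi.q_zero x)
    · exact congrArg (toCM h) (TopPi.q_one x)
    · exact congrArg (toCM h) (TopPi.q_bd t hx)
  · rintro ⟨H⟩
    have hf : Function.FactorsThrough H.toContinuousMap (TopPi.q n) := by
      rintro ⟨t, x⟩ ⟨t', x'⟩ h
      obtain ⟨rfl, h | h⟩ := TopPi.q_eq h
      · rw [h]
      · exact (H.eq_fst t h).trans (H.eq_fst t' h).symm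
    have hl : ∀ p, (TopPi.q_quot n).lift H.toContinuousMap hf (TopPi.q n p) = H p := fun p =>
      congrArg (fun g : C(unitInterval × Disc n, Y) => g p) ((TopPi.q_quot n).lift_comp _ hf)
    refine ⟨ofCM ((TopPi.q_quot n).lift H.toContinuousMap hf), toCM_injective ?_,
      toCM_injective ?_⟩
    · ext x
      rw [toCM_src, toCM_ofCM, ContinuousMap.comp_apply, ← TopPi.q_zero, hl]
      exact H.apply_zero x
    · ext x
      rw [toCM_tgt, toCM_ofCM, ContinuousMap.comp_apply, ← TopPi.q_one, hl]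
      exact H.apply_one x

/-- Hint: `exists_homeomorph_image_interior_closure_frontier_eq_unitBall` for the cube in
`EuclideanSpace ℝ (Fin n)` (or an explicit radial rescaling). -/
theorem exists_cube_homeo (n : ℕ) : ∃ e : (Fin n → unitInterval) ≃ₜ Disc n,
    ∀ y, y ∈ Cube.boundary (Fin n) ↔ e y ∈ Set.range (sphIncl n) := by
  let φ := EuclideanSpace.equiv (Fin n) ℝ
  let c : Set (Fin n → ℝ) := Set.pi Set.univ fun _ => Set.Icc 0 1
  let s : Set (EuclideanSpace ℝ (Fin n)) := φ.toHomeomorph ⁻¹' c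
  have hcc : IsCompact c := isCompact_univ_pi fun _ => isCompact_Icc
  have hsc : IsCompact s := φ.toHomeomorph.isCompact_preimage.2 hcc
  have hconv : Convex ℝ s :=
    (convex_pi fun _ _ => convex_Icc (0 : ℝ) 1).linear_preimage φ.toLinearEquiv.toLinearMap
  have hint : interior s = φ.toHomeomorph ⁻¹' Set.pi Set.univ fun _ => Set.Ioo (0 : ℝ) 1 := by
    rw [← φ.toHomeomorph.preimage_interior, interior_pi_set Set.finite_univ]
    simp only [interior_Icc]
  have hne : (interior s).Nonempty := by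
    rw [hint]
    exact ⟨φ.symm fun _ => 1 / 2, fun i _ => by
      change (1 / 2 : ℝ) ∈ Set.Ioo (0 : ℝ) 1
      constructor <;> norm_num⟩
  obtain ⟨h, -, h1, h2⟩ :=
    exists_homeomorph_image_interior_closure_frontier_eq_unitBall hconv hne hsc.isBounded
  rw [hsc.isClosed.closure_eq] at h1
  have hmem : ∀ y : Fin n → unitInterval, φ.symm (fun i => (y i : ℝ)) ∈ s := fun y i _ => (y i).2
  let F : (Fin n → unitInterval) → Disc n := fun y =>
    ⟨h (φ.symm fun i => (y i : ℝ)), h1 ▸ Set.mem_image_of_mem h (hmem y)⟩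
  have hFc : Continuous F := Continuous.subtype_mk (by fun_prop) _
  have hFb : Function.Bijective F := by
    constructor
    · intro y y' e
      have := φ.symm.injective (h.injective (congrArg Subtype.val e))
      funext i
      exact Subtype.ext (congrFun this i)
    · rintro ⟨z, hz⟩
      rw [← h1] at hz
      obtain ⟨w, hw, rfl⟩ := hz
      exact ⟨fun i => ⟨φ w i, hw i trivial⟩, rfl⟩
  refine ⟨Continuous.homeoOfEquivCompactToT2 (f := Equiv.ofBijective F hFb) hFc, fun y => ?_⟩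
  change _ ↔ F y ∈ _
  rw [TopPi.mem_range_iff, ← mem_sphere_zero_iff_norm, ← h2]
  change _ ↔ h (φ.symm fun i => (y i : ℝ)) ∈ _
  rw [h.injective.mem_set_image, hsc.isClosed.frontier_eq, hint, Set.mem_sdiff,
    and_iff_right (hmem y)]
  constructor
  · rintro ⟨i, hi⟩ hy
    have : (y i : ℝ) ∈ Set.Ioo (0 : ℝ) 1 := hy i trivial
    rcases hi with hi | hi <;> simp [hi] at this
  · intro hy
    by_contra hcon
    refine hy fun i _ => ?_
    change (y i : ℝ) ∈ Set.Ioo (0 : ℝ) 1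
    refine ⟨lt_of_le_of_ne (y i).2.1 fun e => hcon ⟨i, Or.inl (Subtype.ext e.symm)⟩,
      lt_of_le_of_ne (y i).2.2 fun e => hcon ⟨i, Or.inr (Subtype.ext e)⟩⟩

namespace TopPi

theorem bijective_quotMap {A B : Type} [sa : Setoid A] [sb : Setoid B] (g : A → B)
    (hg : ∀ ⦃a a' : A⦄, a ≈ a' → g a ≈ g a') :
    Function.Bijective (Quotient.map g hg) ↔
      (∀ b, ∃ a, g a ≈ b) ∧ ∀ a a', g a ≈ g a' → a ≈ a' := by
  constructor
  · rintro ⟨h1, h2⟩
    refine ⟨fun b => ?_, fun a a' h => ?_⟩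
    · obtain ⟨⟨a⟩, ha⟩ := h2 ⟦b⟧
      exact ⟨a, Quotient.exact ha⟩
    · exact Quotient.exact (h1 (a₁ := ⟦a⟧) (a₂ := ⟦a'⟧) (Quotient.sound h))
  · rintro ⟨h1, h2⟩
    constructor
    · rintro ⟨a⟩ ⟨a'⟩ h
      exact Quotient.sound (h2 a a' (Quotient.exact h))
    · rintro ⟨b⟩
      obtain ⟨a, ha⟩ := h1 b
      exact ⟨⟦a⟧, Quotient.sound ha⟩

theorem homotopicRel_precomp {A B Y : Type} [TopologicalSpace A] [TopologicalSpace B]
    [TopologicalSpace Y] {f g : C(B, Y)} {S : Set B} {T : Set A} (e : C(A, B))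
    (he : ∀ a ∈ T, e a ∈ S) (h : f.HomotopicRel g S) :
    (f.comp e).HomotopicRel (g.comp e) T := by
  obtain ⟨H⟩ := h
  refine ⟨⟨⟨H.toContinuousMap.comp ((ContinuousMap.id _).prodMap e), fun x => ?_, fun x => ?_⟩,
    fun t x hx => ?_⟩⟩
  · exact H.apply_zero (e x)
  · exact H.apply_one (e x)
  · exact H.eq_fst t (he x hx)

variable {X Y : TopCat.{0}}

/-- The constant cell at a point. -/
def cst (p : Y) (n : ℕ) : (discSing.obj Y).cell n := ofCM (ContinuousMap.const _ p)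

theorem disc0_eq (x : Disc 0) : x = discPt 0 := Subtype.ext (Subsingleton.elim _ _)

theorem htp0_iff (a b : (discSing.obj Y).cell 0) :
    Htp a b ↔ Joined (toCM a (discPt 0)) (toCM b (discPt 0)) := by
  rw [htp_iff_homotopicRel]
  constructor
  · rintro ⟨H⟩
    exact ⟨⟨⟨fun t => H (t, discPt 0), by fun_prop⟩, H.apply_zero _, H.apply_one _⟩⟩
  · rintro ⟨γ⟩
    refine ⟨⟨⟨⟨fun p => γ p.1, by fun_prop⟩, fun x => ?_, fun x => ?_⟩, fun t x hx => ?_⟩⟩
    · rw [disc0_eq x]
      exact γ.source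
    · rw [disc0_eq x]
      exact γ.target
    · rw [disc0_eq x, mem_range_iff] at hx
      simp [discPt] at hx

theorem loop_iff {n : ℕ} (a : (discSing.obj Y).cell (n + 1)) (p : Y) :
    (src a = cst p n ∧ tgt a = cst p n) ↔ ∀ z ∈ Set.range (sphIncl (n + 1)), toCM a z = p := by
  constructor
  · rintro ⟨h1, h2⟩ z hz
    rcases (range_succ z).1 hz with ⟨x, rfl⟩ | ⟨x, rfl⟩
    · exact congrArg (fun c => toCM c x) h1
    · exact congrArg (fun c => toCM c x) h2
  · intro h
    refine ⟨toCM_injective ?_, toCM_injective ?_⟩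
    · ext x
      exact h _ ((range_succ _).2 (Or.inl ⟨x, rfl⟩))
    · ext x
      exact h _ ((range_succ _).2 (Or.inr ⟨x, rfl⟩))

theorem pi_iff (f : X ⟶ Y) (p : X) (n : ℕ) :
    Function.Bijective (piMap f.hom p (n + 1)) ↔
      (∀ b : (discSing.obj Y).cell (n + 1), src b = cst (f.hom p) n → tgt b = cst (f.hom p) n →
        ∃ a : (discSing.obj X).cell (n + 1),
          src a = cst p n ∧ tgt a = cst p n ∧ Htp (cm (discSing.map f) a) b) ∧
      ∀ a a' : (discSing.obj X).cell (n + 1), src a = cst p n → tgt a = cst p n →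
        src a' = cst p n → tgt a' = cst p n →
        Htp (cm (discSing.map f) a) (cm (discSing.map f) a') → Htp a a' := by
  obtain ⟨e, he⟩ := exists_cube_homeo (n + 1)
  have k1 : ∀ {W : TopCat.{0}} (u v : C(Disc (n + 1), W)),
      u.HomotopicRel v (Set.range (sphIncl (n + 1))) ↔
        (u.comp (e : C(_, _))).HomotopicRel (v.comp (e : C(_, _)))
          (Cube.boundary (Fin (n + 1))) := by
    intro W u v
    refine ⟨homotopicRel_precomp _ fun y hy => (he y).1 hy, fun h => ?_⟩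
    have := homotopicRel_precomp (T := Set.range (sphIncl (n + 1))) (e.symm : C(_, _))
      (fun z hz => (he _).2 (by simpa using hz)) h
    simpa [ContinuousMap.comp_assoc] using this
  have k2 : ∀ {W : TopCat.{0}} (γ : C(Fin (n + 1) → unitInterval, W)),
      (γ.comp (e.symm : C(Disc (n + 1), _))).comp (e : C(_, Disc (n + 1))) = γ := by
    intro W γ
    ext y
    simp
  have k3 : ∀ {W : TopCat.{0}} {w : W} (γ : GenLoop (Fin (n + 1)) W w),
      src (ofCM (γ.1.comp (e.symm : C(_, _)))) = cst w n ∧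
        tgt (ofCM (γ.1.comp (e.symm : C(_, _)))) = cst w n := by
    intro W w γ
    exact (loop_iff _ _).2 fun z hz => γ.2 _ ((he _).2 (by simpa using hz))
  have k4 : ∀ {W : TopCat.{0}} {w : W} (a : (discSing.obj W).cell (n + 1)),
      src a = cst w n → tgt a = cst w n →
        (toCM a).comp (e : C(_, _)) ∈ GenLoop (Fin (n + 1)) W w := by
    intro W w a h1 h2 y hy
    exact (loop_iff _ _).1 ⟨h1, h2⟩ _ ((he y).1 hy)
  refine (bijective_quotMap (genLoopMap f.hom p (n + 1)) _).trans (and_congr ?_ ?_)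
  · constructor
    · intro h b h1 h2
      obtain ⟨γ, hγ⟩ := h ⟨_, k4 b h1 h2⟩
      refine ⟨_, (k3 γ).1, (k3 γ).2, (htp_iff_homotopicRel _ _).2 ((k1 _ _).2 ?_)⟩
      rw [toCM_cm, toCM_ofCM, ContinuousMap.comp_assoc, k2]
      exact hγ
    · intro h β
      obtain ⟨a, h1, h2, h3⟩ := h _ (k3 β).1 (k3 β).2
      refine ⟨⟨_, k4 a h1 h2⟩, ?_⟩
      have := (k1 _ _).1 ((htp_iff_homotopicRel _ _).1 h3)
      rw [toCM_ofCM, k2] at this
      exact this
  · constructor
    · intro h a a' h1 h2 h3 h4 h5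
      exact (htp_iff_homotopicRel _ _).2 ((k1 _ _).2
        (h ⟨_, k4 a h1 h2⟩ ⟨_, k4 a' h3 h4⟩ ((k1 _ _).1 ((htp_iff_homotopicRel _ _).1 h5))))
    · intro h γ γ' hγ
      have h1 := h _ _ (k3 γ).1 (k3 γ).2 (k3 γ').1 (k3 γ').2
        ((htp_iff_homotopicRel _ _).2 ((k1 _ _).2 (by
          rw [toCM_cm, toCM_cm, toCM_ofCM, toCM_ofCM, ContinuousMap.comp_assoc, k2,
            ContinuousMap.comp_assoc, k2]
          exact hγ)))
      have h2 := (k1 _ _).1 ((htp_iff_homotopicRel _ _).1 h1)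
      rw [toCM_ofCM, toCM_ofCM, k2, k2] at h2
      exact h2

end TopPi

/-- Hint: a cell has constant source and target iff it is constant on the sphere (`sphEquiv_bd`,
or the hemispheres cover the sphere); transport along `exists_cube_homeo` to `GenLoop`;
`Disc 0` is a point and `Htp` of `0`-cells is `Joined`; `Quotient.exact`, `Quotient.sound`. -/
theorem isWHE_iff_piBij {X Y : TopCat.{0}} (f : X ⟶ Y) :
    IsWHE f.hom ↔ PiBij (discSing.map f) constCell := by
  unfold IsWHE PiBij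
  rw [← and_assoc]
  refine and_congr ?_ ⟨fun h x n => (TopPi.pi_iff f _ n).1 (h _ n),
    fun h p n => (TopPi.pi_iff f p n).2 (h (TopPi.cst p 0) n)⟩
  refine (TopPi.bijective_quotMap (sa := pathSetoid X) (sb := pathSetoid Y) f.hom _).trans
    (and_congr ?_ ?_)
  · constructor
    · intro h y
      obtain ⟨p, hp⟩ := h (toCM y (discPt 0))
      exact ⟨TopPi.cst p 0, (TopPi.htp0_iff _ _).2 hp⟩
    · intro h y
      obtain ⟨x, hx⟩ := h (TopPi.cst y 0)
      exact ⟨_, (TopPi.htp0_iff _ _).1 hx⟩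
  · constructor
    · intro h x x' hx
      exact (TopPi.htp0_iff _ _).2 (h _ _ ((TopPi.htp0_iff _ _).1 hx))
    · intro h p p' hp
      exact (TopPi.htp0_iff _ _).1 (h (TopPi.cst p 0) (TopPi.cst p' 0) ((TopPi.htp0_iff _ _).2 hp))

end Vale.Agent.P259
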