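import Vale.Agent.P259.TopData
import Vale.Agent.P259.TopPi
import Vale.Agent.P259.PiWE

/-! P259: the fundamental infinity-groupoid and (weak) homotopy equivalences. -/

open CategoryTheory Limits Opposite

noncomputable section

namespace Vale.Agent.P259

namespace HtpInv

open unitInterval

/-- The cylinder functor. -/
def cyl : TopCat.{0} ⥤ TopCat.{0} where
  obj Y := TopCat.of (I × Y)
  map f := TopCat.ofHom ((ContinuousMap.id I).prodMap f.hom)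

/-- The ends of the cylinder. -/
def endI (t : I) : 𝟭 TopCat.{0} ⟶ cyl where
  app Y := TopCat.ofHom ⟨fun y => (t, y), by fun_prop⟩

instance (m : ℕ) : ContractibleSpace (cyl.obj (TopCat.of (Disc m))) :=
  have : ContractibleSpace I := (convex_Icc (0 : ℝ) 1).contractibleSpace ⟨0, le_rfl, zero_le_one⟩
  inferInstanceAs (ContractibleSpace (I × Disc m))

theorem piBij_transfer {G G' H H' : GPsh} {f : G ⟶ H} {f' : G' ⟶ H'} {a : G ⟶ G'} {a' : G' ⟶ G}
    {b : H ⟶ H'} {b' : H' ⟶ H} (ha : a ≫ a' = 𝟙 _) (ha' : a' ≫ a = 𝟙 _) (hb : b ≫ b' = 𝟙 _)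
    (hb' : b' ≫ b = 𝟙 _) (w : f ≫ b = a ≫ f') {e : G.cell 0 → ∀ n, G.cell n}
    {e' : G'.cell 0 → ∀ n, G'.cell n} (he : ∀ x n, cm a (e x n) = e' (cm a x) n)
    (h : PiBij f e) : PiBij f' e' := by
  have k1 : ∀ {n} (x : G.cell n), cm a' (cm a x) = x := fun x => by rw [← cm_comp, ha, cm_id]
  have k2 : ∀ {n} (x : G'.cell n), ∃ y, cm a y = x := fun x =>
    ⟨cm a' x, by rw [← cm_comp, ha', cm_id]⟩
  have k3 : ∀ {n} (x : H.cell n), cm b' (cm b x) = x := fun x => by rw [← cm_comp, hb, cm_id]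
  have k4 : ∀ {n} (x : H'.cell n), ∃ y, cm b y = x := fun x =>
    ⟨cm b' x, by rw [← cm_comp, hb', cm_id]⟩
  have k5 : ∀ {n} (x : G.cell n), cm f' (cm a x) = cm b (cm f x) := fun x => by
    rw [← cm_comp, ← w, cm_comp]
  have k6 : ∀ {n} {x y : G.cell n}, cm a x = cm a y → x = y := fun {_ x y} h => by
    rw [← k1 x, h, k1]
  have k7 : ∀ {n} {x y : H.cell n}, cm b x = cm b y → x = y := fun {_ x y} h => by
    rw [← k3 x, h, k3]
  have k8 : ∀ {n} {x y : G.cell n}, Htp (cm f' (cm a x)) (cm f' (cm a y)) →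
      Htp (cm f x) (cm f y) := fun {_ x y} h => by
    have := h.map b'
    rwa [k5, k5, k3, k3] at this
  obtain ⟨h1, h2, h3⟩ := h
  refine ⟨fun y => ?_, fun x x' hx => ?_, fun x n => ⟨fun y hy hy' => ?_,
    fun c c' p1 p2 p3 p4 hc => ?_⟩⟩
  · obtain ⟨y, rfl⟩ := k4 y
    obtain ⟨x, hx⟩ := h1 y
    exact ⟨cm a x, by rw [k5]; exact hx.map b⟩
  · obtain ⟨x, rfl⟩ := k2 x
    obtain ⟨x', rfl⟩ := k2 x'
    exact (h2 x x' (k8 hx)).map a
  · obtain ⟨x, rfl⟩ := k2 x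
    obtain ⟨y, rfl⟩ := k4 y
    rw [← he, k5, src_cm] at hy
    rw [← he, k5, tgt_cm] at hy'
    obtain ⟨c, p1, p2, hc⟩ := (h3 x n).1 y (k7 hy) (k7 hy')
    exact ⟨cm a c, by rw [src_cm, p1, he], by rw [tgt_cm, p2, he], by rw [k5]; exact hc.map b⟩
  · obtain ⟨x, rfl⟩ := k2 x
    obtain ⟨c, rfl⟩ := k2 c
    obtain ⟨c', rfl⟩ := k2 c'
    rw [← he, src_cm] at p1 p3
    rw [← he, tgt_cm] at p2 p4
    exact ((h3 x n).2 c c' (k6 p1) (k6 p2) (k6 p3) (k6 p4) (k8 hc)).map a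

theorem exists_units (C : GlobExt) [Coh C] : Nonempty C.Units := by
  have h : ∀ n, ∃ k, GlobExt.IsLift k (𝟙 (C.D n)) (𝟙 (C.D n)) := fun n =>
    Coh.lift _ n _ _ (by
      cases n with
      | zero => trivial
      | succ n => exact ⟨rfl, rfl⟩)
  choose κ hκ using h
  exact ⟨⟨κ, hκ⟩⟩

theorem toD_idn {C : GlobExt} (T : TopData C) (u : C.Units) {X : TopCat.{0}}
    (x : (ug (T.Pi.obj X)).cell 0) (n : ℕ) :
    cm (T.toD X) (n := n) (GlobExt.idn u (T.Pi.obj X) x n) = constCell (cm (T.toD X) x) n := by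
  have key : ∃ k : T.Dc.obj (C.D n) ⟶ T.Dc.obj (C.D 0),
      T.elHom (S := Theta.D n) (GlobExt.idn u (T.Pi.obj X) x n) =
        k ≫ T.elHom (S := Theta.D 0) x := by
    induction n with
    | zero => exact ⟨𝟙 _, rfl⟩
    | succ n ih =>
      obtain ⟨k, hk⟩ := ih
      exact ⟨T.Dc.map (u.κ n) ≫ k, congrArg (fun g => T.Dc.map (u.κ n) ≫ g) hk⟩
  obtain ⟨k, hk⟩ := key
  apply toCM_injective
  refine (congrArg (fun g => ((T.e n).inv ≫ g).hom) hk).trans ?_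
  ext p
  change (T.elHom (S := Theta.D 0) x).hom (k.hom ((T.e n).inv.hom p)) =
    (T.elHom (S := Theta.D 0) x).hom ((T.e 0).inv.hom (discPt 0))
  congr 1
  rw [← TopPi.disc0_eq ((T.e 0).hom.hom (k.hom ((T.e n).inv.hom p)))]
  exact (congrArg (fun g : T.Dc.obj (C.D 0) ⟶ T.Dc.obj (C.D 0) =>
    g.hom (k.hom ((T.e n).inv.hom p))) (T.e 0).hom_inv_id).symm

end HtpInv

variable {C : GlobExt} [Coh C]

/-- Hint: `discLift` gives a natural globular map `K Y : discSing Y ⟶ U P Pi (Y × I)` over the two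
ends (`Disc m × I` is contractible, `contr_pi`, `PData.tFib2`). A homotopy from `f` to `g` gives a
globular `K'` with `K' ≫ p0 = Pi f`, `K' ≫ p1 = Pi g`; use `WE.of_comp_left`, `WE.comp`, `TFib.we`,
`htpEq`. -/
theorem TopData.we_of_homotopic (T : TopData C) {X Y : TopCat.{0}} {f g : X ⟶ Y}
    (h : f.hom.Homotopic g.hom) (hf : WE (um (T.Pi.map f))) : WE (um (T.Pi.map g)) := by
  obtain ⟨Pd⟩ := exists_pData C
  obtain ⟨H⟩ := h
  let b : unitInterval → (discSing ⟶ HtpInv.cyl ⋙ T.Pi ⋙ C.U) := fun t =>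
    T.piU.inv ≫ Functor.whiskerRight (HtpInv.endI t) (T.Pi ⋙ C.U)
  obtain ⟨l, h0, h1⟩ := discLift (Φ := HtpInv.cyl ⋙ T.Pi ⋙ Pd.P ⋙ C.U)
    (Ψ₀ := HtpInv.cyl ⋙ T.Pi ⋙ C.U) (Ψ₁ := HtpInv.cyl ⋙ T.Pi ⋙ C.U)
    { app := fun W => um (Pd.p0 (T.Pi.obj (HtpInv.cyl.obj W)))
      naturality := fun _ _ φ => (um_comp _ _).symm.trans
        ((congrArg um (Pd.p0_nat (T.Pi.map (HtpInv.cyl.map φ)))).trans (um_comp _ _)) }
    { app := fun W => um (Pd.p1 (T.Pi.obj (HtpInv.cyl.obj W)))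
      naturality := fun _ _ φ => (um_comp _ _).symm.trans
        ((congrArg um (Pd.p1_nat (T.Pi.map (HtpInv.cyl.map φ)))).trans (um_comp _ _)) }
    (fun m => Pd.tFib2 (T.contr_pi _)) (b 0) (b 1)
  let H' : HtpInv.cyl.obj X ⟶ Y := TopCat.ofHom H.toContinuousMap
  let K : ug (T.Pi.obj X) ⟶ ug (Pd.P.obj (T.Pi.obj Y)) :=
    T.toD X ≫ l.app X ≫ um (Pd.P.map (T.Pi.map H'))
  have key : ∀ (t : unitInterval) (p : ∀ W, Pd.P.obj W ⟶ W),
      (∀ {W W' : C.Gpd} (φ : W ⟶ W'), Pd.P.map φ ≫ p W' = p W ≫ φ) →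
      l.app X ≫ um (p _) = T.ofD X ≫ um (T.Pi.map ((HtpInv.endI t).app X)) →
      K ≫ um (p _) = um (T.Pi.map ((HtpInv.endI t).app X ≫ H')) := by
    intro t p hp hl
    have e1 : um (Pd.P.map (T.Pi.map H')) ≫ um (p _) = um (p _) ≫ um (T.Pi.map H') :=
      (um_comp _ _).symm.trans ((congrArg um (hp _)).trans (um_comp _ _))
    have e2 : K ≫ um (p _) = T.toD X ≫ (l.app X ≫ um (p _)) ≫ um (T.Pi.map H') :=
      congrArg (fun k => T.toD X ≫ l.app X ≫ k) e1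
    rw [e2, hl, T.Pi.map_comp, um_comp]
    exact congrArg (fun k => k ≫ um (T.Pi.map ((HtpInv.endI t).app X)) ≫ um (T.Pi.map H'))
      (T.toD_ofD X)
  have e0 : (HtpInv.endI 0).app X ≫ H' = f := by
    ext x
    exact H.apply_zero x
  have e1 : (HtpInv.endI 1).app X ≫ H' = g := by
    ext x
    exact H.apply_one x
  have k0 := key 0 Pd.p0 Pd.p0_nat (congrArg (fun k => NatTrans.app k X) h0)
  have k1 := key 1 Pd.p1 Pd.p1_nat (congrArg (fun k => NatTrans.app k X) h1)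
  rw [e0] at k0
  rw [e1] at k1
  have hK : WE K := WE.of_comp_left (k0 ▸ hf) (we_of_tFib (Pd.tfib0 _))
  exact k1 ▸ hK.comp (we_of_tFib (Pd.tfib1 _)) (htpEq _)

/-- Hint: `we_of_homotopic`, `we_id`, `WE.of_six`. -/
theorem TopData.we_of_isHE (T : TopData C) {X Y : TopCat.{0}} (f : X ⟶ Y) (h : IsHE f.hom) :
    WE (um (T.Pi.map f)) := by
  obtain ⟨e, he⟩ := h
  have hid : ∀ W : TopCat.{0}, WE (um (T.Pi.map (𝟙 W))) := fun W => by
    rw [T.Pi.map_id]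
    exact we_id _
  refine WE.of_six (g := um (T.Pi.map (TopCat.ofHom e.invFun))) (h := um (T.Pi.map f)) ?_ ?_
  · rw [← um_comp, ← T.Pi.map_comp]
    refine T.we_of_homotopic (f := 𝟙 X) ?_ (hid X)
    have := e.left_inv.symm
    rw [he] at this
    exact this
  · rw [← um_comp, ← T.Pi.map_comp]
    refine T.we_of_homotopic (f := 𝟙 Y) ?_ (hid Y)
    have := e.right_inv.symm
    rw [he] at this
    exact this

/-- Hint: choose `u : C.Units` (`Coh.lift`); `we_iff_piBij`, `isWHE_iff_piBij`; `toD` is an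
isomorphism of globular sets sending `idn u _ x n` to `constCell` (it factors through `Dc (D 0)`,
a point). -/
theorem TopData.we_iff_isWHE (T : TopData C) {X Y : TopCat.{0}} (f : X ⟶ Y) :
    WE (um (T.Pi.map f)) ↔ IsWHE f.hom := by
  obtain ⟨u⟩ := HtpInv.exists_units C
  rw [we_iff_piBij u, isWHE_iff_piBij]
  refine ⟨HtpInv.piBij_transfer (T.toD_ofD X) (T.ofD_toD X) (T.toD_ofD Y) (T.ofD_toD Y)
    (T.toD_nat f) (HtpInv.toD_idn T u), HtpInv.piBij_transfer (T.ofD_toD X) (T.toD_ofD X)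
    (T.ofD_toD Y) (T.toD_ofD Y) (T.ofD_nat f) fun x n => ?_⟩
  have h1 := HtpInv.toD_idn T u (cm (T.ofD X) x) n
  rw [← cm_comp (T.ofD X), T.ofD_toD, cm_id] at h1
  rw [← h1]
  exact congrArg (fun k => cm k (n := n) (GlobExt.idn u (T.Pi.obj X) (cm (T.ofD X) x) n))
    (T.toD_ofD X)

end Vale.Agent.P259
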