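import Vale.Agent.P259.Cells

/-! P259: closure properties of cofibrations. -/

open CategoryTheory Limits Opposite

noncomputable section

namespace Vale.Agent.P259

variable {C : GlobExt}

theorem IsRaise.isPushout {B B₁ B' B₁' : C.Gpd} {i : B ⟶ B₁} {i' : B' ⟶ B₁'} {k : B ⟶ B'}
    {k₁ : B₁ ⟶ B₁'} {m : ℕ} {b : (ug B).cell m} {h : (ug B₁).cell (m + 1)}
    {h' : (ug B₁').cell (m + 1)} (hi : IsRaise i b h) (hi' : IsRaise i' (cm (um k) b) h')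
    (w : i ≫ k₁ = k ≫ i') (hh : cm (um k₁) h = h') : IsPushout i k k₁ i' := by
  have key : ∀ (Y : C.Gpd) (u : B₁ ⟶ Y) (v : B' ⟶ Y), i ≫ u = k ≫ v →
      ∃! g : B₁' ⟶ Y, k₁ ≫ g = u ∧ i' ≫ g = v := by
    intro Y u v huv
    have e1 : src (cm (um u) h) = cm (um v) (cm (um k) b) := by
      rw [src_cm, hi.src_eq, ← cm_um_comp, ← cm_um_comp, huv]
    obtain ⟨g, ⟨hg, hg'⟩, hu⟩ := hi'.univ Y v (cm (um u) h) e1
    refine ⟨g, ⟨(hi.univ Y (i ≫ u) (cm (um u) h) ?_).unique ⟨?_, ?_⟩ ⟨rfl, rfl⟩, hg⟩,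
      fun g' hg'' => hu g' ⟨hg''.2, ?_⟩⟩
    · rw [src_cm, hi.src_eq, cm_um_comp]
    · rw [← Category.assoc, w, Category.assoc, hg, huv]
    · rw [cm_um_comp, hh, hg']
    · rw [← hh, ← cm_um_comp, hg''.1]
  refine ⟨⟨w⟩, ⟨PushoutCocone.IsColimit.mk w
    (fun s => (key s.pt s.inl s.inr s.condition).exists.choose)
    (fun s => (key s.pt s.inl s.inr s.condition).exists.choose_spec.1)
    (fun s => (key s.pt s.inl s.inr s.condition).exists.choose_spec.2)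
    (fun s g h1 h2 => (key s.pt s.inl s.inr s.condition).unique ⟨h1, h2⟩
      (key s.pt s.inl s.inr s.condition).exists.choose_spec)⟩⟩

theorem JCof.cof {A B : C.Gpd} {i : A ⟶ B} {n : ℕ} (h : JCof n i) : Cof i :=
  fun _ _ p hp => h p (TFib.jFib hp n)

theorem JCof.mono {A B : C.Gpd} {i : A ⟶ B} {n m : ℕ} (h : JCof n i) (hm : m ≤ n) : JCof m i :=
  fun _ _ p hp => h p (JFib.mono hp hm)

theorem JCof.comp {A B D : C.Gpd} {i : A ⟶ B} {k : B ⟶ D} {n : ℕ} (hi : JCof n i)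
    (hk : JCof n k) : JCof n (i ≫ k) := (jfib C n).llp.comp_mem _ _ hi hk

theorem Cof.comp {A B D : C.Gpd} {i : A ⟶ B} {k : B ⟶ D} (hi : Cof i) (hk : Cof k) :
    Cof (i ≫ k) := (tfib C).llp.comp_mem _ _ hi hk

theorem JCof.of_isPushout {A B A' B' : C.Gpd} {f : A ⟶ A'} {i : A ⟶ B} {i' : A' ⟶ B'}
    {g : B ⟶ B'} (sq : IsPushout f i i' g) {n : ℕ} (h : JCof n i) : JCof n i' :=
  MorphismProperty.of_isPushout (P := (jfib C n).llp) sq h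

theorem Cof.of_isPushout {A B A' B' : C.Gpd} {f : A ⟶ A'} {i : A ⟶ B} {i' : A' ⟶ B'}
    {g : B ⟶ B'} (sq : IsPushout f i i' g) (h : Cof i) : Cof i' :=
  MorphismProperty.of_isPushout (P := (tfib C).llp) sq h

theorem JCof.lift {A B E D : C.Gpd} {i : A ⟶ B} {n : ℕ} (h : JCof n i) (p : E ⟶ D)
    (hp : JFib n (um p)) (f : A ⟶ E) (g : B ⟶ D) (w : f ≫ p = i ≫ g) :
    ∃ l : B ⟶ E, i ≫ l = f ∧ l ≫ p = g := by
  have := h p hp
  have sq : CommSq f i p g := ⟨w⟩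
  exact ⟨sq.lift, sq.fac_left, sq.fac_right⟩

theorem Cof.lift {A B E D : C.Gpd} {i : A ⟶ B} (h : Cof i) (p : E ⟶ D)
    (hp : TFib (um p)) (f : A ⟶ E) (g : B ⟶ D) (w : f ≫ p = i ≫ g) :
    ∃ l : B ⟶ E, i ≫ l = f ∧ l ≫ p = g := by
  have := h p hp
  have sq : CommSq f i p g := ⟨w⟩
  exact ⟨sq.lift, sq.fac_left, sq.fac_right⟩

theorem jCof_of_lift {A B : C.Gpd} {i : A ⟶ B} {n : ℕ}
    (h : ∀ (E D : C.Gpd) (p : E ⟶ D), JFib n (um p) → ∀ (f : A ⟶ E) (g : B ⟶ D),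
      f ≫ p = i ≫ g → ∃ l : B ⟶ E, i ≫ l = f ∧ l ≫ p = g) : JCof n i :=
  fun E D p hp => ⟨fun {f g} sq => by
    obtain ⟨l, h1, h2⟩ := h E D p hp f g sq.w
    exact ⟨⟨⟨l, h1, h2⟩⟩⟩⟩

theorem cof_of_lift {A B : C.Gpd} {i : A ⟶ B}
    (h : ∀ (E D : C.Gpd) (p : E ⟶ D), TFib (um p) → ∀ (f : A ⟶ E) (g : B ⟶ D),
      f ≫ p = i ≫ g → ∃ l : B ⟶ E, i ≫ l = f ∧ l ≫ p = g) : Cof i :=
  fun E D p hp => ⟨fun {f g} sq => by
    obtain ⟨l, h1, h2⟩ := h E D p hp f g sq.w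
    exact ⟨⟨⟨l, h1, h2⟩⟩⟩⟩

theorem IsRaise.jCof {A B : C.Gpd} {i : A ⟶ B} {m : ℕ} {a : (ug A).cell m}
    {h : (ug B).cell (m + 1)} (hi : IsRaise i a h) {n : ℕ} (hn : n ≤ m) : JCof n i := by
  refine jCof_of_lift fun E D p hp f g w => ?_
  have e1 : src (cm (um g) h) = cm (um p) (cm (um f) a) := by
    rw [src_cm, hi.src_eq, ← cm_um_comp, ← cm_um_comp, w]
  obtain ⟨e, he, he'⟩ := hp m hn (cm (um f) a) (cm (um g) h) e1
  obtain ⟨l, ⟨hl, hl'⟩, -⟩ := hi.univ E f e he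
  refine ⟨l, hl, (hi.univ D (i ≫ g) (cm (um g) h) ?_).unique ⟨?_, ?_⟩ ⟨rfl, rfl⟩⟩
  · rw [src_cm, hi.src_eq, cm_um_comp]
  · rw [← Category.assoc, hl, w]
  · rw [cm_um_comp, hl', he']

theorem IsAttach.cof {A B : C.Gpd} {i : A ⟶ B} {ι : Type} {d : ι → ℕ}
    {z : ∀ α, (ug A).Sph (d α)} {x : ∀ α, (ug B).cell (d α)} (h : IsAttach i d z x) : Cof i := by
  refine cof_of_lift fun E D p hp f g w => ?_
  have e1 : ∀ α, bd (cm (um g) (x α)) = sm (um p) (sm (um f) (z α)) := fun α => by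
    rw [bd_cm, h.bd_eq, ← sm_um_comp, ← sm_um_comp, w]
  choose e he he' using fun α => hp (d α) (sm (um f) (z α)) (cm (um g) (x α)) (e1 α)
  obtain ⟨l, ⟨hl, hl'⟩, -⟩ := h.univ E f e he
  refine ⟨l, hl, (h.univ D (i ≫ g) (fun α => cm (um g) (x α)) fun α => ?_).unique
    ⟨?_, fun α => ?_⟩ ⟨rfl, fun _ => rfl⟩⟩
  · rw [bd_cm, h.bd_eq, sm_um_comp]
  · rw [← Category.assoc, hl, w]
  · rw [cm_um_comp, hl', he']

theorem Cofibt.of_cof {A B : C.Gpd} (hA : Cofibt A) {i : A ⟶ B} (hi : Cof i) : Cofibt B :=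
  fun E D p hp b => by
  obtain ⟨l, hl⟩ := hA E D p hp (i ≫ b)
  obtain ⟨l', -, h⟩ := hi.lift p hp l b hl
  exact ⟨l', h⟩

theorem cofibt_of_isInitial {A : C.Gpd} (h : IsInitial A) : Cofibt A :=
  fun E _ _ _ _ => ⟨h.to E, h.hom_ext _ _⟩

theorem cofibt_rep (S : Theta) : Cofibt (rep C S) := by
  intro E D p hp b
  obtain ⟨l, T⟩ := S
  obtain ⟨ξ, hξ⟩ := hp.ext_surj T (repExt C T ≫ um b)
  obtain ⟨f, hf, -⟩ := rep_univ T E ξ
  refine ⟨f, (rep_univ T D (repExt C T ≫ um b)).unique ?_ rfl⟩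
  rw [um_comp, ← Category.assoc, hf, hξ]

theorem cofibt_sphObj (n : ℕ) : Cofibt (sphObj C n) := by
  intro E D p hp b
  obtain ⟨z, hz⟩ := hp.sph_surj n (sm (um b) (sphEl C n))
  exact ⟨sphDesc z, sph_hom_ext (by rw [sm_um_comp, sm_sphDesc, hz])⟩

theorem cof_sphInc (n : ℕ) : Cof (sphInc C n) := by
  refine cof_of_lift fun E D p hp f g w => ?_
  have e0 : sm (um (sphInc C n)) (sphEl C n) = bd (discCell C n) := sm_sphDesc _
  obtain ⟨e, he, he'⟩ := hp n (sm (um f) (sphEl C n)) (cm (um g) (discCell C n)) (by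
    rw [bd_cm, ← e0, ← sm_um_comp, ← sm_um_comp, w])
  refine ⟨discDesc e, sph_hom_ext ?_, disc_hom_ext ?_⟩
  · rw [sm_um_comp, e0, ← bd_cm, cm_discDesc, he]
  · rw [cm_um_comp, cm_discDesc, he']

theorem cofibt_coprod {ι : Type} (X : ι → C.Gpd) (h : ∀ α, Cofibt (X α)) : Cofibt (∐ X) := by
  intro E D p hp b
  choose l hl using fun α => h α E D p hp (Sigma.ι X α ≫ b)
  refine ⟨Sigma.desc l, Sigma.hom_ext _ _ fun α => ?_⟩
  rw [← Category.assoc, Sigma.ι_desc, hl]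

theorem cof_sigma_map {ι : Type} {X Y : ι → C.Gpd} (f : ∀ α, X α ⟶ Y α) (h : ∀ α, Cof (f α)) :
    Cof (Limits.Sigma.map f) := by
  refine cof_of_lift fun E D p hp u v w => ?_
  choose l hl hl' using fun α => (h α).lift p hp (Sigma.ι X α ≫ u) (Sigma.ι Y α ≫ v) (by
    rw [Category.assoc, w, ← Category.assoc, Sigma.ι_map, Category.assoc])
  refine ⟨Sigma.desc l, Sigma.hom_ext _ _ fun α => ?_, Sigma.hom_ext _ _ fun α => ?_⟩
  · rw [← Category.assoc, Sigma.ι_map, Category.assoc, Sigma.ι_desc, hl]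
  · rw [← Category.assoc, Sigma.ι_desc, hl']

theorem tFib_prodLift {E B₀ B₁ : C.Gpd} {p₀ : E ⟶ B₀} {p₁ : E ⟶ B₁}
    (h : TFib2 (um p₀) (um p₁)) : TFib (um (prodLift p₀ p₁)) := by
  intro n z b hb
  obtain ⟨e, he, h0, h1⟩ := h n z (cm (um (prodFst B₀ B₁)) b) (cm (um (prodSnd B₀ B₁)) b)
    (by rw [bd_cm, hb, ← sm_um_comp, prodLift_fst]) (by rw [bd_cm, hb, ← sm_um_comp, prodLift_snd])
  exact ⟨e, he, Prod.ext h0 h1⟩

theorem jFib_prodLift {E B₀ B₁ : C.Gpd} {p₀ : E ⟶ B₀} {p₁ : E ⟶ B₁}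
    (h : JFib2 (um p₀) (um p₁)) : JFib 0 (um (prodLift p₀ p₁)) := by
  intro m _ e b hb
  obtain ⟨e', he, h0, h1⟩ := h m e (cm (um (prodFst B₀ B₁)) b) (cm (um (prodSnd B₀ B₁)) b)
    (by rw [src_cm, hb, ← cm_um_comp, prodLift_fst])
    (by rw [src_cm, hb, ← cm_um_comp, prodLift_snd])
  exact ⟨e', he, Prod.ext h0 h1⟩

theorem JCof.lift2 {A B E B₀ B₁ : C.Gpd} {i : A ⟶ B} (h : JCof 0 i) (p₀ : E ⟶ B₀) (p₁ : E ⟶ B₁)
    (hp : JFib2 (um p₀) (um p₁)) (f : A ⟶ E) (g₀ : B ⟶ B₀) (g₁ : B ⟶ B₁)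
    (w₀ : f ≫ p₀ = i ≫ g₀) (w₁ : f ≫ p₁ = i ≫ g₁) :
    ∃ l : B ⟶ E, i ≫ l = f ∧ l ≫ p₀ = g₀ ∧ l ≫ p₁ = g₁ := by
  obtain ⟨l, hl, hl'⟩ := h.lift (prodLift p₀ p₁) (jFib_prodLift hp) f (prodLift g₀ g₁)
    (prod_hom_ext (by rw [Category.assoc, Category.assoc, prodLift_fst, prodLift_fst, w₀])
      (by rw [Category.assoc, Category.assoc, prodLift_snd, prodLift_snd, w₁]))
  refine ⟨l, hl, ?_, ?_⟩
  · rw [← prodLift_fst g₀ g₁, ← hl', Category.assoc, prodLift_fst]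
  · rw [← prodLift_snd g₀ g₁, ← hl', Category.assoc, prodLift_snd]

theorem tFib_pbSnd {E B Y : C.Gpd} {p : E ⟶ B} (hp : TFib (um p)) (g : Y ⟶ B) :
    TFib (um (pbSnd p g)) := by
  intro n z y hy
  obtain ⟨e, he, he'⟩ := hp n (sm (um (pbFst p g)) z) (cm (um g) y) (by
    rw [bd_cm, hy, ← sm_um_comp, ← sm_um_comp, pb_cond])
  let x : (ug (pbM p g)).cell n := ⟨(e, y), he'⟩
  have h1 : cm (um (pbFst p g)) x = e := rfl
  have h2 : cm (um (pbSnd p g)) x = y := rfl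
  refine ⟨x, ?_, h2⟩
  rw [← h1, bd_cm] at he
  rw [← h2, bd_cm] at hy
  cases n with
  | zero => exact Subsingleton.elim _ _
  | succ n =>
    exact sph_ext (Subtype.ext (Prod.ext (congrArg sfst he) (congrArg sfst hy)))
      (Subtype.ext (Prod.ext (congrArg ssnd he) (congrArg ssnd hy)))

theorem tFib_toOne {X : C.Gpd} (h : Contr (ug X)) : TFib (um (toOne X)) := by
  intro n z b _
  obtain ⟨x, hx⟩ := h n z
  exact ⟨x, hx, Subsingleton.elim _ _⟩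

end Vale.Agent.P259
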