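import Vale.Agent.P259.ThmA

/-! P259: the second projection of the full cylinder construction is a trivial fibration. -/

open CategoryTheory Limits Opposite

noncomputable section

namespace Vale.Agent.P259

universe v

/-- Converse of `Univ.hasLiftingProperty`. -/
theorem Univ.lift_el {𝒜 : Type v} [Category.{0} 𝒜] {Φ Φ' : 𝒜 ⥤ Type} {a a' : 𝒜} {ξ : Φ.obj a}
    {ξ' : Φ'.obj a'} (h : Univ Φ a ξ) (h' : Univ Φ' a' ξ') (π : Φ' ⟶ Φ) (u : a ⟶ a')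
    (hu : Φ.map u ξ = π.app a' ξ') {e b : 𝒜} (p : e ⟶ b) (hp : HasLiftingProperty u p)
    (x : Φ.obj e) (y : Φ'.obj b) (w : Φ.map p x = π.app b y) :
    ∃ x' : Φ'.obj e, π.app e x' = x ∧ Φ'.map p x' = y := by
  have k : ∀ {c : 𝒜} (l : a' ⟶ c), Φ.map (u ≫ l) ξ = π.app c (Φ'.map l ξ') := fun l => by
    rw [Functor.map_comp_apply, hu, NatTrans.naturality_apply]
  obtain ⟨f, hf, -⟩ := h e x
  obtain ⟨g, hg, -⟩ := h' b y
  have sq : CommSq f u p g := ⟨(h b (π.app b y)).unique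
    (by rw [Functor.map_comp_apply, hf, w]) (by rw [k, hg])⟩
  refine ⟨Φ'.map sq.lift ξ', by rw [← k, sq.fac_left, hf], ?_⟩
  rw [← Functor.map_comp_apply, sq.fac_right, hg]

variable {C : GlobExt}

namespace PathData

/-- A cylinder gives a pair `(β, x₁)`. -/
def toFF {n : ℕ} (D : PathData C n) (j : ℕ) : cellF D.P j ⟶ D.FF j :=
  natMk (fun Y ξ => ⟨(bd (G := D.P.obj Y) ξ, cm (D.p1 Y) ξ), bd_cm _ _⟩) fun _ _ f ξ =>
    Subtype.ext (Prod.ext (bd_cm (D.P.map f) ξ) (D.cm_p1_nat f ξ))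

/-- The first cylinder of the boundary in a pair `(β, x₁)`. -/
def fstFF {n : ℕ} (D : PathData C n) (j : ℕ) : D.FF (j + 1) ⟶ cellF D.P j :=
  natMk (fun _ p => sfst p.1.1) fun _ _ _ _ => rfl

variable [Coh C] (D : PathData C 0)

theorem lift_tFib {E B : C.Gpd} (p : E ⟶ B) (hp : TFib (um p)) {j : ℕ}
    (β : (D.P.obj E).Sph j) (x₁ : (ug E).cell j) (h₁ : bd x₁ = sm (D.p1 E) β)
    (y : (D.P.obj B).cell j) (e₁ : sm (D.P.map p) β = bd y)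
    (e₂ : cm (um p) x₁ = cm (D.p1 B) y) :
    ∃ ξ : (D.P.obj E).cell j, bd ξ = β ∧ cm (D.p1 E) ξ = x₁ ∧ cm (D.P.map p) ξ = y := by
  obtain ⟨x₀, h₀, k₀⟩ := hp j (sm (D.p0 E) β) (cm (D.p0 B) y) (by
    rw [bd_cm, ← e₁, D.sm_p0_nat])
  have ht : bd (D.tr E j β x₀ h₀) = bd x₁ := (D.goodT_all j E β x₀ h₀).trans h₁.symm
  obtain ⟨c, hc, kc⟩ := hp (j + 1) (sph _ _ ht) (D.cyl B j y (Nat.zero_le j)) (by
    refine bd_eq_iff.2 ⟨?_, ?_⟩
    · rw [D.src_cyl, sfst_sm, sfst_sph, D.tr_nat p j β x₀ h₀ (by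
        rw [bd_cm, h₀, D.sm_p0_nat])]
      exact D.tr_congr e₁.symm k₀.symm _ _
    · rw [D.tgt_cyl, ssnd_sm, ssnd_sph, e₂])
  obtain ⟨hc₁, hc₂⟩ := bd_eq_sph_iff.1 hc
  obtain ⟨ξ, k₁, k₂, k₃, k₄⟩ := D.exists_of_src (Nat.zero_le j) (D.goodT_all j) E β x₀ h₀ c hc₁
  refine ⟨ξ, k₁, k₃.trans hc₂, D.ext B j _ _ ?_ ?_ ?_ fun h => ?_⟩
  · rw [bd_cm, k₁, e₁]
  · rw [D.cm_p0_nat, k₂, k₀]
  · rw [D.cm_p1_nat, k₃, hc₂, e₂]
  · rw [← D.cyl_nat, k₄, kc]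

theorem cof_toFF {j : ℕ} {F Cy : C.Gpd} {φ : (D.FF j).obj F} {ξ : (cellF D.P j).obj Cy}
    (hF : Univ (D.FF j) F φ) (hC : Univ (cellF D.P j) Cy ξ) (u : F ⟶ Cy)
    (hu : (D.FF j).map u φ = (D.toFF j).app Cy ξ) : Cof u := by
  intro E B p hp
  refine hF.hasLiftingProperty hC (D.toFF j) u hu p fun x y e => ?_
  obtain ⟨ξ', k₁, k₂, k₃⟩ := D.lift_tFib p hp x.1.1 x.1.2 x.2 y
    (congrArg (fun q => q.1.1) e) (congrArg (fun q => q.1.2) e)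
  exact ⟨ξ', Subtype.ext (Prod.ext k₁ k₂), k₃⟩

theorem contr_cyl {j : ℕ} {Cy : C.Gpd} {ξ : (cellF D.P j).obj Cy}
    (hC : Univ (cellF D.P j) Cy ξ) : Contr (ug Cy) := by
  intro N
  obtain ⟨A, ζ, hI, hA⟩ := D.exists_cylD (thmA 1 N) (i := j) (fun l _ => D.goodT_all l)
  obtain ⟨r, hr⟩ := hA Cy ξ
  obtain ⟨i, hi, -⟩ := hC A ζ
  have e : i ≫ r = 𝟙 Cy := (hC Cy ξ).unique (by rw [Functor.map_comp_apply, hi, hr])
    (Functor.map_id_apply _ _ _)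
  exact Fill.of_retract (um i) (um r) (by rw [← um_comp, e, um_id]) (hI.contrLe D N le_rfl)

omit [Coh C] in
theorem jCof_fstFF {j : ℕ} {F Cy F' : C.Gpd} {φ : (D.FF j).obj F} {ξ : (cellF D.P j).obj Cy}
    {φ' : (D.FF (j + 1)).obj F'} (hF : Univ (D.FF j) F φ) (hC : Univ (cellF D.P j) Cy ξ)
    (hF' : Univ (D.FF (j + 1)) F' φ') (u : F ⟶ Cy)
    (hu : (D.FF j).map u φ = (D.toFF j).app Cy ξ) (hJ : JCof 0 u) (v : Cy ⟶ F')
    (hv : (cellF D.P j).map v ξ = (D.fstFF j).app F' φ') : JCof 0 v := by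
  intro E B p hp
  refine hC.hasLiftingProperty hF' (D.fstFF j) v hv p fun x y e => ?_
  obtain ⟨⟨β, y₁⟩, hy⟩ := y
  change (D.P.obj E).cell j at x
  have e' : cm (D.P.map p) x = sfst β := e
  obtain ⟨hy₁, hy₂⟩ := bd_eq_iff.1 hy
  change src y₁ = cm (D.p1 B) (sfst β) at hy₁
  change tgt y₁ = cm (D.p1 B) (ssnd β) at hy₂
  obtain ⟨x₁, h₁, k₁⟩ := hp j (Nat.zero_le j) (cm (D.p1 E) x) y₁ (by
    rw [hy₁, ← e', D.cm_p1_nat])
  obtain ⟨η, hη, kη⟩ := hF.lift_el hC (D.toFF j) u hu p (hJ p hp)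
    ⟨(bd x, tgt x₁), by rw [← bd_src, h₁, bd_cm]⟩ (ssnd β) (Subtype.ext (Prod.ext
      ((bd_cm (D.P.map p) x).symm.trans ((congrArg bd e').trans (bd_sfst β)))
      ((tgt_cm (um p) x₁).symm.trans ((congrArg tgt k₁).trans hy₂))))
  change (D.P.obj E).cell j at η
  have l₁ : bd η = bd x := congrArg (fun q => q.1.1) hη
  have l₂ : cm (D.p1 E) η = tgt x₁ := congrArg (fun q => q.1.2) hη
  have l₃ : cm (D.P.map p) η = ssnd β := kη
  exact ⟨⟨(sph x η l₁.symm, x₁), bd_eq_iff.2 ⟨h₁, l₂.symm⟩⟩, rfl,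
    Subtype.ext (Prod.ext (sph_ext e' l₃) k₁)⟩

theorem exists_jCof {j : ℕ} {F : C.Gpd} {φ : (D.FF j).obj F} (hF : Univ (D.FF j) F φ)
    (c₁ : Contr (ug F)) (c₂ : Cofibt F) :
    ∃ (Cy : C.Gpd) (ξ : (cellF D.P j).obj Cy) (u : F ⟶ Cy), Univ (cellF D.P j) Cy ξ ∧
      (D.FF j).map u φ = (D.toFF j).app Cy ξ ∧ JCof 0 u := by
  obtain ⟨Cy, ξ, hC⟩ := D.corep_cell j
  obtain ⟨u, hu, -⟩ := hF Cy ((D.toFF j).app Cy ξ)
  exact ⟨Cy, ξ, u, hC, hu, jCof_of_contr (D.cof_toFF hF hC u hu) c₂ c₁ (D.contr_cyl hC)⟩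

theorem exists_FF (j : ℕ) : ∃ (F : C.Gpd) (φ : (D.FF j).obj F), Univ (D.FF j) F φ ∧
    Contr (ug F) ∧ Cofibt F := by
  induction j with
  | zero =>
    refine ⟨rep C (Theta.D 0), ⟨(sph0 _, discCell C 0), rfl⟩, fun Y y => ?_, contr_rep _,
      cofibt_rep _⟩
    obtain ⟨f, hf, hf'⟩ := disc_univ 0 Y y.1.2
    exact ⟨f, Subtype.ext (Prod.ext rfl hf), fun g hg => hf' g (congrArg (fun q => q.1.2) hg)⟩
  | succ j ih =>
    obtain ⟨F, φ, hF, c₁, c₂⟩ := ih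
    obtain ⟨Cy, ξ, u, hC, hu, hJ⟩ := D.exists_jCof hF c₁ c₂
    obtain ⟨F', φ', hF'⟩ := D.corep_FF (j + 1)
    obtain ⟨v, hv, -⟩ := hC F' ((D.fstFF j).app F' φ')
    have hv' := D.jCof_fstFF hF hC hF' u hu hJ v hv
    have c₃ : Cofibt Cy := c₂.of_cof hJ.cof
    exact ⟨F', φ', hF', hv'.contr c₃ (D.contr_cyl hC), c₃.of_cof hv'.cof⟩

end PathData

variable [Coh C]

/-- Hint: let `(F j, φ j)` and `(Cy j, ξ j)` be universal for `D.FF j` and `cellF D.P j`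
(`corep_FF`, `corep_cell`) and `u j : F j ⟶ Cy j` classify `(bd ξ, p1 ξ)`. Show by induction that
`F j` is contractible and cofibrant; then `u j` is `Cof` (`Univ.hasLiftingProperty`: lift `x₀`,
then the cylinder cell), `Cy j` is contractible (retract of the object of `exists_cylD` for every
`N`, `thmA`) and cofibrant, so `JCof 0 (u j)` by `jCof_of_contr`. The map `Cy j ⟶ F (j+1)`
classifying the first cylinder is `JCof 0` (lift `x₁` along `JAt`, then the second cylinder using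
the lifting property of `u j`), so `F (j+1)` is contractible (`JCof.contr`); `F 0` is the `0`-disc.
Finally `u j` has a retraction (`jFib_toOne`), which gives the lifting property. -/
theorem PathData.tFib_p1 (D : PathData C 0) (Y : C.Gpd) : TFib (D.p1 Y) := by
  intro j β x₁ h₁
  obtain ⟨F, φ, hF, c₁, c₂⟩ := D.exists_FF j
  obtain ⟨Cy, ξ, u, -, hu, hJ⟩ := D.exists_jCof hF c₁ c₂
  obtain ⟨f, hf, -⟩ := hF Y ⟨(β, x₁), h₁⟩
  obtain ⟨l, hl, -⟩ := hJ.lift (toOne Y) (jFib_toOne Y) f (toOne Cy) (toOne_ext _ _)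
  have e : (D.toFF j).app Y ((cellF D.P j).map l ξ) = ⟨(β, x₁), h₁⟩ := by
    rw [NatTrans.naturality_apply, ← hu, ← Functor.map_comp_apply, hl, hf]
  exact ⟨_, congrArg (fun q => q.1.1) e, congrArg (fun q => q.1.2) e⟩

end Vale.Agent.P259
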