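import Vale.Agent.P259.Colim
import Vale.Agent.P259.Corep

/-! P259: the globular set of cylinders that fix the cells of dimension `< n`. -/

open CategoryTheory Limits Opposite

noncomputable section

namespace Vale.Agent.P259

/-- Cylinders relative to the `(n-1)`-skeleton. A `j`-cell is a boundary `β`, two parallel-over-`β`
cells `x₀, x₁`, equal if `j < n`, and if `n ≤ j` a cell `cyl : tr β x₀ ⟶ x₁`. -/
structure PathData (C : GlobExt) (n : ℕ) where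
  P : C.Gpd ⥤ GPsh
  p0 : ∀ Y, P.obj Y ⟶ ug Y
  p1 : ∀ Y, P.obj Y ⟶ ug Y
  p0_nat : ∀ {Y Y' : C.Gpd} (f : Y ⟶ Y'), P.map f ≫ p0 Y' = p0 Y ≫ um f
  p1_nat : ∀ {Y Y' : C.Gpd} (f : Y ⟶ Y'), P.map f ≫ p1 Y' = p1 Y ≫ um f
  tr : ∀ (Y : C.Gpd) (j : ℕ) (β : (P.obj Y).Sph j) (x : (ug Y).cell j),
    bd x = sm (p0 Y) β → (ug Y).cell j
  tr_nat : ∀ {Y Y' : C.Gpd} (f : Y ⟶ Y') (j : ℕ) (β : (P.obj Y).Sph j) (x : (ug Y).cell j) h h',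
    cm (um f) (tr Y j β x h) = tr Y' j (sm (P.map f) β) (cm (um f) x) h'
  tr_low : ∀ Y j β x h, j ≤ n → tr Y j β x h = x
  tr_good : ∀ j, n < j →
    (∃ T : ∀ (Y : C.Gpd) (β : (P.obj Y).Sph j) (x : (ug Y).cell j),
        bd x = sm (p0 Y) β → (ug Y).cell j,
      (∀ {Y Y' : C.Gpd} (f : Y ⟶ Y') β x h h',
        cm (um f) (T Y β x h) = T Y' (sm (P.map f) β) (cm (um f) x) h') ∧
      ∀ Y β x h, bd (T Y β x h) = sm (p1 Y) β) →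
    ∀ Y β x h, bd (tr Y j β x h) = sm (p1 Y) β
  cyl : ∀ (Y : C.Gpd) (j : ℕ), (P.obj Y).cell j → n ≤ j → (ug Y).cell (j + 1)
  cyl_nat : ∀ {Y Y' : C.Gpd} (f : Y ⟶ Y') (j : ℕ) (ξ : (P.obj Y).cell j) (h : n ≤ j),
    cm (um f) (cyl Y j ξ h) = cyl Y' j (cm (P.map f) ξ) h
  src_cyl : ∀ Y j ξ h, src (cyl Y j ξ h) = tr Y j (bd ξ) (cm (p0 Y) ξ) (bd_cm _ _)
  tgt_cyl : ∀ Y j ξ h, tgt (cyl Y j ξ h) = cm (p1 Y) ξ
  low : ∀ Y j (ξ : (P.obj Y).cell j), j < n → cm (p1 Y) ξ = cm (p0 Y) ξ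
  ext : ∀ Y j (ξ ξ' : (P.obj Y).cell j), bd ξ = bd ξ' → cm (p0 Y) ξ = cm (p0 Y) ξ' →
    cm (p1 Y) ξ = cm (p1 Y) ξ' → (∀ h, cyl Y j ξ h = cyl Y j ξ' h) → ξ = ξ'
  mk' : ∀ (Y : C.Gpd) (j : ℕ) (β : (P.obj Y).Sph j) (x₀ x₁ : (ug Y).cell j)
    (h₀ : bd x₀ = sm (p0 Y) β) (_ : bd x₁ = sm (p1 Y) β) (c : n ≤ j → (ug Y).cell (j + 1)),
    (j < n → x₁ = x₀) → (∀ h, src (c h) = tr Y j β x₀ h₀ ∧ tgt (c h) = x₁) →
    ∃ ξ : (P.obj Y).cell j, bd ξ = β ∧ cm (p0 Y) ξ = x₀ ∧ cm (p1 Y) ξ = x₁ ∧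
      ∀ h, cyl Y j ξ h = c h

/-- One stage of the construction: the functor of `j`-spheres of cylinders. -/
structure PStage (C : GlobExt) (j : ℕ) where
  B : C.Gpd → Type
  m : ∀ {Y Y' : C.Gpd}, (Y ⟶ Y') → B Y → B Y'
  m_id : ∀ (Y : C.Gpd) (b : B Y), m (𝟙 Y) b = b
  m_comp : ∀ {Y Y' Y'' : C.Gpd} (f : Y ⟶ Y') (g : Y' ⟶ Y'') (b : B Y), m (f ≫ g) b = m g (m f b)
  q0 : ∀ Y, B Y → (ug Y).Sph j
  q1 : ∀ Y, B Y → (ug Y).Sph j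
  q0_nat : ∀ {Y Y' : C.Gpd} (f : Y ⟶ Y') (b : B Y), q0 Y' (m f b) = sm (um f) (q0 Y b)
  q1_nat : ∀ {Y Y' : C.Gpd} (f : Y ⟶ Y') (b : B Y), q1 Y' (m f b) = sm (um f) (q1 Y b)

namespace PStage

variable {C : GlobExt} {j : ℕ} (S : PStage C j) (n : ℕ)

/-- Candidate transports. -/
abbrev TrT : Type 1 :=
  ∀ (Y : C.Gpd) (β : S.B Y) (x : (ug Y).cell j), bd x = S.q0 Y β → (ug Y).cell j

def NatT (T : S.TrT) : Prop :=
  ∀ (Y Y' : C.Gpd) (f : Y ⟶ Y') β x h h',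
    cm (um f) (T Y β x h) = T Y' (S.m f β) (cm (um f) x) h'

def GdT (T : S.TrT) : Prop := ∀ Y β x h, bd (T Y β x h) = S.q1 Y β

theorem exists_tr : ∃ T : S.TrT, S.NatT T ∧ (j ≤ n → ∀ Y β x h, T Y β x h = x) ∧
    (n < j → (∃ T', S.NatT T' ∧ S.GdT T') → S.GdT T) := by
  by_cases h : n < j ∧ ∃ T', S.NatT T' ∧ S.GdT T'
  · obtain ⟨hn, T, h1, h2⟩ := h
    exact ⟨T, h1, fun h => absurd hn (by omega), fun _ _ => h2⟩
  · exact ⟨fun _ _ x _ => x, fun _ _ _ _ _ _ _ => rfl, fun _ _ _ _ _ => rfl,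
      fun h1 h2 => absurd ⟨h1, h2⟩ h⟩

/-- The chosen transport. -/
def tr : S.TrT := (S.exists_tr n).choose

theorem tr_nat : S.NatT (S.tr n) := (S.exists_tr n).choose_spec.1

theorem tr_low (h : j ≤ n) (Y β x h') : S.tr n Y β x h' = x :=
  (S.exists_tr n).choose_spec.2.1 h Y β x h'

theorem tr_good (h : n < j) (h' : ∃ T', S.NatT T' ∧ S.GdT T') : S.GdT (S.tr n) :=
  (S.exists_tr n).choose_spec.2.2 h h'

theorem tr_congr {Y : C.Gpd} {β β' : S.B Y} {x x' : (ug Y).cell j} (hβ : β = β') (hx : x = x')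
    (h h') : S.tr n Y β x h = S.tr n Y β' x' h' := by
  subst hβ hx
  rfl

/-- The `j`-cells of cylinders. -/
@[ext]
structure Cl (Y : C.Gpd) : Type where
  β : S.B Y
  x0 : (ug Y).cell j
  x1 : (ug Y).cell j
  c : n ≤ j → (ug Y).cell (j + 1)
  h0 : bd x0 = S.q0 Y β
  h1 : bd x1 = S.q1 Y β
  low : j < n → x1 = x0
  sc : ∀ h, src (c h) = S.tr n Y β x0 h0
  tc : ∀ h, tgt (c h) = x1

variable {S n}

/-- Functoriality of cells. -/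
def Cl.map {Y Y' : C.Gpd} (f : Y ⟶ Y') (ξ : S.Cl n Y) : S.Cl n Y' where
  β := S.m f ξ.β
  x0 := cm (um f) ξ.x0
  x1 := cm (um f) ξ.x1
  c h := cm (um f) (ξ.c h)
  h0 := by rw [bd_cm, ξ.h0, S.q0_nat]
  h1 := by rw [bd_cm, ξ.h1, S.q1_nat]
  low h := by rw [ξ.low h]
  sc h := by rw [src_cm, ξ.sc, S.tr_nat n]
  tc h := by rw [tgt_cm, ξ.tc]

theorem Cl.map_id {Y : C.Gpd} (ξ : S.Cl n Y) : ξ.map (𝟙 Y) = ξ :=
  Cl.ext (S.m_id _ _) rfl rfl rfl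

theorem Cl.map_comp {Y Y' Y'' : C.Gpd} (f : Y ⟶ Y') (g : Y' ⟶ Y'') (ξ : S.Cl n Y) :
    ξ.map (f ≫ g) = (ξ.map f).map g :=
  Cl.ext (S.m_comp _ _ _) rfl rfl rfl

variable (S n)

/-- The next stage: pairs of cells with the same boundary. -/
def next : PStage C (j + 1) where
  B Y := {p : S.Cl n Y × S.Cl n Y // p.1.β = p.2.β}
  m f p := ⟨(p.1.1.map f, p.1.2.map f), congrArg (S.m f) p.2⟩
  m_id _ _ := Subtype.ext (Prod.ext (Cl.map_id _) (Cl.map_id _))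
  m_comp _ _ _ := Subtype.ext (Prod.ext (Cl.map_comp _ _ _) (Cl.map_comp _ _ _))
  q0 _ p := sph p.1.1.x0 p.1.2.x0 (by rw [p.1.1.h0, p.1.2.h0, p.2])
  q1 _ p := sph p.1.1.x1 p.1.2.x1 (by rw [p.1.1.h1, p.1.2.h1, p.2])
  q0_nat _ _ := rfl
  q1_nat _ _ := rfl

end PStage

/-- The initial stage. -/
def pStage0 (C : GlobExt) : PStage C 0 where
  B _ := PUnit
  m _ _ := PUnit.unit
  m_id _ _ := rfl
  m_comp _ _ _ := rfl
  q0 _ _ := sph0 _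
  q1 _ _ := sph0 _
  q0_nat _ _ := rfl
  q1_nat _ _ := rfl

/-- All stages. -/
def pStage (C : GlobExt) (n : ℕ) : ∀ j, PStage C j
  | 0 => pStage0 C
  | j + 1 => (pStage C n j).next n

section

variable {C : GlobExt} (n : ℕ)

/-- The globular set of cylinders in `Y`. -/
def pGD (Y : C.Gpd) : GData where
  cell j := (pStage C n j).Cl n Y
  s _ ξ := ξ.β.1.1
  t _ ξ := ξ.β.1.2
  ss _ ξ := congrArg (fun b => b.1.1) ξ.β.2
  ts _ ξ := congrArg (fun b => b.1.2) ξ.β.2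

/-- Functoriality of the globular set of cylinders. -/
def pGF (C : GlobExt) (n : ℕ) : C.Gpd ⥤ GPsh where
  obj Y := (pGD n Y).psh
  map f := GPsh.homMk (fun _ ξ => PStage.Cl.map f ξ) (fun _ _ => rfl) (fun _ _ => rfl)
  map_id _ := GPsh.hom_ext fun _ ξ => PStage.Cl.map_id ξ
  map_comp f g := GPsh.hom_ext fun _ ξ => PStage.Cl.map_comp f g ξ

def pG0 (Y : C.Gpd) : (pGF C n).obj Y ⟶ ug Y :=
  GPsh.homMk (fun _ ξ => PStage.Cl.x0 ξ)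
    (fun _ ξ => congrArg sfst (PStage.Cl.h0 ξ)) (fun _ ξ => congrArg ssnd (PStage.Cl.h0 ξ))

def pG1 (Y : C.Gpd) : (pGF C n).obj Y ⟶ ug Y :=
  GPsh.homMk (fun _ ξ => PStage.Cl.x1 ξ)
    (fun _ ξ => congrArg sfst (PStage.Cl.h1 ξ)) (fun _ ξ => congrArg ssnd (PStage.Cl.h1 ξ))

variable {n}

theorem pBeta_iff {Y : C.Gpd} : ∀ {j : ℕ} (a b : ((pGF C n).obj Y).cell j),
    Par a b ↔ PStage.Cl.β a = PStage.Cl.β b
  | 0, _, _ => ⟨fun _ => rfl, fun _ => trivial⟩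
  | _ + 1, _, _ => ⟨fun h => Subtype.ext (Prod.ext h.1 h.2),
      fun h => ⟨congrArg (fun b => b.1.1) h, congrArg (fun b => b.1.2) h⟩⟩

/-- Spheres of cylinders as elements of the stage. -/
def pE {Y : C.Gpd} : ∀ {j : ℕ}, ((pGF C n).obj Y).Sph j → (pStage C n j).B Y
  | 0, _ => PUnit.unit
  | _ + 1, z => ⟨z.1, (pBeta_iff _ _).1 z.2⟩

/-- The inverse of `pE`. -/
def pE' {Y : C.Gpd} : ∀ {j : ℕ}, (pStage C n j).B Y → ((pGF C n).obj Y).Sph j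
  | 0, _ => PUnit.unit
  | _ + 1, z => ⟨z.1, (pBeta_iff _ _).2 z.2⟩

theorem pE_pE' {Y : C.Gpd} : ∀ {j : ℕ} (b : (pStage C n j).B Y), pE (pE' b) = b
  | 0, _ => rfl
  | _ + 1, _ => rfl

theorem pE'_pE {Y : C.Gpd} : ∀ {j : ℕ} (z : ((pGF C n).obj Y).Sph j), pE' (pE z) = z
  | 0, _ => rfl
  | _ + 1, _ => rfl

theorem pE_bd {Y : C.Gpd} : ∀ {j : ℕ} (ξ : ((pGF C n).obj Y).cell j), pE (bd ξ) = PStage.Cl.β ξ
  | 0, _ => rfl
  | _ + 1, _ => rfl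

theorem pE_nat {Y Y' : C.Gpd} (f : Y ⟶ Y') : ∀ {j : ℕ} (z : ((pGF C n).obj Y).Sph j),
    pE (sm ((pGF C n).map f) z) = (pStage C n j).m f (pE z)
  | 0, _ => rfl
  | _ + 1, _ => rfl

theorem pE'_nat {Y Y' : C.Gpd} (f : Y ⟶ Y') : ∀ {j : ℕ} (b : (pStage C n j).B Y),
    sm ((pGF C n).map f) (pE' b) = pE' ((pStage C n j).m f b)
  | 0, _ => rfl
  | _ + 1, _ => rfl

theorem q0_pE {Y : C.Gpd} : ∀ {j : ℕ} (z : ((pGF C n).obj Y).Sph j),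
    (pStage C n j).q0 Y (pE z) = sm (pG0 n Y) z
  | 0, _ => rfl
  | _ + 1, _ => rfl

theorem q1_pE {Y : C.Gpd} : ∀ {j : ℕ} (z : ((pGF C n).obj Y).Sph j),
    (pStage C n j).q1 Y (pE z) = sm (pG1 n Y) z
  | 0, _ => rfl
  | _ + 1, _ => rfl

theorem q0_pE' {Y : C.Gpd} {j : ℕ} (b : (pStage C n j).B Y) :
    (pStage C n j).q0 Y b = sm (pG0 n Y) (pE' b) := by rw [← q0_pE, pE_pE']

theorem q1_pE' {Y : C.Gpd} {j : ℕ} (b : (pStage C n j).B Y) :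
    (pStage C n j).q1 Y b = sm (pG1 n Y) (pE' b) := by rw [← q1_pE, pE_pE']

end

/-- The cylinder data. -/
def pData (C : GlobExt) (n : ℕ) : PathData C n where
  P := pGF C n
  p0 := pG0 n
  p1 := pG1 n
  p0_nat _ := GPsh.hom_ext fun _ _ => rfl
  p1_nat _ := GPsh.hom_ext fun _ _ => rfl
  tr Y j β x h := (pStage C n j).tr n Y (pE β) x (h.trans (q0_pE β).symm)
  tr_nat f j β x h h' :=
    ((pStage C n j).tr_nat n _ _ f (pE β) x _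
      (h'.trans ((q0_pE _).symm.trans (congrArg _ (pE_nat f β))))).trans
      ((pStage C n j).tr_congr n (pE_nat f β).symm rfl _ _)
  tr_low Y j β x h hj := (pStage C n j).tr_low n hj Y _ x _
  tr_good j hj hT Y β x h := by
    obtain ⟨T, hT1, hT2⟩ := hT
    refine ((pStage C n j).tr_good n hj
      ⟨fun Y b x h => T Y (pE' b) x (h.trans (q0_pE' b)), fun Y Y' f b x h h' => ?_,
        fun Y b x h => (hT2 Y _ x _).trans (q1_pE' b).symm⟩ Y _ x _).trans (q1_pE β)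
    have e := pE'_nat f b
    refine (hT1 f (pE' b) x _ (by rw [e]; exact h'.trans (q0_pE' _))).trans ?_
    congr 1
  cyl Y j ξ h := PStage.Cl.c ξ h
  cyl_nat _ _ _ _ := rfl
  src_cyl Y j ξ h := (PStage.Cl.sc ξ h).trans ((pStage C n j).tr_congr n (pE_bd ξ).symm rfl _ _)
  tgt_cyl Y j ξ h := PStage.Cl.tc ξ h
  low Y j ξ h := PStage.Cl.low ξ h
  ext Y j ξ ξ' hb h0 h1 hc :=
    PStage.Cl.ext ((pE_bd ξ).symm.trans ((congrArg pE hb).trans (pE_bd ξ'))) h0 h1 (funext hc)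
  mk' Y j β x₀ x₁ h₀ h₁ c hl hc := by
    refine ⟨(⟨pE β, x₀, x₁, c, h₀.trans (q0_pE β).symm, h₁.trans (q1_pE β).symm, hl,
      fun h => (hc h).1, fun h => (hc h).2⟩ : (pStage C n j).Cl n Y), ?_, rfl, rfl, fun _ => rfl⟩
    exact (pE'_pE _).symm.trans ((congrArg pE' (pE_bd _)).trans (pE'_pE β))

theorem exists_pathData (C : GlobExt) (n : ℕ) : Nonempty (PathData C n) := ⟨pData C n⟩

end Vale.Agent.P259
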