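import Vale.Agent.P259.Core
import Vale.Agent.P259.Corep

/-! P259: putting a model structure on a natural family of globular sets. -/

open CategoryTheory Limits Opposite

noncomputable section

namespace Vale.Agent.P259

universe u

open GlobExt

namespace Princ

/-! ### Restriction of models along a morphism of globular extensions -/

/-- The identity morphism of a globular extension. -/
def idHom (A : GlobExt) : Hom A A := ⟨𝟭 _, rfl⟩

theorem res_model {A B : GlobExt} (s : Hom A B) (X : B.Gpd) : A.IsModel (s.G.op ⋙ X.obj) := by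
  have h : Segal ((A.F ⋙ s.G).op ⋙ X.obj) := by
    rw [s.w]
    exact X.property
  exact h

/-- Restriction of models. -/
def res {A B : GlobExt} (s : Hom A B) : B.Gpd ⥤ A.Gpd :=
  ObjectProperty.lift _ (B.IsModel.ι ⋙ (Functor.whiskeringLeft _ _ _).obj s.G.op) (res_model s)

theorem res_U {A B : GlobExt} (s : Hom A B) : res s ⋙ A.U = B.U := by
  have h : B.IsModel.ι ⋙ (Functor.whiskeringLeft _ _ Type).obj (A.F ⋙ s.G).op ⋙
      (Functor.whiskeringLeft _ _ _).obj iota.op = B.U := by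
    rw [s.w]
    rfl
  exact h

theorem res_comp {A B E : GlobExt} (s : Hom A B) (p : Hom B E) :
    res p ⋙ res s = res (s.comp p) := rfl

theorem res_id (A : GlobExt) : res (idHom A) = 𝟭 _ := rfl

/-! ### Operations acting on pasting diagrams -/

variable {C : GlobExt}

/-- Action of an operation on pasting diagrams of a model. -/
def eact (Y : C.Gpd) {S T : Theta} (θ : C.F.obj S ⟶ C.F.obj T) (η : Ext (ug Y) T.2) :
    Ext (ug Y) S.2 :=
  nerve Y S.2 (act Y (S := S) (T := T) θ ((nerve Y T.2).symm η))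

theorem eact_id (Y : C.Gpd) {S : Theta} (η : Ext (ug Y) S.2) : eact Y (𝟙 _) η = η :=
  (congrArg (nerve Y S.2) (act_id Y _)).trans (Equiv.apply_symm_apply _ _)

theorem eact_comp (Y : C.Gpd) {S T W : Theta} (θ : C.F.obj S ⟶ C.F.obj T)
    (θ' : C.F.obj T ⟶ C.F.obj W) (η : Ext (ug Y) W.2) :
    eact Y (θ ≫ θ') η = eact Y θ (eact Y θ' η) := by
  refine (congrArg (nerve Y S.2) (act_comp Y θ θ' _)).trans ?_
  exact congrArg (fun x => nerve Y S.2 (act Y (S := S) (T := T) θ x))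
    (Equiv.symm_apply_apply (nerve Y T.2) _).symm

theorem eact_map (Y : C.Gpd) {S T : Theta} (k : S ⟶ T) (η : Ext (ug Y) T.2) :
    eact Y (C.F.map k) η = k.hom ≫ η :=
  (nerve_act Y (S := S.2) (T := T.2) k _).trans
    (congrArg (k.hom ≫ ·) (Equiv.apply_symm_apply _ _))

theorem symm_nerve_comp {Y Z : C.Gpd} (f : Y ⟶ Z) {l : ℕ} (T : Tab l) (η : Ext (ug Y) T) :
    (nerve Z T).symm (η ≫ um f) = elm f ((nerve Y T).symm η) := by
  apply (nerve Z T).injective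
  rw [Equiv.apply_symm_apply, nerve_elm, Equiv.apply_symm_apply]

theorem eact_um {Y Z : C.Gpd} (f : Y ⟶ Z) {S T : Theta} (θ : C.F.obj S ⟶ C.F.obj T)
    (η : Ext (ug Y) T.2) : eact Z θ (η ≫ um f) = eact Y θ η ≫ um f := by
  refine Eq.trans ?_ (nerve_elm f S.2 _)
  refine congrArg (nerve Z S.2) ?_
  refine Eq.trans ?_ (act_elm f (S := S) (T := T) θ _)
  exact congrArg (act Z (S := S) (T := T) θ) (symm_nerve_comp f T.2 η)

theorem last_cs {H : GPsh} {n : ℕ} (η : Ext H (.base (n + 1))) :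
    Ext.last (T := .base n) ((Theta.cs n).hom ≫ η) = src (Ext.last η) := by
  have h : ∀ η' : yoneda.obj (Globe.D (n + 1)) ⟶ H,
      yonedaEquiv (𝟙 _ ≫ yoneda.map (Globe.cs n) ≫ η') =
        H.map (Globe.cs n).op (yonedaEquiv (𝟙 _ ≫ η')) := fun η' => by
    rw [Category.id_comp, Category.id_comp, yonedaEquiv_naturality]
  exact h η

theorem last_ct {H : GPsh} {n : ℕ} (η : Ext H (.base (n + 1))) :
    Ext.last (T := .base n) ((Theta.ct n).hom ≫ η) = tgt (Ext.last η) := by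
  have h : ∀ η' : yoneda.obj (Globe.D (n + 1)) ⟶ H,
      yonedaEquiv (𝟙 _ ≫ yoneda.map (Globe.ct n) ≫ η') =
        H.map (Globe.ct n).op (yonedaEquiv (𝟙 _ ≫ η')) := fun η' => by
    rw [Category.id_comp, Category.id_comp, yonedaEquiv_naturality]
  exact h η

/-! ### Universal pasting diagrams -/

variable {𝒜 : Type u} [Category.{0} 𝒜]

/-- A choice of universal pasting diagrams. -/
structure UData (G : 𝒜 ⥤ GPsh) where
  a : Theta → 𝒜
  ξ : ∀ T : Theta, Ext (G.obj (a T)) T.2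
  hu : ∀ T : Theta, Univ (extF G T.2) (a T) (ξ T)

namespace UData

variable {G : 𝒜 ⥤ GPsh} (U : UData G)

/-- The classifying map of a pasting diagram. -/
def cl {T : Theta} {b : 𝒜} (η : Ext (G.obj b) T.2) : U.a T ⟶ b := (U.hu T b η).choose

theorem cl_spec {T : Theta} {b : 𝒜} (η : Ext (G.obj b) T.2) : U.ξ T ≫ G.map (U.cl η) = η :=
  (U.hu T b η).choose_spec.1

theorem cl_eq {T : Theta} {b : 𝒜} {η : Ext (G.obj b) T.2} {f : U.a T ⟶ b}
    (h : U.ξ T ≫ G.map f = η) : U.cl η = f := ((U.hu T b η).choose_spec.2 f h).symm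

/-- The natural operation determined by its value on the universal diagram. -/
def ap {S T : Theta} (φ : Ext (G.obj (U.a T)) S.2) {b : 𝒜} (η : Ext (G.obj b) T.2) :
    Ext (G.obj b) S.2 := φ ≫ G.map (U.cl η)

theorem ap_nat {S T : Theta} (φ : Ext (G.obj (U.a T)) S.2) {b b' : 𝒜} (η : Ext (G.obj b) T.2)
    (f : b ⟶ b') : U.ap φ (η ≫ G.map f) = U.ap φ η ≫ G.map f := by
  have h : U.cl (η ≫ G.map f : Ext (G.obj b') T.2) = U.cl η ≫ f :=
    U.cl_eq (by rw [G.map_comp, ← Category.assoc, U.cl_spec])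
  rw [ap, ap, h, G.map_comp, Category.assoc]

theorem ap_xi {S T : Theta} (φ : Ext (G.obj (U.a T)) S.2) : U.ap φ (U.ξ T) = φ := by
  have h : U.cl (U.ξ T) = 𝟙 _ := U.cl_eq (by rw [G.map_id, Category.comp_id])
  rw [ap, h, G.map_id, Category.comp_id]

theorem xi_ap {T : Theta} {b : 𝒜} (η : Ext (G.obj b) T.2) : U.ap (U.ξ T) η = η := U.cl_spec η

theorem ap_pre {S T : Theta} (k : S ⟶ T) {b : 𝒜} (η : Ext (G.obj b) T.2) :
    U.ap (S := S) (k.hom ≫ U.ξ T) η = k.hom ≫ η :=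
  (Category.assoc _ _ _).trans (congrArg (k.hom ≫ ·) (U.cl_spec η))

theorem ap_ap {S T W : Theta} (φ : Ext (G.obj (U.a T)) S.2) (φ' : Ext (G.obj (U.a W)) T.2)
    {b : 𝒜} (η : Ext (G.obj b) W.2) : U.ap (U.ap φ φ') η = U.ap φ (U.ap φ' η) :=
  (U.ap_nat φ φ' (U.cl η)).symm

/-- The natural operation `φ` lies over the operation `θ`. -/
def Over {B : 𝒜 ⥤ C.Gpd} (π : G ⟶ B ⋙ C.U) {S T : Theta} (θ : C.F.obj S ⟶ C.F.obj T)
    (φ : Ext (G.obj (U.a T)) S.2) : Prop :=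
  φ ≫ π.app (U.a T) = eact (B.obj (U.a T)) θ (U.ξ T ≫ π.app (U.a T))

variable {U}

theorem Over.all {B : 𝒜 ⥤ C.Gpd} {π : G ⟶ B ⋙ C.U} {S T : Theta} {θ : C.F.obj S ⟶ C.F.obj T}
    {φ : Ext (G.obj (U.a T)) S.2} (h : U.Over π θ φ) {b : 𝒜} (η : Ext (G.obj b) T.2) :
    U.ap φ η ≫ π.app b = eact (B.obj b) θ (η ≫ π.app b) := by
  have hn : G.map (U.cl η) ≫ π.app b = π.app (U.a T) ≫ um (B.map (U.cl η)) :=
    π.naturality (U.cl η)
  have h1 : η ≫ π.app b = (U.ξ T ≫ π.app (U.a T)) ≫ um (B.map (U.cl η)) := by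
    rw [Category.assoc, ← hn, ← Category.assoc, U.cl_spec]
  have h2 : U.ap φ η ≫ π.app b = (φ ≫ π.app (U.a T)) ≫ um (B.map (U.cl η)) := by
    rw [Category.assoc, ← hn, ← Category.assoc, ap]
  refine h2.trans ((congrArg (· ≫ um (B.map (U.cl η))) h).trans ?_)
  exact (eact_um _ θ _).symm.trans (congrArg (eact (B.obj b) θ) h1.symm)

theorem Over.congr {B : 𝒜 ⥤ C.Gpd} {π : G ⟶ B ⋙ C.U} {S T : Theta}
    {θ θ' : C.F.obj S ⟶ C.F.obj T} {φ φ' : Ext (G.obj (U.a T)) S.2} (h : U.Over π θ φ)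
    (h1 : θ' = θ) (h2 : φ' = φ) : U.Over π θ' φ' := by
  subst h1 h2
  exact h

theorem Over.comp {B : 𝒜 ⥤ C.Gpd} {π : G ⟶ B ⋙ C.U} {S T W : Theta}
    {θ : C.F.obj S ⟶ C.F.obj T} {φ : Ext (G.obj (U.a T)) S.2} {θ' : C.F.obj T ⟶ C.F.obj W}
    {φ' : Ext (G.obj (U.a W)) T.2} (h : U.Over π θ φ) (h' : U.Over π θ' φ') :
    U.Over π (θ ≫ θ') (U.ap φ φ') :=
  (h.all φ').trans ((congrArg (eact _ θ) h').trans (eact_comp _ θ θ' _).symm)

theorem over_map {B : 𝒜 ⥤ C.Gpd} (π : G ⟶ B ⋙ C.U) {S T : Theta} (k : S ⟶ T) :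
    U.Over π (C.F.map k) (k.hom ≫ U.ξ T) :=
  (Category.assoc _ _ _).trans (eact_map (B.obj (U.a T)) k _).symm

theorem over_id {B : 𝒜 ⥤ C.Gpd} (π : G ⟶ B ⋙ C.U) (S : Theta) : U.Over π (𝟙 _) (U.ξ S) :=
  (eact_id _ _).symm

theorem over_glue {B : 𝒜 ⥤ C.Gpd} (π : G ⟶ B ⋙ C.U) {l : ℕ} {T : Tab l} {j i : ℕ} {hl : j < l}
    {hi : j < i} {W : Theta} {θ : C.F.obj (Theta.mk (T.snoc j i hl hi)) ⟶ C.F.obj W}
    {φ : Ext (G.obj (U.a W)) (T.snoc j i hl hi)}
    (h1 : U.Over π (S := Theta.mk T) (C.F.map (Theta.inl T j i hl hi) ≫ θ)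
      ((Theta.inl T j i hl hi).hom ≫ φ))
    (h2 : U.Over π (S := Theta.D i) (C.F.map (Theta.inr T j i hl hi) ≫ θ)
      ((Theta.inr T j i hl hi).hom ≫ φ)) :
    U.Over π (S := Theta.mk (T.snoc j i hl hi)) θ φ := by
  refine pushout.hom_ext ?_ ?_
  · refine (Category.assoc _ _ _).symm.trans (h1.trans ((eact_comp _ _ _ _).trans ?_))
    exact eact_map _ (Theta.inl T j i hl hi) _
  · refine (Category.assoc _ _ _).symm.trans (h2.trans ((eact_comp _ _ _ _).trans ?_))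
    exact eact_map _ (Theta.inr T j i hl hi) _

theorem liftAt2_xi {B₀ B₁ : 𝒜 ⥤ C.Gpd} {π₀ : G ⟶ B₀ ⋙ C.U} {π₁ : G ⟶ B₁ ⋙ C.U} {T : Theta}
    {b : 𝒜} {ζ : Ext (G.obj b) T.2} (hw : WUniv (extF G T.2) b ζ) {n : ℕ}
    (h : LiftAt2 (π₀.app b) (π₁.app b) n) :
    LiftAt2 (π₀.app (U.a T)) (π₁.app (U.a T)) n := by
  obtain ⟨r, hr⟩ := hw (U.a T) (U.ξ T)
  have hr' : ζ ≫ G.map r = U.ξ T := hr
  have hir : U.cl ζ ≫ r = 𝟙 _ :=
    (U.cl_eq (by rw [G.map_comp, ← Category.assoc, U.cl_spec, hr'])).symm.trans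
      (U.cl_eq (by rw [G.map_id, Category.comp_id]))
  intro z b₀ b₁ h₀ h₁
  obtain ⟨e, he, he₀, he₁⟩ := h (sm (G.map (U.cl ζ)) z) (cm ((B₀ ⋙ C.U).map (U.cl ζ)) b₀)
    (cm ((B₁ ⋙ C.U).map (U.cl ζ)) b₁)
    (by rw [bd_cm, h₀, ← sm_comp, ← sm_comp, π₀.naturality])
    (by rw [bd_cm, h₁, ← sm_comp, ← sm_comp, π₁.naturality])
  refine ⟨cm (G.map r) e, ?_, ?_, ?_⟩
  · rw [bd_cm, he, ← sm_comp, ← G.map_comp, hir, G.map_id, sm_id]
  · rw [← cm_comp, π₀.naturality, cm_comp, he₀, ← cm_comp, ← Functor.map_comp, hir,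
      CategoryTheory.Functor.map_id, cm_id]
  · rw [← cm_comp, π₁.naturality, cm_comp, he₁, ← cm_comp, ← Functor.map_comp, hir,
      CategoryTheory.Functor.map_id, cm_id]

end UData

/-! ### The globular extension of natural operations -/

variable {G : 𝒜 ⥤ GPsh} (U : UData G) {B₀ B₁ : 𝒜 ⥤ C.Gpd} (π₀ : G ⟶ B₀ ⋙ C.U)
  (π₁ : G ⟶ B₁ ⋙ C.U)

/-- Objects of the extension. -/
def EObj (_U : UData G) (_π₀ : G ⟶ B₀ ⋙ C.U) (_π₁ : G ⟶ B₁ ⋙ C.U) : Type := Theta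

/-- Morphisms of the extension. -/
@[ext]
structure EHom (S T : Theta) : Type where
  θ : C.F.obj S ⟶ C.F.obj T
  φ : Ext (G.obj (U.a T)) S.2
  h₀ : U.Over π₀ θ φ
  h₁ : U.Over π₁ θ φ

instance : SmallCategory (EObj U π₀ π₁) where
  Hom S T := EHom U π₀ π₁ S T
  id S := ⟨𝟙 _, U.ξ S, UData.over_id π₀ S, UData.over_id π₁ S⟩
  comp f g := ⟨f.θ ≫ g.θ, U.ap f.φ g.φ, f.h₀.comp g.h₀, f.h₁.comp g.h₁⟩
  id_comp _ := EHom.ext (Category.id_comp _) (U.xi_ap _)
  comp_id _ := EHom.ext (Category.comp_id _) (U.ap_xi _)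
  assoc _ _ _ := EHom.ext (Category.assoc _ _ _) (U.ap_ap _ _ _)

/-- The structure functor. -/
def EF : Theta ⥤ EObj U π₀ π₁ where
  obj S := S
  map k := ⟨C.F.map k, k.hom ≫ U.ξ _, UData.over_map π₀ k, UData.over_map π₁ k⟩
  map_id S := EHom.ext (C.F.map_id S) (Category.id_comp _)
  map_comp k k' := EHom.ext (C.F.map_comp k k')
    ((Category.assoc _ _ _).trans (U.ap_pre k _).symm)

theorem EF_pres : PreservesSums (EF U π₀ π₁) := by
  intro l T j i hl hi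
  have hC := C.pres l T j i hl hi
  have hT := GlobExt.theta.pres l T j i hl hi
  refine ⟨⟨?_⟩, ⟨PushoutCocone.IsColimit.mk _ (fun s => ?_) (fun s => ?_) (fun s => ?_)
    (fun s m h1 h2 => ?_)⟩⟩
  · rw [← Functor.map_comp, ← Functor.map_comp]
    exact congrArg _ hT.w
  · have w1 : C.F.map (Theta.sqL T j hl) ≫ s.inl.θ = C.F.map (Theta.sqT j i hi) ≫ s.inr.θ :=
      congrArg EHom.θ s.condition
    have w2 : (Theta.sqL T j hl).hom ≫ s.inl.φ = (Theta.sqT j i hi).hom ≫ s.inr.φ :=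
      (U.ap_pre _ _).symm.trans ((congrArg EHom.φ s.condition).trans (U.ap_pre _ _))
    have e1 : (Theta.inl T j i hl hi).hom ≫ pushout.desc s.inl.φ s.inr.φ w2 = s.inl.φ :=
      pushout.inl_desc _ _ _
    have e2 : (Theta.inr T j i hl hi).hom ≫ pushout.desc s.inl.φ s.inr.φ w2 = s.inr.φ :=
      pushout.inr_desc _ _ _
    refine ⟨hC.desc s.inl.θ s.inr.θ w1, pushout.desc s.inl.φ s.inr.φ w2,
      UData.over_glue π₀ ?_ ?_, UData.over_glue π₁ ?_ ?_⟩
    · exact s.inl.h₀.congr (hC.inl_desc _ _ _) e1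
    · exact s.inr.h₀.congr (hC.inr_desc _ _ _) e2
    · exact s.inl.h₁.congr (hC.inl_desc _ _ _) e1
    · exact s.inr.h₁.congr (hC.inr_desc _ _ _) e2
  · exact EHom.ext (hC.inl_desc _ _ _) ((U.ap_pre _ _).trans (pushout.inl_desc _ _ _))
  · exact EHom.ext (hC.inr_desc _ _ _) ((U.ap_pre _ _).trans (pushout.inr_desc _ _ _))
  · refine EHom.ext (hC.hom_ext ?_ ?_) (pushout.hom_ext ?_ ?_)
    · exact (congrArg EHom.θ h1).trans (hC.inl_desc _ _ _).symm
    · exact (congrArg EHom.θ h2).trans (hC.inr_desc _ _ _).symm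
    · exact (U.ap_pre _ _).symm.trans ((congrArg EHom.φ h1).trans (pushout.inl_desc _ _ _).symm)
    · exact (U.ap_pre _ _).symm.trans ((congrArg EHom.φ h2).trans (pushout.inr_desc _ _ _).symm)

/-- The globular extension of natural operations. -/
def EExt : GlobExt where
  C := EObj U π₀ π₁
  F := EF U π₀ π₁
  bij := Function.bijective_id
  pres := EF_pres U π₀ π₁

/-- The projection to `C`. -/
def proj : Hom (EExt U π₀ π₁) C where
  G := { obj := fun S => C.F.obj S, map := fun f => f.θ }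
  w := rfl

theorem proj_push {S T : Theta} (f : (EExt U π₀ π₁).F.obj S ⟶ (EExt U π₀ π₁).F.obj T) :
    (proj U π₀ π₁).push f = f.θ :=
  (Category.id_comp _).trans (Category.comp_id _)

theorem proj_hasLifts (hf : ∀ (T : Theta) (m : ℕ), T.dim ≤ m + 1 →
    LiftAt2 (π₀.app (U.a T)) (π₁.app (U.a T)) (m + 1)) : HasLifts (proj U π₀ π₁) := by
  rintro ⟨n, S, f, g, hpar, hdim⟩ hb ⟨hb1, hb2⟩
  rw [proj_push] at hb1 hb2
  have hfg : bd (Ext.last (T := .base n) f.φ) = bd (Ext.last (T := .base n) g.φ) := by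
    cases n with
    | zero => rfl
    | succ n =>
      have e1 : (Theta.cs n).hom ≫ f.φ = (Theta.cs n).hom ≫ g.φ :=
        (U.ap_pre _ _).symm.trans ((congrArg EHom.φ hpar.1).trans (U.ap_pre _ _))
      have e2 : (Theta.ct n).hom ≫ f.φ = (Theta.ct n).hom ≫ g.φ :=
        (U.ap_pre _ _).symm.trans ((congrArg EHom.φ hpar.2).trans (U.ap_pre _ _))
      exact sph_ext
        ((last_cs _).symm.trans ((congrArg (Ext.last (T := .base n)) e1).trans (last_cs _)))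
        ((last_ct _).symm.trans ((congrArg (Ext.last (T := .base n)) e2).trans (last_ct _)))
  have key : ∀ {B : 𝒜 ⥤ C.Gpd} (π : G ⟶ B ⋙ C.U), U.Over π f.θ f.φ → U.Over π g.θ g.φ →
      bd (Ext.last (T := .base (n + 1))
        (eact (S := Theta.D (n + 1)) (B.obj (U.a S)) hb (U.ξ S ≫ π.app (U.a S)))) =
        sm (π.app (U.a S)) (sph _ _ hfg) := by
    intro B π h1 h2
    refine sph_ext ?_ ?_
    · refine (last_cs _).symm.trans (Eq.trans (congrArg (Ext.last (T := .base n)) ?_)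
        (Ext.last_comp (T := .base n) f.φ (π.app (U.a S))))
      refine (eact_map _ (Theta.cs n) _).symm.trans ((eact_comp _ _ _ _).symm.trans ?_)
      exact (congrArg (fun t => eact (S := Theta.D n) (B.obj (U.a S)) t _) hb1).trans h1.symm
    · refine (last_ct _).symm.trans (Eq.trans (congrArg (Ext.last (T := .base n)) ?_)
        (Ext.last_comp (T := .base n) g.φ (π.app (U.a S))))
      refine (eact_map _ (Theta.ct n) _).symm.trans ((eact_comp _ _ _ _).symm.trans ?_)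
      exact (congrArg (fun t => eact (S := Theta.D n) (B.obj (U.a S)) t _) hb2).trans h2.symm
  obtain ⟨e, he, he₀, he₁⟩ := hf S n hdim _ _ _ (key π₀ f.h₀ g.h₀) (key π₁ f.h₁ g.h₁)
  obtain ⟨hs, ht⟩ := bd_eq_sph_iff.1 he
  refine ⟨⟨hb, Ext.ofCell e, Ext.base_ext ?_, Ext.base_ext ?_⟩, ⟨EHom.ext hb1 ?_, EHom.ext hb2 ?_⟩,
    proj_push U π₀ π₁ _⟩
  · exact (Ext.last_comp _ _).trans ((congrArg _ (Ext.last_ofCell e)).trans he₀)
  · exact (Ext.last_comp _ _).trans ((congrArg _ (Ext.last_ofCell e)).trans he₁)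
  · refine (U.ap_pre (Theta.cs n) _).trans (Ext.base_ext ((last_cs _).trans ?_))
    exact (congrArg src (Ext.last_ofCell e)).trans hs
  · refine (U.ap_pre (Theta.ct n) _).trans (Ext.base_ext ((last_ct _).trans ?_))
    exact (congrArg tgt (Ext.last_ofCell e)).trans ht

/-- Pasting diagrams in `G.obj b` as a presheaf on the extension. -/
def xPsh (b : 𝒜) : (EExt U π₀ π₁).Cᵒᵖ ⥤ Type where
  obj T := Ext (G.obj b) (T.unop : Theta).2
  map f := TypeCat.ofHom fun η => U.ap f.unop.φ η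
  map_id T := by
    ext η : 3
    exact U.xi_ap η
  map_comp f g := by
    ext η : 3
    exact U.ap_ap _ _ η

theorem xPsh_model (b : 𝒜) : (EExt U π₀ π₁).IsModel (xPsh U π₀ π₁ b) := by
  refine (isModel_iff _).2 fun l T j i hl hi => ⟨fun x y h => pushout.hom_ext ?_ ?_, ?_⟩
  · exact (U.ap_pre _ _).symm.trans (h.1.trans (U.ap_pre _ _))
  · exact (U.ap_pre _ _).symm.trans (h.2.trans (U.ap_pre _ _))
  · intro x y h
    have w : (Theta.sqL T j hl).hom ≫ x = (Theta.sqT j i hi).hom ≫ y :=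
      (U.ap_pre _ _).symm.trans (h.trans (U.ap_pre _ _))
    exact ⟨pushout.desc x y w, (U.ap_pre _ _).trans (pushout.inl_desc _ _ _),
      (U.ap_pre _ _).trans (pushout.inr_desc _ _ _)⟩

/-- The family of models over the extension. -/
def xFam : 𝒜 ⥤ (EExt U π₀ π₁).Gpd where
  obj b := ⟨xPsh U π₀ π₁ b, xPsh_model U π₀ π₁ b⟩
  map f := ObjectProperty.homMk
    { app := fun _ => TypeCat.ofHom fun η => η ≫ G.map f
      naturality := fun _ _ k => by
        ext η : 3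
        exact (U.ap_nat k.unop.φ η f).symm }
  map_id b := gpd_hom_ext_el fun _ η =>
    (congrArg (η ≫ ·) (G.map_id b)).trans (Category.comp_id _)
  map_comp f g := gpd_hom_ext_el fun _ η =>
    (congrArg (η ≫ ·) (G.map_comp f g)).trans (Category.assoc _ _ _).symm

/-- The underlying globular set of `xFam.obj b` is `G.obj b`. -/
def xIsoApp (b : 𝒜) : ug ((xFam U π₀ π₁).obj b) ≅ G.obj b where
  hom := GPsh.homMk (fun n η => Ext.last (T := .base n) η)
    (fun n η => (last_cs η).symm.trans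
      (congrArg (Ext.last (T := .base n)) (U.ap_pre (Theta.cs n) η).symm))
    (fun n η => (last_ct η).symm.trans
      (congrArg (Ext.last (T := .base n)) (U.ap_pre (Theta.ct n) η).symm))
  inv := GPsh.homMk (fun _ x => Ext.ofCell x)
    (fun n x => (U.ap_pre (Theta.cs n) _).trans (Ext.base_ext ((last_cs _).trans
      ((congrArg src (Ext.last_ofCell x)).trans (Ext.last_ofCell _).symm))))
    (fun n x => (U.ap_pre (Theta.ct n) _).trans (Ext.base_ext ((last_ct _).trans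
      ((congrArg tgt (Ext.last_ofCell x)).trans (Ext.last_ofCell _).symm))))
  hom_inv_id := GPsh.hom_ext fun _ _ => Ext.base_ext (Ext.last_ofCell _)
  inv_hom_id := GPsh.hom_ext fun _ x => Ext.last_ofCell x

def xIso : xFam U π₀ π₁ ⋙ (EExt U π₀ π₁).U ≅ G :=
  NatIso.ofComponents (xIsoApp U π₀ π₁) fun f =>
    GPsh.hom_ext fun n η => Ext.last_comp (T := .base n) η (G.map f)

/-- The comparison with a base. -/
def xRho {B : 𝒜 ⥤ C.Gpd} (π : G ⟶ B ⋙ C.U)
    (h : ∀ (S T : Theta) (f : EHom U π₀ π₁ S T), U.Over π f.θ f.φ) :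
    xFam U π₀ π₁ ⟶ B ⋙ res (proj U π₀ π₁) where
  app b := ObjectProperty.homMk
    { app := fun T => TypeCat.ofHom fun η =>
        (nerve (B.obj b) (T.unop : Theta).2).symm (η ≫ π.app b)
      naturality := fun _ S k => by
        ext η : 3
        exact (Equiv.symm_apply_eq _).2 ((h _ _ k.unop).all η) }
  naturality b b' f := gpd_hom_ext_el fun T η => by
    have hn : G.map f ≫ π.app b' = π.app b ≫ um (B.map f) := π.naturality f
    refine Eq.trans ?_ (symm_nerve_comp (B.map f) T.2 (η ≫ π.app b))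
    refine congrArg (nerve (B.obj b') T.2).symm ?_
    exact (Category.assoc _ _ _).trans ((congrArg (η ≫ ·) hn).trans (Category.assoc _ _ _).symm)

theorem um_xRho {B : 𝒜 ⥤ C.Gpd} (π : G ⟶ B ⋙ C.U) (h) (b : 𝒜) :
    um ((xRho U π₀ π₁ π h).app b) = (xIso U π₀ π₁).hom.app b ≫ π.app b :=
  GPsh.hom_ext fun n η => by
    refine (last_nerve_base (B.obj b) _).symm.trans ?_
    refine (congrArg (Ext.last (T := .base n)) (Equiv.apply_symm_apply _ _)).trans ?_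
    exact Ext.last_comp (T := .base n) η (π.app b)

theorem transfer {E : GlobExt} (p : Hom E C) (s : Hom C E) (hs : s.comp p = idHom C)
    (X : 𝒜 ⥤ E.Gpd) (B : 𝒜 ⥤ C.Gpd) (ρ : X ⟶ B ⋙ res p) :
    ∃ ρ' : X ⋙ res s ⟶ B, ∀ b, um (ρ'.app b) =
      eqToHom (Functor.congr_obj (res_U s) (X.obj b)) ≫ um (ρ.app b) ≫
        eqToHom (Functor.congr_obj (res_U p) (B.obj b)) := by
  have e : res p ⋙ res s = 𝟭 _ := by rw [res_comp, hs, res_id]
  refine ⟨Functor.whiskerRight ρ (res s) ≫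
    Functor.whiskerLeft B (eqToHom e) ≫ B.rightUnitor.hom, fun b => ?_⟩
  have h1 := Functor.congr_hom (res_U s) (ρ.app b)
  have h2 : um ((res s).map (ρ.app b) ≫ (eqToHom e).app (B.obj b) ≫ 𝟙 _) =
      (res s ⋙ C.U).map (ρ.app b) ≫ um ((eqToHom e).app (B.obj b)) := by
    rw [Category.comp_id, um_comp]
    rfl
  refine h2.trans ?_
  rw [h1, eqToHom_app, um, eqToHom_map]
  simp only [Category.assoc, eqToHom_trans]

end Princ

variable {C : GlobExt} [Coh C] {𝒜 : Type u} [Category.{0} 𝒜]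

open Princ

/-- Choose universal elements `(a T, ξ T)` of `extF G T` and form the globular extension of
natural operations lying over operations of `C`; a section of its projection to `C` gives the
model structure. -/
theorem principle (B₀ B₁ : 𝒜 ⥤ C.Gpd) (G : 𝒜 ⥤ GPsh) (π₀ : G ⟶ B₀ ⋙ C.U) (π₁ : G ⟶ B₁ ⋙ C.U)
    (hc : ∀ (l : ℕ) (T : Tab l), Corep (extF G T))
    (hf : ∀ (l : ℕ) (T : Tab l) (m : ℕ), T.dim ≤ m + 1 →
      ∃ (b : 𝒜) (ζ : Ext (G.obj b) T), WUniv (extF G T) b ζ ∧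
        LiftAt2 (π₀.app b) (π₁.app b) (m + 1)) :
    ∃ (E : 𝒜 ⥤ C.Gpd) (ρ₀ : E ⟶ B₀) (ρ₁ : E ⟶ B₁) (α : E ⋙ C.U ≅ G),
      (∀ a, um (ρ₀.app a) = α.hom.app a ≫ π₀.app a) ∧
      ∀ a, um (ρ₁.app a) = α.hom.app a ≫ π₁.app a := by
  choose a ξ hu using fun T : Theta => hc T.1 T.2
  let U : UData G := ⟨a, ξ, hu⟩
  obtain ⟨s, hs⟩ := Coh.along (EExt U π₀ π₁) C (proj U π₀ π₁) (idHom C)
    (proj_hasLifts U π₀ π₁ fun T m hm => by
      obtain ⟨b, ζ, hw, h⟩ := hf T.1 T.2 m hm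
      exact UData.liftAt2_xi hw h)
  obtain ⟨ρ₀, h₀⟩ := transfer _ s hs _ B₀ (xRho U π₀ π₁ π₀ fun _ _ f => f.h₀)
  obtain ⟨ρ₁, h₁⟩ := transfer _ s hs _ B₁ (xRho U π₀ π₁ π₁ fun _ _ f => f.h₁)
  refine ⟨xFam U π₀ π₁ ⋙ res s, ρ₀, ρ₁,
    Functor.isoWhiskerLeft (xFam U π₀ π₁) (eqToIso (res_U s)) ≪≫ xIso U π₀ π₁,
    fun b => ?_, fun b => ?_⟩
  · refine (h₀ b).trans ?_
    rw [um_xRho]
    refine Eq.trans (congrArg (_ ≫ ·) (Category.comp_id _)) ((Category.assoc _ _ _).symm.trans ?_)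
    exact congrArg (fun t => (t ≫ _) ≫ _) (eqToHom_app (res_U s) _).symm
  · refine (h₁ b).trans ?_
    rw [um_xRho]
    refine Eq.trans (congrArg (_ ≫ ·) (Category.comp_id _)) ((Category.assoc _ _ _).symm.trans ?_)
    exact congrArg (fun t => (t ≫ _) ≫ _) (eqToHom_app (res_U s) _).symm

/-- One base: `principle` with the constant functor at `oneM C` as the other base. -/
theorem principle1 (B : 𝒜 ⥤ C.Gpd) (G : 𝒜 ⥤ GPsh) (π : G ⟶ B ⋙ C.U)
    (hc : ∀ (l : ℕ) (T : Tab l), Corep (extF G T))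
    (hf : ∀ (l : ℕ) (T : Tab l) (m : ℕ), T.dim ≤ m + 1 →
      ∃ (b : 𝒜) (ζ : Ext (G.obj b) T), WUniv (extF G T) b ζ ∧ LiftAt (π.app b) (m + 1)) :
    ∃ (E : 𝒜 ⥤ C.Gpd) (ρ : E ⟶ B) (α : E ⋙ C.U ≅ G),
      ∀ a, um (ρ.app a) = α.hom.app a ≫ π.app a := by
  let π₁ : G ⟶ (Functor.const 𝒜).obj (oneM C) ⋙ C.U :=
    { app := fun _ => GPsh.homMk (fun _ _ => PUnit.unit) (fun _ _ => rfl) (fun _ _ => rfl)
      naturality := fun _ _ _ => GPsh.hom_ext fun _ _ => rfl }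
  obtain ⟨E, ρ, -, α, h, -⟩ := principle B _ G π π₁ hc fun l T m hm => by
    obtain ⟨b, ζ, hw, h⟩ := hf l T m hm
    refine ⟨b, ζ, hw, fun z b₀ b₁ h₀ _ => ?_⟩
    obtain ⟨e, he, he'⟩ := h z b₀ h₀
    exact ⟨e, he, he', rfl⟩
  exact ⟨E, ρ, α, h⟩

end Vale.Agent.P259
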