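import Vale.Agent.P259.Cyl2
import Vale.Agent.P259.Cosk
import Vale.Agent.P259.Principle

/-! P259: the truncated relative mapping path object. -/

open CategoryTheory Limits Opposite

noncomputable section

namespace Vale.Agent.P259

/-- For `f : Y₀ ⟶ Y₁`, a model over `Y₁` whose cells of dimension `j < N` are pairs of a cell `x₀` of
`Y₀` and a cylinder (relative to the `(n-1)`-skeleton) starting at `f x₀`, coskeletal above. -/
structure QData (C : GlobExt) (n N : ℕ) where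
  obj : ∀ {Y₀ Y₁ : C.Gpd}, (Y₀ ⟶ Y₁) → C.Gpd
  ρ : ∀ {Y₀ Y₁ : C.Gpd} (f : Y₀ ⟶ Y₁), obj f ⟶ Y₁
  map : ∀ {Y₀ Y₁ Z₀ Z₁ : C.Gpd} {f : Y₀ ⟶ Y₁} {g : Z₀ ⟶ Z₁} (a : Y₀ ⟶ Z₀) (b : Y₁ ⟶ Z₁),
    a ≫ g = f ≫ b → (obj f ⟶ obj g)
  map_id : ∀ {Y₀ Y₁ : C.Gpd} (f : Y₀ ⟶ Y₁) (w), map (f := f) (g := f) (𝟙 _) (𝟙 _) w = 𝟙 _
  map_comp : ∀ {Y₀ Y₁ Z₀ Z₁ W₀ W₁ : C.Gpd} {f : Y₀ ⟶ Y₁} {g : Z₀ ⟶ Z₁} {k : W₀ ⟶ W₁}
    (a : Y₀ ⟶ Z₀) (b : Y₁ ⟶ Z₁) (w : a ≫ g = f ≫ b) (a' : Z₀ ⟶ W₀) (b' : Z₁ ⟶ W₁)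
    (w' : a' ≫ k = g ≫ b') (w''), map a b w ≫ map a' b' w' = map (a ≫ a') (b ≫ b') w''
  map_ρ : ∀ {Y₀ Y₁ Z₀ Z₁ : C.Gpd} {f : Y₀ ⟶ Y₁} {g : Z₀ ⟶ Z₁} (a : Y₀ ⟶ Z₀) (b : Y₁ ⟶ Z₁)
    (w : a ≫ g = f ≫ b), map a b w ≫ ρ g = ρ f ≫ b
  tfib : ∀ {Y₀ Y₁ : C.Gpd} (f : Y₀ ⟶ Y₁), (∀ j, n ≤ j → j < N → Fill (ug Y₀) j) →
    ContrLe N (ug Y₁) →
    (∀ j, j < n → j < N → Function.Bijective (fun x : (ug Y₀).cell j => cm (um f) x)) →
    TFib (um (ρ f))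
  jfib : ∀ {Y₀ Y₁ : C.Gpd} (f : Y₀ ⟶ Y₁), JFib n (um (ρ f))
  transp : ∀ {Y₀ Y₁ : C.Gpd} (f : Y₀ ⟶ Y₁) (j : ℕ), j ≤ N → Fill (ug Y₀) j →
    ∀ ζ : (ug (obj f)).Sph j, ∃ x : (ug Y₁).cell j, bd x = sm (um (ρ f)) ζ
  back : ∀ {X' X : C.Gpd} (i : X' ⟶ X) (j : ℕ), n ≤ j → j < N →
    ∀ (ζ : (ug (obj (𝟙 X'))).Sph j) (η : (ug (obj i)).cell j),
      bd η = sm (um (map (f := 𝟙 X') (g := i) (𝟙 X') i rfl)) ζ →
      ∃ x : (ug X').cell j, bd x = sm (um (ρ (𝟙 X'))) ζ ∧ Htp (cm (um i) x) (cm (um (ρ i)) η)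

namespace QAux

variable {C : GlobExt} {n N : ℕ} (D : PathData C n)

/-- Pairs of a cell of `Y₀` and a cylinder starting at its image. -/
abbrev WG {Y₀ Y₁ : C.Gpd} (f : Y₀ ⟶ Y₁) : GPsh := pbG (um f) (D.p0 Y₁)

/-- First projection. -/
abbrev wf {Y₀ Y₁ : C.Gpd} (f : Y₀ ⟶ Y₁) : WG D f ⟶ ug Y₀ := pbGFst (um f) (D.p0 Y₁)

/-- Second projection. -/
abbrev ws {Y₀ Y₁ : C.Gpd} (f : Y₀ ⟶ Y₁) : WG D f ⟶ D.P.obj Y₁ := pbGSnd (um f) (D.p0 Y₁)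

theorem sm_cond {Y₀ Y₁ : C.Gpd} (f : Y₀ ⟶ Y₁) {j : ℕ} (w : (WG D f).Sph j) :
    sm (um f) (sm (wf D f) w) = sm (D.p0 Y₁) (sm (ws D f) w) := by
  rw [← sm_comp, ← sm_comp, pbG_cond]

theorem cm_cond {Y₀ Y₁ : C.Gpd} (f : Y₀ ⟶ Y₁) {j : ℕ} (w : (WG D f).cell j) :
    cm (um f) (cm (wf D f) w) = cm (D.p0 Y₁) (cm (ws D f) w) := by
  rw [← cm_comp, ← cm_comp, pbG_cond]

theorem bd_pair {Y₀ Y₁ : C.Gpd} (f : Y₀ ⟶ Y₁) {j : ℕ} (w : (WG D f).Sph j) (x : (ug Y₀).cell j)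
    (ξ : (D.P.obj Y₁).cell j) (h : cm (um f) x = cm (D.p0 Y₁) ξ) (hx : bd x = sm (wf D f) w)
    (hξ : bd ξ = sm (ws D f) w) : bd (pbGCell x ξ h : (WG D f).cell j) = w :=
  pbG_sph_ext (by rw [← bd_cm, cm_fst_pbGCell, hx]) (by rw [← bd_cm, cm_snd_pbGCell, hξ])

/-- The defining properties of the truncation. -/
structure IsK (N : ℕ) {Y₀ Y₁ : C.Gpd} (f : Y₀ ⟶ Y₁) {K : GPsh} (e : WG D f ⟶ K)
    (t : K ⟶ ug Y₁) : Prop where
  w : e ≫ t = ws D f ≫ D.p1 Y₁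
  bij : ∀ j, j < N → Function.Bijective (fun x : (WG D f).cell j => cm e x)
  high : ∀ j, N ≤ j → LiftAt t j

variable {D}

section

variable {Y₀ Y₁ : C.Gpd} {f : Y₀ ⟶ Y₁} {K : GPsh} {e : WG D f ⟶ K} {t : K ⟶ ug Y₁}

theorem IsK.sbij (h : IsK D N f e t) {j : ℕ} (hj : j ≤ N) :
    Function.Bijective (fun z : (WG D f).Sph j => sm e z) :=
  sm_bijective e j fun k hk => h.bij k (by omega)

theorem IsK.cm_t (h : IsK D N f e t) {j : ℕ} (x : (WG D f).cell j) :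
    cm t (cm e x) = cm (D.p1 Y₁) (cm (ws D f) x) := by
  rw [← cm_comp, h.w, cm_comp]

theorem IsK.sm_t (h : IsK D N f e t) {j : ℕ} (x : (WG D f).Sph j) :
    sm t (sm e x) = sm (D.p1 Y₁) (sm (ws D f) x) := by
  rw [← sm_comp, h.w, sm_comp]

theorem IsK.iso (h : IsK D N f e t) {K' : GPsh} (α : K' ≅ K) :
    IsK D N f (e ≫ α.inv) (α.hom ≫ t) where
  w := by rw [Category.assoc, α.inv_hom_id_assoc, h.w]
  bij j hj := by
    have h1 : Function.Bijective (fun x : K.cell j => cm α.inv x) :=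
      Function.bijective_iff_has_inverse.2 ⟨fun y => cm α.hom y,
        fun x => by beta_reduce; rw [← cm_comp, α.inv_hom_id, cm_id],
        fun y => by beta_reduce; rw [← cm_comp, α.hom_inv_id, cm_id]⟩
    exact h1.comp (h.bij j hj)
  high j hj z b hb := by
    obtain ⟨x, hx, hx'⟩ := h.high j hj (sm α.hom z) b (by rw [hb, sm_comp])
    refine ⟨cm α.inv x, ?_, ?_⟩
    · rw [bd_cm, hx, ← sm_comp, α.hom_inv_id, sm_id]
    · rw [← cm_comp, α.inv_hom_id_assoc, hx']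

theorem IsK.liftAt_low (h : IsK D N f e t) {j : ℕ} (hn : j < n) (hj : j < N)
    (hf : ∀ k, k ≤ j → Function.Bijective (fun x : (ug Y₀).cell k => cm (um f) x)) :
    LiftAt t j := by
  intro z b hb
  obtain ⟨w, rfl⟩ := (h.sbij hj.le).2 z
  beta_reduce at hb ⊢
  rw [h.sm_t] at hb
  have hb0 : bd b = sm (D.p0 Y₁) (sm (ws D f) w) := by rw [hb, D.sm_p1_low _ hn.le]
  obtain ⟨x, hx⟩ := (hf j le_rfl).2 b
  beta_reduce at hx
  have hxb : bd x = sm (wf D f) w := by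
    apply sm_injective (um f) j (fun k hk => (hf k hk.le).1)
    beta_reduce
    rw [← bd_cm, hx, hb0, sm_cond]
  obtain ⟨ξ, h1, h2, h3, -⟩ := D.mk' Y₁ j (sm (ws D f) w) b b hb0 hb
    (fun h => absurd h (by omega)) (fun _ => rfl) (fun h => absurd h (by omega))
  refine ⟨cm e (pbGCell x ξ (hx.trans h2.symm)), ?_, ?_⟩
  · rw [bd_cm, bd_pair D f w x ξ _ hxb h1]
  · rw [h.cm_t, cm_snd_pbGCell, h3]

theorem IsK.liftAt_mid (h : IsK D N f e t) {j : ℕ} (hn : n ≤ j) (hj : j < N) (hg : D.GoodT j)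
    (h0 : Fill (ug Y₀) j) (h1 : Fill (ug Y₁) (j + 1)) : LiftAt t j := by
  intro z b hb
  obtain ⟨w, rfl⟩ := (h.sbij hj.le).2 z
  beta_reduce at hb ⊢
  rw [h.sm_t] at hb
  obtain ⟨x, hx⟩ := h0 (sm (wf D f) w)
  have hx' : bd (cm (um f) x) = sm (D.p0 Y₁) (sm (ws D f) w) := by rw [bd_cm, hx, sm_cond]
  obtain ⟨c, hc1, hc2⟩ := h1.htp (a := D.tr Y₁ j _ _ hx') (b := b) (by rw [hg, hb])
  obtain ⟨ξ, h1, h2, h3, -⟩ := D.exists_of_src hn hg Y₁ _ _ hx' c hc1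
  refine ⟨cm e (pbGCell x ξ h2.symm), ?_, ?_⟩
  · rw [bd_cm, bd_pair D f w x ξ _ hx h1]
  · rw [h.cm_t, cm_snd_pbGCell, h3, hc2]

theorem IsK.tFib (h : IsK D N f e t) (hg : ∀ j, j ≤ N → D.GoodT j)
    (h0 : ∀ j, n ≤ j → j < N → Fill (ug Y₀) j) (h1 : ContrLe N (ug Y₁))
    (hf : ∀ j, j < n → j < N → Function.Bijective (fun x : (ug Y₀).cell j => cm (um f) x)) :
    TFib t := by
  intro j
  rcases Nat.lt_or_ge j N with hj | hj
  · rcases Nat.lt_or_ge j n with hn | hn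
    · exact h.liftAt_low hn hj fun k hk => hf k (by omega) (by omega)
    · exact h.liftAt_mid hn hj (hg j hj.le) (h0 j hn hj) (h1 (j + 1) hj)
  · exact h.high j hj

theorem IsK.jFib [Coh C] (h : IsK D N f e t) (hA : n < N → ThmA C (n + 1) N) : JFib n t := by
  intro m hm
  rcases Nat.lt_or_ge m N with hj | hj
  swap
  · exact (h.high m hj).jAt (h.high (m + 1) (by omega))
  intro y b hb
  obtain ⟨w, rfl⟩ := (h.bij m hj).2 y
  beta_reduce at hb ⊢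
  rw [h.cm_t] at hb
  obtain ⟨c, hc1, hc2⟩ := (htpEq Y₀).refl (cm (wf D f) w)
  obtain ⟨ξ', h1, h2, h3, h4⟩ := D.jlift (hA (by omega)) hm hj Y₁ (cm (ws D f) w) (cm (um f) c) b
    (by rw [src_cm, hc1, cm_cond]) hb
  rcases Nat.lt_or_ge (m + 1) N with hj' | hj'
  · obtain ⟨η, e1, -, e3, e4⟩ := h4 hj'
    refine ⟨cm e (pbGCell c η e3.symm), ?_, ?_⟩
    · rw [src_cm]
      refine congrArg (cm e) (pbG_cell_ext ?_ ?_)
      · rw [← src_cm, cm_fst_pbGCell, hc1]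
      · rw [← src_cm, cm_snd_pbGCell, e1]
    · rw [h.cm_t, cm_snd_pbGCell, e4]
  · have hp : cm (um f) (cm (wf D f) w) = cm (D.p0 Y₁) ξ' := by rw [h2, tgt_cm, hc2]
    have hbd : bd (cm e w) = bd (cm e (pbGCell _ ξ' hp)) := by
      rw [bd_cm, bd_cm, bd_pair D f (bd w) _ ξ' hp (bd_cm _ _) (h1.trans (bd_cm _ _))]
    obtain ⟨x, hx, hx'⟩ := h.high (m + 1) hj' (sph _ _ hbd) b (bd_eq_iff.2
      ⟨by rw [sfst_sm, sfst_sph, h.cm_t, hb],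
        by rw [ssnd_sm, ssnd_sph, h.cm_t, cm_snd_pbGCell, h3]⟩)
    exact ⟨x, (bd_eq_sph_iff.1 hx).1, hx'⟩

theorem IsK.transp (h : IsK D N f e t) {j : ℕ} (hj : j ≤ N) (hg : D.GoodT j)
    (h0 : Fill (ug Y₀) j) (ζ : K.Sph j) : ∃ x : (ug Y₁).cell j, bd x = sm t ζ := by
  obtain ⟨w, rfl⟩ := (h.sbij hj).2 ζ
  beta_reduce
  obtain ⟨x, hx⟩ := h0 (sm (wf D f) w)
  have hx' : bd (cm (um f) x) = sm (D.p0 Y₁) (sm (ws D f) w) := by rw [bd_cm, hx, sm_cond]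
  exact ⟨D.tr Y₁ j _ _ hx', by rw [hg, h.sm_t]⟩

end

theorem IsK.back {X' X : C.Gpd} {i : X' ⟶ X} {K' K : GPsh} {e' : WG D (𝟙 X') ⟶ K'}
    {t' : K' ⟶ ug X'} {e : WG D i ⟶ K} {t : K ⟶ ug X} (h' : IsK D N (𝟙 X') e' t')
    (h : IsK D N i e t) (φ : K' ⟶ K) (ψ : WG D (𝟙 X') ⟶ WG D i) (hφ : e' ≫ φ = ψ ≫ e)
    (hψ0 : ψ ≫ wf D i = wf D (𝟙 X')) (hψ1 : ψ ≫ ws D i = ws D (𝟙 X') ≫ D.P.map i)
    {j : ℕ} (hn : n ≤ j) (hj : j < N) (hg : D.GoodT j) (ζ : K'.Sph j) (η : K.cell j)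
    (hη : bd η = sm φ ζ) :
    ∃ x : (ug X').cell j, bd x = sm t' ζ ∧ Htp (cm (um i) x) (cm t η) := by
  obtain ⟨w, rfl⟩ := (h'.sbij hj.le).2 ζ
  obtain ⟨y, rfl⟩ := (h.bij j hj).2 η
  beta_reduce at hη ⊢
  rw [bd_cm, ← sm_comp, hφ, sm_comp] at hη
  have hy : bd y = sm ψ w := (h.sbij hj.le).1 hη
  have h0 : bd (cm (wf D i) y) = sm (D.p0 X') (sm (ws D (𝟙 X')) w) := by
    rw [bd_cm, hy, ← sm_comp, hψ0, ← sm_cond, sm_um_id]
  have h1 : bd (cm (ws D i) y) = sm (D.P.map i) (sm (ws D (𝟙 X')) w) := by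
    rw [bd_cm, hy, ← sm_comp, hψ1, sm_comp]
  refine ⟨D.tr X' j _ _ h0, by rw [hg, h'.sm_t], D.cyl X j (cm (ws D i) y) hn, ?_, ?_⟩
  · rw [D.src_cyl, D.tr_nat i j _ _ h0 (by
      rw [cm_cond, bd_cm, h1])]
    exact D.tr_congr h1 (cm_cond D i y).symm _ _
  · rw [D.tgt_cyl, h.cm_t]

variable (D)

/-- The family of pairs as a functor on arrows. -/
def WF : Arrow C.Gpd ⥤ GPsh :=
  pbGF (X := Arrow.leftFunc ⋙ C.U) (Y := Arrow.rightFunc ⋙ D.P) (Z := Arrow.rightFunc ⋙ C.U)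
    (Functor.whiskerRight Arrow.leftToRight C.U) (Functor.whiskerLeft Arrow.rightFunc D.p0N)

/-- The end point of the cylinder. -/
def qF : WF D ⟶ Arrow.rightFunc ⋙ C.U :=
  pbGFSnd _ _ ≫ Functor.whiskerLeft Arrow.rightFunc D.p1N

theorem WF_map_fst {a b : Arrow C.Gpd} (k : a ⟶ b) :
    ((WF D).map k : WG D a.hom ⟶ WG D b.hom) ≫ wf D b.hom = wf D a.hom ≫ um k.left := rfl

theorem WF_map_snd {a b : Arrow C.Gpd} (k : a ⟶ b) :
    ((WF D).map k : WG D a.hom ⟶ WG D b.hom) ≫ ws D b.hom = ws D a.hom ≫ D.P.map k.right := rfl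

theorem corep_cell_W (j : ℕ) : Corep (cellF (WF D) j) := by
  refine Corep.of_pullback (Φ₁ := Arrow.leftFunc ⋙ cellF C.U j)
    (Φ₂ := Arrow.rightFunc ⋙ cellF D.P j) (Ψ := Arrow.rightFunc ⋙ cellF C.U j)
    (natMk (fun a x => cm (wf D a.hom) x) (fun _ _ _ _ => rfl))
    (natMk (fun a x => cm (ws D a.hom) x) (fun _ _ _ _ => rfl))
    (natMk (fun a x => cm (um a.hom) x) (fun a b k x => ?_))
    (natMk (fun a x => cm (D.p0 a.right) x) (fun a b k x => ?_)) (fun a x => cm_cond D a.hom x)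
    (fun a y₁ y₂ h => ⟨pbGCell (f := um a.hom) (g := D.p0 a.right) y₁ y₂ h, ⟨rfl, rfl⟩,
      fun x hx => pbG_cell_ext (f := um a.hom) (g := D.p0 a.right) hx.1 hx.2⟩)
    (PathData.corep_cellU C j).left (D.corep_cell j).right (PathData.corep_cellU C j).right
  · exact congrArg (fun g : a.left ⟶ b.right => cm (um g) x) (Arrow.w k)
  · exact congrArg (fun g : D.P.obj a.right ⟶ ug b.right => cm g x) (D.p0_nat k.right)

theorem corep_cell_K {K : Arrow C.Gpd ⥤ GPsh} (ofE : WF D ⟶ K)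
    (toB : K ⟶ Arrow.rightFunc ⋙ C.U)
    (hb : ∀ a j, j < N → Function.Bijective (fun x : ((WF D).obj a).cell j => cm (ofE.app a) x))
    (hu : ∀ a j, N ≤ j → ∀ (z : (K.obj a).Sph j) (b : ((Arrow.rightFunc ⋙ C.U).obj a).cell j),
      bd b = sm (toB.app a) z → ∃! x : (K.obj a).cell j, bd x = z ∧ cm (toB.app a) x = b)
    (j : ℕ) : Corep (cellF K j) := by
  induction j using Nat.strong_induction_on with
  | _ j ih =>
  rcases Nat.lt_or_ge j N with hj | hj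
  · refine Corep.of_bij' (Φ := cellF (WF D) j)
      (natMk (fun a x => cm (ofE.app a) x) (fun a b k x => ?_)) (fun a => hb a j hj)
      (corep_cell_W D j)
    exact congrArg (fun g : (WF D).obj a ⟶ K.obj b => cm g x) (ofE.naturality k)
  · refine Corep.of_pullback (Φ₁ := sphF K j)
      (Φ₂ := Arrow.rightFunc ⋙ cellF C.U j) (Ψ := Arrow.rightFunc ⋙ sphF C.U j)
      (natMk (fun a x => bd x) (fun _ _ k x => bd_cm (K.map k) x))
      (natMk (fun a x => cm (toB.app a) x) (fun a b k x => ?_))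
      (natMk (fun a x => sm (toB.app a) x) (fun a b k x => ?_))
      (natMk (fun a (x : (ug a.right).cell j) => bd x) (fun _ _ k x => bd_cm (um k.right) x))
      (fun a x => (bd_cm (toB.app a) x).symm)
      (fun a y₁ y₂ h => hu a j hj y₁ y₂ h.symm)
      (corep_sph K j ih) (PathData.corep_cellU C j).right (PathData.corep_sphU C j).right
    · exact congrArg (fun g : K.obj a ⟶ ug b.right => cm g x) (toB.naturality k)
    · exact ((sm_comp _ _ x).symm.trans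
        (congrArg (fun g : K.obj a ⟶ ug b.right => sm g x) (toB.naturality k))).trans
        (sm_comp _ _ x)

theorem wUniv_K {K : Arrow C.Gpd ⥤ GPsh} (ofE : WF D ⟶ K)
    (hb : ∀ a j, j < N → Function.Bijective (fun x : ((WF D).obj a).cell j => cm (ofE.app a) x))
    {l : ℕ} (T : Tab l) (hT : T.dim < N) (A : C.Gpd) (ζ : Ext (D.P.obj A) T)
    (hζ : WUniv (extF D.P T) A ζ) (u : rep C (Theta.mk T) ⟶ A)
    (hu : repExt C T ≫ um u = ζ ≫ D.p0 A) :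
    ∃ ξ : Ext (K.obj (Arrow.mk u)) T, WUniv (extF K T) (Arrow.mk u) ξ := by
  let ξ₀ : Ext ((WF D).obj (Arrow.mk u)) T := pbGLift (repExt C T) ζ hu
  refine ⟨ξ₀ ≫ ofE.app (Arrow.mk u), fun b y => ?_⟩
  obtain ⟨y₀, rfl⟩ := (ext_bijective (ofE.app b) T fun k hk => hb b k (by omega)).2 y
  let y₁ : Ext (WG D b.hom) T := y₀
  obtain ⟨g₀, hg₀, -⟩ := rep_univ T b.left (y₁ ≫ wf D b.hom)
  obtain ⟨g₁, hg₁⟩ := hζ b.right (y₁ ≫ ws D b.hom)
  have hg₁' : ζ ≫ D.P.map g₁ = y₁ ≫ ws D b.hom := hg₁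
  have sq : g₀ ≫ b.hom = u ≫ g₁ := by
    refine (rep_univ T b.right (y₁ ≫ wf D b.hom ≫ um b.hom)).unique ?_ ?_
    · rw [um_comp, ← Category.assoc, hg₀, Category.assoc]
    · rw [um_comp, ← Category.assoc, hu, Category.assoc, ← D.p0_nat, ← Category.assoc, hg₁',
        Category.assoc, pbG_cond]
  let k : Arrow.mk u ⟶ b := Arrow.homMk g₀ g₁ sq
  have key : ξ₀ ≫ (WF D).map k = y₀ :=
    pbG_hom_ext (f := um b.hom) (g := D.p0 b.right) hg₀ hg₁'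
  refine ⟨k, ?_⟩
  change (ξ₀ ≫ ofE.app (Arrow.mk u)) ≫ K.map k = y₀ ≫ ofE.app b
  rw [Category.assoc, ← ofE.naturality, ← Category.assoc, key]

end QAux

open QAux in
/-- Hint: take `D : PathData C n`; on `Arrow C.Gpd` let `W := pbGF (U f) p0` (pairs `(x₀, ξ)` with
`f x₀ = p0 ξ`), `q := p1`, `K := exists_cosk N W _ q`, and apply `principle1`. Corepresentability:
`Corep.left/right`, `corep_cell`, `Corep.of_pullback`, `corep_sph`, `corep_ext`. Fill condition in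
dimension `j = m + 1`: for `N ≤ j` unique lifting; for `j < n` the arrow `𝟙 (rep T)`
(`p0_bijective`, `ext_bijective`); for `n ≤ j < N` the arrow `rep T ⟶ A` with `A` from `exists_cylT`.
`GoodT j` for `j ≤ N` comes from `goodT` if `n < N` and from `goodT_low` otherwise. `jfib` uses
`jlift` with `h₀` the image of an identity cell of `Y₀` (`htpEq`). -/
theorem exists_qData {C : GlobExt} [Coh C] {n N : ℕ} (hA : n < N → ThmA C (n + 1) N) :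
    Nonempty (QData C n N) := by
  obtain ⟨D⟩ := exists_pathData C n
  obtain ⟨K, ofE, toB, hw, hb, hu⟩ := exists_cosk N (WF D) (Arrow.rightFunc ⋙ C.U) (qF D)
  have hg : ∀ j, j ≤ N → D.GoodT j := fun j hj => by
    rcases Nat.lt_or_ge n N with h | h
    · exact D.goodT (hA h) j hj
    · exact D.goodT_low (hj.trans h)
  have hK : ∀ a : Arrow C.Gpd, IsK D N a.hom (K := K.obj a) (ofE.app a) (toB.app a) := fun a =>
    ⟨congrArg (fun k : WF D ⟶ Arrow.rightFunc ⋙ C.U => k.app a) hw, hb a,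
      fun j hj z b h => (hu a j hj z b h).exists⟩
  have hc : ∀ (l : ℕ) (T : Tab l), Corep (extF K T) := fun l T =>
    corep_ext K (corep_cell_K D ofE toB hb hu) T
  obtain ⟨E, ρ, α, hρ⟩ := principle1 (C := C) Arrow.rightFunc K toB hc (by
    intro l T m hT
    rcases Nat.lt_or_ge (m + 1) N with hj | hj
    · rcases Nat.lt_or_ge (m + 1) n with hn | hn
      · have hp := fun Y => ext_bijective (D.p0 Y) T fun k hk => D.p0_bijective Y (j := k) (by omega)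
        obtain ⟨ζ, hζ⟩ := (hp (rep C (Theta.mk T))).2 (repExt C T)
        beta_reduce at hζ
        obtain ⟨ξ, hξ⟩ := wUniv_K D ofE hb T (by omega) (rep C (Theta.mk T)) ζ (fun Y y => by
          obtain ⟨g, hg, -⟩ := rep_univ T Y ((y : Ext (D.P.obj Y) T) ≫ D.p0 Y)
          refine ⟨g, (hp Y).1 ?_⟩
          change (ζ ≫ D.P.map g) ≫ D.p0 Y = (y : Ext (D.P.obj Y) T) ≫ D.p0 Y
          rw [Category.assoc, D.p0_nat, ← Category.assoc, hζ, hg]) (𝟙 _)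
          (by rw [um_id, Category.comp_id, hζ])
        exact ⟨_, ξ, hξ, (hK (Arrow.mk (𝟙 _))).liftAt_low hn hj
          fun _ _ => Function.bijective_id⟩
      · obtain ⟨A, ζ, hζ, hI⟩ := D.exists_cylT (hA (by omega)) T (by omega : T.dim ≤ N)
        obtain ⟨u, hu', -⟩ := rep_univ T A (ζ ≫ D.p0 A)
        obtain ⟨ξ, hξ⟩ := wUniv_K D ofE hb T (by omega) A ζ hζ u hu'
        exact ⟨_, ξ, hξ, (hK (Arrow.mk u)).liftAt_mid hn hj (hg _ hj.le)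
          (contr_rep (Theta.mk T) (m + 1)) (PathData.Inv.contrLe D hI (m + 1 + 1) hj)⟩
    · obtain ⟨b, ζ, hζ⟩ := hc l T
      exact ⟨b, ζ, hζ.wUniv, (hK b).high _ hj⟩)
  have hE : ∀ {Y₀ Y₁ : C.Gpd} (f : Y₀ ⟶ Y₁), IsK D N f (K := ug (E.obj (Arrow.mk f)))
      ((ofE.app (Arrow.mk f) : WG D f ⟶ K.obj (Arrow.mk f)) ≫ α.inv.app (Arrow.mk f))
      (um (ρ.app (Arrow.mk f) : E.obj (Arrow.mk f) ⟶ _)) := fun f => by
    have h := (hK (Arrow.mk f)).iso (α.app (Arrow.mk f))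
    exact (hρ (Arrow.mk f)).symm ▸ h
  refine ⟨{
    obj := fun f => E.obj (Arrow.mk f)
    ρ := fun f => ρ.app (Arrow.mk f)
    map := fun {_ _ _ _ f g} a b w => E.map (Arrow.homMk (f := Arrow.mk f) (g := Arrow.mk g) a b w)
    map_id := fun f _ => E.map_id (Arrow.mk f)
    map_comp := fun a b w a' b' w' _ => (E.map_comp _ _).symm
    map_ρ := fun {_ _ _ _ f g} a b w =>
      ρ.naturality (Arrow.homMk (f := Arrow.mk f) (g := Arrow.mk g) a b w)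
    tfib := fun f h0 h1 hf => (hE f).tFib hg h0 h1 hf
    jfib := fun f => (hE f).jFib hA
    transp := fun f j hj h0 ζ => (hE f).transp hj (hg j hj) h0 ζ
    back := fun {X' X} i j hn hj ζ η hη => ?_ }⟩
  let k : Arrow.mk (𝟙 X') ⟶ Arrow.mk i := Arrow.homMk (𝟙 X') i rfl
  refine (hE (𝟙 X')).back (hE i) (um (E.map k)) ((WF D).map k) ?_ rfl rfl hn hj (hg j hj.le) ζ η hη
  have h1 := ofE.naturality k
  have h2 := α.inv.naturality k
  change (ofE.app _ ≫ α.inv.app _) ≫ (E ⋙ C.U).map k = (WF D).map k ≫ ofE.app _ ≫ α.inv.app _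
  rw [Category.assoc, ← h2, ← Category.assoc, ← h1, Category.assoc]

end Vale.Agent.P259
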