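import Vale.Agent.P259.TopDisc

/-! P259: spheres in the globular set of discs; contractible spaces. -/

open CategoryTheory Limits Opposite

noncomputable section

namespace Vale.Agent.P259

namespace TopSphAux

theorem snocPt_inj {n : ℕ} {x y : EuclideanSpace ℝ (Fin n)} {s t : ℝ}
    (h : snocPt x s = snocPt y t) : x = y ∧ s = t := by
  constructor
  · ext i
    have := congrArg (fun v : EuclideanSpace ℝ (Fin (n + 1)) => v i.castSucc) h
    simpa [snocPt] using this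
  · have := congrArg (fun v : EuclideanSpace ℝ (Fin (n + 1)) => v (Fin.last n)) h
    simpa [snocPt] using this

theorem exists_snocPt {n : ℕ} (y : EuclideanSpace ℝ (Fin (n + 1))) :
    ∃ x t, snocPt x t = y := by
  refine ⟨WithLp.toLp 2 (fun i => y i.castSucc), y (Fin.last n), ?_⟩
  ext i
  refine Fin.lastCases ?_ (fun k => ?_) i <;> simp [snocPt]

/-- A hemisphere, as a map to the sphere. -/
def hemiS (ε : ℝ) (hε : ε ^ 2 = 1) (n : ℕ) : C(Disc n, Sphere (n + 1)) where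
  toFun x := ⟨(hemi ε hε n x).1, by
    have h1 := norm_sq_hemi ε hε n x
    have h2 := norm_nonneg (hemi ε hε n x).1
    simp only [Metric.mem_sphere, dist_zero_right]
    nlinarith⟩
  continuous_toFun :=
    Continuous.subtype_mk (continuous_subtype_val.comp (hemi ε hε n).continuous) _

def southS (n : ℕ) : C(Disc n, Sphere (n + 1)) := hemiS (-1) (by norm_num) n

def northS (n : ℕ) : C(Disc n, Sphere (n + 1)) := hemiS 1 (by norm_num) n

theorem hemiS_val (ε : ℝ) (hε : ε ^ 2 = 1) (n : ℕ) (x : Disc n) :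
    (hemiS ε hε n x).1 = snocPt x.1 (ε * √(1 - ‖x.1‖ ^ 2)) := rfl

theorem southS_northS (n : ℕ) :
    (southS n).comp (sphIncl n) = (northS n).comp (sphIncl n) := by
  ext1 x
  apply Subtype.ext
  change snocPt x.1 (-1 * √(1 - ‖x.1‖ ^ 2)) = snocPt x.1 (1 * √(1 - ‖x.1‖ ^ 2))
  rw [norm_eq_of_mem_sphere x]
  simp

/-- The two hemispheres together. -/
def hs (n : ℕ) : C(Disc n ⊕ Disc n, Sphere (n + 1)) :=
  ⟨Sum.elim (southS n) (northS n), (southS n).continuous.sumElim (northS n).continuous⟩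

theorem hs_surj (n : ℕ) : Function.Surjective (hs n) := by
  rintro ⟨y, hy⟩
  obtain ⟨x, t, rfl⟩ := exists_snocPt y
  have h1 : ‖x‖ ^ 2 + t ^ 2 = 1 := by
    rw [← norm_sq_snocPt, mem_sphere_zero_iff_norm.mp hy]; norm_num
  have hx : x ∈ Metric.closedBall (0 : EuclideanSpace ℝ (Fin n)) 1 := by
    rw [mem_closedBall_zero_iff]
    nlinarith [norm_nonneg x, sq_nonneg t]
  have h2 : √(1 - ‖x‖ ^ 2) = |t| := by
    rw [show 1 - ‖x‖ ^ 2 = t ^ 2 by linarith, Real.sqrt_sq_eq_abs]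
  rcases le_total 0 t with ht | ht
  · refine ⟨Sum.inr ⟨x, hx⟩, Subtype.ext ?_⟩
    change snocPt x (1 * √(1 - ‖x‖ ^ 2)) = snocPt x t
    rw [h2, abs_of_nonneg ht, one_mul]
  · refine ⟨Sum.inl ⟨x, hx⟩, Subtype.ext ?_⟩
    change snocPt x (-1 * √(1 - ‖x‖ ^ 2)) = snocPt x t
    rw [h2, abs_of_nonpos ht]
    simp

theorem hs_quot (n : ℕ) : Topology.IsQuotientMap (hs n) :=
  ((hs n).continuous.isClosedMap).isQuotientMap (hs n).continuous (hs_surj n)

theorem south_eq_north {n : ℕ} {x y : Disc n} (h : southS n x = northS n y) :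
    x = y ∧ ∃ s : Sphere n, sphIncl n s = x := by
  have h1 : snocPt x.1 (-1 * √(1 - ‖x.1‖ ^ 2)) = snocPt y.1 (1 * √(1 - ‖y.1‖ ^ 2)) :=
    congrArg Subtype.val h
  obtain ⟨h2, h3⟩ := snocPt_inj h1
  refine ⟨Subtype.ext h2, ?_⟩
  rw [← h2] at h3
  have h4 : √(1 - ‖x.1‖ ^ 2) = 0 := by linarith
  have hx : ‖x.1‖ ≤ 1 := mem_closedBall_zero_iff.mp x.2
  have h5 := Real.sqrt_eq_zero'.mp h4
  have h6 : ‖x.1‖ = 1 := by nlinarith [norm_nonneg x.1]
  exact ⟨⟨x.1, mem_sphere_zero_iff_norm.mpr h6⟩, rfl⟩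

theorem hemiS_inj (ε : ℝ) (hε : ε ^ 2 = 1) (n : ℕ) : Function.Injective (hemiS ε hε n) :=
  fun _ _ h => Subtype.ext (snocPt_inj (congrArg Subtype.val h)).1

theorem exists_glue {Y : Type} [TopologicalSpace Y] {n : ℕ} (a b : C(Disc n, Y))
    (h : a.comp (sphIncl n) = b.comp (sphIncl n)) :
    ∃ g : C(Sphere (n + 1), Y), g.comp (southS n) = a ∧ g.comp (northS n) = b := by
  let k : C(Disc n ⊕ Disc n, Y) := ⟨Sum.elim a b, a.continuous.sumElim b.continuous⟩
  have hk : Function.FactorsThrough k (hs n) := by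
    rintro (x | x) (y | y) hxy
    · obtain rfl : x = y := hemiS_inj _ _ _ hxy
      rfl
    · obtain ⟨rfl, s, rfl⟩ := south_eq_north hxy
      exact congrArg (fun f : C(Sphere n, Y) => f s) h
    · obtain ⟨rfl, s, rfl⟩ := south_eq_north hxy.symm
      exact congrArg (fun f : C(Sphere n, Y) => f s) h.symm
    · obtain rfl : x = y := hemiS_inj _ _ _ hxy
      rfl
  have hc := (hs_quot n).lift_comp k hk
  refine ⟨(hs_quot n).lift k hk, ?_, ?_⟩
  · ext x
    exact congrArg (fun f : C(Disc n ⊕ Disc n, Y) => f (Sum.inl x)) hc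
  · ext x
    exact congrArg (fun f : C(Disc n ⊕ Disc n, Y) => f (Sum.inr x)) hc

theorem glue_ext {Y : Type} [TopologicalSpace Y] {n : ℕ} {f g : C(Sphere (n + 1), Y)}
    (h1 : f.comp (southS n) = g.comp (southS n)) (h2 : f.comp (northS n) = g.comp (northS n)) :
    f = g := by
  ext y
  obtain ⟨x | x, rfl⟩ := hs_surj n y
  · exact congrArg (fun k : C(Disc n, Y) => k x) h1
  · exact congrArg (fun k : C(Disc n, Y) => k x) h2

instance : IsEmpty (Sphere 0) :=
  ⟨fun x => by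
    have h := norm_eq_of_mem_sphere x
    rw [Subsingleton.elim x.1 0, norm_zero] at h
    exact zero_ne_one h⟩

end TopSphAux

open TopSphAux

/-- Hint: induction on `n`. `Sphere 0` is empty. The two hemispheres give a continuous surjection
`Disc n ⊕ Disc n → Sphere (n+1)` from a compact space to a Hausdorff one, hence a quotient map; it
identifies exactly the two copies of a boundary point. `Par a b` iff `bd a = bd b` iff (by the
induction hypothesis) `a` and `b` agree on `Sphere n`. -/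
theorem exists_sphEquiv (n : ℕ) :
    ∃ e : ∀ Y : TopCat.{0}, (discSing.obj Y).Sph n ≃ C(Sphere n, Y),
      (∀ (Y : TopCat.{0}) (x : (discSing.obj Y).cell n),
        e Y (bd x) = (toCM x).comp (sphIncl n)) ∧
      ∀ (Y Y' : TopCat.{0}) (f : Y ⟶ Y') (z : (discSing.obj Y).Sph n),
        e Y' (sm (discSing.map f) z) = f.hom.comp (e Y z) := by
  induction n with
  | zero =>
    have hs : ∀ Y : TopCat.{0}, Subsingleton C(Sphere 0, Y) := fun Y =>
      ⟨fun f g => ContinuousMap.ext fun x => isEmptyElim x⟩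
    refine ⟨fun Y => ⟨fun _ => ⟨fun x => isEmptyElim x, continuous_of_discreteTopology⟩,
      fun _ => sph0 _, fun _ => Subsingleton.elim _ _, fun _ => Subsingleton.elim _ _⟩,
      fun _ _ => Subsingleton.elim _ _, fun _ _ _ _ => Subsingleton.elim _ _⟩
  | succ n ih =>
    obtain ⟨e, he, -⟩ := ih
    let r : ∀ Y : TopCat.{0}, C(Sphere (n + 1), Y) → (discSing.obj Y).Sph (n + 1) := fun Y φ =>
      sph (ofCM (φ.comp (southS n))) (ofCM (φ.comp (northS n))) ((e Y).injective (by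
        rw [he, he, toCM_ofCM, toCM_ofCM, ContinuousMap.comp_assoc, ContinuousMap.comp_assoc,
          southS_northS]))
    have hr : ∀ Y, Function.Bijective (r Y) := fun Y => by
      refine ⟨fun f g h => glue_ext (congrArg sfst h) (congrArg ssnd h), fun z => ?_⟩
      obtain ⟨g, h1, h2⟩ := exists_glue (toCM (sfst z)) (toCM (ssnd z)) (by
        rw [← he, ← he, bd_sfst])
      exact ⟨g, sph_ext h1 h2⟩
    refine ⟨fun Y => (Equiv.ofBijective (r Y) (hr Y)).symm, fun Y x => ?_, fun Y Y' f z => ?_⟩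
    · rw [Equiv.symm_apply_eq]
      exact sph_ext rfl rfl
    · obtain ⟨φ, rfl⟩ := (hr Y).2 z
      rw [Equiv.symm_apply_eq]
      have h1 : (Equiv.ofBijective (r Y) (hr Y)).symm (r Y φ) = φ :=
        (Equiv.ofBijective (r Y) (hr Y)).symm_apply_apply φ
      rw [h1]
      exact sph_ext rfl rfl

/-- Globular spheres of discs are maps from the boundary sphere. -/
def sphEquiv (Y : TopCat.{0}) (n : ℕ) : (discSing.obj Y).Sph n ≃ C(Sphere n, Y) :=
  (exists_sphEquiv n).choose Y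

theorem sphEquiv_bd {Y : TopCat.{0}} {n : ℕ} (x : (discSing.obj Y).cell n) :
    sphEquiv Y n (bd x) = (toCM x).comp (sphIncl n) := (exists_sphEquiv n).choose_spec.1 Y x

theorem sphEquiv_sm {Y Y' : TopCat.{0}} (f : Y ⟶ Y') {n : ℕ} (z : (discSing.obj Y).Sph n) :
    sphEquiv Y' n (sm (discSing.map f) z) = f.hom.comp (sphEquiv Y n z) :=
  (exists_sphEquiv n).choose_spec.2 Y Y' f z

/-- Hint: with a contraction `H` from a constant map to the identity, extend `φ` on the sphere by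
the constant on `‖x‖ ≤ 1/2` and by `H (2‖x‖ - 1, φ (x / ‖x‖))` outside. -/
theorem exists_extend_of_contractible {Y : Type} [TopologicalSpace Y] [ContractibleSpace Y] (n : ℕ)
    (φ : C(Sphere n, Y)) : ∃ F : C(Disc n, Y), F.comp (sphIncl n) = φ := by
  obtain ⟨y₀, ⟨H⟩⟩ := id_nullhomotopic Y
  rcases isEmpty_or_nonempty (Sphere n) with hn | ⟨⟨s₀⟩⟩
  · exact ⟨ContinuousMap.const _ y₀, ContinuousMap.ext fun x => isEmptyElim x⟩
  have hnorm : ∀ (t : unitInterval) (s : Sphere n), ‖(t : ℝ) • s.1‖ = t := fun t s => by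
    rw [norm_smul, norm_eq_of_mem_sphere s, mul_one, Real.norm_of_nonneg t.2.1]
  let q : C(unitInterval × Sphere n, Disc n) :=
    ⟨fun p => ⟨(p.1 : ℝ) • p.2.1, by rw [mem_closedBall_zero_iff, hnorm]; exact p.1.2.2⟩,
      by fun_prop⟩
  have hq : Function.Surjective q := by
    rintro ⟨x, hx⟩
    by_cases h0 : x = 0
    · exact ⟨(0, s₀), Subtype.ext (by simp [q, h0])⟩
    · have h1 : ‖x‖ ≠ 0 := norm_ne_zero_iff.mpr h0
      refine ⟨(⟨‖x‖, norm_nonneg _, mem_closedBall_zero_iff.mp hx⟩, ⟨‖x‖⁻¹ • x, ?_⟩),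
        Subtype.ext ?_⟩
      · rw [mem_sphere_zero_iff_norm, norm_smul, norm_inv, norm_norm, inv_mul_cancel₀ h1]
      · change ‖x‖ • ‖x‖⁻¹ • x = x
        rw [smul_smul, mul_inv_cancel₀ h1, one_smul]
  have hqq : Topology.IsQuotientMap q := q.continuous.isClosedMap.isQuotientMap q.continuous hq
  let k : C(unitInterval × Sphere n, Y) := ⟨fun p => H.symm (p.1, φ p.2), by fun_prop⟩
  have hk : Function.FactorsThrough k q := by
    rintro ⟨t, s⟩ ⟨t', s'⟩ h
    have h1 : (t : ℝ) • s.1 = (t' : ℝ) • s'.1 := congrArg Subtype.val h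
    have h2 : t = t' := Subtype.ext (by rw [← hnorm t s, h1, hnorm])
    subst h2
    by_cases h0 : t = 0
    · subst h0
      change H.symm (0, φ s) = H.symm (0, φ s')
      simp
    · have h3 : (t : ℝ) ≠ 0 := fun h => h0 (Subtype.ext h)
      obtain rfl : s = s' := Subtype.ext (smul_right_injective _ h3 h1)
      rfl
  refine ⟨hqq.lift k hk, ContinuousMap.ext fun s => ?_⟩
  have h1 : sphIncl n s = q (1, s) := Subtype.ext (by simp [q, sphIncl])
  have h2 := congrArg (fun f : C(unitInterval × Sphere n, Y) => f (1, s)) (hqq.lift_comp k hk)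
  rw [ContinuousMap.comp_apply, h1]
  refine h2.trans ?_
  change H.symm (1, φ s) = φ s
  simp

theorem contr_discSing (Y : TopCat.{0}) [ContractibleSpace Y] : Contr (discSing.obj Y) :=
  fun n z => by
  obtain ⟨F, hF⟩ := exists_extend_of_contractible n (sphEquiv Y n z)
  exact ⟨ofCM F, (sphEquiv Y n).injective (by rw [sphEquiv_bd, toCM_ofCM, hF])⟩

instance (n : ℕ) : ContractibleSpace (Disc n) :=
  (convex_closedBall _ _).contractibleSpace ⟨0, Metric.mem_closedBall_self zero_le_one⟩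

/-- Hint: discs are connected and nonempty; `ContinuousMap.exists_lift_sigma`. -/
theorem isCellSum_sumT {ι : Type} (X : ι → Type) [∀ α, TopologicalSpace (X α)] :
    IsCellSum (fun α => discSing.map (sumInc X α)) := by
  intro n
  haveI : Nonempty (Disc n) := ⟨discPt n⟩
  refine ⟨(ContinuousMap.isEmbedding_sigmaMk_comp (X := Disc n) (Y := X)).injective, fun y => ?_⟩
  obtain ⟨α, g, hg⟩ := ContinuousMap.exists_lift_sigma (X := Disc n) (Y := X) (toCM y)
  exact ⟨⟨α, g⟩, hg.symm⟩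

/-- Radial retraction; for `n = 0` both spaces are empty. -/
theorem isHE_sphToP (n : ℕ) : IsHE (sphToP n) := by
  have hne : ∀ x : PDisc n, ‖x.1.1‖ ≠ 0 := fun x => norm_ne_zero_iff.mpr x.2
  have hpos : ∀ x : PDisc n, 0 < ‖x.1.1‖ := fun x => norm_pos_iff.mpr x.2
  have hle : ∀ x : PDisc n, ‖x.1.1‖ ≤ 1 := fun x => mem_closedBall_zero_iff.mp x.1.2
  have hc : Continuous fun x : PDisc n => ‖x.1.1‖⁻¹ := Continuous.inv₀ (by fun_prop) hne
  let r : C(PDisc n, Sphere n) := ⟨fun x => ⟨‖x.1.1‖⁻¹ • x.1.1, by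
    rw [mem_sphere_zero_iff_norm, norm_smul, norm_inv, norm_norm, inv_mul_cancel₀ (hne x)]⟩,
    by
      refine Continuous.subtype_mk ?_ _
      exact hc.smul (by fun_prop)⟩
  have hcoef : ∀ (t : unitInterval) (x : PDisc n), 0 < (1 - (t : ℝ)) * ‖x.1.1‖⁻¹ + t := by
    intro t x
    have h1 : 1 ≤ ‖x.1.1‖⁻¹ := (one_le_inv₀ (hpos x)).mpr (hle x)
    nlinarith [t.2.1, t.2.2]
  let K : C(unitInterval × PDisc n, PDisc n) :=
    ⟨fun p => ⟨⟨((1 - (p.1 : ℝ)) * ‖p.2.1.1‖⁻¹ + p.1) • p.2.1.1, by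
        rw [mem_closedBall_zero_iff, norm_smul, Real.norm_of_nonneg (hcoef _ _).le, add_mul,
          mul_assoc, inv_mul_cancel₀ (hne _)]
        nlinarith [p.1.2.1, p.1.2.2, hle p.2]⟩,
      smul_ne_zero (hcoef _ _).ne' p.2.2⟩,
      by
        refine Continuous.subtype_mk ?_ _
        refine Continuous.subtype_mk ?_ _
        exact Continuous.smul (Continuous.add (Continuous.mul (by fun_prop)
          (hc.comp continuous_snd)) (by fun_prop)) (by fun_prop)⟩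
  refine ⟨⟨sphToP n, r, ?_, ⟨⟨K, fun x => ?_, fun x => ?_⟩⟩⟩, rfl⟩
  · have : r.comp (sphToP n) = ContinuousMap.id _ := by
      ext1 s
      apply Subtype.ext
      change ‖s.1‖⁻¹ • s.1 = s.1
      rw [norm_eq_of_mem_sphere s, inv_one, one_smul]
    rw [this]
  · apply Subtype.ext
    apply Subtype.ext
    change ((1 - ((0 : unitInterval) : ℝ)) * ‖x.1.1‖⁻¹ + (0 : unitInterval)) • x.1.1 =
      ‖x.1.1‖⁻¹ • x.1.1
    simp
  · apply Subtype.ext
    apply Subtype.ext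
    change ((1 - ((1 : unitInterval) : ℝ)) * ‖x.1.1‖⁻¹ + (1 : unitInterval)) • x.1.1 = x.1.1
    simp

namespace TopSphAux

/-- The identity cell. -/
def idc (m : ℕ) : (discSing.obj (TopCat.of (Disc m))).cell m := ofCM (ContinuousMap.id _)

/-- The south hemisphere as a morphism of spaces. -/
abbrev sT (m : ℕ) : TopCat.of (Disc m) ⟶ TopCat.of (Disc (m + 1)) := TopCat.ofHom (south m)

/-- The north hemisphere as a morphism of spaces. -/
abbrev nT (m : ℕ) : TopCat.of (Disc m) ⟶ TopCat.of (Disc (m + 1)) := TopCat.ofHom (north m)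

theorem sT_sT (m : ℕ) : sT m ≫ sT (m + 1) = sT m ≫ nT (m + 1) :=
  congrArg TopCat.ofHom (hemi_hemi (-1) (-1) 1 (by norm_num) (by norm_num) (by norm_num) m)

theorem nT_sT (m : ℕ) : nT m ≫ sT (m + 1) = nT m ≫ nT (m + 1) :=
  congrArg TopCat.ofHom (hemi_hemi 1 (-1) 1 (by norm_num) (by norm_num) (by norm_num) m)

theorem cm_nat {Φ Ψ : TopCat.{0} ⥤ GPsh} (l : Φ ⟶ Ψ) {Y Y' : TopCat.{0}} (f : Y ⟶ Y') {n : ℕ}
    (x : (Φ.obj Y).cell n) :
    cm (l.app Y') (cm (Φ.map f) x) = cm (Ψ.map f) (cm (l.app Y) x) := by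
  rw [← cm_comp, l.naturality, cm_comp]

theorem cm_map_comp (Φ : TopCat.{0} ⥤ GPsh) {X Y Z : TopCat.{0}} (f : X ⟶ Y) (g : Y ⟶ Z) {n : ℕ}
    (x : (Φ.obj X).cell n) : cm (Φ.map g) (cm (Φ.map f) x) = cm (Φ.map (f ≫ g)) x := by
  rw [Φ.map_comp, cm_comp]

theorem disc_hom_ext {Ψ : TopCat.{0} ⥤ GPsh} {l l' : discSing ⟶ Ψ}
    (h : ∀ m, cm (l.app _) (idc m) = cm (l'.app _) (idc m)) : l = l' := by
  refine NatTrans.ext (funext fun Y => GPsh.hom_ext fun n x => ?_)
  have hx : x = cm (discSing.map (TopCat.ofHom (toCM x))) (idc n) := rfl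
  rw [hx, cm_nat, cm_nat, h]

theorem exists_cells (Φ : TopCat.{0} ⥤ GPsh)
    (Q : ∀ m, (Φ.obj (TopCat.of (Disc m))).cell m → Prop) (h0 : ∃ e, Q 0 e)
    (hs : ∀ m e, Q m e → bd (cm (Φ.map (sT m)) e) = bd (cm (Φ.map (nT m)) e) →
      ∃ e', Q (m + 1) e' ∧ src e' = cm (Φ.map (sT m)) e ∧ tgt e' = cm (Φ.map (nT m)) e) :
    ∃ l : discSing ⟶ Φ, ∀ m, Q m (cm (l.app _) (idc m)) := by
  let D : ℕ → Type := fun m => {e : (Φ.obj (TopCat.of (Disc m))).cell m //
    Q m e ∧ bd (cm (Φ.map (sT m)) e) = bd (cm (Φ.map (nT m)) e)}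
  have step : ∀ m (e : D m), ∃ e' : D (m + 1),
      src e'.1 = cm (Φ.map (sT m)) e.1 ∧ tgt e'.1 = cm (Φ.map (nT m)) e.1 := by
    intro m e
    obtain ⟨e', h1, h2, h3⟩ := hs m e.1 e.2.1 e.2.2
    refine ⟨⟨e', h1, sph_ext ?_ ?_⟩, h2, h3⟩
    · rw [sfst_bd, sfst_bd, src_cm, src_cm, h2, cm_map_comp, cm_map_comp, sT_sT]
    · rw [ssnd_bd, ssnd_bd, tgt_cm, tgt_cm, h3, cm_map_comp, cm_map_comp, nT_sT]
  choose nx hnx using step
  let e : ∀ m, D m := fun m =>
    Nat.rec (motive := D) ⟨h0.choose, h0.choose_spec, Subsingleton.elim _ _⟩ nx m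
  have he : ∀ m, src (e (m + 1)).1 = cm (Φ.map (sT m)) (e m).1 ∧
      tgt (e (m + 1)).1 = cm (Φ.map (nT m)) (e m).1 := fun m => hnx m (e m)
  refine ⟨⟨fun Y => GPsh.homMk (fun m x => cm (Φ.map (TopCat.ofHom (toCM x))) (e m).1)
    (fun m x => ?_) (fun m x => ?_), fun Y Y' f => GPsh.hom_ext fun m x => ?_⟩, fun m => ?_⟩
  · rw [src_cm, (he m).1, cm_map_comp]
    rfl
  · rw [tgt_cm, (he m).2, cm_map_comp]
    rfl
  · rw [cm_comp, cm_comp, cm_homMk, cm_homMk, cm_map_comp]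
    rfl
  · have h1 : cm (Φ.map (𝟙 (TopCat.of (Disc m)))) (e m).1 = (e m).1 := by
      rw [Φ.map_id, cm_id]
    have h2 := (e m).2.1
    rw [← h1] at h2
    exact h2

end TopSphAux

/-- Acyclic models for discs. Hint: choose by recursion cells `e m` of `Φ (Disc m)` over the images
of the identity cell, with `src (e (m+1)) = Φ (south m) (e m)`, `tgt (e (m+1)) = Φ (north m) (e m)`
(parallel by `hemi_hemi`), and put `l x = Φ x (e m)`. -/
theorem discLift {Φ Ψ₀ Ψ₁ : TopCat.{0} ⥤ GPsh} (π₀ : Φ ⟶ Ψ₀) (π₁ : Φ ⟶ Ψ₁)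
    (h : ∀ m, TFib2 (π₀.app (TopCat.of (Disc m))) (π₁.app (TopCat.of (Disc m))))
    (b₀ : discSing ⟶ Ψ₀) (b₁ : discSing ⟶ Ψ₁) :
    ∃ l : discSing ⟶ Φ, l ≫ π₀ = b₀ ∧ l ≫ π₁ = b₁ := by
  refine (exists_cells Φ (fun m e => cm (π₀.app _) e = cm (b₀.app _) (idc m) ∧
      cm (π₁.app _) e = cm (b₁.app _) (idc m)) ?_ ?_).imp fun l hl =>
    ⟨disc_hom_ext fun m => (hl m).1, disc_hom_ext fun m => (hl m).2⟩
  · obtain ⟨e, -, h1⟩ := h 0 0 (sph0 _) (cm (b₀.app _) (idc 0)) (cm (b₁.app _) (idc 0))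
      (Subsingleton.elim _ _) (Subsingleton.elim _ _)
    exact ⟨e, h1⟩
  · rintro m e ⟨h0, h1⟩ hp
    have key : ∀ {Ψ : TopCat.{0} ⥤ GPsh} (π : Φ ⟶ Ψ) (b : discSing ⟶ Ψ),
        cm (π.app _) e = cm (b.app _) (idc m) →
        bd (cm (b.app _) (idc (m + 1))) = sm (π.app _) (sph _ _ hp) := by
      intro Ψ π b hb
      refine sph_ext ?_ ?_
      · rw [sfst_bd, src_cm, sfst_sm, sfst_sph, cm_nat, hb, ← cm_nat]
        rfl
      · rw [ssnd_bd, tgt_cm, ssnd_sm, ssnd_sph, cm_nat, hb, ← cm_nat]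
        rfl
    obtain ⟨e', h2, h3⟩ := h (m + 1) (m + 1) (sph _ _ hp) _ _ (key π₀ b₀ h0) (key π₁ b₁ h1)
    exact ⟨e', h3, bd_eq_sph_iff.1 h2⟩

theorem discLift0 (Φ : TopCat.{0} ⥤ GPsh) (h : ∀ m, Contr (Φ.obj (TopCat.of (Disc m)))) :
    Nonempty (discSing ⟶ Φ) := by
  refine (exists_cells Φ (fun _ _ => True) ?_ ?_).nonempty
  · obtain ⟨e, -⟩ := h 0 0 (sph0 _)
    exact ⟨e, trivial⟩
  · rintro m e - hp
    obtain ⟨e', h2⟩ := h (m + 1) (m + 1) (sph _ _ hp)
    exact ⟨e', trivial, bd_eq_sph_iff.1 h2⟩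

end Vale.Agent.P259
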