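import Vale.Agent.P259.TopSum
import Vale.Agent.P259.TopSph

/-! P259: disc functors with values in `TopCat` and the fundamental infinity-groupoid. -/

open CategoryTheory Limits Opposite

noncomputable section

namespace Vale.Agent.P259

/-- A disc functor with values in `TopCat`. -/
structure TopData (C : GlobExt) where
  Dc : C.C ⥤ TopCat.{0}
  pres : PreservesSums (C.F ⋙ Dc)
  e : ∀ n, Dc.obj (C.D n) ≅ TopCat.of (Disc n)
  e_cs : ∀ n, Dc.map (C.cs n) ≫ (e (n + 1)).hom = (e n).hom ≫ TopCat.ofHom (south n)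
  e_ct : ∀ n, Dc.map (C.ct n) ≫ (e (n + 1)).hom = (e n).hom ≫ TopCat.ofHom (north n)

variable {C : GlobExt}

namespace TopData

variable (T : TopData C)

theorem contractible (S : Theta) : ContractibleSpace (T.Dc.obj (C.F.obj S)) :=
  ThetaTop.contractible ⟨C.F ⋙ T.Dc, T.pres, T.e, T.e_cs, T.e_ct⟩ S

/-- The fundamental infinity-groupoid; `El (T.Pi.obj Y) S` is `T.Dc.obj (C.F.obj S) ⟶ Y` by
definition. -/
def Pi : TopCat.{0} ⥤ C.Gpd :=
  ObjectProperty.lift _ (yoneda ⋙ (Functor.whiskeringLeft _ _ _).obj T.Dc.op)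
    (fun Y l S j i hl hi => ((T.pres l S j i hl hi).op.flip.map (yoneda.obj Y)))

/-- An element of `Pi Y` as a map of spaces. -/
def elHom {Y : TopCat.{0}} {S : Theta} (x : El (T.Pi.obj Y) S) : T.Dc.obj (C.F.obj S) ⟶ Y := x

/-- A map of spaces as an element of `Pi Y`. -/
def homEl {Y : TopCat.{0}} {S : Theta} (x : T.Dc.obj (C.F.obj S) ⟶ Y) : El (T.Pi.obj Y) S := x

theorem elHom_act {Y : TopCat.{0}} {S S' : Theta} (θ : C.F.obj S ⟶ C.F.obj S')
    (x : El (T.Pi.obj Y) S') : T.elHom (act _ θ x) = T.Dc.map θ ≫ T.elHom x := rfl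

theorem elHom_elm {Y Y' : TopCat.{0}} (f : Y ⟶ Y') {S : Theta} (x : El (T.Pi.obj Y) S) :
    T.elHom (elm (T.Pi.map f) x) = T.elHom x ≫ f := rfl

/-- Cells of `Pi Y` as discs in `Y`. -/
def toD (Y : TopCat.{0}) : ug (T.Pi.obj Y) ⟶ discSing.obj Y :=
  GPsh.homMk (fun n x => ofCM ((T.e n).inv ≫ T.elHom (S := Theta.D n) x).hom)
    (fun n x => by
      have h : TopCat.ofHom (south n) ≫ (T.e (n + 1)).inv = (T.e n).inv ≫ T.Dc.map (C.cs n) := by
        rw [Iso.comp_inv_eq, Category.assoc, T.e_cs, Iso.inv_hom_id_assoc]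
      exact congrArg (fun k => (k ≫ T.elHom (S := Theta.D (n + 1)) x).hom) h)
    (fun n x => by
      have h : TopCat.ofHom (north n) ≫ (T.e (n + 1)).inv = (T.e n).inv ≫ T.Dc.map (C.ct n) := by
        rw [Iso.comp_inv_eq, Category.assoc, T.e_ct, Iso.inv_hom_id_assoc]
      exact congrArg (fun k => (k ≫ T.elHom (S := Theta.D (n + 1)) x).hom) h)

/-- Discs in `Y` as cells of `Pi Y`. -/
def ofD (Y : TopCat.{0}) : discSing.obj Y ⟶ ug (T.Pi.obj Y) :=
  GPsh.homMk (fun n x => T.homEl (S := Theta.D n) ((T.e n).hom ≫ TopCat.ofHom (toCM x)))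
    (fun n x => congrArg (fun k => k ≫ TopCat.ofHom (toCM x)) (T.e_cs n))
    (fun n x => congrArg (fun k => k ≫ TopCat.ofHom (toCM x)) (T.e_ct n))

theorem toCM_toD {Y : TopCat.{0}} {n : ℕ} (x : (ug (T.Pi.obj Y)).cell n) :
    toCM (cm (T.toD Y) x) = ((T.e n).inv ≫ T.elHom (S := Theta.D n) x).hom := rfl

theorem elHom_ofD {Y : TopCat.{0}} {n : ℕ} (x : (discSing.obj Y).cell n) :
    T.elHom (S := Theta.D n) (cm (T.ofD Y) x) = (T.e n).hom ≫ TopCat.ofHom (toCM x) := rfl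

theorem toD_ofD (Y : TopCat.{0}) : T.toD Y ≫ T.ofD Y = 𝟙 _ :=
  GPsh.hom_ext fun n x => (T.e n).hom_inv_id_assoc (T.elHom (S := Theta.D n) x)

theorem ofD_toD (Y : TopCat.{0}) : T.ofD Y ≫ T.toD Y = 𝟙 _ :=
  GPsh.hom_ext fun n x =>
    congrArg TopCat.Hom.hom ((T.e n).inv_hom_id_assoc (TopCat.ofHom (toCM x)))

theorem toD_nat {Y Y' : TopCat.{0}} (f : Y ⟶ Y') :
    um (T.Pi.map f) ≫ T.toD Y' = T.toD Y ≫ discSing.map f := GPsh.hom_ext fun _ _ => rfl

theorem ofD_nat {Y Y' : TopCat.{0}} (f : Y ⟶ Y') :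
    discSing.map f ≫ T.ofD Y' = T.ofD Y ≫ um (T.Pi.map f) := GPsh.hom_ext fun _ _ => rfl

/-- The natural isomorphism between the cells of `Pi` and discs. -/
def piU : T.Pi ⋙ C.U ≅ discSing where
  hom := { app := T.toD, naturality := fun _ _ f => T.toD_nat f }
  inv := { app := T.ofD, naturality := fun _ _ f => T.ofD_nat f }
  hom_inv_id := NatTrans.ext (funext T.toD_ofD)
  inv_hom_id := NatTrans.ext (funext T.ofD_toD)

theorem contr_pi (Y : TopCat.{0}) [ContractibleSpace Y] : Contr (ug (T.Pi.obj Y)) :=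
  fun n => Fill.of_retract (T.toD Y) (T.ofD Y) (T.toD_ofD Y) (contr_discSing Y n)

end TopData

end Vale.Agent.P259
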