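import Vale.Agent.P259.GamContr
import Vale.Agent.P259.TopData

/-! P259: a span of models between the fundamental infinity-groupoid and the free model. -/

open CategoryTheory Limits Opposite

noncomputable section

namespace Vale.Agent.P259

variable {C : GlobExt}

/-- Cells of `R Y` are pairs of a cell `d` of `Pi Y` and a cylinder starting at `ρ d`. -/
structure RData (T : TopData C) (Γ : GamData C) (Pd : PData C) where
  ρ : T.Pi ⋙ C.U ⟶ Γ.Top ⋙ C.U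
  R : TopCat.{0} ⥤ C.Gpd
  r0 : R ⟶ T.Pi
  r1 : R ⟶ Γ.Top
  c : ∀ Y, ug (R.obj Y) ⟶ ug (Pd.P.obj (Γ.Top.obj Y))
  c_p0 : ∀ Y, c Y ≫ um (Pd.p0 _) = um (r0.app Y) ≫ ρ.app Y
  c_p1 : ∀ Y, c Y ≫ um (Pd.p1 _) = um (r1.app Y)
  tfib : ∀ Y, TFib (um (r0.app Y))

namespace RAux

theorem pi_univ (T : TopData C) {l : ℕ} (S : Tab l) (Y : TopCat.{0})
    (η : Ext (ug (T.Pi.obj Y)) S) : ∃! φ : T.Dc.obj (C.F.obj (Theta.mk S)) ⟶ Y,
      nerve _ S (T.homEl (S := Theta.mk S) (𝟙 _)) ≫ um (T.Pi.map φ) = η := by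
  have key : ∀ φ : T.Dc.obj (C.F.obj (Theta.mk S)) ⟶ Y,
      nerve _ S (T.homEl (S := Theta.mk S) (𝟙 _)) ≫ um (T.Pi.map φ) =
        nerve _ S (T.homEl (S := Theta.mk S) φ) := fun φ =>
    (nerve_elm (T.Pi.map φ) S _).symm.trans (congrArg (nerve _ S) (Category.id_comp φ))
  exact ⟨T.elHom (S := Theta.mk S) ((nerve _ S).symm η),
    (key _).trans (Equiv.apply_symm_apply _ _),
    fun φ hφ => (Equiv.eq_symm_apply _).2 ((key φ).symm.trans hφ)⟩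

theorem jCof_cyl (Pd : PData C) {l : ℕ} (S : Tab l) {Cy : C.Gpd} {ζ : Ext (ug (Pd.P.obj Cy)) S}
    (hζ : Univ (extF (Pd.P ⋙ C.U) S) Cy ζ) {u : rep C (Theta.mk S) ⟶ Cy}
    (hu : repExt C S ≫ um u = ζ ≫ um (Pd.p0 Cy)) : JCof 0 u := by
  intro E B p hp
  refine Univ.hasLiftingProperty (Φ := extF C.U S) (ξ := repExt C S) (rep_univ S) hζ
    (natMk (fun a (ξ : Ext (ug (Pd.P.obj a)) S) => (ξ ≫ um (Pd.p0 a) : Ext (ug a) S))
      fun a b f (ξ : Ext (ug (Pd.P.obj a)) S) => ?_) u hu p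
    fun (x : Ext (ug E) S) (y : Ext (ug (Pd.P.obj B)) S) h => ?_
  · change (ξ ≫ um (Pd.P.map f)) ≫ um (Pd.p0 b) = (ξ ≫ um (Pd.p0 a)) ≫ um f
    rw [Category.assoc, Category.assoc, ← um_comp, ← um_comp, Pd.p0_nat]
  · have h' : x ≫ um p = y ≫ um (Pd.p0 B) := h
    obtain ⟨x', hx, -⟩ := rep_univ S E x
    obtain ⟨y', hy, -⟩ := rep_univ S _ y
    have w : x' ≫ p = y' ≫ Pd.p0 B := (rep_univ S B (x ≫ um p)).unique
      (by rw [um_comp, ← Category.assoc, hx]) (by rw [um_comp, ← Category.assoc, hy, h'])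
    obtain ⟨z, hz⟩ := (Pd.gap p hp).ext_surj S (repExt C S ≫ um (pbLift x' y' w))
    refine ⟨z, ?_, ?_⟩
    · have h1 := congrArg (· ≫ um (pbFst p (Pd.p0 B))) hz
      simp only [Category.assoc, ← um_comp, pbLift_fst] at h1
      exact h1.trans hx
    · have h1 := congrArg (· ≫ um (pbSnd p (Pd.p0 B))) hz
      simp only [Category.assoc, ← um_comp, pbLift_snd] at h1
      exact h1.trans hy

theorem tFib_fst {X Y Z : GPsh} (f : X ⟶ Z) {g : Y ⟶ Z} (hg : TFib g) : TFib (pbGFst f g) := by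
  intro n z b hb
  obtain ⟨e, he, he'⟩ := hg n (sm (pbGSnd f g) z) (cm f b)
    (by rw [bd_cm, hb, ← sm_comp, ← sm_comp, pbG_cond])
  exact ⟨pbGCell b e he'.symm, pbG_sph_ext (by rw [← bd_cm, cm_fst_pbGCell, hb])
    (by rw [← bd_cm, cm_snd_pbGCell, he]), rfl⟩

theorem tFib2_pb {X Y Z W : GPsh} (f : X ⟶ Z) {g : Y ⟶ Z} {q : Y ⟶ W} (hg : TFib2 g q) :
    TFib2 (pbGFst f g) (pbGSnd f g ≫ q) := by
  intro n z b₀ b₁ h₀ h₁
  obtain ⟨e, he, he', he''⟩ := hg n (sm (pbGSnd f g) z) (cm f b₀) b₁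
    (by rw [bd_cm, h₀, ← sm_comp, ← sm_comp, pbG_cond]) (by rw [h₁, sm_comp])
  exact ⟨pbGCell b₀ e he'.symm, pbG_sph_ext (by rw [← bd_cm, cm_fst_pbGCell, h₀])
    (by rw [← bd_cm, cm_snd_pbGCell, he]), rfl, he''⟩

variable (T : TopData C) (Γ : GamData C) (Pd : PData C) (ρ : T.Pi ⋙ C.U ⟶ Γ.Top ⋙ C.U)

/-- Maps from a free model to a model. -/
abbrev Cm : Type 1 := Comma Γ.Top (𝟭 C.Gpd)

theorem cm_w {a b : Cm Γ} (k : a ⟶ b) : Γ.Top.map k.left ≫ b.hom = a.hom ≫ k.right := k.w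

theorem rho_nat {Y Y' : TopCat.{0}} (φ : Y ⟶ Y') :
    um (T.Pi.map φ) ≫ ρ.app Y' = ρ.app Y ≫ um (Γ.Top.map φ) := ρ.naturality φ

/-- The comparison map followed by the structure map. -/
def fN : (Comma.fst Γ.Top (𝟭 C.Gpd) ⋙ T.Pi) ⋙ C.U ⟶ Comma.snd Γ.Top (𝟭 C.Gpd) ⋙ C.U where
  app a := ρ.app a.left ≫ um a.hom
  naturality a b k := by
    change um (T.Pi.map k.left) ≫ ρ.app b.left ≫ um b.hom = (ρ.app a.left ≫ um a.hom) ≫ um k.right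
    rw [← Category.assoc, rho_nat, Category.assoc, Category.assoc, ← um_comp, ← um_comp, cm_w]

/-- The start of a cylinder. -/
def g0 : (Comma.snd Γ.Top (𝟭 C.Gpd) ⋙ Pd.P) ⋙ C.U ⟶ Comma.snd Γ.Top (𝟭 C.Gpd) ⋙ C.U where
  app a := um (Pd.p0 a.right)
  naturality _ _ k := (um_comp _ _).symm.trans
    ((congrArg um (Pd.p0_nat k.right)).trans (um_comp _ _))

/-- The end of a cylinder. -/
def g1 : (Comma.snd Γ.Top (𝟭 C.Gpd) ⋙ Pd.P) ⋙ C.U ⟶ Comma.snd Γ.Top (𝟭 C.Gpd) ⋙ C.U where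
  app a := um (Pd.p1 a.right)
  naturality _ _ k := (um_comp _ _).symm.trans
    ((congrArg um (Pd.p1_nat k.right)).trans (um_comp _ _))

theorem exists_univ [Coh C] {l : ℕ} (S : Tab l) : ∃ (a : Cm Γ)
    (ξ : Ext ((pbGF (fN T Γ ρ) (g0 Γ Pd)).obj a) S),
    Univ (extF (pbGF (fN T Γ ρ) (g0 Γ Pd)) S) a ξ ∧ Contr (ug a.right) := by
  obtain ⟨Cy, ζ₁, hζ⟩ := Pd.corep l S
  obtain ⟨ζ, rfl⟩ : ∃ ζ : Ext (ug (Pd.P.obj Cy)) S, ζ = ζ₁ := ⟨ζ₁, rfl⟩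
  have hζ' : ∀ (B : C.Gpd) (y : Ext (ug (Pd.P.obj B)) S),
      ∃! g : Cy ⟶ B, ζ ≫ um (Pd.P.map g) = y := hζ
  have hξ := pi_univ T S
  have hc := T.contractible (Theta.mk S)
  generalize nerve _ S (T.homEl (S := Theta.mk S) (𝟙 _)) = ξ₀ at hξ
  generalize T.Dc.obj (C.F.obj (Theta.mk S)) = Y at hc ξ₀ hξ
  obtain ⟨u, hu, -⟩ := rep_univ S Cy (ζ ≫ um (Pd.p0 Cy))
  obtain ⟨v, hv, -⟩ := rep_univ S (Γ.Top.obj Y) (ξ₀ ≫ ρ.app Y)
  have w : ξ₀ ≫ ρ.app Y ≫ um (pushout.inl v u) =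
      (ζ ≫ um (Pd.P.map (pushout.inr v u))) ≫ um (Pd.p0 (pushout v u)) := by
    rw [← Category.assoc, ← hv, Category.assoc, Category.assoc, ← um_comp, ← um_comp,
      pushout.condition, Pd.p0_nat, um_comp, um_comp, ← Category.assoc, hu, Category.assoc]
  refine ⟨⟨Y, pushout v u, pushout.inl v u⟩, pbGLift ξ₀ (ζ ≫ um (Pd.P.map (pushout.inr v u))) w,
    fun b y => ?_, JCof.contr
      (MorphismProperty.pushout_inl (P := (jfib C 0).llp) _ _ (jCof_cyl Pd S hζ hu))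
      (Γ.cofibt_gam _) (Γ.contr_top Y)⟩
  obtain ⟨y₁, rfl⟩ : ∃ y₁ : Ext (pbG (ρ.app b.left ≫ um b.hom) (um (Pd.p0 b.right))) S,
    y₁ = y := ⟨y, rfl⟩
  obtain ⟨φ, hφ, hφ'⟩ := hξ b.left (y₁ ≫ pbGFst _ _)
  obtain ⟨g, hg, hg'⟩ := hζ' b.right (y₁ ≫ pbGSnd _ _)
  have sq : v ≫ Γ.Top.map φ ≫ b.hom = u ≫ g := by
    refine (rep_univ S b.right (y₁ ≫ pbGSnd _ _ ≫ um (Pd.p0 b.right))).unique ?_ ?_
    · rw [um_comp, um_comp, ← Category.assoc, hv, Category.assoc, ← Category.assoc (ρ.app Y),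
        ← rho_nat, Category.assoc, ← Category.assoc, hφ, Category.assoc, pbG_cond]
    · rw [um_comp, ← Category.assoc, hu, Category.assoc, ← um_comp, ← Pd.p0_nat, um_comp,
        ← Category.assoc, hg, Category.assoc]
  refine ⟨⟨φ, pushout.desc _ g sq, (pushout.inl_desc _ _ _).symm⟩,
    pbG_hom_ext (f := ρ.app b.left ≫ um b.hom) (g := um (Pd.p0 b.right)) hφ ?_, fun k hk => ?_⟩
  · change (ζ ≫ um (Pd.P.map (pushout.inr v u))) ≫ um (Pd.P.map (pushout.desc _ g sq)) = _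
    rw [Category.assoc, ← um_comp, ← Pd.P.map_comp, pushout.inr_desc, hg]
  · have h1 : k.left = φ := hφ' _ (congrArg (· ≫ pbGFst _ _) hk)
    have h2 : (ζ ≫ um (Pd.P.map (pushout.inr v u))) ≫ um (Pd.P.map k.right) =
        y₁ ≫ pbGSnd _ _ := congrArg (· ≫ pbGSnd _ _) hk
    rw [Category.assoc, ← um_comp, ← Pd.P.map_comp] at h2
    refine CommaMorphism.ext h1 (pushout.hom_ext ?_ ?_)
    · exact ((cm_w Γ k).symm.trans (by rw [h1])).trans (pushout.inl_desc _ _ _).symm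
    · exact (hg' _ h2).trans (pushout.inr_desc _ _ _).symm

/-- The inclusion of spaces. -/
def inc : TopCat.{0} ⥤ Cm Γ where
  obj Y := ⟨Y, Γ.Top.obj Y, 𝟙 _⟩
  map φ := ⟨φ, Γ.Top.map φ, (Category.comp_id _).trans (Category.id_comp _).symm⟩
  map_id Y := CommaMorphism.ext rfl (Γ.Top.map_id Y)
  map_comp φ ψ := CommaMorphism.ext rfl (Γ.Top.map_comp φ ψ)

end RAux

open RAux in
/-- Hint: `ρ` from `discLift0`, `contr_top`, `piU`. Apply `principle` on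
`𝒜 = Comma Γ.Top (𝟭 C.Gpd)` (objects `γ : Γ Y ⟶ Z`) with bases `Pi Y` and `Z` and
`G := pbGF (ρ ≫ U γ) (U p0)`. The universal object for `S` is `Y = Dc S` (identity element,
`nerve`), `Z` the pushout of `Γ Y ⟵ rep S ⟶ Cy` where `Cy` is universal for `Pd.corep`; the map
`rep S ⟶ Cy` is `JCof 0` by `Univ.hasLiftingProperty`, `Pd.gap`, `TFib.ext_surj`, so `Z` is
contractible (`JCof.contr`, `cofibt_gam`, `contr_top`, `TopData.contractible`) and `PData.tFib2`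
gives the fill condition. Restrict along `Y ↦ (Y, Γ Y, 𝟙)`. -/
theorem exists_rData [Coh C] (T : TopData C) (Γ : GamData C) (Pd : PData C) :
    Nonempty (RData T Γ Pd) := by
  obtain ⟨ρ'⟩ := discLift0 (Γ.Top ⋙ C.U) fun m => by
    have : ContractibleSpace (TopCat.of (Disc m)) :=
      (convex_closedBall _ _).contractibleSpace ⟨0, Metric.mem_closedBall_self zero_le_one⟩
    exact Γ.contr_top _
  let ρ := T.piU.hom ≫ ρ'
  obtain ⟨E, ρ₀, ρ₁, α, h₀, h₁⟩ := principle (Comma.fst Γ.Top (𝟭 C.Gpd) ⋙ T.Pi)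
    (Comma.snd Γ.Top (𝟭 C.Gpd)) (pbGF (fN T Γ ρ) (g0 Γ Pd)) (pbGFFst _ _) (pbGFSnd _ _ ≫ g1 Γ Pd)
    (fun l S => by
      obtain ⟨a, ξ, h, -⟩ := exists_univ T Γ Pd ρ S
      exact ⟨a, ξ, h⟩)
    (fun l S m _ => by
      obtain ⟨a, ξ, h, hc⟩ := exists_univ T Γ Pd ρ S
      exact ⟨a, ξ, h.wUniv, tFib2_pb _ (Pd.tFib2 hc) (m + 1)⟩)
  refine ⟨{
    ρ := ρ
    R := inc Γ ⋙ E
    r0 := { app := fun Y => ρ₀.app ((inc Γ).obj Y)
            naturality := fun _ _ φ => ρ₀.naturality ((inc Γ).map φ) }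
    r1 := { app := fun Y => ρ₁.app ((inc Γ).obj Y)
            naturality := fun _ _ φ => ρ₁.naturality ((inc Γ).map φ) }
    c := fun Y => α.hom.app ((inc Γ).obj Y) ≫ pbGSnd _ _
    c_p0 := fun Y => ?_
    c_p1 := fun Y => (Category.assoc _ _ _).trans (h₁ ((inc Γ).obj Y)).symm
    tfib := fun Y => ?_ }⟩
  · refine Eq.trans ?_ (congrArg (· ≫ ρ.app Y) (h₀ ((inc Γ).obj Y)).symm)
    refine (Category.assoc _ _ _).trans (Eq.trans (congrArg (_ ≫ ·) ?_) (Category.assoc _ _ _).symm)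
    refine (pbG_cond _ _).symm.trans (congrArg (_ ≫ ·) ?_)
    exact (congrArg (ρ.app Y ≫ ·) (um_id _)).trans (Category.comp_id _)
  · have h := PDataAux.tFib_iso (α.app ((inc Γ).obj Y))
      (tFib_fst ((fN T Γ ρ).app ((inc Γ).obj Y)) (Pd.tfib0 (Γ.Top.obj Y)))
    exact (h₀ ((inc Γ).obj Y)).symm ▸ h

end Vale.Agent.P259
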