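import Vale.Agent.P259.TopDisc

/-! P259: point-set description of attaching discs. -/

open CategoryTheory Limits Opposite Topology

noncomputable section

namespace Vale.Agent.P259

variable {Y Y' : TopCat.{0}} {j : Y ⟶ Y'} {ι : Type} {d : ι → ℕ}
  {g : ∀ α, C(Sphere (d α), Y)} {χ : ∀ α, C(Disc (d α), Y')}

theorem IsTopAttach.comm_apply (h : IsTopAttach j d g χ) (α : ι) (x : Sphere (d α)) :
    χ α (sphIncl (d α) x) = j.hom (g α x) := DFunLike.congr_fun (h.comm α) x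

/-- The universal property for maps of sets. -/
theorem IsTopAttach.setUniv (h : IsTopAttach j d g χ) {S : Type} (f : Y → S)
    (k : ∀ α, Disc (d α) → S) (hk : ∀ α x, k α (sphIncl (d α) x) = f (g α x)) :
    ∃! u : Y' → S, (∀ y, u (j.hom y) = f y) ∧ ∀ α x, u (χ α x) = k α x := by
  let _ : TopologicalSpace S := ⊤
  obtain ⟨u, ⟨h1, h2⟩, h3⟩ := h.univ (TopCat.of S) (TopCat.ofHom ⟨f, continuous_top⟩)
    (fun α => ⟨k α, continuous_top⟩) fun α => ContinuousMap.ext (hk α)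
  refine ⟨u.hom, ⟨fun y => congrArg (fun t : Y ⟶ TopCat.of S => t.hom y) h1,
    fun α x => DFunLike.congr_fun (h2 α) x⟩, fun v hv => ?_⟩
  have h4 := h3 (TopCat.ofHom ⟨v, continuous_top⟩) ⟨TopCat.hom_ext (ContinuousMap.ext hv.1),
    fun α => ContinuousMap.ext (hv.2 α)⟩
  rw [← h4]
  rfl

theorem IsTopAttach.fun_ext (h : IsTopAttach j d g χ) {S : Type} {u v : Y' → S}
    (h1 : ∀ y, u (j.hom y) = v (j.hom y)) (h2 : ∀ α x, u (χ α x) = v (χ α x)) : u = v :=
  (h.setUniv (fun y => v (j.hom y)) (fun α x => v (χ α x))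
    fun α x => congrArg v (h.comm_apply α x)).unique ⟨h1, h2⟩ ⟨fun _ => rfl, fun _ _ => rfl⟩

theorem IsTopAttach.isOpen_iff (h : IsTopAttach j d g χ) (W : Set Y') :
    IsOpen W ↔ IsOpen (j.hom ⁻¹' W) ∧ ∀ α, IsOpen (χ α ⁻¹' W) := by
  refine ⟨fun hW => ⟨hW.preimage j.hom.continuous, fun α => hW.preimage (χ α).continuous⟩,
    fun hW => ?_⟩
  obtain ⟨u, ⟨h1, h2⟩, -⟩ := h.univ (TopCat.of Prop)
    (TopCat.ofHom ⟨fun y => y ∈ j.hom ⁻¹' W, isOpen_iff_continuous_mem.1 hW.1⟩)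
    (fun α => ⟨fun x => x ∈ χ α ⁻¹' W, isOpen_iff_continuous_mem.1 (hW.2 α)⟩)
    fun α => ContinuousMap.ext fun x => congrArg (· ∈ W) (h.comm_apply α x)
  have h3 : (fun y => y ∈ W) = u.hom :=
    h.fun_ext (fun y => (congrArg (fun t : Y ⟶ TopCat.of Prop => t.hom y) h1).symm)
      fun α x => (DFunLike.congr_fun (h2 α) x).symm
  rw [isOpen_iff_continuous_mem, h3]
  exact u.hom.continuous

theorem taa_mem {n : ℕ} {x : Disc n} (hx : ¬ ‖x.1‖ < 1) :
    x.1 ∈ Metric.sphere (0 : EuclideanSpace ℝ (Fin n)) 1 :=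
  mem_sphere_zero_iff_norm.2 (le_antisymm (mem_closedBall_zero_iff.1 x.2) (not_lt.1 hx))

theorem IsTopAttach.cover (h : IsTopAttach j d g χ) (y : Y') :
    (∃ x, j.hom x = y) ∨ ∃ α x, ‖(x : Disc (d α)).1‖ < 1 ∧ χ α x = y := by
  have h1 : (fun y => (∃ x, j.hom x = y) ∨ ∃ α x, ‖(x : Disc (d α)).1‖ < 1 ∧ χ α x = y) =
      fun _ => True := by
    refine h.fun_ext (fun y => eq_true (Or.inl ⟨y, rfl⟩)) fun α x => eq_true ?_
    by_cases hx : ‖x.1‖ < 1
    · exact Or.inr ⟨α, x, hx, rfl⟩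
    · exact Or.inl ⟨_, (h.comm_apply α ⟨x.1, taa_mem hx⟩).symm⟩
  exact of_eq_true (congrFun h1 y)

open Classical in
theorem IsTopAttach.exists_code (h : IsTopAttach j d g χ) :
    ∃ u : Y' → Y ⊕ Σ α, Disc (d α), (∀ y, u (j.hom y) = Sum.inl y) ∧
      ∀ α x, ‖x.1‖ < 1 → u (χ α x) = Sum.inr ⟨α, x⟩ := by
  obtain ⟨u, ⟨h1, h2⟩, -⟩ := h.setUniv (S := Y ⊕ Σ α, Disc (d α)) Sum.inl
    (fun α x => if hx : ‖x.1‖ < 1 then Sum.inr ⟨α, x⟩ else Sum.inl (g α ⟨x.1, taa_mem hx⟩))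
    fun α x => dif_neg (mem_sphere_zero_iff_norm.1 x.2).not_lt
  exact ⟨u, h1, fun α x hx => (h2 α x).trans (dif_pos hx)⟩

theorem IsTopAttach.injective (h : IsTopAttach j d g χ) : Function.Injective j.hom := by
  obtain ⟨u, h1, -⟩ := h.exists_code
  exact fun a b e => Sum.inl_injective ((h1 a).symm.trans ((congrArg u e).trans (h1 b)))

theorem IsTopAttach.ne_of_lt (h : IsTopAttach j d g χ) {α : ι} {x : Disc (d α)} (hx : ‖x.1‖ < 1)
    (y : Y) : χ α x ≠ j.hom y := by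
  obtain ⟨u, h1, h2⟩ := h.exists_code
  exact fun e => Sum.inr_ne_inl ((h2 α x hx).symm.trans ((congrArg u e).trans (h1 y)))

theorem IsTopAttach.eq_of_lt (h : IsTopAttach j d g χ) {α β : ι} {x : Disc (d α)}
    {x' : Disc (d β)} (hx : ‖x.1‖ < 1) (e : χ α x = χ β x') :
    (⟨α, x⟩ : Σ α, Disc (d α)) = ⟨β, x'⟩ := by
  by_cases hx' : ‖x'.1‖ < 1
  · obtain ⟨u, -, h2⟩ := h.exists_code
    exact Sum.inr_injective ((h2 α x hx).symm.trans ((congrArg u e).trans (h2 β x' hx')))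
  · exact absurd (e.trans (h.comm_apply β ⟨x'.1, taa_mem hx'⟩)) (h.ne_of_lt hx _)

theorem IsTopAttach.isClosed_iff (h : IsTopAttach j d g χ) (W : Set Y') :
    IsClosed W ↔ IsClosed (j.hom ⁻¹' W) ∧ ∀ α, IsClosed (χ α ⁻¹' W) := by
  simp only [← isOpen_compl_iff, ← Set.preimage_compl]
  exact h.isOpen_iff _

theorem IsTopAttach.isClosedEmbedding (h : IsTopAttach j d g χ) : IsClosedEmbedding j.hom := by
  refine IsClosedEmbedding.of_continuous_injective_isClosedMap j.hom.continuous h.injective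
    fun C hC => (h.isClosed_iff _).2 ⟨?_, fun α => ?_⟩
  · rwa [Set.preimage_image_eq _ h.injective]
  · have h1 : χ α ⁻¹' (j.hom '' C) = sphIncl (d α) '' (g α ⁻¹' C) := by
      ext x
      constructor
      · rintro ⟨y, hy, e⟩
        have hx : ¬ ‖x.1‖ < 1 := fun hx => h.ne_of_lt hx y e.symm
        refine ⟨⟨x.1, taa_mem hx⟩, ?_, rfl⟩
        have h2 := h.injective (e.trans (h.comm_apply α ⟨x.1, taa_mem hx⟩))
        exact Set.mem_preimage.2 (h2 ▸ hy)
      · rintro ⟨x, hx, rfl⟩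
        exact ⟨_, hx, (h.comm_apply α x).symm⟩
    rw [h1]
    exact ((hC.preimage (g α).continuous).isCompact.image (sphIncl (d α)).continuous).isClosed

theorem IsTopAttach.t1Space (h : IsTopAttach j d g χ) [T1Space Y] : T1Space Y' := by
  refine ⟨fun y => ?_⟩
  rcases h.cover y with ⟨x, rfl⟩ | ⟨α, x, hx, rfl⟩
  · rw [← Set.image_singleton]
    exact h.isClosedEmbedding.isClosedMap _ isClosed_singleton
  · refine (h.isClosed_iff _).2 ⟨?_, fun β => ?_⟩
    · exact (Set.subsingleton_singleton.preimage h.injective).finite.isClosed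
    · refine Set.Subsingleton.isClosed fun a ha b hb => ?_
      exact sigma_mk_injective (β := fun α => Disc (d α))
        ((h.eq_of_lt hx (Eq.symm ha)).symm.trans (h.eq_of_lt hx (Eq.symm hb)))

end Vale.Agent.P259
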