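import Vale.Agent.P259.TopAttachA

/-! P259: the standard open cover of a space obtained by attaching discs. -/

open CategoryTheory Limits Opposite Topology

noncomputable section

namespace Vale.Agent.P259

variable {Y Y' : TopCat.{0}} {j : Y ⟶ Y'} {ι : Type} {d : ι → ℕ}
  {g : ∀ α, C(Sphere (d α), Y)} {χ : ∀ α, C(Disc (d α), Y')}

namespace AttB

open scoped unitInterval

theorem homotopic_of {X Z : Type} [TopologicalSpace X] [TopologicalSpace Z] {f f' : C(X, Z)}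
    (H : X × I → Z) (hH : Continuous H) (h0 : ∀ x, H (x, 0) = f x) (h1 : ∀ x, H (x, 1) = f' x) :
    f.Homotopic f' :=
  ⟨⟨⟨fun p => H p.swap, hH.comp continuous_swap⟩, h0, h1⟩⟩

/-- An embedding is a homotopy equivalence if a deformation pushes everything into its range. -/
theorem isHE_of_push {W S : Type} [TopologicalSpace W] [TopologicalSpace S] (k : C(W, S))
    (hk : IsEmbedding k) (sc : C(S × I, S)) (h0 : ∀ s, sc (s, 0) = s)
    (h1 : ∀ s, ∃ w, k w = sc (s, 1)) (h2 : ∀ p : W × I, ∃ w, k w = sc (k p.1, p.2)) : IsHE k := by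
  choose i hi using h1
  choose H hH using h2
  have ci : Continuous i := hk.continuous_iff.2 (by
    rw [show k ∘ i = fun s => sc (s, 1) from funext hi]
    fun_prop)
  have cH : Continuous H := hk.continuous_iff.2 (by
    rw [show k ∘ H = fun p => sc (k p.1, p.2) from funext hH]
    fun_prop)
  refine ⟨⟨k, ⟨i, ci⟩, (homotopic_of H cH (fun w => hk.injective ?_)
    fun w => hk.injective ?_).symm, (homotopic_of sc sc.continuous h0 fun s => (hi s).symm).symm⟩,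
    rfl⟩
  · exact (hH _).trans (h0 _)
  · exact (hH _).trans (hi _).symm

/-- A family of deformations deforms the disjoint union. -/
def sumDef {X : ι → Type} [∀ α, TopologicalSpace (X α)] (f : ∀ α, C(X α × I, X α)) :
    C((Σ α, X α) × I, Σ α, X α) :=
  (ContinuousMap.sigma fun α => ((ContinuousMap.sigmaMk α).comp (f α)).curry).uncurry

theorem sumDef_apply {X : ι → Type} [∀ α, TopologicalSpace (X α)] (f : ∀ α, C(X α × I, X α))
    (α : ι) (x : X α) (t : I) : sumDef f (⟨α, x⟩, t) = ⟨α, f α (x, t)⟩ := rfl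

theorem norm_le {n : ℕ} (x : Disc n) : ‖x.1‖ ≤ 1 := mem_closedBall_zero_iff.1 x.2

theorem norm_sc {n : ℕ} (x : Disc n) (t : I) :
    ‖(1 - (t : ℝ) / 2) • x.1‖ = (1 - (t : ℝ) / 2) * ‖x.1‖ := by
  rw [norm_smul, Real.norm_of_nonneg (by linarith [t.2.2])]

/-- Shrinking the disc. -/
def scD (n : ℕ) : C(Disc n × I, Disc n) :=
  ⟨fun p => ⟨(1 - (p.2 : ℝ) / 2) • p.1.1, mem_closedBall_zero_iff.2 (by
    rw [norm_sc]
    nlinarith [norm_le p.1, norm_nonneg p.1.1, p.2.2.1])⟩, by fun_prop⟩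

theorem scD_zero {n : ℕ} (x : Disc n) : scD n (x, 0) = x := Subtype.ext (by simp [scD])

theorem scD_one {n : ℕ} (x : Disc n) : ‖(scD n (x, 1)).1‖ < 1 := by
  have h := norm_sc x 1
  rw [Set.Icc.coe_one] at h
  change ‖(1 - (1 : ℝ) / 2) • x.1‖ < 1
  linarith [norm_le x]

theorem scD_lt {n : ℕ} {x : Disc n} (hx : ‖x.1‖ < 1) (t : I) : ‖(scD n (x, t)).1‖ < 1 := by
  change ‖(1 - (t : ℝ) / 2) • x.1‖ < 1
  rw [norm_sc]
  nlinarith [norm_nonneg x.1, t.2.1]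

/-- Shrinking the punctured disc. -/
def scP (n : ℕ) : C(PDisc n × I, PDisc n) :=
  ⟨fun p => ⟨scD n (p.1.1, p.2), smul_ne_zero (by linarith [p.2.2.2]) p.1.2⟩, by fun_prop⟩

theorem rad_pos {n : ℕ} (x : PDisc n) (t : I) : 0 < 1 - (t : ℝ) + t / ‖x.1.1‖ := by
  have h0 : 0 < ‖x.1.1‖ := norm_pos_iff.2 x.2
  have h1 : (t : ℝ) ≤ t / ‖x.1.1‖ := le_div_self t.2.1 h0 (norm_le x.1)
  linarith

theorem norm_rad {n : ℕ} (x : PDisc n) (t : I) :
    ‖(1 - (t : ℝ) + t / ‖x.1.1‖) • x.1.1‖ = (1 - t) * ‖x.1.1‖ + t := by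
  have h0 : ‖x.1.1‖ ≠ 0 := norm_ne_zero_iff.2 x.2
  rw [norm_smul, Real.norm_of_nonneg (rad_pos x t).le]
  field_simp

/-- The radial deformation of the punctured disc. -/
def rad (n : ℕ) : C(PDisc n × I, PDisc n) :=
  ⟨fun p => ⟨⟨(1 - (p.2 : ℝ) + p.2 / ‖p.1.1.1‖) • p.1.1.1, mem_closedBall_zero_iff.2 (by
      rw [norm_rad]
      nlinarith [norm_le p.1.1, p.2.2.2])⟩, smul_ne_zero (rad_pos p.1 p.2).ne' p.1.2⟩, by
    refine Continuous.subtype_mk (Continuous.subtype_mk (Continuous.smul (Continuous.add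
      (by fun_prop) (Continuous.div (by fun_prop) (by fun_prop)
        fun p => norm_ne_zero_iff.2 p.1.2)) (by fun_prop)) _) _⟩

/-- The radial projection. -/
def nrm (n : ℕ) : C(PDisc n, Sphere n) :=
  ⟨fun x => ⟨(rad n (x, 1)).1.1, mem_sphere_zero_iff_norm.2 ((norm_rad x 1).trans (by simp))⟩,
    Continuous.subtype_mk (continuous_subtype_val.comp (continuous_subtype_val.comp
      ((rad n).continuous.comp (Continuous.prodMk_left 1)))) _⟩

theorem rad_zero {n : ℕ} (x : PDisc n) : rad n (x, 0) = x :=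
  Subtype.ext (Subtype.ext (by simp [rad]))

theorem rad_one {n : ℕ} (x : PDisc n) : rad n (x, 1) = sphToP n (nrm n x) := rfl

theorem rad_sph {n : ℕ} (x : Sphere n) (t : I) : rad n (sphToP n x, t) = sphToP n x := by
  refine Subtype.ext (Subtype.ext ?_)
  change (1 - (t : ℝ) + t / ‖x.1‖) • x.1 = x.1
  simp

theorem nrm_sph {n : ℕ} (x : Sphere n) : nrm n (sphToP n x) = x :=
  Subtype.ext (congrArg (fun y : PDisc n => y.1.1) (rad_sph x 1))

theorem sph_or_lt {n : ℕ} (x : Disc n) : (∃ y, sphIncl n y = x) ∨ ‖x.1‖ < 1 := by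
  rcases (norm_le x).eq_or_lt with h | h
  · exact Or.inl ⟨⟨x.1, mem_sphere_zero_iff_norm.2 h⟩, rfl⟩
  · exact Or.inr h

theorem discPt_lt (n : ℕ) : ‖(discPt n).1‖ < 1 := by simp [discPt]

/-- The complement of the centres. -/
abbrev UU (χ : ∀ α, C(Disc (d α), Y')) : Set Y' := {y : Y' | ∀ α, y ≠ χ α (discPt (d α))}

/-- The union of the open discs. -/
abbrev VV (χ : ∀ α, C(Disc (d α), Y')) : Set Y' := {y : Y' | ∃ α x, ‖x.1‖ < 1 ∧ χ α x = y}

variable (h : IsTopAttach j d g χ)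

include h

theorem chi_sph (α : ι) (x : Sphere (d α)) : χ α (sphIncl _ x) = j.hom (g α x) :=
  ContinuousMap.congr_fun (h.comm α) x

theorem j_mem (y : Y) : j.hom y ∈ UU χ := fun _ e => h.ne_of_lt (discPt_lt _) y e.symm

theorem chi_mem {α : ι} (x : Disc (d α)) : χ α x ∈ UU χ ↔ x.1 ≠ 0 := by
  refine ⟨fun hx e => hx α (congrArg _ (Subtype.ext e)), fun hx β e => hx ?_⟩
  have h1 := h.eq_of_lt (discPt_lt _) e.symm
  obtain ⟨rfl, h2⟩ := Sigma.mk.inj_iff.1 h1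
  rw [← eq_of_heq h2]
  rfl

theorem chi_mem_V {α : ι} (x : Disc (d α)) : χ α x ∈ VV χ ↔ ‖x.1‖ < 1 := by
  refine ⟨?_, fun hx => ⟨α, x, hx, rfl⟩⟩
  rintro ⟨β, x', hx, e⟩
  obtain ⟨rfl, h2⟩ := Sigma.mk.inj_iff.1 (h.eq_of_lt hx e)
  rwa [← eq_of_heq h2]

theorem isOpen_U : IsOpen (UU χ) := by
  refine (h.isOpen_iff _).2 ⟨?_, fun α => ?_⟩
  · rw [Set.eq_univ_of_forall (s := j.hom ⁻¹' UU χ) (j_mem h)]
    exact isOpen_univ
  · rw [show χ α ⁻¹' UU χ = {x | x.1 ≠ 0} from Set.ext (chi_mem h)]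
    exact isOpen_ne_fun (by fun_prop) continuous_const

/-- `Y → U`. -/
def jU : C(Y, UU χ) := ⟨fun y => ⟨j.hom y, j_mem h y⟩, by fun_prop⟩

/-- The punctured discs in `U`. -/
def cU (α : ι) : C(PDisc (d α), UU χ) := ⟨fun x => ⟨χ α x.1, (chi_mem h x.1).2 x.2⟩, by fun_prop⟩

theorem cU_sph (α : ι) (x : Sphere (d α)) : cU h α (sphToP _ x) = jU h (g α x) :=
  Subtype.ext (chi_sph h α x)

theorem cover_U (u : UU χ) : (∃ y, jU h y = u) ∨ ∃ α x, ‖x.1.1‖ < 1 ∧ cU h α x = u := by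
  rcases h.cover u.1 with ⟨y, e⟩ | ⟨α, x, hx, e⟩
  · exact Or.inl ⟨y, Subtype.ext e⟩
  · exact Or.inr ⟨α, ⟨x, (chi_mem h x).1 (e ▸ u.2)⟩, hx, Subtype.ext e⟩

theorem cont_U {Z : Type} [TopologicalSpace Z] {f : UU χ → Z} (h1 : Continuous (f ∘ jU h))
    (h2 : ∀ α, Continuous (f ∘ cU h α)) : Continuous f := by
  refine continuous_def.2 fun W hW => ?_
  rw [(isOpen_U h).isOpenEmbedding_subtypeVal.isOpen_iff_image_isOpen]
  refine (h.isOpen_iff _).2 ⟨?_, fun α => ?_⟩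
  · convert hW.preimage h1 using 1
    ext y
    refine ⟨fun ⟨u, hu, e⟩ => ?_, fun hy => ⟨_, hy, rfl⟩⟩
    obtain rfl : u = jU h y := Subtype.ext e
    exact hu
  · have ho : IsOpen {x : Disc (d α) | x.1 ≠ 0} := isOpen_ne_fun (by fun_prop) continuous_const
    convert ho.isOpenMap_subtype_val _ (hW.preimage (h2 α)) using 1
    ext x
    refine ⟨fun ⟨u, hu, e⟩ => ⟨⟨x, (chi_mem h x).1 (e ▸ u.2)⟩, ?_, rfl⟩, ?_⟩
    · have e' : u = cU h α ⟨x, (chi_mem h x).1 (e ▸ u.2)⟩ := Subtype.ext e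
      change f (cU h α _) ∈ W
      rw [← e']
      exact hu
    · rintro ⟨x', hx', rfl⟩
      exact ⟨_, hx', rfl⟩

theorem desc_U {Z : Type} [TopologicalSpace Z] (A : C(Y, Z)) (B : ∀ α, C(PDisc (d α), Z))
    (hAB : ∀ α x, B α (sphToP _ x) = A (g α x)) :
    ∃ f : C(UU χ, Z), (∀ y, f (jU h y) = A y) ∧ ∀ α x, f (cU h α x) = B α x := by
  have key : ∀ u : UU χ, ∃ z, (∀ y, jU h y = u → z = A y) ∧
      ∀ α x, ‖x.1.1‖ < 1 → cU h α x = u → z = B α x := fun u => by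
    rcases cover_U h u with ⟨y, rfl⟩ | ⟨α, x, hx, rfl⟩
    · exact ⟨A y, fun y' e => by rw [h.injective (congrArg Subtype.val e)],
        fun α x hx e => absurd (congrArg Subtype.val e) (h.ne_of_lt hx y)⟩
    · refine ⟨B α x, fun y e => absurd (congrArg Subtype.val e).symm (h.ne_of_lt hx y),
        fun β x' hx' e => ?_⟩
      obtain ⟨rfl, h2⟩ := Sigma.mk.inj_iff.1 (h.eq_of_lt hx' (congrArg Subtype.val e))
      rw [Subtype.ext (eq_of_heq h2)]
  choose f hf hf' using key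
  have h1 : ∀ y, f (jU h y) = A y := fun y => hf _ y rfl
  have h2 : ∀ α x, f (cU h α x) = B α x := fun α x => by
    rcases sph_or_lt x.1 with ⟨y, e⟩ | hx
    · obtain rfl : sphToP _ y = x := Subtype.ext e
      rw [cU_sph, h1, hAB]
    · exact hf' _ α x hx rfl
  refine ⟨⟨f, cont_U h ?_ fun α => ?_⟩, h1, h2⟩
  · rw [show f ∘ jU h = A from funext h1]
    exact A.continuous
  · rw [show f ∘ cU h α = B α from funext (h2 α)]
    exact (B α).continuous

theorem isHE_jU : IsHE (jU h) := by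
  obtain ⟨r, hr, hr'⟩ := desc_U h (ContinuousMap.id Y) (fun α => (g α).comp (nrm _))
    fun α x => congrArg (g α) (nrm_sph x)
  obtain ⟨K, hK, hK'⟩ := desc_U h (ContinuousMap.const'.comp (jU h) : C(Y, C(I, UU χ)))
    (fun α => ((cU h α).comp (rad _)).curry) fun α x => ContinuousMap.ext fun t =>
      (congrArg (cU h α) (rad_sph x t)).trans (cU_sph h α x)
  refine ⟨⟨jU h, r, ?_, (homotopic_of K.uncurry K.uncurry.continuous (fun u => ?_)
    fun u => ?_).symm⟩, rfl⟩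
  · rw [show r.comp (jU h) = ContinuousMap.id Y from ContinuousMap.ext hr]
  · change K u 0 = u
    rcases cover_U h u with ⟨y, rfl⟩ | ⟨α, x, -, rfl⟩
    · rw [hK]
      rfl
    · rw [hK']
      exact congrArg (cU h α) (rad_zero x)
  · change K u 1 = jU h (r u)
    rcases cover_U h u with ⟨y, rfl⟩ | ⟨α, x, -, rfl⟩
    · rw [hK, hr]
      rfl
    · rw [hK', hr']
      exact cU_sph h α (nrm _ x)

theorem isOpen_image {W : Set (Σ α, Disc (d α))} (hW : IsOpen W) :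
    IsOpen {y : Y' | ∃ s ∈ W, ‖s.2.1‖ < 1 ∧ χ s.1 s.2 = y} := by
  refine (h.isOpen_iff _).2 ⟨?_, fun α => ?_⟩
  · convert isOpen_empty
    exact Set.eq_empty_of_forall_notMem fun y ⟨s, _, hs, e⟩ => h.ne_of_lt hs y e
  · have ho : IsOpen {x : Disc (d α) | ‖x.1‖ < 1} := isOpen_lt (by fun_prop) continuous_const
    convert (hW.preimage (continuous_sigmaMk (i := α))).inter ho using 1
    ext x
    refine ⟨fun ⟨s, hs, hs', e⟩ => ?_, fun hx => ⟨⟨α, x⟩, hx.1, hx.2, rfl⟩⟩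
    obtain rfl : s = ⟨α, x⟩ := h.eq_of_lt hs' e
    exact ⟨hs, hs'⟩

theorem isOpen_V : IsOpen (VV χ) := by
  convert isOpen_image h isOpen_univ using 1
  ext y
  exact ⟨fun ⟨α, x, hx⟩ => ⟨⟨α, x⟩, trivial, hx⟩, fun ⟨s, _, hs⟩ => ⟨s.1, s.2, hs⟩⟩

theorem exists_kV : ∃ k : C(VV χ, Σ α, Disc (d α)), IsEmbedding k ∧
    (∀ v, ‖(k v).2.1‖ < 1 ∧ χ (k v).1 (k v).2 = v) ∧
    ∀ s : Σ α, Disc (d α), ‖s.2.1‖ < 1 → ∃ v, k v = s := by
  have h1 : ∀ v : VV χ, ∃ s : Σ α, Disc (d α), ‖s.2.1‖ < 1 ∧ χ s.1 s.2 = v :=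
    fun ⟨_, α, x, hx⟩ => ⟨⟨α, x⟩, hx⟩
  choose k hk hk' using h1
  have hc : Continuous k := continuous_def.2 fun W hW => by
    convert (isOpen_image h hW).preimage (continuous_subtype_val (p := (· ∈ VV χ))) using 1
    ext v
    refine ⟨fun hv => ⟨k v, hv, hk v, hk' v⟩, fun ⟨s, hs, hs', e⟩ => ?_⟩
    obtain rfl : s = k v := h.eq_of_lt hs' (e.trans (hk' v).symm)
    exact hs
  refine ⟨⟨k, hc⟩, IsEmbedding.of_comp hc (ContinuousMap.sigma χ).continuous ?_,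
    fun v => ⟨hk v, hk' v⟩, fun s hs => ⟨⟨_, s.1, s.2, hs, rfl⟩, h.eq_of_lt (hk _) (hk' _)⟩⟩
  convert IsEmbedding.subtypeVal (p := (· ∈ VV χ)) using 1
  exact funext hk'

end AttB

open AttB

/-- The complement of the centres deformation retracts onto `Y`. Hint: the map
`Y ⊕ Σ α, PDisc (d α) → U` is a quotient map (`U` is open, `isOpen_iff`); the radial homotopy
`x ↦ ((1 - t) + t / ‖x‖) • x` is continuous on `U × I` by
`IsQuotientMap.continuous_lift_prod_left` (or `_right`). -/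
theorem IsTopAttach.exists_U (h : IsTopAttach j d g χ) :
    IsOpen {y : Y' | ∀ α, y ≠ χ α (discPt (d α))} ∧
    ∃ jU : Y ⟶ TopCat.of {y : Y' | ∀ α, y ≠ χ α (discPt (d α))},
      IsHE jU.hom ∧ jU ≫ subInc _ = j :=
  ⟨isOpen_U h, TopCat.ofHom (jU h), isHE_jU h, rfl⟩

/-- Hint: `U` as in `exists_U`, `V` the union of the open discs; on the open discs `χ` is an open
embedding (`isOpen_iff`, `eq_of_lt`, `ne_of_lt`); `kV`, `kUV` are its inverse; homotopy inverses are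
given by scaling by `1/2`. -/
theorem IsTopAttach.geometry (h : IsTopAttach j d g χ) :
    ∃ (U V : Set Y') (jU : Y ⟶ TopCat.of U) (χU : sumT (fun α => PDisc (d α)) ⟶ TopCat.of U)
      (kV : TopCat.of V ⟶ sumT (fun α => Disc (d α)))
      (kUV : TopCat.of (U ∩ V : Set Y') ⟶ sumT (fun α => PDisc (d α))),
      IsOpen U ∧ IsOpen V ∧ U ∪ V = Set.univ ∧ IsHE jU.hom ∧ IsHE kV.hom ∧ IsHE kUV.hom ∧
      jU ≫ subInc U = j ∧ χU ≫ subInc U = pdInc d ≫ sumDesc χ ∧ kV ≫ sumDesc χ = subInc V ∧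
      kUV ≫ pdInc d = subLe Set.inter_subset_right ≫ kV := by
  obtain ⟨k, hk, hk1, hk2⟩ := exists_kV h
  have hp : IsEmbedding (pdInc d).hom :=
    (isEmbedding_sigmaMap (σ := fun α => PDisc (d α)) (τ := fun α => Disc (d α)) (f₁ := id)
      (f₂ := fun _ => Subtype.val) Function.injective_id).2 fun _ => IsEmbedding.subtypeVal
  let k' : (UU χ ∩ VV χ : Set Y') → Σ α, PDisc (d α) := fun u =>
    ⟨(k ⟨u.1, u.2.2⟩).1, (k ⟨u.1, u.2.2⟩).2, (chi_mem h _).1 ((hk1 ⟨u.1, u.2.2⟩).2.symm ▸ u.2.1)⟩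
  have he : IsEmbedding ((pdInc d).hom ∘ k') :=
    hk.comp (IsEmbedding.inclusion Set.inter_subset_right)
  have hk' : IsEmbedding k' := hp.of_comp_iff.1 he
  have hk3 : ∀ s : Σ α, PDisc (d α), ‖s.2.1.1‖ < 1 → ∃ u, k' u = s := fun s hs => by
    obtain ⟨v, hv⟩ := hk2 ⟨s.1, s.2.1⟩ hs
    have h1 := (hk1 v).2
    rw [hv] at h1
    exact ⟨⟨v.1, h1 ▸ (chi_mem h _).2 s.2.2, v.2⟩, hp.injective hv⟩
  refine ⟨UU χ, VV χ, TopCat.ofHom (jU h), sumDesc (Y := TopCat.of (UU χ)) (cU h),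
    TopCat.ofHom k, TopCat.ofHom ⟨k', hk'.continuous⟩, isOpen_U h, isOpen_V h,
    Set.eq_univ_of_forall fun y => ?_, isHE_jU h,
    isHE_of_push k hk (sumDef fun α => scD (d α)) (fun s => ?_) (fun s => hk2 _ (scD_one s.2))
      fun p => hk2 _ (scD_lt (hk1 p.1).1 p.2),
    isHE_of_push ⟨k', hk'.continuous⟩ hk' (sumDef fun α => scP (d α)) (fun s => ?_)
      (fun s => hk3 _ (scD_one s.2.1)) fun p => hk3 _ (scD_lt (hk1 _).1 p.2),
    rfl, rfl, ?_, rfl⟩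
  · rcases h.cover y with ⟨x, rfl⟩ | hy
    · exact Or.inl (j_mem h x)
    · exact Or.inr hy
  · exact congrArg (Sigma.mk s.1) (scD_zero s.2)
  · exact congrArg (Sigma.mk s.1) (Subtype.ext (scD_zero s.2.1))
  · ext v
    exact (hk1 v).2

end Vale.Agent.P259
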