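import Vale.Agent.P259.TopDisc

/-! P259: sequential colimits of closed embeddings of `T1` spaces. -/

open CategoryTheory Limits Opposite Topology

noncomputable section

namespace Vale.Agent.P259

variable {Y : ℕ → TopCat.{0}} {s : ∀ k, Y k ⟶ Y (k + 1)} {Z : TopCat.{0}} {ι : ∀ k, Y k ⟶ Z}

namespace TopSeq

theorem tr_self (k : ℕ) : Colim.tr s (le_refl k) = 𝟙 (Y k) :=
  (Functor.ofSequence s).map_id k

theorem tr_succ (k : ℕ) : Colim.tr s (Nat.le_add_right k 1) = s k :=
  Functor.ofSequence_map_homOfLE_succ s k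

theorem tr_closedEmb (hs : ∀ k, IsClosedEmbedding (s k).hom) {k k' : ℕ} (e : k ≤ k') :
    IsClosedEmbedding (Colim.tr s e).hom := by
  induction k', e using Nat.le_induction with
  | base =>
    rw [tr_self]
    exact IsClosedEmbedding.id
  | succ m e ih =>
    rw [← Colim.tr_tr e (Nat.le_add_right m 1), tr_succ]
    exact (hs m).comp ih

theorem ι_tr (h : IsSeqColim Y s Z ι) {k k' : ℕ} (e : k ≤ k') (x : Y k) :
    (ι k').hom ((Colim.tr s e).hom x) = (ι k).hom x :=
  congrArg (fun g : Y k ⟶ Z => g.hom x) (Colim.tr_ι h e)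

/-- The underlying colimit of sets. -/
def setColimit (h : IsSeqColim Y s Z ι) :
    IsColimit ((forget TopCat.{0}).mapCocone (Colim.cocone h)) :=
  isColimitOfPreserves _ (Colim.isColimit h)

theorem surj (h : IsSeqColim Y s Z ι) (z : Z) : ∃ (k : ℕ) (y : Y k), (ι k).hom y = z :=
  Types.jointly_surjective_of_isColimit (setColimit h) z

theorem inj (h : IsSeqColim Y s Z ι) (hs : ∀ k, IsClosedEmbedding (s k).hom) (k : ℕ) :
    Function.Injective (ι k).hom := by
  intro x y e
  obtain ⟨k', f, g, hfg⟩ := (Types.FilteredColimit.isColimit_eq_iff _ (setColimit h)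
    (i := k) (j := k) (xi := x) (xj := y)).1 e
  exact (tr_closedEmb hs (leOfHom f)).injective hfg

theorem isClosed_iff (h : IsSeqColim Y s Z ι) (A : Set Z) :
    IsClosed A ↔ ∀ k, IsClosed ((ι k).hom ⁻¹' A) :=
  TopCat.isClosed_iff_of_isColimit (Colim.cocone h) (Colim.isColimit h) A

theorem ι_closedEmb (h : IsSeqColim Y s Z ι) (hs : ∀ k, IsClosedEmbedding (s k).hom) (k : ℕ) :
    IsClosedEmbedding (ι k).hom := by
  refine IsClosedEmbedding.of_continuous_injective_isClosedMap (ι k).hom.continuous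
    (inj h hs k) fun C hC => (isClosed_iff h _).2 fun j => ?_
  have e : (ι j).hom ⁻¹' ((ι k).hom '' C) =
      (Colim.tr s (le_max_left j k)).hom ⁻¹' ((Colim.tr s (le_max_right j k)).hom '' C) := by
    ext x
    constructor
    · rintro ⟨c, hc, hx⟩
      refine ⟨c, hc, inj h hs (max j k) ?_⟩
      rw [ι_tr h, ι_tr h, hx]
    · rintro ⟨c, hc, hx⟩
      refine ⟨c, hc, ?_⟩
      rw [← ι_tr h (le_max_right j k), hx, ι_tr h]
  rw [e]
  exact ((tr_closedEmb hs (le_max_right j k)).isClosedMap _ hC).preimage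
    (Colim.tr s (le_max_left j k)).hom.continuous

theorem range_mono (h : IsSeqColim Y s Z ι) {k k' : ℕ} (e : k ≤ k') :
    Set.range (ι k).hom ⊆ Set.range (ι k').hom := by
  rintro _ ⟨x, rfl⟩
  exact ⟨_, ι_tr h e x⟩

theorem exists_range (h : IsSeqColim Y s Z ι) (hs : ∀ k, IsClosedEmbedding (s k).hom)
    (h1 : ∀ k, T1Space (Y k)) {A : Set Z} (hA : IsCompact A) :
    ∃ k, A ⊆ Set.range (ι k).hom := by
  by_contra hcon
  push Not at hcon
  choose y hyA hy using fun k => Set.not_subset.1 (hcon k)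
  have hcl : ∀ n, IsClosed (y '' Set.Ici n) := fun n => (isClosed_iff h _).2 fun j => by
    have := h1 j
    refine Set.Finite.isClosed ?_
    refine Set.Finite.subset (Set.Finite.preimage (inj h hs j).injOn
      ((Set.finite_Iio j).image y)) ?_
    rintro x ⟨k, -, hk⟩
    refine ⟨k, ?_, hk⟩
    by_contra hlt
    exact hy k (range_mono h (not_lt.1 hlt) ⟨x, hk.symm⟩)
  obtain ⟨z, hz⟩ := IsCompact.nonempty_iInter_of_sequence_nonempty_isCompact_isClosed
    (fun n => y '' Set.Ici n)
    (fun n => Set.image_mono (Set.Ici_subset_Ici.2 (Nat.le_succ n)))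
    (fun n => ⟨y n, n, le_refl n, rfl⟩)
    (hA.of_isClosed_subset (hcl 0) (by rintro _ ⟨k, -, rfl⟩; exact hyA k)) hcl
  obtain ⟨j, x, rfl⟩ := surj h z
  obtain ⟨k, hk, e⟩ := Set.mem_iInter.1 hz j
  exact hy k (range_mono h hk ⟨x, e.symm⟩)

end TopSeq

/-- Hint: test against a set-level direct limit with the indiscrete topology, or compare with the
colimit of `Functor.ofSequence s` and use that the forgetful functor preserves colimits. -/
theorem IsSeqColim.injective_top (h : IsSeqColim Y s Z ι)
    (hs : ∀ k, IsClosedEmbedding (s k).hom) (k : ℕ) : Function.Injective (ι k).hom :=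
  TopSeq.inj h hs k

/-- Hint: the `ι k` are jointly surjective, a set is closed iff all preimages are closed, so each
`ι k` is a closed embedding; if the image of `K` is in no `range (ι k)`, choose points `y k` outside
`range (ι k)`: every subset of `{y k}` is closed (finite in each stage, `T1`), so it is a closed
discrete subset of a compact set, hence finite, a contradiction. -/
theorem IsSeqColim.compact_factor (h : IsSeqColim Y s Z ι)
    (hs : ∀ k, IsClosedEmbedding (s k).hom) (h1 : ∀ k, T1Space (Y k))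
    {K : Type} [TopologicalSpace K] [CompactSpace K] (f : C(K, Z)) :
    ∃ k₀, ∀ k, k₀ ≤ k → ∃ g : C(K, Y k), (ι k).hom.comp g = f := by
  obtain ⟨k₀, hk₀⟩ := TopSeq.exists_range h hs h1 (isCompact_range f.continuous)
  refine ⟨k₀, fun k e => ?_⟩
  choose g hg using fun x : K => TopSeq.range_mono h e (hk₀ ⟨x, rfl⟩)
  refine ⟨⟨g, (TopSeq.ι_closedEmb h hs k).isInducing.continuous_iff.2 ?_⟩, ?_⟩
  · have : (ι k).hom ∘ g = f := funext hg
    rw [this]
    exact f.continuous
  · ext x
    exact hg x

end Vale.Agent.P259
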