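import Vale.Agent.P259.TopDisc

/-! P259: topological globular sums. -/

open CategoryTheory Limits Opposite

noncomputable section

namespace Vale.Agent.P259

/-- A realization of `Θ₀` by discs. -/
structure ThetaTop where
  R : Theta ⥤ TopCat.{0}
  pres : PreservesSums R
  e : ∀ n, R.obj (Theta.D n) ≅ TopCat.of (Disc n)
  e_cs : ∀ n, R.map (Theta.cs n) ≫ (e (n + 1)).hom = (e n).hom ≫ TopCat.ofHom (south n)
  e_ct : ∀ n, R.map (Theta.ct n) ≫ (e (n + 1)).hom = (e n).hom ≫ TopCat.ofHom (north n)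

namespace TopSum

variable {A X Y P : TopCat.{0}} {g : A ⟶ X} {s : A ⟶ Y} {inl : X ⟶ P} {inr : Y ⟶ P}

theorem po_surj (h : IsPushout g s inl inr) (p : P) :
    (∃ x, inl.hom x = p) ∨ ∃ y, inr.hom y = p :=
  Types.eq_or_eq_of_isPushout (h.map (forget TopCat)) p

theorem po_w (h : IsPushout g s inl inr) (a : A) : inl.hom (g.hom a) = inr.hom (s.hom a) :=
  congrArg (fun k : A ⟶ P => k.hom a) h.w

theorem po_desc (h : IsPushout g s inl inr) {Z : Type} [TopologicalSpace Z] (u : C(X, Z))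
    (v : C(Y, Z)) (w : ∀ a, u (g.hom a) = v (s.hom a)) :
    ∃ k : C(P, Z), (∀ x, k (inl.hom x) = u x) ∧ ∀ y, k (inr.hom y) = v y := by
  have w' : g ≫ (TopCat.ofHom u : X ⟶ TopCat.of Z) = s ≫ TopCat.ofHom v := by
    ext a
    exact w a
  exact ⟨(h.desc _ _ w').hom, fun x => congrArg (fun k : X ⟶ TopCat.of Z => k.hom x)
    (h.inl_desc _ _ w'), fun y => congrArg (fun k : Y ⟶ TopCat.of Z => k.hom y)
    (h.inr_desc _ _ w')⟩

theorem po_cg (h : IsPushout g s inl inr) [CompactlyGeneratedSpace X]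
    [CompactlyGeneratedSpace Y] : CompactlyGeneratedSpace P := by
  refine compactlyGeneratedSpace_of_continuous_maps fun {Z} _ f hf => ?_
  obtain ⟨k, h1, h2⟩ := po_desc h
    ⟨f ∘ inl.hom, continuous_from_compactlyGeneratedSpace _ fun K _ _ _ q hq =>
      hf K _ (inl.hom.continuous.comp hq)⟩
    ⟨f ∘ inr.hom, continuous_from_compactlyGeneratedSpace _ fun K _ _ _ q hq =>
      hf K _ (inr.hom.continuous.comp hq)⟩ fun a => congrArg f (po_w h a)
  have e : f = k := funext fun p => by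
    rcases po_surj h p with ⟨x, rfl⟩ | ⟨y, rfl⟩
    · exact (h1 x).symm
    · exact (h2 y).symm
  rw [e]
  exact k.continuous

theorem po_contr (h : IsPushout g s inl inr) [ContractibleSpace X] (r : C(Y, A))
    (hr : ∀ a, r (s.hom a) = a) (H : C(Y × unitInterval, Y)) (h0 : ∀ y, H (y, 0) = y)
    (h1 : ∀ y, H (y, 1) = s.hom (r y)) (h2 : ∀ a t, H (s.hom a, t) = s.hom a) :
    ContractibleSpace P := by
  obtain ⟨ρ, r1, r2⟩ := po_desc h (ContinuousMap.id X) (g.hom.comp r)
    fun a => (congrArg g.hom (hr a)).symm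
  obtain ⟨K, k1, k2⟩ := po_desc h (inl.hom.comp ContinuousMap.fst).curry (inr.hom.comp H).curry
    fun a => ContinuousMap.ext fun t => (po_w h a).trans (congrArg inr.hom (h2 a t)).symm
  have hK : (ContinuousMap.id P).Homotopic (inl.hom.comp ρ) := by
    refine ⟨⟨K.uncurry.comp ContinuousMap.prodSwap, fun p => ?_, fun p => ?_⟩⟩
    · change K p 0 = p
      rcases po_surj h p with ⟨x, rfl⟩ | ⟨y, rfl⟩
      · rw [k1]; rfl
      · rw [k2]; exact congrArg inr.hom (h0 y)
    · change K p 1 = inl.hom (ρ p)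
      rcases po_surj h p with ⟨x, rfl⟩ | ⟨y, rfl⟩
      · rw [k1, r1]; rfl
      · rw [k2, r2]
        exact (congrArg inr.hom (h1 y)).trans (po_w h _).symm
  obtain ⟨p, hp⟩ := ((id_nullhomotopic X).comp_right inl.hom).comp_left ρ
  exact (contractible_iff_id_nullhomotopic P).2 ⟨p, hK.trans hp⟩

/-- Forget the last coordinate. -/
def drop (n : ℕ) : C(Disc (n + 1), Disc n) where
  toFun x := ⟨WithLp.toLp 2 fun i => x.1 i.castSucc, by
    have hx : ‖x.1‖ ≤ 1 := mem_closedBall_zero_iff.mp x.2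
    refine mem_closedBall_zero_iff.mpr (le_trans ?_ hx)
    rw [EuclideanSpace.norm_eq, EuclideanSpace.norm_eq, Fin.sum_univ_castSucc]
    exact Real.sqrt_le_sqrt (le_add_of_nonneg_right (sq_nonneg _))⟩
  continuous_toFun := by fun_prop

theorem drop_south (n : ℕ) (x : Disc n) : drop n (south n x) = x := by
  apply Subtype.ext
  ext i
  change (snocPt x.1 _) i.castSucc = x.1 i
  simp [snocPt]

theorem retr (R : ThetaTop) {j i : ℕ} (h : j ≤ i) :
    ∃ r : R.R.obj (Theta.D i) ⟶ R.R.obj (Theta.D j),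
      (R.R.map (iota.map (Globe.sig h)) : R.R.obj (Theta.D j) ⟶ R.R.obj (Theta.D i)) ≫ r = 𝟙 _ := by
  induction i, h using Nat.le_induction with
  | base =>
    refine ⟨𝟙 _, (Category.comp_id _).trans ?_⟩
    rw [Globe.sig_self, iota.map_id]
    exact R.R.map_id _
  | succ i h ih =>
    obtain ⟨r, hr⟩ := ih
    have e : TopCat.ofHom (south i) ≫ TopCat.ofHom (drop i) = 𝟙 _ :=
      TopCat.hom_ext (ContinuousMap.ext (drop_south i))
    have e2 : R.R.map (Theta.cs i) ≫ (R.e (i + 1)).hom ≫ TopCat.ofHom (drop i) ≫ (R.e i).inv ≫ r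
        = r := by
      rw [← Category.assoc, R.e_cs, Category.assoc, ← Category.assoc (TopCat.ofHom (south i)), e,
        Category.id_comp, Iso.hom_inv_id_assoc]
    refine ⟨(R.e (i + 1)).hom ≫ TopCat.ofHom (drop i) ≫ (R.e i).inv ≫ r, ?_⟩
    have e3 := (congrArg R.R.map ((congrArg iota.map (Globe.sig_succ h (Nat.le_succ_of_le h))).trans
      (iota.map_comp _ _))).trans (R.R.map_comp _ _)
    exact (congrArg (· ≫ _) e3).trans ((Category.assoc _ _ _).trans ((congrArg _ e2).trans hr))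

theorem line {n : ℕ} (e : Y ≃ₜ Disc n) (π : C(Y, Y)) : ∃ H : C(Y × unitInterval, Y),
    (∀ y, H (y, 0) = y) ∧ (∀ y, H (y, 1) = π y) ∧ ∀ y t, π y = y → H (y, t) = y := by
  refine ⟨⟨fun p => e.symm ⟨(e p.1).1 + (p.2 : ℝ) • ((e (π p.1)).1 - (e p.1).1),
    (convex_closedBall _ _).add_smul_sub_mem (e p.1).2 (e (π p.1)).2 p.2.2⟩, by fun_prop⟩,
    fun y => ?_, fun y => ?_, fun y t hy => ?_⟩
  · exact e.symm_apply_eq.2 (Subtype.ext (by simp))
  · exact e.symm_apply_eq.2 (Subtype.ext (by simp))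
  · exact e.symm_apply_eq.2 (Subtype.ext (by simp [hy]))

theorem cg_disc (R : ThetaTop) (n : ℕ) : CompactlyGeneratedSpace (R.R.obj (Theta.D n)) :=
  compactlyGeneratedSpace_of_coinduced (TopCat.homeoOfIso (R.e n)).symm.continuous
    (TopCat.homeoOfIso (R.e n)).symm.isQuotientMap.eq_coinduced

theorem cg (R : ThetaTop) (S : Theta) : CompactlyGeneratedSpace (R.R.obj S) := by
  obtain ⟨l, T⟩ := S
  induction T with
  | base i => exact cg_disc R i
  | snoc T j i hl hi ih =>
    have := cg_disc R i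
    exact po_cg (R.pres _ T j i hl hi)

end TopSum

/-- Induction on the table: `inl` is a strong deformation retract. -/
theorem ThetaTop.contractible (R : ThetaTop) (S : Theta) : ContractibleSpace (R.R.obj S) := by
  obtain ⟨l, T⟩ := S
  induction T with
  | base i =>
    have : ContractibleSpace (TopCat.of (Disc i)) :=
      (convex_closedBall _ _).contractibleSpace ⟨_, (discPt i).2⟩
    exact (TopCat.homeoOfIso (R.e i)).contractibleSpace
  | snoc T j i hl hi ih =>
    obtain ⟨r, hr⟩ := TopSum.retr R hi.le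
    have hr' : ∀ a, r.hom ((R.R.map (Theta.sqT j i hi)).hom a) = a := fun a =>
      congrArg (fun k : R.R.obj (Theta.D j) ⟶ R.R.obj (Theta.D j) => k.hom a) hr
    obtain ⟨H, h0, h1, h2⟩ := TopSum.line (TopCat.homeoOfIso (R.e i))
      ((R.R.map (Theta.sqT j i hi)).hom.comp r.hom)
    exact TopSum.po_contr (R.pres _ T j i hl hi) r.hom hr' H h0 h1
      fun a t => h2 _ t (congrArg _ (hr' a))

/-- The left Kan extension of the functor of discs, restricted to `Θ₀`. -/
theorem exists_thetaTop : ∃ R : ThetaTop, ∀ S, CompactlyGeneratedSpace (R.R.obj S) := by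
  let A : Globe ⥤ TopCat.{0} := Globe.lift (fun n => TopCat.of (Disc n))
    (fun n => TopCat.ofHom (south n)) (fun n => TopCat.ofHom (north n))
    (fun n => congrArg TopCat.ofHom
      (hemi_hemi (-1) (-1) 1 (by norm_num) (by norm_num) (by norm_num) n))
    (fun n => congrArg TopCat.ofHom
      (hemi_hemi 1 (-1) 1 (by norm_num) (by norm_num) (by norm_num) n))
  let L : GPsh ⥤ TopCat.{0} := uliftYoneda.{0}.leftKanExtension A
  have : PreservesColimitsOfSize.{0, 0} L := Presheaf.preservesColimitsOfSize_leftKanExtension A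
  let φ : yoneda ⋙ L ≅ A := Functor.isoWhiskerRight uliftYonedaIsoYoneda.{0}.symm L ≪≫
    Presheaf.isExtensionAlongULiftYoneda.{0} A
  refine ⟨⟨inducedFunctor _ ⋙ L, fun _ _ _ _ _ _ => (IsPushout.of_hasPushout _ _).map L,
    fun n => φ.app (Globe.D n), fun n => (φ.hom.naturality (Globe.cs n)).trans ?_,
    fun n => (φ.hom.naturality (Globe.ct n)).trans ?_⟩, TopSum.cg _⟩
  · exact congrArg _ (Globe.lift_cs _ _ _ _ _ n)
  · exact congrArg _ (Globe.lift_ct _ _ _ _ _ n)

end Vale.Agent.P259
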