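import Vale.Agent.P259.VK
import Vale.Agent.P259.TopSeq

/-! P259: the unit of the realization adjunction is a weak equivalence on cellular models. -/

open CategoryTheory Limits Opposite Topology

noncomputable section

namespace Vale.Agent.P259

variable {C : GlobExt} [Coh C]

namespace TopData

variable (T : TopData C)

omit [Coh C] in
theorem unit_cm_ofD {Y : TopCat.{0}} {n : ℕ} (x : (ug (T.Pi.obj Y)).cell n) :
    cm (T.ofD Y) (cm (T.toD Y) x) = x := by
  rw [← cm_comp, T.toD_ofD, cm_id]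

omit [Coh C] in
theorem unit_cm_toD {Y : TopCat.{0}} {n : ℕ} (x : (discSing.obj Y).cell n) :
    cm (T.toD Y) (cm (T.ofD Y) x) = x := by
  rw [← cm_comp, T.ofD_toD, cm_id]

omit [Coh C] in
theorem unit_sm_toD {Y : TopCat.{0}} {n : ℕ} (x : (discSing.obj Y).Sph n) :
    sm (T.toD Y) (sm (T.ofD Y) x) = x := by
  rw [← sm_comp, T.ofD_toD, sm_id]

omit [Coh C] in
theorem unit_bd_eq {Y : TopCat.{0}} {n : ℕ} {k : C(Disc n, Y)} {w : (ug (T.Pi.obj Y)).Sph n}
    (h : k.comp (sphIncl n) = sphEquiv Y n (sm (T.toD Y) w)) :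
    bd (cm (T.ofD Y) (ofCM k)) = w := by
  have h1 : bd (ofCM k) = sm (T.toD Y) w :=
    (sphEquiv Y n).injective ((sphEquiv_bd _).trans h)
  rw [bd_cm, h1, ← sm_comp, T.toD_ofD, sm_id]

omit [Coh C] in
theorem unit_sph_nat {Y Y' : TopCat.{0}} (f : Y ⟶ Y') {n : ℕ} (w : (ug (T.Pi.obj Y)).Sph n) :
    f.hom.comp (sphEquiv Y n (sm (T.toD Y) w)) =
      sphEquiv Y' n (sm (T.toD Y') (sm (um (T.Pi.map f)) w)) := by
  rw [← sphEquiv_sm, ← sm_comp, ← sm_comp, T.toD_nat]

omit [Coh C] in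
theorem unit_we_of_isEmpty {X : C.Gpd} {Y : TopCat.{0}} (h : IsEmpty Y) (φ : X ⟶ T.Pi.obj Y) :
    WE (um φ) := fun n _ y _ => h.elim (toCM (cm (T.toD Y) y) (discPt n))

omit [Coh C] in
theorem unit_isAttach_sph (n : ℕ) : IsAttach (discDesc (sfst (sphEl C (n + 1)))) (fun _ : Unit => n)
    (fun _ => bd (discCell C n)) fun _ => ssnd (sphEl C (n + 1)) := by
  refine ⟨fun _ => by rw [← bd_cm, cm_discDesc, bd_sfst], fun Y f y hy => ?_⟩
  have h : bd (cm (um f) (discCell C n)) = bd (y ()) := by rw [hy, bd_cm]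
  have h1 := sm_sphDesc (sph _ _ h)
  refine ⟨sphDesc (sph _ _ h), ⟨disc_hom_ext ?_, fun _ => congrArg ssnd h1⟩,
    fun g hg => sph_hom_ext (Eq.trans (b := sph _ _ h) (sph_ext ?_ (hg.2 ())) h1.symm)⟩
  · rw [cm_um_comp, cm_discDesc]
    exact congrArg sfst h1
  · rw [sfst_sph, ← hg.1, cm_um_comp, cm_discDesc, sfst_sm]

end TopData

theorem unit_isTopAttach_sph (n : ℕ) {W : (discSing.obj (TopCat.of (Sphere (n + 1)))).Sph (n + 1)}
    (hW : sphEquiv _ _ W = ContinuousMap.id _) :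
    IsTopAttach (Y := TopCat.of (Disc n)) (Y' := TopCat.of (Sphere (n + 1)))
      (TopCat.ofHom (toCM (sfst W))) (fun _ : Unit => n) (fun _ => sphIncl n)
      fun _ => toCM (ssnd W) := by
  have key : ∀ {Z : TopCat.{0}} (h : TopCat.of (Sphere (n + 1)) ⟶ Z),
      sphEquiv Z (n + 1) (sm (discSing.map h) W) = h.hom := fun h => by
    rw [sphEquiv_sm, hW]
    rfl
  refine ⟨fun _ => ?_, fun Z f k hk => ?_⟩
  · rw [← sphEquiv_bd, ← bd_sfst, sphEquiv_bd]
    rfl
  · have h : bd (ofCM (Y := Z) f.hom) = bd (ofCM (k ())) :=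
      (sphEquiv Z n).injective ((sphEquiv_bd _).trans ((hk ()).symm.trans (sphEquiv_bd _).symm))
    have h1 := (sphEquiv Z (n + 1)).injective
      (key (TopCat.ofHom (sphEquiv Z (n + 1) (sph _ _ h))))
    refine ⟨TopCat.ofHom (sphEquiv Z (n + 1) (sph _ _ h)),
      ⟨TopCat.hom_ext (congrArg sfst h1), fun _ => congrArg ssnd h1⟩,
      fun g hg => TopCat.hom_ext ((key g).symm.trans (congrArg _ (sph_ext ?_ (hg.2 ()))))⟩
    exact congrArg TopCat.Hom.hom hg.1

namespace TopData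

variable (T : TopData C)

/-- Hint: induction. `Sphere 0` is empty so `Pi` of it has no cells. `sphObj (n+1)` is obtained
from `rep D n` (map classifying `sfst sphEl`) by attaching the cell `ssnd sphEl` along
`bd discCell`; `Sphere (n+1)` is obtained from `Disc n` by attaching one disc: the two maps are the
components of `(sphEquiv _ _).symm id`, and the universal property is `sphEquiv` itself
(`sphEquiv_sm`, `sphEquiv_bd`). Apply `attach_we` with `φ = discMap n`. -/
theorem we_sphMap (n : ℕ) : WE (um (T.sphMap n)) := by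
  induction n with
  | zero => exact T.unit_we_of_isEmpty (inferInstanceAs (IsEmpty (Sphere 0))) _
  | succ n ih =>
    obtain ⟨W, hW⟩ := (sphEquiv (TopCat.of (Sphere (n + 1))) (n + 1)).surjective
      (ContinuousMap.id _)
    have h1 : sm (um (T.sphMap (n + 1))) (sphEl C (n + 1)) = sm (T.ofD _) W := by
      rw [sphMap, sm_sphDesc, ← hW, Equiv.symm_apply_apply]
    have h2 : cm (um (T.discMap n)) (discCell C n) =
        cm (T.ofD _) (ofCM (Y := TopCat.of (Disc n)) (ContinuousMap.id _)) := cm_discDesc _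
    refine T.attach_we (unit_isAttach_sph n) (cofibt_rep _) (T.discMap n) (T.we_discMap n)
      (TopCat.ofHom (toCM (sfst W))) _ (disc_hom_ext ?_) ?_ fun _ => ih
    · rw [cm_um_comp, cm_um_comp, cm_discDesc, h2, ← sfst_sm, h1]
      rfl
    · have h3 : sphEquiv (TopCat.of (Disc n)) n
          (sm (um (T.discMap n) ≫ T.toD _) (bd (discCell C n))) = sphIncl n := by
        rw [← bd_cm, cm_comp, h2, unit_cm_toD, sphEquiv_bd]
        rfl
      have h4 : cm (um (T.sphMap (n + 1)) ≫ T.toD _) (ssnd (sphEl C (n + 1))) = ssnd W := by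
        rw [← ssnd_sm, sm_comp, h1, unit_sm_toD]
      simp only [h3, h4]
      exact unit_isTopAttach_sph n hW

omit [Coh C] in
/-- Hint: universal property through the adjunction. -/
theorem isTopAttach_of_adj {L : C.Gpd ⥤ TopCat.{0}} (adj : L ⊣ T.Pi) {X X' : C.Gpd} {i : X ⟶ X'}
    {ι : Type} {d : ι → ℕ} {z : ∀ α, (ug X).Sph (d α)} {x : ∀ α, (ug X').cell (d α)}
    (hi : IsAttach i d z x) :
    IsTopAttach (L.map i) d
      (fun α => sphEquiv _ (d α) (sm (um (adj.unit.app X) ≫ T.toD (L.obj X)) (z α)))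
      (fun α => toCM (cm (um (adj.unit.app X') ≫ T.toD (L.obj X')) (x α))) := by
  have key : ∀ {Z : TopCat.{0}} (u : L.obj X' ⟶ Z) (α : ι),
      u.hom.comp (toCM (cm (um (adj.unit.app X') ≫ T.toD (L.obj X')) (x α))) =
        toCM (cm (T.toD Z) (cm (um (adj.homEquiv _ _ u)) (x α))) := fun u α => by
    rw [adj.homEquiv_unit]
    rfl
  have key' : ∀ {Z : TopCat.{0}} (u : L.obj X ⟶ Z) (α : ι),
      u.hom.comp (sphEquiv _ (d α) (sm (um (adj.unit.app X) ≫ T.toD (L.obj X)) (z α))) =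
        sphEquiv _ (d α) (sm (T.toD Z) (sm (um (adj.homEquiv _ _ u)) (z α))) := fun u α => by
    rw [adj.homEquiv_unit]
    exact (congrArg (fun w => u.hom.comp (sphEquiv _ _ w)) (sm_comp _ _ _)).trans
      ((T.unit_sph_nat u _).trans (congrArg (fun w => sphEquiv _ _ (sm _ w))
        (sm_um_comp _ _ _).symm))
  refine ⟨fun α => ?_, fun Z f k hk => ?_⟩
  · have h1 : adj.homEquiv _ _ (L.map i) = i ≫ adj.unit.app X' := by
      rw [adj.homEquiv_unit]
      exact adj.unit_naturality i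
    rw [key', h1, ← sphEquiv_bd, bd_cm, hi.bd_eq]
    exact congrArg _ ((sm_comp _ _ _).trans (congrArg _ (sm_um_comp _ _ _).symm))
  · obtain ⟨g, ⟨hg1, hg2⟩, hg3⟩ := hi.univ (T.Pi.obj Z) (adj.homEquiv _ _ f)
      (fun α => cm (T.ofD Z) (ofCM (k α))) fun α => T.unit_bd_eq ((hk α).trans (key' f α))
    refine ⟨(adj.homEquiv _ _).symm g, ⟨?_, fun α => ?_⟩, fun h hh => ?_⟩
    · rw [← adj.homEquiv_naturality_left_symm, hg1, Equiv.symm_apply_apply]
    · rw [key, Equiv.apply_symm_apply, hg2, unit_cm_toD, toCM_ofCM]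
    · rw [Equiv.eq_symm_apply]
      refine hg3 _ ⟨by rw [← adj.homEquiv_naturality_left, hh.1], fun α => ?_⟩
      rw [← hh.2 α, key, ofCM_toCM, unit_cm_ofD]

/-- Hint: by induction on the stage: `T k` cofibrant, `L (T k)` is `T1` (the first one is initial,
hence empty), the unit is `WE` (`attach_we`). In the colimit use `IsSeqColim.map`,
`sph_eventually`, `compact_factor` for the disc, `injective_top` to compare boundaries. -/
theorem we_unit {L : C.Gpd ⥤ TopCat.{0}} (adj : L ⊣ T.Pi) {X : C.Gpd} (hX : Cellular X) :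
    WE (um (adj.unit.app X)) := by
  obtain ⟨A, s, ι, hc, ⟨h0⟩, hs⟩ := hX
  choose J d z x hi using hs
  have hT := fun k => T.isTopAttach_of_adj adj (hi k)
  have H : ∀ k, Cofibt (A k) ∧ T1Space (L.obj (A k)) ∧ WE (um (adj.unit.app (A k))) := by
    intro k
    induction k with
    | zero =>
      have he : IsEmpty (L.obj (A 0)) :=
        ⟨fun a => ((adj.homEquiv _ (TopCat.of Empty)).symm (h0.to _)).hom a |>.elim⟩
      exact ⟨cofibt_of_isInitial h0, inferInstance, T.unit_we_of_isEmpty he _⟩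
    | succ k ih =>
      obtain ⟨h1, h2, h3⟩ := ih
      exact ⟨h1.of_cof (hi k).cof, (hT k).t1Space, T.attach_we (hi k) h1 _ h3 (L.map (s k)) _
        (adj.unit_naturality _).symm (hT k) fun _ => T.we_sphMap _⟩
  intro n w y hy
  have hc' := hc.map adj
  have hcl := fun k => (hT k).isClosedEmbedding
  obtain ⟨k₀, hk₀⟩ := hc.sph_eventually n w
  obtain ⟨k₁, hk₁⟩ := hc'.compact_factor hcl (fun k => (H k).2.1) (toCM (cm (T.toD _) y))
  obtain ⟨w', rfl⟩ := hk₀ _ (le_max_left k₀ k₁)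
  obtain ⟨g, hg⟩ := hk₁ _ (le_max_right k₀ k₁)
  generalize max k₀ k₁ = k at w' g hg hy
  have hn : adj.unit.app (A k) ≫ T.Pi.map (L.map (ι k)) = ι k ≫ adj.unit.app X :=
    adj.unit_naturality _
  obtain ⟨x', hx', hh⟩ := (H k).2.2 n w' (cm (T.ofD _) (ofCM g)) (T.unit_bd_eq (by
    refine (ContinuousMap.cancel_left (hc'.injective_top hcl k)).1 ?_
    refine Eq.trans ?_ (T.unit_sph_nat (L.map (ι k)) _).symm
    rw [← ContinuousMap.comp_assoc, hg, ← sphEquiv_bd, bd_cm, hy]
    exact congrArg (fun w => sphEquiv _ _ (sm _ w)) ((sm_um_comp _ _ _).symm.trans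
      ((congrArg (fun f => sm (um f) w') hn.symm).trans (sm_um_comp _ _ _)))))
  refine ⟨cm (um (ι k)) x', by rw [bd_cm, hx'], ?_⟩
  have h1 := hh.map (um (T.Pi.map (L.map (ι k))))
  have h2 : cm (um (T.Pi.map (L.map (ι k)))) (cm (T.ofD _) (ofCM g)) = y :=
    (congrArg (fun c => cm (T.ofD _) (ofCM c)) hg).trans (T.unit_cm_ofD y)
  have h3 := congrArg (fun f => cm (um f) x') hn
  exact h3 ▸ h2 ▸ h1

end TopData

end Vale.Agent.P259
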