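import Vale.Agent.P259.Excision
import Vale.Agent.P259.Glue
import Vale.Agent.P259.HtpInv
import Vale.Agent.P259.TopAttachB

/-! P259: attaching cells on both sides. -/

open CategoryTheory Limits Opposite

noncomputable section

namespace Vale.Agent.P259

variable {C : GlobExt} [Coh C]

namespace TopData

variable (T : TopData C)

/-- The tautological map from the boundary of the `n`-disc to `Pi` of the sphere. -/
def sphMap (n : ℕ) : sphObj C n ⟶ T.Pi.obj (TopCat.of (Sphere n)) :=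
  sphDesc (sm (T.ofD _) ((sphEquiv (TopCat.of (Sphere n)) n).symm (ContinuousMap.id _)))

/-- The tautological map from the `n`-disc to `Pi` of the disc. -/
def discMap (n : ℕ) : rep C (Theta.D n) ⟶ T.Pi.obj (TopCat.of (Disc n)) :=
  discDesc (cm (T.ofD _) (ofCM (Y := TopCat.of (Disc n)) (ContinuousMap.id _)))

theorem we_discMap (n : ℕ) : WE (um (T.discMap n)) :=
  WE.of_contr (contr_rep _) (T.contr_pi _)

omit [Coh C] in
theorem vk_sph_inj {Y : TopCat.{0}} {n : ℕ} {a b : (ug (T.Pi.obj Y)).Sph n}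
    (h : sphEquiv Y n (sm (T.toD Y) a) = sphEquiv Y n (sm (T.toD Y) b)) : a = b := by
  have h1 := congrArg (sm (T.ofD Y)) ((sphEquiv Y n).injective h)
  rwa [← sm_comp, ← sm_comp, T.toD_ofD, sm_id, sm_id] at h1

omit [Coh C] in
theorem vk_cell_inj {Y : TopCat.{0}} {n : ℕ} {a b : (ug (T.Pi.obj Y)).cell n}
    (h : toCM (cm (T.toD Y) a) = toCM (cm (T.toD Y) b)) : a = b := by
  have h1 := congrArg (cm (T.ofD Y)) (toCM_injective h)
  rwa [← cm_comp, ← cm_comp, T.toD_ofD, cm_id, cm_id] at h1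

omit [Coh C] in
theorem vk_sphMap {Y : TopCat.{0}} {n : ℕ} (g : C(Sphere n, Y)) :
    sphEquiv Y n (sm (T.toD Y) (sm (um (T.sphMap n ≫ T.Pi.map (TopCat.ofHom g))) (sphEl C n))) =
      g := by
  rw [sm_um_comp, sphMap, sm_sphDesc, ← sm_comp, ← sm_comp, T.toD_nat, ← Category.assoc,
    T.ofD_toD, Category.id_comp, sphEquiv_sm, Equiv.apply_symm_apply]
  rfl

omit [Coh C] in
theorem vk_discMap {Y : TopCat.{0}} {n : ℕ} (g : C(Disc n, Y)) :
    toCM (cm (T.toD Y) (cm (um (T.discMap n ≫ T.Pi.map (TopCat.ofHom g))) (discCell C n))) =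
      g := by
  rw [cm_um_comp, discMap, cm_discDesc, ← cm_comp, ← cm_comp, T.toD_nat, ← Category.assoc,
    T.ofD_toD, Category.id_comp, toCM_cm]
  rfl

omit [Coh C] in
theorem vk_sphDesc {X : C.Gpd} {Y : TopCat.{0}} {n : ℕ} (φ : X ⟶ T.Pi.obj Y) (z : (ug X).Sph n) :
    sphDesc z ≫ φ =
      T.sphMap n ≫ T.Pi.map (TopCat.ofHom (sphEquiv Y n (sm (um φ ≫ T.toD Y) z))) :=
  sph_hom_ext (T.vk_sph_inj (by rw [vk_sphMap, sm_um_comp, sm_sphDesc, sm_comp]))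

omit [Coh C] in
theorem vk_discDesc {X : C.Gpd} {Y : TopCat.{0}} {n : ℕ} (φ : X ⟶ T.Pi.obj Y)
    (x : (ug X).cell n) :
    discDesc x ≫ φ = T.discMap n ≫ T.Pi.map (TopCat.ofHom (toCM (cm (um φ ≫ T.toD Y) x))) :=
  disc_hom_ext (T.vk_cell_inj (by rw [vk_discMap, cm_um_comp, cm_discDesc, cm_comp]))

omit [Coh C] in
theorem vk_sphInc (n : ℕ) :
    sphInc C n ≫ T.discMap n = T.sphMap n ≫ T.Pi.map (TopCat.ofHom (sphIncl n)) := by
  refine sph_hom_ext (T.vk_sph_inj ?_)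
  rw [vk_sphMap (Y := TopCat.of (Disc n)), sm_sphInc_comp, ← bd_cm, sphEquiv_bd, discMap,
    cm_discDesc, ← cm_comp, T.ofD_toD]
  rfl

omit [Coh C] in
theorem vk_isCellSum {ι : Type} (X : ι → Type) [∀ α, TopologicalSpace (X α)] :
    IsCellSum (fun α => um (T.Pi.map (sumInc X α))) := by
  intro n
  have h := isCellSum_sumT X n
  constructor
  · rintro ⟨α, a⟩ ⟨β, b⟩ e
    have e1 : cm (discSing.map (sumInc X α)) (cm (T.toD _) a) =
        cm (discSing.map (sumInc X β)) (cm (T.toD _) b) := congrArg (cm (T.toD (sumT X))) e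
    have e2 := h.1 (a₁ := ⟨α, cm (T.toD _) a⟩) (a₂ := ⟨β, cm (T.toD _) b⟩) e1
    obtain rfl : α = β := congrArg Sigma.fst e2
    exact congrArg (Sigma.mk α) (T.vk_cell_inj (congrArg toCM (eq_of_heq (Sigma.mk.inj e2).2)))
  · intro y
    obtain ⟨⟨α, a⟩, ha⟩ := h.2 (cm (T.toD _) y)
    refine ⟨⟨α, cm (T.ofD _) a⟩, T.vk_cell_inj (congrArg toCM ?_)⟩
    change cm (T.toD _) (cm (um (T.Pi.map (sumInc X α))) (cm (T.ofD _) a)) = _
    rw [← cm_comp, ← cm_comp, T.toD_nat, ← Category.assoc, T.ofD_toD, Category.id_comp]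
    exact ha

omit [Coh C] in
theorem vk_we_sum {ι : Type} {A : ι → C.Gpd} (X : ι → Type) [∀ α, TopologicalSpace (X α)]
    (f : ∀ α, A α ⟶ T.Pi.obj (TopCat.of (X α))) (hf : ∀ α, WE (um (f α))) :
    WE (um (Sigma.desc fun α => f α ≫ T.Pi.map (sumInc X α))) :=
  WE.of_isCellSum (isCellSum_coprod A) (T.vk_isCellSum X) (fun α => um (f α)) _
    (fun α => by rw [← um_comp, ← um_comp, Sigma.ι_desc]) hf

/-- Gluing lemma for the span `X ⟵ ∐ sphObj ⟶ ∐ rep D`, the span given by `excision` for the cover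
of `IsTopAttach.geometry`, and the target span `Pi U ⟵ Pi (sumT PDisc) ⟶ Pi (sumT Disc)`. -/
theorem attach_we {X X' : C.Gpd} {i : X ⟶ X'} {ι : Type} {d : ι → ℕ}
    {z : ∀ α, (ug X).Sph (d α)} {x : ∀ α, (ug X').cell (d α)} (hi : IsAttach i d z x)
    (hX : Cofibt X) {Y Y' : TopCat.{0}} (φ : X ⟶ T.Pi.obj Y) (hφ : WE (um φ)) (j : Y ⟶ Y')
    (φ' : X' ⟶ T.Pi.obj Y') (w : i ≫ φ' = φ ≫ T.Pi.map j)
    (hT : IsTopAttach j d (fun α => sphEquiv Y (d α) (sm (um φ ≫ T.toD Y) (z α)))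
      (fun α => toCM (cm (um φ' ≫ T.toD Y') (x α))))
    (hs : ∀ α, WE (um (T.sphMap (d α)))) : WE (um φ') := by
  obtain ⟨U, V, jU, χU, kV, kUV, hU, hV, hUV, ejU, ekV, ekUV, h1, h2, h3, h4⟩ := hT.geometry
  obtain ⟨W₀, W₁, W₂, W, a₁, a₂, b₁, b₂, ψ₀, ψ₁, ψ₂, ψ, sq, ha, c₀, c₁, w₁, w₂, v₁, v₂,
    e₀, e₁, e₂, e⟩ := excision T U V hU hV hUV
  have h5 : kUV ≫ χU = subLe Set.inter_subset_left := subInc_ext (by
    rw [Category.assoc, h2, ← Category.assoc, h4, Category.assoc, h3, subLe_subInc, subLe_subInc])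
  refine glue_we hi.isPushout (cof_sigma_map _ fun α => cof_sphInc _)
    (cofibt_coprod _ fun α => cofibt_sphObj _) hX sq ha c₀ c₁
    (c₁ := T.Pi.map χU) (c₂ := T.Pi.map (pdInc d)) (d₁ := T.Pi.map (subInc U))
    (d₂ := T.Pi.map (sumDesc fun α => toCM (cm (um φ' ≫ T.toD Y') (x α))))
    (by rw [← T.Pi.map_comp, ← T.Pi.map_comp, h2])
    (φ₀ := Sigma.desc fun α => (T.sphMap (d α) ≫ T.Pi.map (TopCat.ofHom (sphToP (d α)))) ≫
      T.Pi.map (sumInc (fun α => PDisc (d α)) α))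
    (φ₁ := φ ≫ T.Pi.map jU)
    (φ₂ := Sigma.desc fun α => T.discMap (d α) ≫ T.Pi.map (sumInc (fun α => Disc (d α)) α))
    ?_ ?_ ?_ ?_
    (T.vk_we_sum _ _ fun α => we_comp (hs α) (T.we_of_isHE _ (isHE_sphToP (d α))))
    (we_comp hφ (T.we_of_isHE _ ejU)) (T.vk_we_sum _ _ fun α => T.we_discMap (d α))
    (φ₀' := ψ₀ ≫ T.Pi.map kUV) (φ₁' := ψ₁) (φ₂' := ψ₂ ≫ T.Pi.map kV) (φ' := ψ)
    ?_ ?_ v₁ ?_ (we_comp e₀ (T.we_of_isHE _ ekUV)) e₁ (we_comp e₂ (T.we_of_isHE _ ekV)) e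
  · refine Sigma.hom_ext _ _ fun α => ?_
    rw [Sigma.ι_desc_assoc, Sigma.ι_desc_assoc, ← Category.assoc, T.vk_sphDesc]
    simp only [Category.assoc, ← T.Pi.map_comp]
    refine congrArg (fun k => T.sphMap (d α) ≫ T.Pi.map k) (subInc_ext ?_)
    rw [Category.assoc, h1, Category.assoc, Category.assoc, h2]
    exact congrArg TopCat.ofHom (hT.comm α).symm
  · refine Sigma.hom_ext _ _ fun α => ?_
    rw [Sigma.ι_map_assoc, Sigma.ι_desc, Sigma.ι_desc_assoc, ← Category.assoc, T.vk_sphInc]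
    simp only [Category.assoc, ← T.Pi.map_comp]
    rfl
  · rw [w, Category.assoc, ← T.Pi.map_comp, h1]
  · refine Sigma.hom_ext _ _ fun α => ?_
    rw [Sigma.ι_desc_assoc, Sigma.ι_desc_assoc, T.vk_discDesc, Category.assoc, ← T.Pi.map_comp,
      sumInc_sumDesc]
  · rw [w₁, Category.assoc, ← T.Pi.map_comp, h5]
  · rw [← Category.assoc, w₂, Category.assoc, Category.assoc, ← T.Pi.map_comp, ← T.Pi.map_comp, h4]
  · rw [v₂, Category.assoc, ← T.Pi.map_comp, h3]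

end TopData

end Vale.Agent.P259
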